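import Crest.Agent.Lib.Row155.Defs2
/-!
Row 155 (Thorp shuffle), chunk C6a: `block_bound`.
-/
set_option autoImplicit false
open Finset
open scoped BigOperators

namespace Crest.Agent.Thorp

/-! ### elementary facts on `evP` -/

theorem bb_evP_nonneg {N : ℕ} {ν : Equiv.Perm (Fin N) → ℝ} (h0 : ∀ w, 0 ≤ ν w)
    (F : Finset (Fin N × Fin N)) : 0 ≤ evP ν F := by
  unfold evP
  refine Finset.sum_nonneg fun w _ => ?_
  split_ifs
  · exact h0 w
  · exact le_rfl

theorem bb_evP_mono {N : ℕ} {ν : Equiv.Perm (Fin N) → ℝ} (h0 : ∀ w, 0 ≤ ν w)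
    {F G : Finset (Fin N × Fin N)} (hFG : F ⊆ G) : evP ν G ≤ evP ν F := by
  unfold evP
  refine Finset.sum_le_sum fun w _ => ?_
  by_cases hG : ∀ f ∈ G, w f.1 = f.2
  · rw [if_pos hG, if_pos fun f hf => hG f (hFG hf)]
  · rw [if_neg hG]
    split_ifs
    · exact h0 w
    · exact le_rfl

/-! ### resampling and iterated sums -/

theorem bb_resample {ι : Type*} [Fintype ι] [DecidableEq ι] {α : ι → Type*} [∀ i, Fintype (α i)]
    (a : ι) (F : (∀ i, α i) → ℝ) :
    ∑ x : ∀ i, α i, ∑ y : α a, F (Function.update x a y) = (Fintype.card (α a) : ℝ) * ∑ x, F x := by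
  rw [← Fintype.sum_prod_type']
  have e : ∑ p : (∀ i, α i) × α a, F (Function.update p.1 a p.2) =
      ∑ p : (∀ i, α i) × α a, F p.1 := by
    refine Fintype.sum_bijective (fun p : (∀ i, α i) × α a => (Function.update p.1 a p.2, p.1 a))
      ?_ _ _ (fun p => rfl)
    apply Function.Involutive.bijective
    rintro ⟨x, y⟩
    simp
  rw [e, Fintype.sum_prod_type]
  simp [Finset.mul_sum]

theorem bb_tower {ι : Type*} [Fintype ι] [DecidableEq ι] {α : ι → Type*} [∀ i, Fintype (α i)]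
    (rk : ι → ℕ) (hrk : Function.Injective rk)
    (R : ι → (∀ i, α i) → ℝ) (hR0 : ∀ j x, 0 ≤ R j x)
    (hdep : ∀ i j x (y : α j), rk i < rk j → R i (Function.update x j y) = R i x)
    (H : ι → ℝ) (hH0 : ∀ j, 0 ≤ H j)
    (hH : ∀ j x, ∑ y : α j, R j (Function.update x j y) ≤ H j) :
    ∑ x, ∏ j, R j x ≤ ∏ j, H j := by
  have key : ∀ s : Finset ι, (∏ j ∈ s, (Fintype.card (α j) : ℝ)) * ∑ x, ∏ j ∈ s, R j x ≤
      (∏ j ∈ s, H j) * (Fintype.card (∀ i, α i) : ℝ) := by
    intro s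
    induction s using Finset.induction_on_max_value rk with
    | empty => simp
    | insert a s ha hs ih =>
      have hlt : ∀ i ∈ s, rk i < rk a := fun i hi =>
        lt_of_le_of_ne (hs i hi) fun h => ha (hrk h ▸ hi)
      rw [Finset.prod_insert ha, Finset.prod_insert ha]
      have e1 : (Fintype.card (α a) : ℝ) * ∑ x, ∏ j ∈ insert a s, R j x =
          ∑ x : ∀ i, α i, (∑ y : α a, R a (Function.update x a y)) * ∏ j ∈ s, R j x := by
        rw [← bb_resample]
        refine Finset.sum_congr rfl fun x _ => ?_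
        rw [Finset.sum_mul]
        refine Finset.sum_congr rfl fun y _ => ?_
        rw [Finset.prod_insert ha]
        congr 1
        exact Finset.prod_congr rfl fun i hi => hdep i a x y (hlt i hi)
      calc (Fintype.card (α a) : ℝ) * (∏ j ∈ s, (Fintype.card (α j) : ℝ)) *
            ∑ x, ∏ j ∈ insert a s, R j x
          = (∏ j ∈ s, (Fintype.card (α j) : ℝ)) *
            ((Fintype.card (α a) : ℝ) * ∑ x, ∏ j ∈ insert a s, R j x) := by ring
        _ = (∏ j ∈ s, (Fintype.card (α j) : ℝ)) *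
            ∑ x : ∀ i, α i, (∑ y : α a, R a (Function.update x a y)) * ∏ j ∈ s, R j x := by rw [e1]
        _ ≤ (∏ j ∈ s, (Fintype.card (α j) : ℝ)) *
            ∑ x : ∀ i, α i, H a * ∏ j ∈ s, R j x := by
            refine mul_le_mul_of_nonneg_left ?_ (Finset.prod_nonneg fun _ _ => Nat.cast_nonneg _)
            refine Finset.sum_le_sum fun x _ => ?_
            exact mul_le_mul_of_nonneg_right (hH a x) (Finset.prod_nonneg fun _ _ => hR0 _ _)
        _ = H a * ((∏ j ∈ s, (Fintype.card (α j) : ℝ)) * ∑ x, ∏ j ∈ s, R j x) := by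
            rw [← Finset.mul_sum]; ring
        _ ≤ H a * ((∏ j ∈ s, H j) * (Fintype.card (∀ i, α i) : ℝ)) :=
            mul_le_mul_of_nonneg_left ih (hH0 a)
        _ = _ := by ring
  have h1 := key Finset.univ
  rcases isEmpty_or_nonempty (∀ i, α i) with hemp | hne
  · have : ∑ x : ∀ i, α i, ∏ j, R j x = 0 := by
      rw [Finset.univ_eq_empty, Finset.sum_empty]
    rw [this]
    exact Finset.prod_nonneg fun _ _ => hH0 _
  · have hc : (0 : ℝ) < (Fintype.card (∀ i, α i) : ℝ) := by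
      exact_mod_cast Fintype.card_pos
    have e2 : (∏ j, (Fintype.card (α j) : ℝ)) = (Fintype.card (∀ i, α i) : ℝ) := by
      rw [Fintype.card_pi]; push_cast; rfl
    rw [e2, mul_comm] at h1
    exact le_of_mul_le_mul_right h1 hc

/-! ### blocks -/

/-- cyclic successor -/
def bbNx {n : ℕ} (a : Fin n) : Fin n := ⟨((a : ℕ) + 1) % n, Nat.mod_lt _ a.pos⟩

/-- constraint of the edge starting from `a` -/
def bbCon {N n : ℕ} (w : Equiv.Perm (Fin N)) (y : Fin n → Fin N) (a : Fin n) : Fin N × Fin N :=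
  (y (bbNx a), w (y a))

/-- all non-closing constraints -/
def bbNC {N n : ℕ} (w : Equiv.Perm (Fin N)) (y : Fin n → Fin N) : Finset (Fin N × Fin N) :=
  (Finset.univ.filter (fun a : Fin n => (a : ℕ) + 1 < n)).image (bbCon w y)

/-- all constraints -/
def bbA {N n : ℕ} (cl : Bool) (w : Equiv.Perm (Fin N)) (y : Fin n → Fin N) :
    Finset (Fin N × Fin N) :=
  (Finset.univ.filter (fun a : Fin n => (a : ℕ) + 1 < n ∨ cl = true)).image (bbCon w y)

/-- closing constraint -/
def bbCL {N n : ℕ} (hn : 0 < n) (w : Equiv.Perm (Fin N)) (y : Fin n → Fin N) : Fin N × Fin N :=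
  (y ⟨0, hn⟩, w (y ⟨n - 1, Nat.sub_lt hn one_pos⟩))

theorem bbNx_last {n : ℕ} (hn : 0 < n) : bbNx (⟨n - 1, Nat.sub_lt hn one_pos⟩ : Fin n) = ⟨0, hn⟩ := by
  apply Fin.ext
  have h : n - 1 + 1 = n := by omega
  simp only [bbNx, h, Nat.mod_self]

theorem bbNx_val {n : ℕ} (a : Fin n) (h : (a : ℕ) + 1 < n) : (bbNx a : ℕ) = a + 1 := by
  simp only [bbNx]
  exact Nat.mod_eq_of_lt h

theorem bbCL_eq {N n : ℕ} (hn : 0 < n) (w : Equiv.Perm (Fin N)) (y : Fin n → Fin N) :
    bbCL hn w y = bbCon w y ⟨n - 1, Nat.sub_lt hn one_pos⟩ := by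
  unfold bbCL bbCon
  rw [bbNx_last hn]

theorem bbA_false {N n : ℕ} (w : Equiv.Perm (Fin N)) (y : Fin n → Fin N) :
    bbA false w y = bbNC w y := by
  unfold bbA bbNC
  simp

theorem bbA_true {N n : ℕ} (hn : 0 < n) (w : Equiv.Perm (Fin N)) (y : Fin n → Fin N) :
    bbA true w y = insert (bbCL hn w y) (bbNC w y) := by
  rw [bbCL_eq hn]
  unfold bbA bbNC
  rw [← Finset.image_insert]
  congr 1
  ext a
  simp only [or_true, Finset.filter_true, Finset.mem_univ, Finset.mem_insert, Finset.mem_filter,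
    true_and, true_iff]
  by_cases h : (a : ℕ) + 1 < n
  · exact Or.inr h
  · left
    apply Fin.ext
    have := a.isLt
    simp only
    omega

theorem bbNC_subset {N n : ℕ} (cl : Bool) (w : Equiv.Perm (Fin N)) (y : Fin n → Fin N) :
    bbNC w y ⊆ bbA cl w y := by
  unfold bbA bbNC
  apply Finset.image_subset_image
  intro a
  simp only [Finset.mem_filter, Finset.mem_univ, true_and]
  exact fun h => Or.inl h

theorem bbCon_inj {N n : ℕ} (w : Equiv.Perm (Fin N)) (y : Fin n → Fin N)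
    (hy : Function.Injective y) : Function.Injective (bbCon w y) := by
  intro a b hab
  have := congrArg Prod.snd hab
  exact hy (w.injective this)

theorem bbCL_notMem {N n : ℕ} (hn : 0 < n) (w : Equiv.Perm (Fin N)) (y : Fin n → Fin N)
    (hy : Function.Injective y) : bbCL hn w y ∉ bbNC w y := by
  rw [bbCL_eq hn]
  unfold bbNC
  rw [Finset.mem_image]
  rintro ⟨a, ha, hab⟩
  have := bbCon_inj w y hy hab
  rw [this] at ha
  simp only [Finset.mem_filter, Finset.mem_univ, true_and] at ha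
  omega

theorem bbA_snd {N n : ℕ} {cl : Bool} {w : Equiv.Perm (Fin N)} {y : Fin n → Fin N}
    {f : Fin N × Fin N} (hf : f ∈ bbA cl w y) : ∃ a, f.2 = w (y a) := by
  unfold bbA at hf
  rw [Finset.mem_image] at hf
  obtain ⟨a, _, rfl⟩ := hf
  exact ⟨a, rfl⟩

/-- summation over the labels of one block -/
theorem bb_sum_block {N n : ℕ} (hn : 0 < n) {ν : Equiv.Perm (Fin N) → ℝ} (h0 : ∀ w, 0 ≤ ν w)
    (w : Equiv.Perm (Fin N)) (F : Finset (Fin N × Fin N)) (hh : Fin N → ℝ) (hh0 : ∀ v, 0 ≤ hh v) :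
    ∑ y : Fin n → Fin N, evP ν (F ∪ bbNC w y) * hh (y ⟨0, hn⟩) ≤ evP ν F * ∑ v, hh v := by
  classical
  unfold evP
  simp_rw [Finset.sum_mul]
  rw [Finset.sum_comm]
  refine Finset.sum_le_sum fun w' _ => ?_
  by_cases hF : ∀ f ∈ F, w' f.1 = f.2
  · rw [if_pos hF]
    have e1 : ∀ y : Fin n → Fin N,
        (if (∀ f ∈ F ∪ bbNC w y, w' f.1 = f.2) then ν w' else 0) * hh (y ⟨0, hn⟩) =
        ν w' * (if (∀ f ∈ bbNC w y, w' f.1 = f.2) then hh (y ⟨0, hn⟩) else 0) := by
      intro y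
      by_cases hy : ∀ f ∈ bbNC w y, w' f.1 = f.2
      · rw [if_pos hy, if_pos]
        intro f hf
        rcases Finset.mem_union.mp hf with h | h
        · exact hF f h
        · exact hy f h
      · rw [if_neg hy, if_neg]
        · ring
        · exact fun h => hy fun f hf => h f (Finset.mem_union_right _ hf)
    rw [Finset.sum_congr rfl fun y _ => e1 y, ← Finset.mul_sum]
    refine mul_le_mul_of_nonneg_left ?_ (h0 w')
    rw [← Finset.sum_filter]
    have hinj : Set.InjOn (fun y : Fin n → Fin N => y ⟨0, hn⟩)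
        (Finset.univ.filter (fun y : Fin n → Fin N => ∀ f ∈ bbNC w y, w' f.1 = f.2)) := by
      intro y hy y' hy' h00
      simp only [Finset.coe_filter, Finset.mem_univ, true_and, Set.mem_ofPred_eq] at hy hy'
      have hstep : ∀ (z : Fin n → Fin N), (∀ f ∈ bbNC w z, w' f.1 = f.2) →
          ∀ a : Fin n, (a : ℕ) + 1 < n → w' (z (bbNx a)) = w (z a) := by
        intro z hz a ha
        exact hz (bbCon w z a) (Finset.mem_image_of_mem _ (by simpa using ha))
      have : ∀ k : ℕ, ∀ hk : k < n, y ⟨k, hk⟩ = y' ⟨k, hk⟩ := by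
        intro k
        induction k with
        | zero => intro hk; exact h00
        | succ k ih =>
          intro hk
          have h1 := hstep y hy ⟨k, by omega⟩ hk
          have h2 := hstep y' hy' ⟨k, by omega⟩ hk
          rw [ih (by omega)] at h1
          have h3 : bbNx (⟨k, by omega⟩ : Fin n) = ⟨k + 1, hk⟩ := Fin.ext (bbNx_val _ hk)
          rw [h3] at h1 h2
          exact w'.injective (h1.trans h2.symm)
      funext a
      exact this a.1 a.2
    calc ∑ y ∈ Finset.univ.filter (fun y : Fin n → Fin N => ∀ f ∈ bbNC w y, w' f.1 = f.2),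
          hh (y ⟨0, hn⟩)
        = ∑ v ∈ (Finset.univ.filter (fun y : Fin n → Fin N =>
            ∀ f ∈ bbNC w y, w' f.1 = f.2)).image (fun y : Fin n → Fin N => y ⟨0, hn⟩), hh v := by
          rw [Finset.sum_image hinj]
      _ ≤ ∑ v, hh v := Finset.sum_le_sum_of_subset_of_nonneg (Finset.subset_univ _)
          fun v _ _ => hh0 v
  · rw [if_neg hF, zero_mul]
    refine (Finset.sum_eq_zero fun y _ => ?_).le
    rw [if_neg, zero_mul]
    exact fun h => hF fun f hf => h f (Finset.mem_union_left _ hf)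

/-! ### shapes -/

/-- labels of the component `j` -/
def bbBlk {N : ℕ} {S : Shape} (x : S.Lab → Fin N) (j : Fin S.m) (a : Fin (S.len j)) : Fin N :=
  x ⟨j, a⟩

/-- all constraints of the components in `J` -/
def bbAJ {N : ℕ} {S : Shape} (w : Equiv.Perm (Fin N)) (x : S.Lab → Fin N) (J : Finset (Fin S.m)) :
    Finset (Fin N × Fin N) :=
  J.biUnion (fun j => bbA (S.closed j) w (bbBlk x j))

theorem bbAJ_univ {N : ℕ} {S : Shape} (w : Equiv.Perm (Fin N)) (x : S.Lab → Fin N) :
    bbAJ w x Finset.univ = S.cons w x := by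
  ext f
  unfold bbAJ Shape.cons bbA
  rw [Finset.mem_biUnion, Finset.mem_image]
  constructor
  · rintro ⟨j, -, hj⟩
    rw [Finset.mem_image] at hj
    obtain ⟨a, ha, rfl⟩ := hj
    rw [Finset.mem_filter] at ha
    exact ⟨⟨j, a⟩, Finset.mem_filter.mpr ⟨Finset.mem_univ _, ha.2⟩, rfl⟩
  · rintro ⟨⟨j, a⟩, ha, rfl⟩
    rw [Finset.mem_filter] at ha
    exact ⟨j, Finset.mem_univ _, Finset.mem_image.mpr
      ⟨a, Finset.mem_filter.mpr ⟨Finset.mem_univ _, ha.2⟩, rfl⟩⟩

theorem bbAJ_mono {N : ℕ} {S : Shape} (w : Equiv.Perm (Fin N)) (x : S.Lab → Fin N)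
    {J J' : Finset (Fin S.m)} (h : J ⊆ J') : bbAJ w x J ⊆ bbAJ w x J' :=
  Finset.biUnion_subset_biUnion_of_subset_left _ h

theorem bbAJ_insert {N : ℕ} {S : Shape} (w : Equiv.Perm (Fin N)) (x : S.Lab → Fin N)
    (J : Finset (Fin S.m)) (j : Fin S.m) :
    bbAJ w x (insert j J) = bbA (S.closed j) w (bbBlk x j) ∪ bbAJ w x J := by
  unfold bbAJ
  rw [Finset.biUnion_insert]

/-- non-closing ratio -/
noncomputable def bbNcr {N : ℕ} {S : Shape} (ν : Equiv.Perm (Fin N) → ℝ) (w : Equiv.Perm (Fin N))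
    (x : S.Lab → Fin N) (J : Finset (Fin S.m)) (j : Fin S.m) : ℝ :=
  evP ν (bbAJ w x J ∪ bbNC w (bbBlk x j)) / evP ν (bbAJ w x J)

/-- closing ratio -/
noncomputable def bbClr {N : ℕ} {S : Shape} (ν : Equiv.Perm (Fin N) → ℝ) (w : Equiv.Perm (Fin N))
    (x : S.Lab → Fin N) (J : Finset (Fin S.m)) (j : Fin S.m) : ℝ :=
  evP ν (bbAJ w x (insert j J)) / evP ν (bbAJ w x J ∪ bbNC w (bbBlk x j))

/-- components before `j` -/
def bbBef {m : ℕ} (rk : Fin m → ℕ) (j : Fin m) : Finset (Fin m) :=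
  Finset.univ.filter (fun i => rk i < rk j)

theorem bb_telescope {N : ℕ} {S : Shape} {ν : Equiv.Perm (Fin N) → ℝ} (h0 : ∀ w, 0 ≤ ν w)
    (h1 : ∑ w, ν w = 1) (w : Equiv.Perm (Fin N)) (x : S.Lab → Fin N) (rk : Fin S.m → ℕ)
    (hrk : Function.Injective rk) (hP : evP ν (bbAJ w x Finset.univ) ≠ 0) :
    evP ν (bbAJ w x Finset.univ) =
      (∏ j, bbNcr ν w x (bbBef rk j) j) * ∏ j, bbClr ν w x (bbBef rk j) j := by
  have hpos : ∀ F ⊆ bbAJ w x Finset.univ, evP ν F ≠ 0 := by
    intro F hF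
    have h2 : evP ν (bbAJ w x Finset.univ) ≤ evP ν F := bb_evP_mono h0 hF
    have h3 := bb_evP_nonneg h0 (bbAJ w x Finset.univ)
    have h4 : 0 < evP ν (bbAJ w x Finset.univ) := lt_of_le_of_ne h3 hP.symm
    exact (lt_of_lt_of_le h4 h2).ne'
  have key : ∀ s : Finset (Fin S.m), (∀ i j, j ∈ s → rk i < rk j → i ∈ s) →
      evP ν (bbAJ w x s) =
        (∏ j ∈ s, bbNcr ν w x (bbBef rk j) j) * ∏ j ∈ s, bbClr ν w x (bbBef rk j) j := by
    intro s
    induction s using Finset.induction_on_max_value rk with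
    | empty =>
      intro _
      simp [bbAJ, evP, h1]
    | insert a s ha hs ih =>
      intro hlow
      have hlt : ∀ i ∈ s, rk i < rk a := fun i hi =>
        lt_of_le_of_ne (hs i hi) fun h => ha (hrk h ▸ hi)
      have hbef : bbBef rk a = s := by
        ext i
        simp only [bbBef, Finset.mem_filter, Finset.mem_univ, true_and]
        constructor
        · intro hi
          rcases Finset.mem_insert.mp (hlow i a (Finset.mem_insert_self _ _) hi) with h | h
          · rw [h] at hi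
            exact absurd hi (lt_irrefl _)
          · exact h
        · exact hlt i
      have hlow' : ∀ i j, j ∈ s → rk i < rk j → i ∈ s := by
        intro i j hj hij
        rcases Finset.mem_insert.mp (hlow i j (Finset.mem_insert_of_mem hj) hij) with h | h
        · rw [h] at hij
          exact absurd hij (not_lt.mpr (hs j hj))
        · exact h
      have ih' := ih hlow'
      rw [Finset.prod_insert ha, Finset.prod_insert ha, hbef]
      have e1 : evP ν (bbAJ w x (insert a s)) =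
          evP ν (bbAJ w x s) * (bbNcr ν w x s a * bbClr ν w x s a) := by
        unfold bbNcr bbClr
        have p1 : evP ν (bbAJ w x s) ≠ 0 := hpos _ (bbAJ_mono w x (Finset.subset_univ _))
        have p2 : evP ν (bbAJ w x s ∪ bbNC w (bbBlk x a)) ≠ 0 := by
          apply hpos
          apply Finset.union_subset (bbAJ_mono w x (Finset.subset_univ _))
          refine (bbNC_subset (S.closed a) w _).trans ?_
          exact Finset.subset_biUnion_of_mem (fun j => bbA (S.closed j) w (bbBlk x j))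
            (Finset.mem_univ a)
        field_simp
      rw [e1, ih']
      ring
  exact key Finset.univ (fun _ _ _ _ => Finset.mem_univ _)

theorem bb_ne_zero_of_subset {N : ℕ} {ν : Equiv.Perm (Fin N) → ℝ} (h0 : ∀ w, 0 ≤ ν w)
    {F G : Finset (Fin N × Fin N)} (hFG : F ⊆ G) (hG : evP ν G ≠ 0) : evP ν F ≠ 0 := by
  have h2 := bb_evP_mono h0 hFG
  have h4 : 0 < evP ν G := lt_of_le_of_ne (bb_evP_nonneg h0 G) hG.symm
  exact (lt_of_lt_of_le h4 h2).ne'

theorem bbA_subset {N : ℕ} {S : Shape} (w : Equiv.Perm (Fin N)) (x : S.Lab → Fin N)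
    {J : Finset (Fin S.m)} {j : Fin S.m} (hj : j ∈ J) :
    bbA (S.closed j) w (bbBlk x j) ⊆ bbAJ w x J :=
  Finset.subset_biUnion_of_mem (fun j => bbA (S.closed j) w (bbBlk x j)) hj

theorem bbClr_nonneg {N : ℕ} {S : Shape} {ν : Equiv.Perm (Fin N) → ℝ} (h0 : ∀ w, 0 ≤ ν w)
    (w : Equiv.Perm (Fin N)) (x : S.Lab → Fin N) (J : Finset (Fin S.m)) (j : Fin S.m) :
    0 ≤ bbClr ν w x J j := div_nonneg (bb_evP_nonneg h0 _) (bb_evP_nonneg h0 _)

theorem bbNcr_nonneg {N : ℕ} {S : Shape} {ν : Equiv.Perm (Fin N) → ℝ} (h0 : ∀ w, 0 ≤ ν w)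
    (w : Equiv.Perm (Fin N)) (x : S.Lab → Fin N) (J : Finset (Fin S.m)) (j : Fin S.m) :
    0 ≤ bbNcr ν w x J j := div_nonneg (bb_evP_nonneg h0 _) (bb_evP_nonneg h0 _)

theorem bbClr_le_one {N : ℕ} {S : Shape} {ν : Equiv.Perm (Fin N) → ℝ} (h0 : ∀ w, 0 ≤ ν w)
    (w : Equiv.Perm (Fin N)) (x : S.Lab → Fin N) (J : Finset (Fin S.m)) (j : Fin S.m) :
    bbClr ν w x J j ≤ 1 := by
  unfold bbClr
  apply div_le_one_of_le₀ _ (bb_evP_nonneg h0 _)
  apply bb_evP_mono h0
  rw [bbAJ_insert]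
  apply Finset.union_subset Finset.subset_union_right
  exact (bbNC_subset (S.closed j) w _).trans Finset.subset_union_left

theorem bb_disj {N : ℕ} {S : Shape} (w : Equiv.Perm (Fin N)) (x : S.Lab → Fin N)
    (hx : Function.Injective x) {J J' : Finset (Fin S.m)} (hJ : Disjoint J J') :
    Disjoint (bbAJ w x J) (bbAJ w x J') := by
  rw [Finset.disjoint_left]
  intro f hf hf'
  unfold bbAJ at hf hf'
  rw [Finset.mem_biUnion] at hf hf'
  obtain ⟨j, hj, hfj⟩ := hf
  obtain ⟨j', hj', hfj'⟩ := hf'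
  obtain ⟨a, ha⟩ := bbA_snd hfj
  obtain ⟨a', ha'⟩ := bbA_snd hfj'
  have h1 := w.injective (ha.symm.trans ha')
  have h2 := hx h1
  have h3 : j = j' := congrArg Sigma.fst h2
  rw [h3] at hj
  exact Finset.disjoint_left.mp hJ hj hj'

theorem bb_clr_eq {N : ℕ} {S : Shape} {ν : Equiv.Perm (Fin N) → ℝ} {κ : Fin N → Fin N → ℕ}
    {ε : Fin N × Fin N → Fin N × Fin N → ℕ} {Bad : Finset (Fin N)} {K : ℕ}
    (h : PathLaw ν κ ε Bad K) (w : Equiv.Perm (Fin N)) (x : S.Lab → Fin N)
    (hx : Function.Injective x) (hP : evP ν (bbAJ w x Finset.univ) ≠ 0) (j : Fin S.m)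
    (hcl : S.closed j = true) (J : Finset (Fin S.m)) (hJ : j ∉ J) :
    bbClr ν w x J j * 2 ^ κ (bbCL (S.len_pos j) w (bbBlk x j)).1 (bbCL (S.len_pos j) w (bbBlk x j)).2 =
      2 ^ (∑ f ∈ bbAJ w x J, ε (bbCL (S.len_pos j) w (bbBlk x j)) f +
        ∑ f ∈ bbNC w (bbBlk x j), ε (bbCL (S.len_pos j) w (bbBlk x j)) f) := by
  have hxj : Function.Injective (bbBlk x j) := by
    intro a b hab
    have := hx hab
    simpa using this
  have hdis : Disjoint (bbAJ w x J) (bbA (S.closed j) w (bbBlk x j)) := by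
    have h1 := bb_disj w x hx (J := J) (J' := {j}) (by simpa using hJ)
    simpa [bbAJ] using h1
  have hset : bbAJ w x (insert j J) =
      insert (bbCL (S.len_pos j) w (bbBlk x j)) (bbAJ w x J ∪ bbNC w (bbBlk x j)) := by
    rw [bbAJ_insert, hcl, bbA_true (S.len_pos j), Finset.insert_union, Finset.union_comm]
  have hmem : bbCL (S.len_pos j) w (bbBlk x j) ∈ bbA (S.closed j) w (bbBlk x j) := by
    rw [hcl, bbA_true (S.len_pos j)]
    exact Finset.mem_insert_self _ _
  have hnot : bbCL (S.len_pos j) w (bbBlk x j) ∉ bbAJ w x J ∪ bbNC w (bbBlk x j) := by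
    rw [Finset.mem_union, not_or]
    refine ⟨fun hc => Finset.disjoint_left.mp hdis hc hmem, bbCL_notMem _ w _ hxj⟩
  have hne : evP ν (insert (bbCL (S.len_pos j) w (bbBlk x j))
      (bbAJ w x J ∪ bbNC w (bbBlk x j))) ≠ 0 := by
    rw [← hset]
    exact bb_ne_zero_of_subset h.nonneg (bbAJ_mono w x (Finset.subset_univ _)) hP
  have hne2 : evP ν (bbAJ w x J ∪ bbNC w (bbBlk x j)) ≠ 0 :=
    bb_ne_zero_of_subset h.nonneg (Finset.subset_insert _ _) hne
  have hins := h.ins _ _ hnot hne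
  have hsum : ∑ f ∈ bbAJ w x J ∪ bbNC w (bbBlk x j), ε (bbCL (S.len_pos j) w (bbBlk x j)) f =
      ∑ f ∈ bbAJ w x J, ε (bbCL (S.len_pos j) w (bbBlk x j)) f +
        ∑ f ∈ bbNC w (bbBlk x j), ε (bbCL (S.len_pos j) w (bbBlk x j)) f :=
    Finset.sum_union (hdis.mono_right (bbNC_subset _ w _))
  rw [hsum] at hins
  unfold bbClr
  rw [hset, div_mul_eq_mul_div, hins, mul_div_cancel_left₀ _ hne2]

/-- product of the closing ratios for complementary sets of preceding components -/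
theorem bb_close {N : ℕ} {S : Shape} {ν : Equiv.Perm (Fin N) → ℝ} {κ : Fin N → Fin N → ℕ}
    {ε : Fin N × Fin N → Fin N × Fin N → ℕ} {Bad : Finset (Fin N)} {K : ℕ}
    (h : PathLaw ν κ ε Bad K) (w : Equiv.Perm (Fin N)) (x : S.Lab → Fin N)
    (hx : Function.Injective x) (hP : evP ν (bbAJ w x Finset.univ) ≠ 0) (j : Fin S.m)
    (hcl : S.closed j = true) (J J' : Finset (Fin S.m)) (hJJ' : Disjoint J J')
    (hU : J ∪ J' = Finset.univ.erase j) :
    bbClr ν w x J j * bbClr ν w x J' j *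
        2 ^ κ (bbCL (S.len_pos j) w (bbBlk x j)).1 (bbCL (S.len_pos j) w (bbBlk x j)).2 ≤
      2 ^ (∑ f ∈ bbNC w (bbBlk x j), ε (bbCL (S.len_pos j) w (bbBlk x j)) f) := by
  have hJ : j ∉ J := fun hj => by
    have : j ∈ Finset.univ.erase j := hU ▸ Finset.mem_union_left _ hj
    simp at this
  have hJ' : j ∉ J' := fun hj => by
    have : j ∈ Finset.univ.erase j := hU ▸ Finset.mem_union_right _ hj
    simp at this
  have e1 := bb_clr_eq h w x hx hP j hcl J hJ
  have e2 := bb_clr_eq h w x hx hP j hcl J' hJ'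
  have e3 := bb_clr_eq h w x hx hP j hcl (Finset.univ.erase j) (by simp)
  set own := ∑ f ∈ bbNC w (bbBlk x j), ε (bbCL (S.len_pos j) w (bbBlk x j)) f with hown
  set k := κ (bbCL (S.len_pos j) w (bbBlk x j)).1 (bbCL (S.len_pos j) w (bbBlk x j)).2 with hk
  have hE : ∑ f ∈ bbAJ w x (Finset.univ.erase j), ε (bbCL (S.len_pos j) w (bbBlk x j)) f =
      ∑ f ∈ bbAJ w x J, ε (bbCL (S.len_pos j) w (bbBlk x j)) f +
      ∑ f ∈ bbAJ w x J', ε (bbCL (S.len_pos j) w (bbBlk x j)) f := by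
    rw [← Finset.sum_union (bb_disj w x hx hJJ'), ← hU]
    congr 1
    unfold bbAJ
    rw [Finset.union_biUnion]
  set E := ∑ f ∈ bbAJ w x J, ε (bbCL (S.len_pos j) w (bbBlk x j)) f
  set E' := ∑ f ∈ bbAJ w x J', ε (bbCL (S.len_pos j) w (bbBlk x j)) f
  rw [hE] at e3
  have hle : (2 : ℝ) ^ (E + E' + own) ≤ 2 ^ k := by
    rw [← e3]
    have := bbClr_le_one h.nonneg w x (Finset.univ.erase j) j
    have h2 : (0 : ℝ) < 2 ^ k := by positivity
    nlinarith
  have h2k : (0 : ℝ) < 2 ^ k := by positivity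
  have hmul : bbClr ν w x J j * bbClr ν w x J' j * 2 ^ k * 2 ^ k ≤ 2 ^ own * 2 ^ k := by
    calc bbClr ν w x J j * bbClr ν w x J' j * 2 ^ k * 2 ^ k
        = (bbClr ν w x J j * 2 ^ k) * (bbClr ν w x J' j * 2 ^ k) := by ring
      _ = 2 ^ (E + own) * 2 ^ (E' + own) := by rw [e1, e2]
      _ = 2 ^ own * 2 ^ (E + E' + own) := by rw [← pow_add, ← pow_add]; congr 1; omega
      _ ≤ 2 ^ own * 2 ^ k := mul_le_mul_of_nonneg_left hle (by positivity)
  exact le_of_mul_le_mul_right hmul h2k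

/-- good labelling: every short closed component is well rooted -/
def bbGood {N : ℕ} {S : Shape} (ε : Fin N × Fin N → Fin N × Fin N → ℕ) (Bad : Finset (Fin N))
    (l : ℕ) (w : Equiv.Perm (Fin N)) (x : S.Lab → Fin N) : Prop :=
  ∀ j, S.closed j = true → S.len j ≤ 2 ^ l → bbBlk x j ⟨0, S.len_pos j⟩ ∈ Bad ∨
    ∑ f ∈ bbNC w (bbBlk x j), ε (bbCL (S.len_pos j) w (bbBlk x j)) f ≤ l

open scoped Classical in
/-- weights of the roots -/
noncomputable def bbHH {N : ℕ} (S : Shape) (Bad : Finset (Fin N)) (l g : ℕ) (j : Fin S.m)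
    (v : Fin N) : ℝ :=
  if S.closed j = true ∧ S.len j ≤ 2 ^ l then 1 / 2 ^ g + (if v ∈ Bad then 1 else 0) else 1

theorem bbHH_nonneg {N : ℕ} (S : Shape) (Bad : Finset (Fin N)) (l g : ℕ) (j : Fin S.m)
    (v : Fin N) : 0 ≤ bbHH S Bad l g j v := by
  unfold bbHH
  split_ifs <;> positivity

theorem bb_point {N : ℕ} {S : Shape} {ν : Equiv.Perm (Fin N) → ℝ} {κ : Fin N → Fin N → ℕ}
    {ε : Fin N × Fin N → Fin N × Fin N → ℕ} {Bad : Finset (Fin N)} {K : ℕ}
    (h : PathLaw ν κ ε Bad K) (l g : ℕ) (hg : 2 * g + l ≤ K) (w : Equiv.Perm (Fin N))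
    (x : S.Lab → Fin N)
    (hx : Function.Injective x) (hgood : bbGood ε Bad l w x)
    (rk rk' : Fin S.m → ℕ) (hrk : Function.Injective rk) (hrk' : Function.Injective rk')
    (hopp : ∀ i j, rk' i < rk' j ↔ rk j < rk i) :
    evP ν (bbAJ w x Finset.univ) ≤
      (∏ j, bbNcr ν w x (bbBef rk j) j * bbHH S Bad l g j (bbBlk x j ⟨0, S.len_pos j⟩)) +
      ∏ j, bbNcr ν w x (bbBef rk' j) j * bbHH S Bad l g j (bbBlk x j ⟨0, S.len_pos j⟩) := by
  have hn1 : 0 ≤ ∏ j, bbNcr ν w x (bbBef rk j) j *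
      bbHH S Bad l g j (bbBlk x j ⟨0, S.len_pos j⟩) :=
    Finset.prod_nonneg fun j _ => mul_nonneg (bbNcr_nonneg h.nonneg _ _ _ _) (bbHH_nonneg _ _ _ _ _ _)
  have hn2 : 0 ≤ ∏ j, bbNcr ν w x (bbBef rk' j) j *
      bbHH S Bad l g j (bbBlk x j ⟨0, S.len_pos j⟩) :=
    Finset.prod_nonneg fun j _ => mul_nonneg (bbNcr_nonneg h.nonneg _ _ _ _) (bbHH_nonneg _ _ _ _ _ _)
  by_cases hP : evP ν (bbAJ w x Finset.univ) = 0
  · rw [hP]; exact add_nonneg hn1 hn2
  have hsq : ∀ j, bbClr ν w x (bbBef rk j) j * bbClr ν w x (bbBef rk' j) j ≤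
      bbHH S Bad l g j (bbBlk x j ⟨0, S.len_pos j⟩) * bbHH S Bad l g j (bbBlk x j ⟨0, S.len_pos j⟩) := by
    intro j
    have c1 := bbClr_le_one h.nonneg w x (bbBef rk j) j
    have c2 := bbClr_le_one h.nonneg w x (bbBef rk' j) j
    have c3 := bbClr_nonneg h.nonneg w x (bbBef rk j) j
    have c4 := bbClr_nonneg h.nonneg w x (bbBef rk' j) j
    have c5 : bbClr ν w x (bbBef rk j) j * bbClr ν w x (bbBef rk' j) j ≤ 1 :=
      mul_le_one₀ c1 c4 c2
    unfold bbHH
    by_cases hs : S.closed j = true ∧ S.len j ≤ 2 ^ l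
    · rw [if_pos hs]
      by_cases hbad : bbBlk x j ⟨0, S.len_pos j⟩ ∈ Bad
      · rw [if_pos hbad]
        have : (0 : ℝ) < 1 / 2 ^ g := by positivity
        nlinarith
      · rw [if_neg hbad, add_zero]
        have hown := (hgood j hs.1 hs.2).resolve_left hbad
        have hclose := bb_close h w x hx hP j hs.1 (bbBef rk j) (bbBef rk' j) (by
          rw [Finset.disjoint_left]
          intro i hi hi'
          simp only [bbBef, Finset.mem_filter, Finset.mem_univ, true_and] at hi hi'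
          rw [hopp] at hi'
          exact absurd hi (not_lt.mpr hi'.le)) (by
          ext i
          simp only [bbBef, Finset.mem_union, Finset.mem_filter, Finset.mem_univ, true_and,
            Finset.mem_erase, and_true]
          rw [hopp]
          constructor
          · rintro (h1 | h1) rfl
            · exact lt_irrefl _ h1
            · exact lt_irrefl _ h1
          · intro hne
            exact lt_or_gt_of_ne fun h1 => hne (hrk h1))
        have hmem : bbCL (S.len_pos j) w (bbBlk x j) ∈ bbAJ w x Finset.univ := by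
          apply bbA_subset w x (Finset.mem_univ j)
          rw [hs.1, bbA_true (S.len_pos j)]
          exact Finset.mem_insert_self _ _
        have hk : K ≤ κ (bbCL (S.len_pos j) w (bbBlk x j)).1 (bbCL (S.len_pos j) w (bbBlk x j)).2 := by
          apply h.enc _ hbad
          exact bb_ne_zero_of_subset h.nonneg (Finset.singleton_subset_iff.mpr hmem) hP
        set k := κ (bbCL (S.len_pos j) w (bbBlk x j)).1 (bbCL (S.len_pos j) w (bbBlk x j)).2
        set own := ∑ f ∈ bbNC w (bbBlk x j), ε (bbCL (S.len_pos j) w (bbBlk x j)) f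
        have h5 : bbClr ν w x (bbBef rk j) j * bbClr ν w x (bbBef rk' j) j * 2 ^ (2 * g + l) ≤
            2 ^ l := by
          calc bbClr ν w x (bbBef rk j) j * bbClr ν w x (bbBef rk' j) j * 2 ^ (2 * g + l)
              ≤ bbClr ν w x (bbBef rk j) j * bbClr ν w x (bbBef rk' j) j * 2 ^ k := by
                apply mul_le_mul_of_nonneg_left _ (mul_nonneg c3 c4)
                exact pow_le_pow_right₀ (by norm_num) (hg.trans hk)
            _ ≤ 2 ^ own := hclose
            _ ≤ 2 ^ l := pow_le_pow_right₀ (by norm_num) hown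
        have h6 : bbClr ν w x (bbBef rk j) j * bbClr ν w x (bbBef rk' j) j * 2 ^ (2 * g) ≤ 1 := by
          have h2l : (0 : ℝ) < 2 ^ l := by positivity
          rw [pow_add, ← mul_assoc] at h5
          exact le_of_mul_le_mul_right (by simpa using h5) h2l
        have e7 : (1 : ℝ) / 2 ^ g * (1 / 2 ^ g) = 1 / 2 ^ (2 * g) := by
          rw [two_mul, pow_add]; field_simp
        rw [e7, le_div_iff₀ (by positivity)]
        exact h6
    · rw [if_neg hs]
      linarith
  -- compare the products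
  set HH := ∏ j, bbHH S Bad l g j (bbBlk x j ⟨0, S.len_pos j⟩) with hHH
  have hHH0 : 0 ≤ HH := Finset.prod_nonneg fun j _ => bbHH_nonneg _ _ _ _ _ _
  have hprod : (∏ j, bbClr ν w x (bbBef rk j) j) * (∏ j, bbClr ν w x (bbBef rk' j) j) ≤ HH * HH := by
    rw [hHH, ← Finset.prod_mul_distrib, ← Finset.prod_mul_distrib]
    exact Finset.prod_le_prod (fun j _ => mul_nonneg (bbClr_nonneg h.nonneg _ _ _ _)
      (bbClr_nonneg h.nonneg _ _ _ _)) fun j _ => hsq j
  have hc1 : 0 ≤ ∏ j, bbClr ν w x (bbBef rk j) j :=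
    Finset.prod_nonneg fun j _ => bbClr_nonneg h.nonneg _ _ _ _
  have hc2 : 0 ≤ ∏ j, bbClr ν w x (bbBef rk' j) j :=
    Finset.prod_nonneg fun j _ => bbClr_nonneg h.nonneg _ _ _ _
  have ht1 := bb_telescope h.nonneg h.sum_one w x rk hrk hP
  have ht2 := bb_telescope h.nonneg h.sum_one w x rk' hrk' hP
  have hnc1 : 0 ≤ ∏ j, bbNcr ν w x (bbBef rk j) j :=
    Finset.prod_nonneg fun j _ => bbNcr_nonneg h.nonneg _ _ _ _
  have hnc2 : 0 ≤ ∏ j, bbNcr ν w x (bbBef rk' j) j :=
    Finset.prod_nonneg fun j _ => bbNcr_nonneg h.nonneg _ _ _ _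
  by_cases hcase : ∏ j, bbClr ν w x (bbBef rk j) j ≤ HH
  · have : evP ν (bbAJ w x Finset.univ) ≤
        ∏ j, bbNcr ν w x (bbBef rk j) j * bbHH S Bad l g j (bbBlk x j ⟨0, S.len_pos j⟩) := by
      rw [Finset.prod_mul_distrib, ← hHH, ht1]
      exact mul_le_mul_of_nonneg_left hcase hnc1
    linarith
  · push Not at hcase
    have hcase2 : ∏ j, bbClr ν w x (bbBef rk' j) j ≤ HH := by
      by_contra hcon
      push Not at hcon
      have := mul_lt_mul'' hcase hcon hHH0 hHH0
      linarith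
    have : evP ν (bbAJ w x Finset.univ) ≤
        ∏ j, bbNcr ν w x (bbBef rk' j) j * bbHH S Bad l g j (bbBlk x j ⟨0, S.len_pos j⟩) := by
      rw [Finset.prod_mul_distrib, ← hHH, ht2]
      exact mul_le_mul_of_nonneg_left hcase2 hnc2
    linarith

/-! ### summation over all labellings -/

theorem bbAJ_congr {N : ℕ} {S : Shape} (w : Equiv.Perm (Fin N)) {x x' : S.Lab → Fin N}
    {J : Finset (Fin S.m)} (h : ∀ j ∈ J, bbBlk x j = bbBlk x' j) : bbAJ w x J = bbAJ w x' J := by
  unfold bbAJ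
  exact Finset.biUnion_congr rfl fun j hj => by rw [h j hj]

theorem bb_sum_funs {N : ℕ} {S : Shape} {ν : Equiv.Perm (Fin N) → ℝ} (h0 : ∀ w, 0 ≤ ν w)
    (Bad : Finset (Fin N)) (l g : ℕ) (w : Equiv.Perm (Fin N))
    (rk : Fin S.m → ℕ) (hrk : Function.Injective rk) :
    ∑ x : S.Lab → Fin N, ∏ j, bbNcr ν w x (bbBef rk j) j *
        bbHH S Bad l g j (bbBlk x j ⟨0, S.len_pos j⟩) ≤ ∏ j, ∑ v, bbHH S Bad l g j v := by
  have e1 : ∑ x : S.Lab → Fin N, ∏ j, bbNcr ν w x (bbBef rk j) j *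
        bbHH S Bad l g j (bbBlk x j ⟨0, S.len_pos j⟩) =
      ∑ X : ∀ j : Fin S.m, (Fin (S.len j) → Fin N),
        ∏ j, (fun (j : Fin S.m) (X : ∀ j : Fin S.m, (Fin (S.len j) → Fin N)) =>
          bbNcr ν w (fun e : S.Lab => X e.1 e.2) (bbBef rk j) j *
          bbHH S Bad l g j (X j ⟨0, S.len_pos j⟩)) j X :=
    Fintype.sum_equiv (Equiv.piCurry (fun (j : Fin S.m) (_ : Fin (S.len j)) => Fin N)) _ _
      (fun x => rfl)
  rw [e1]
  apply bb_tower rk hrk
  · intro j X
    exact mul_nonneg (bbNcr_nonneg h0 _ _ _ _) (bbHH_nonneg _ _ _ _ _ _)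
  · intro i j X y hij
    have hne : i ≠ j := fun h => by rw [h] at hij; exact lt_irrefl _ hij
    have e2 : bbAJ w (fun e : S.Lab => Function.update X j y e.1 e.2) (bbBef rk i) =
        bbAJ w (fun e : S.Lab => X e.1 e.2) (bbBef rk i) := by
      apply bbAJ_congr
      intro i' hi'
      simp only [bbBef, Finset.mem_filter, Finset.mem_univ, true_and] at hi'
      have hne' : i' ≠ j := fun h => by rw [h] at hi'; omega
      funext a
      simp only [bbBlk, Function.update_of_ne hne']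
    have e3 : bbBlk (fun e : S.Lab => Function.update X j y e.1 e.2) i =
        bbBlk (fun e : S.Lab => X e.1 e.2) i := by
      funext a
      simp only [bbBlk, Function.update_of_ne hne]
    simp only [bbNcr, e2, e3, Function.update_of_ne hne]
  · intro j
    exact Finset.sum_nonneg fun v _ => bbHH_nonneg _ _ _ _ _ _
  · intro j X
    set F := bbAJ w (fun e : S.Lab => X e.1 e.2) (bbBef rk j) with hF
    have e2 : ∀ y, bbAJ w (fun e : S.Lab => Function.update X j y e.1 e.2) (bbBef rk j) = F := by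
      intro y
      apply bbAJ_congr
      intro i' hi'
      simp only [bbBef, Finset.mem_filter, Finset.mem_univ, true_and] at hi'
      have hne' : i' ≠ j := fun h => by rw [h] at hi'; exact lt_irrefl _ hi'
      funext a
      simp only [bbBlk, Function.update_of_ne hne']
    have e3 : ∀ y, bbBlk (fun e : S.Lab => Function.update X j y e.1 e.2) j = y := by
      intro y
      funext a
      simp only [bbBlk, Function.update_self]
    have e4 : ∑ y : Fin (S.len j) → Fin N,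
        bbNcr ν w (fun e : S.Lab => Function.update X j y e.1 e.2) (bbBef rk j) j *
          bbHH S Bad l g j (Function.update X j y j ⟨0, S.len_pos j⟩) =
        (∑ y : Fin (S.len j) → Fin N, evP ν (F ∪ bbNC w y) *
          bbHH S Bad l g j (y ⟨0, S.len_pos j⟩)) / evP ν F := by
      rw [Finset.sum_div]
      refine Finset.sum_congr rfl fun y _ => ?_
      rw [Function.update_self]
      unfold bbNcr
      rw [e2, e3]
      ring
    rw [e4]
    have h1 := bb_sum_block (S.len_pos j) h0 w F (bbHH S Bad l g j) (fun v => bbHH_nonneg _ _ _ _ _ _)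
    have h2 : 0 ≤ ∑ v, bbHH S Bad l g j v := Finset.sum_nonneg fun v _ => bbHH_nonneg _ _ _ _ _ _
    rcases eq_or_lt_of_le (bb_evP_nonneg h0 F) with h3 | h3
    · rw [← h3, div_zero]; exact h2
    · rw [div_le_iff₀ h3, mul_comm (∑ v, _)]
      exact h1

theorem bb_prod_HH {N : ℕ} (S : Shape) (Bad : Finset (Fin N)) (l g : ℕ) :
    ∏ j, ∑ v, bbHH S Bad l g j v =
      ((N : ℝ) / 2 ^ g + Bad.card) ^
        (Finset.univ.filter (fun j => S.closed j = true ∧ S.len j ≤ 2 ^ l)).card *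
      (N : ℝ) ^ (S.m - (Finset.univ.filter (fun j => S.closed j = true ∧ S.len j ≤ 2 ^ l)).card) := by
  have e1 : ∀ j, ∑ v, bbHH S Bad l g j v =
      if S.closed j = true ∧ S.len j ≤ 2 ^ l then (N : ℝ) / 2 ^ g + Bad.card else (N : ℝ) := by
    intro j
    unfold bbHH
    by_cases hs : S.closed j = true ∧ S.len j ≤ 2 ^ l
    · simp only [if_pos hs]
      rw [Finset.sum_add_distrib, Finset.sum_ite_mem]
      simp
      ring
    · simp only [if_neg hs]
      simp
  simp_rw [e1]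
  rw [Finset.prod_ite, Finset.prod_const, Finset.prod_const]
  congr 2
  have h := Finset.card_filter_add_card_filter_not (s := (Finset.univ : Finset (Fin S.m)))
    (fun j => S.closed j = true ∧ S.len j ≤ 2 ^ l)
  rw [Finset.card_univ, Fintype.card_fin] at h
  omega

/-! ### rotations -/

/-- rotation of a cyclic block -/
def bbRot {n : ℕ} (r : Fin n) : Fin n ≃ Fin n :=
  haveI : NeZero n := ⟨r.pos.ne'⟩
  Equiv.addRight r

theorem bbRot_val {n : ℕ} (r a : Fin n) : (bbRot r a : ℕ) = ((a : ℕ) + r) % n := by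
  have : NeZero n := ⟨r.pos.ne'⟩
  simp only [bbRot, Equiv.coe_addRight, Fin.val_add]

theorem bbRot_nx {n : ℕ} (r a : Fin n) : bbRot r (bbNx a) = bbNx (bbRot r a) := by
  apply Fin.ext
  rw [bbRot_val]
  simp only [bbNx]
  rw [bbRot_val]
  rw [Nat.mod_add_mod, Nat.mod_add_mod]
  congr 1
  omega

theorem bbRot_zero {n : ℕ} (hn : 0 < n) : bbRot (⟨0, hn⟩ : Fin n) = Equiv.refl _ := by
  ext a
  rw [bbRot_val]
  simp [Nat.mod_eq_of_lt a.isLt]

theorem bbRot_apply_zero {n : ℕ} (hn : 0 < n) (r : Fin n) : bbRot r ⟨0, hn⟩ = r := by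
  apply Fin.ext
  rw [bbRot_val]
  simp [Nat.mod_eq_of_lt r.isLt]

theorem bbRot_last {n : ℕ} (hn : 0 < n) (a : Fin n) :
    bbRot (bbNx a) ⟨n - 1, Nat.sub_lt hn one_pos⟩ = a := by
  apply Fin.ext
  rw [bbRot_val]
  simp only [bbNx]
  rw [Nat.add_mod_mod]
  have : n - 1 + ((a : ℕ) + 1) = a + n := by omega
  rw [this, Nat.add_mod_right]
  exact Nat.mod_eq_of_lt a.isLt

theorem bbA_rot {N n : ℕ} (w : Equiv.Perm (Fin N)) (y : Fin n → Fin N) (r : Fin n) :
    bbA true w (fun a => y (bbRot r a)) = bbA true w y := by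
  unfold bbA
  have e : ∀ a, bbCon w (fun a => y (bbRot r a)) a = bbCon w y (bbRot r a) := by
    intro a
    simp only [bbCon, bbRot_nx]
  ext f
  simp only [or_true, Finset.filter_true, Finset.mem_image, Finset.mem_univ, true_and]
  constructor
  · rintro ⟨a, rfl⟩
    exact ⟨bbRot r a, (e a).symm⟩
  · rintro ⟨a, rfl⟩
    refine ⟨(bbRot r).symm a, ?_⟩
    rw [e, Equiv.apply_symm_apply]

theorem bb_exists_rot {N n : ℕ} (hn : 0 < n) {ν : Equiv.Perm (Fin N) → ℝ} {κ : Fin N → Fin N → ℕ}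
    {ε : Fin N × Fin N → Fin N × Fin N → ℕ} {Bad : Finset (Fin N)} {K : ℕ}
    (h : PathLaw ν κ ε Bad K) (l : ℕ) (hl : n ≤ 2 ^ l) (w : Equiv.Perm (Fin N))
    (y : Fin n → Fin N) (hy : Function.Injective y) (hP : evP ν (bbA true w y) ≠ 0) :
    ∃ r : Fin n, ∑ f ∈ bbNC w (fun a => y (bbRot r a)),
      ε (bbCL hn w (fun a => y (bbRot r a))) f ≤ l := by
  have hcard : (bbA true w y).card ≤ 2 ^ l := by
    refine le_trans ?_ hl
    unfold bbA
    refine Finset.card_image_le.trans ?_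
    exact (Finset.card_le_univ _).trans (by simp)
  have hiso := h.iso _ hP l hcard
  have hne : (bbA true w y).Nonempty := by
    rw [bbA_true hn]
    exact Finset.insert_nonempty _ _
  have hiso' : ∑ f ∈ bbA true w y, ∑ g ∈ (bbA true w y).erase f, ε f g ≤
      ∑ f ∈ bbA true w y, l := by
    rw [Finset.sum_const, smul_eq_mul, mul_comm]
    exact hiso
  obtain ⟨f, hf, hfl⟩ := Finset.exists_le_of_sum_le hne hiso'
  have hf' := hf
  unfold bbA at hf'
  rw [Finset.mem_image] at hf'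
  obtain ⟨a, -, ha⟩ := hf'
  refine ⟨bbNx a, ?_⟩
  have hy' : Function.Injective (fun b => y (bbRot (bbNx a) b)) :=
    hy.comp (bbRot (bbNx a)).injective
  have hCL : bbCL hn w (fun b => y (bbRot (bbNx a) b)) = f := by
    have e2 := bbRot_last hn a
    unfold bbCL
    simp only [bbRot_apply_zero]
    rw [e2]
    exact ha
  have hNC : bbNC w (fun b => y (bbRot (bbNx a) b)) = (bbA true w y).erase f := by
    rw [← bbA_rot w y (bbNx a), bbA_true hn, hCL, Finset.erase_insert]
    rw [← hCL]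
    exact bbCL_notMem hn w _ hy'
  rw [hCL, hNC]
  exact hfl

/-- rotation of all components -/
def bbRotS {S : Shape} (r : ∀ j : Fin S.m, Fin (S.len j)) : S.Lab ≃ S.Lab :=
  Equiv.sigmaCongrRight fun j => bbRot (r j)

theorem bbBlk_rot {N : ℕ} {S : Shape} (x : S.Lab → Fin N) (r : ∀ j : Fin S.m, Fin (S.len j))
    (j : Fin S.m) : bbBlk (x ∘ bbRotS r) j = fun a => bbBlk x j (bbRot (r j) a) := rfl

open scoped Classical in
/-- admissible rotations -/
noncomputable def bbRots (S : Shape) (l : ℕ) : Finset (∀ j : Fin S.m, Fin (S.len j)) :=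
  Fintype.piFinset fun j =>
    if S.closed j = true ∧ S.len j ≤ 2 ^ l then Finset.univ else {⟨0, S.len_pos j⟩}

theorem bbAJ_rot {N : ℕ} {S : Shape} (l : ℕ) (w : Equiv.Perm (Fin N)) (x : S.Lab → Fin N)
    (r : ∀ j : Fin S.m, Fin (S.len j)) (hr : r ∈ bbRots S l) :
    bbAJ w (x ∘ bbRotS r) Finset.univ = bbAJ w x Finset.univ := by
  unfold bbAJ
  refine Finset.biUnion_congr rfl fun j _ => ?_
  have hrj := Fintype.mem_piFinset.mp hr j
  rw [bbBlk_rot]
  by_cases hs : S.closed j = true ∧ S.len j ≤ 2 ^ l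
  · rw [hs.1, bbA_rot]
  · rw [if_neg hs, Finset.mem_singleton] at hrj
    rw [hrj, bbRot_zero]
    rfl

theorem bbRots_card (S : Shape) (l : ℕ) :
    (bbRots S l).card ≤
      (2 ^ l) ^ (Finset.univ.filter (fun j => S.closed j = true ∧ S.len j ≤ 2 ^ l)).card := by
  unfold bbRots
  rw [Fintype.card_piFinset, ← Finset.prod_const, Finset.prod_filter]
  refine Finset.prod_le_prod (fun _ _ => Nat.zero_le _) fun j _ => ?_
  by_cases hs : S.closed j = true ∧ S.len j ≤ 2 ^ l
  · rw [if_pos hs, if_pos hs, Finset.card_univ, Fintype.card_fin]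
    exact hs.2
  · rw [if_neg hs, if_neg hs, Finset.card_singleton]

theorem bb_exists_rots {N : ℕ} {S : Shape} {ν : Equiv.Perm (Fin N) → ℝ} {κ : Fin N → Fin N → ℕ}
    {ε : Fin N × Fin N → Fin N × Fin N → ℕ} {Bad : Finset (Fin N)} {K : ℕ}
    (h : PathLaw ν κ ε Bad K) (l : ℕ) (w : Equiv.Perm (Fin N))
    (x : S.Lab → Fin N) (hx : Function.Injective x)
    (hP : evP ν (bbAJ w x Finset.univ) ≠ 0) :
    ∃ r ∈ bbRots S l, bbGood ε Bad l w (x ∘ bbRotS r) := by
  classical
  have hex : ∀ j : Fin S.m, ∃ r : Fin (S.len j),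
      (S.closed j = true ∧ S.len j ≤ 2 ^ l →
        ∑ f ∈ bbNC w (fun a => bbBlk x j (bbRot r a)),
          ε (bbCL (S.len_pos j) w (fun a => bbBlk x j (bbRot r a))) f ≤ l) ∧
      (¬ (S.closed j = true ∧ S.len j ≤ 2 ^ l) → r = ⟨0, S.len_pos j⟩) := by
    intro j
    by_cases hs : S.closed j = true ∧ S.len j ≤ 2 ^ l
    · have hxj : Function.Injective (bbBlk x j) := by
        intro a b hab
        have := hx hab
        simpa using this
      have hPj : evP ν (bbA true w (bbBlk x j)) ≠ 0 := by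
        rw [← hs.1]
        exact bb_ne_zero_of_subset h.nonneg (bbA_subset w x (Finset.mem_univ j)) hP
      obtain ⟨r, hr⟩ := bb_exists_rot (S.len_pos j) h l hs.2 w (bbBlk x j) hxj hPj
      exact ⟨r, fun _ => hr, fun hn => absurd hs hn⟩
    · exact ⟨⟨0, S.len_pos j⟩, fun hy => absurd hy hs, fun _ => rfl⟩
  choose r hr1 hr2 using hex
  refine ⟨r, ?_, ?_⟩
  · unfold bbRots
    rw [Fintype.mem_piFinset]
    intro j
    by_cases hs : S.closed j = true ∧ S.len j ≤ 2 ^ l
    · rw [if_pos hs]; exact Finset.mem_univ _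
    · rw [if_neg hs, Finset.mem_singleton]; exact hr2 j hs
  · intro j hcl hlen
    right
    exact hr1 j ⟨hcl, hlen⟩

/-- C6a: block form of the cycle bound.  `cs` = number of closed components of length `≤ 2^l`,
all other components cost a factor `N`. -/
theorem block_bound {N : ℕ} {ν : Equiv.Perm (Fin N) → ℝ} {κ : Fin N → Fin N → ℕ}
    {ε : Fin N × Fin N → Fin N × Fin N → ℕ} {Bad : Finset (Fin N)} {K : ℕ}
    (h : PathLaw ν κ ε Bad K) (b l g : ℕ) (hb : Bad.card ≤ b) (hg : 2 * g + l ≤ K)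
    (w : Equiv.Perm (Fin N)) (S : Shape) (cs : ℕ)
    (hcs : cs = (Finset.univ.filter (fun j => S.closed j = true ∧ S.len j ≤ 2 ^ l)).card) :
    ∑ x : S.Lab ↪ Fin N, evP ν (S.cons w x) ≤
      2 * (2 ^ l * ((N : ℝ) / 2 ^ g + b)) ^ cs * (N : ℝ) ^ (S.m - cs) := by
  classical
  set T : ℝ := ((N : ℝ) / 2 ^ g + Bad.card) ^ cs * (N : ℝ) ^ (S.m - cs) with hT
  have hT0 : 0 ≤ T := by positivity
  -- good labellings
  have hgoodsum : ∑ x : S.Lab ↪ Fin N,
      (if bbGood ε Bad l w x then evP ν (bbAJ w x Finset.univ) else 0) ≤ 2 * T := by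
    set rk : Fin S.m → ℕ := fun i => i
    set rk' : Fin S.m → ℕ := fun i => S.m - i
    have hrk : Function.Injective rk := Fin.val_injective
    have hrk' : Function.Injective rk' := by
      intro i j hij
      apply Fin.ext
      have h1 := i.isLt
      have h2 := j.isLt
      simp only [rk'] at hij
      omega
    have hopp : ∀ i j, rk' i < rk' j ↔ rk j < rk i := by
      intro i j
      have h1 := i.isLt
      have h2 := j.isLt
      simp only [rk', rk]
      omega
    set Φ : (S.Lab → Fin N) → ℝ := fun x =>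
      (∏ j, bbNcr ν w x (bbBef rk j) j * bbHH S Bad l g j (bbBlk x j ⟨0, S.len_pos j⟩)) +
      ∏ j, bbNcr ν w x (bbBef rk' j) j * bbHH S Bad l g j (bbBlk x j ⟨0, S.len_pos j⟩) with hΦ
    have hΦ0 : ∀ x, 0 ≤ Φ x := fun x => add_nonneg
      (Finset.prod_nonneg fun j _ => mul_nonneg (bbNcr_nonneg h.nonneg _ _ _ _)
        (bbHH_nonneg _ _ _ _ _ _))
      (Finset.prod_nonneg fun j _ => mul_nonneg (bbNcr_nonneg h.nonneg _ _ _ _)
        (bbHH_nonneg _ _ _ _ _ _))
    calc ∑ x : S.Lab ↪ Fin N, (if bbGood ε Bad l w x then evP ν (bbAJ w x Finset.univ) else 0)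
        ≤ ∑ x : S.Lab ↪ Fin N, Φ x := by
          refine Finset.sum_le_sum fun x _ => ?_
          by_cases hgd : bbGood ε Bad l w x
          · rw [if_pos hgd]
            exact bb_point h l g hg w x x.injective hgd rk rk' hrk hrk' hopp
          · rw [if_neg hgd]
            exact hΦ0 x
      _ = ∑ x ∈ Finset.univ.map (⟨fun x : S.Lab ↪ Fin N => (x : S.Lab → Fin N),
            DFunLike.coe_injective⟩ : (S.Lab ↪ Fin N) ↪ (S.Lab → Fin N)), Φ x := by
          rw [Finset.sum_map]; rfl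
      _ ≤ ∑ x : S.Lab → Fin N, Φ x :=
          Finset.sum_le_sum_of_subset_of_nonneg (Finset.subset_univ _) fun x _ _ => hΦ0 x
      _ ≤ T + T := by
          rw [hΦ, Finset.sum_add_distrib]
          have h1 := bb_sum_funs (S := S) h.nonneg Bad l g w rk hrk
          have h2 := bb_sum_funs (S := S) h.nonneg Bad l g w rk' hrk'
          rw [bb_prod_HH, ← hcs] at h1 h2
          exact add_le_add h1 h2
      _ = 2 * T := by ring
  -- union bound over rotations
  have hpt : ∀ x : S.Lab ↪ Fin N, evP ν (S.cons w x) ≤ ∑ r ∈ bbRots S l,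
      (if bbGood ε Bad l w (((bbRotS r).toEmbedding.trans x : S.Lab ↪ Fin N) : S.Lab → Fin N) then
        evP ν (bbAJ w (((bbRotS r).toEmbedding.trans x : S.Lab ↪ Fin N) : S.Lab → Fin N)
          Finset.univ) else 0) := by
    intro x
    rw [← bbAJ_univ]
    have hnn : ∀ r ∈ bbRots S l, 0 ≤
      (if bbGood ε Bad l w (((bbRotS r).toEmbedding.trans x : S.Lab ↪ Fin N) : S.Lab → Fin N) then
        evP ν (bbAJ w (((bbRotS r).toEmbedding.trans x : S.Lab ↪ Fin N) : S.Lab → Fin N)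
          Finset.univ) else 0) := by
      intro r _
      split_ifs
      · exact bb_evP_nonneg h.nonneg _
      · exact le_rfl
    by_cases hP : evP ν (bbAJ w x Finset.univ) = 0
    · rw [hP]
      exact Finset.sum_nonneg hnn
    · obtain ⟨r, hr, hgd⟩ := bb_exists_rots h l w x x.injective hP
      refine le_trans ?_ (Finset.single_le_sum hnn hr)
      have hgd' : bbGood ε Bad l w
        (((bbRotS r).toEmbedding.trans x : S.Lab ↪ Fin N) : S.Lab → Fin N) := hgd
      rw [if_pos hgd']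
      have h3 := bbAJ_rot l w x r hr
      exact (congrArg (evP ν) h3).symm.le
  calc ∑ x : S.Lab ↪ Fin N, evP ν (S.cons w x)
      ≤ ∑ x : S.Lab ↪ Fin N, ∑ r ∈ bbRots S l,
      (if bbGood ε Bad l w (((bbRotS r).toEmbedding.trans x : S.Lab ↪ Fin N) : S.Lab → Fin N) then
        evP ν (bbAJ w (((bbRotS r).toEmbedding.trans x : S.Lab ↪ Fin N) : S.Lab → Fin N)
          Finset.univ) else 0) := Finset.sum_le_sum fun x _ => hpt x
    _ = ∑ r ∈ bbRots S l, ∑ x : S.Lab ↪ Fin N,
      (if bbGood ε Bad l w (((bbRotS r).toEmbedding.trans x : S.Lab ↪ Fin N) : S.Lab → Fin N) then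
        evP ν (bbAJ w (((bbRotS r).toEmbedding.trans x : S.Lab ↪ Fin N) : S.Lab → Fin N)
          Finset.univ) else 0) := Finset.sum_comm
    _ = ∑ r ∈ bbRots S l, ∑ x : S.Lab ↪ Fin N,
      (if bbGood ε Bad l w x then evP ν (bbAJ w x Finset.univ) else 0) := by
        refine Finset.sum_congr rfl fun r _ => ?_
        exact Fintype.sum_equiv (Equiv.embeddingCongr (bbRotS r).symm (Equiv.refl _)) _ _
          (fun x => rfl)
    _ = ((bbRots S l).card : ℝ) * ∑ x : S.Lab ↪ Fin N,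
      (if bbGood ε Bad l w x then evP ν (bbAJ w x Finset.univ) else 0) := by
        rw [Finset.sum_const, nsmul_eq_mul]
    _ ≤ ((2 : ℝ) ^ l) ^ cs * (2 * T) := by
        apply mul_le_mul _ hgoodsum _ (by positivity)
        · have := bbRots_card S l
          rw [← hcs] at this
          exact_mod_cast this
        · refine Finset.sum_nonneg fun x _ => ?_
          split_ifs
          · exact bb_evP_nonneg h.nonneg _
          · exact le_rfl
    _ = 2 * (2 ^ l * ((N : ℝ) / 2 ^ g + Bad.card)) ^ cs * (N : ℝ) ^ (S.m - cs) := by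
        rw [hT, mul_pow (2 ^ l : ℝ)]; ring
    _ ≤ 2 * (2 ^ l * ((N : ℝ) / 2 ^ g + b)) ^ cs * (N : ℝ) ^ (S.m - cs) := by
        have : (Bad.card : ℝ) ≤ b := by exact_mod_cast hb
        gcongr

end Crest.Agent.Thorp
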