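import Crest.Agent.Lib.Row155.Defs2
import Crest.Prelude.Def_Shuffle
/-!
Row 155 (Thorp shuffle), chunk C1: bridge between the official model and the pass model.
-/
set_option autoImplicit false
open Finset
open scoped BigOperators

namespace Crest.Agent.Thorp

namespace Bridge

/-- one official step on natural numbers -/
def stepN (m : ℕ) (f : ℕ → Bool) (x : ℕ) : ℕ :=
  2 * (x % m) + (if xor (decide (m ≤ x)) (f (x % m)) then 1 else 0)

/-- `t` official steps on natural numbers -/
def iterN (m : ℕ) : ℕ → (ℕ → ℕ → Bool) → ℕ → ℕ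
  | 0, _, x => x
  | t + 1, f, x => stepN m (f t) (iterN m t f x)

/-- insertion of the bit `b` at position `t` -/
def ins (t : ℕ) (b : Bool) (z : ℕ) : ℕ := (z / 2 ^ t) * 2 ^ (t + 1) + b.toNat * 2 ^ t + z % 2 ^ t

/-- number of a position -/
def num : ∀ D, V D → ℕ
  | 0, _ => 0
  | D + 1, p => 2 * num D (tl p) + (hd p).toNat

theorem num_lt : ∀ D (p : V D), num D p < 2 ^ D
  | 0, _ => by simp [num]
  | D + 1, p => by
    have := num_lt D (tl p)
    have h2 : (hd p).toNat ≤ 1 := Bool.toNat_le _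
    rw [num, pow_succ]
    omega

theorem num_injective : ∀ D, Function.Injective (num D)
  | 0, _, _, _ => rfl
  | D + 1, p, q, h => by
    rw [num, num] at h
    have hp : (hd p).toNat ≤ 1 := Bool.toNat_le _
    have hq : (hd q).toNat ≤ 1 := Bool.toNat_le _
    have h1 : num D (tl p) = num D (tl q) := by omega
    have h2 : (hd p).toNat = (hd q).toNat := by omega
    have h3 : hd p = hd q := by
      revert h2
      cases hd p <;> cases hd q <;> simp
    exact V_ext h3 (num_injective D h1)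

/-- coins of a pass read off a table of official coins -/
def tab : ∀ D, (ℕ → ℕ → Bool) → Coins D
  | 0, _ => ()
  | D + 1, f => Coins.mk (fun h => tab D (fun j u => f j (ins j h u))) (fun v => f D (num D v))

theorem ins_succ (t : ℕ) (b : Bool) (u : ℕ) (e : ℕ) (he : e < 2) :
    ins (t + 1) b (2 * u + e) = 2 * ins t b u + e := by
  unfold ins
  have h1 : (2 * u + e) / 2 ^ (t + 1) = u / 2 ^ t := by
    rw [pow_succ', ← Nat.div_div_eq_div_mul]
    congr 1
    omega
  have h2 : (2 * u + e) % 2 ^ (t + 1) = 2 * (u % 2 ^ t) + e := by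
    have h3 := Nat.div_add_mod (2 * u + e) (2 ^ (t + 1))
    have h4 := Nat.div_add_mod u (2 ^ t)
    rw [h1] at h3
    have h5 : 2 ^ (t + 1) * (u / 2 ^ t) = 2 * (2 ^ t * (u / 2 ^ t)) := by rw [pow_succ']; ring
    rw [h5] at h3
    omega
  rw [h1, h2]
  ring

theorem ins_self {t : ℕ} (b : Bool) {z : ℕ} (hz : z < 2 ^ t) :
    ins t b z = b.toNat * 2 ^ t + z := by
  unfold ins
  rw [Nat.div_eq_of_lt hz, Nat.mod_eq_of_lt hz]
  ring

theorem ins_lt {E t : ℕ} (ht : t ≤ E) (b : Bool) (z : ℕ) (hz : z < 2 ^ E) :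
    ins t b z < 2 ^ (E + 1) := by
  unfold ins
  obtain ⟨c, rfl⟩ := Nat.exists_eq_add_of_le ht
  have hb : b.toNat ≤ 1 := Bool.toNat_le _
  have h1 : z / 2 ^ t < 2 ^ c := by
    rw [Nat.div_lt_iff_lt_mul (by positivity), ← pow_add, add_comm c t]
    exact hz
  have h2 : z % 2 ^ t < 2 ^ t := Nat.mod_lt _ (by positivity)
  have h3 : z / 2 ^ t * 2 ^ (t + 1) + 2 ^ (t + 1) ≤ 2 ^ (t + c + 1) := by
    have : (z / 2 ^ t + 1) * 2 ^ (t + 1) ≤ 2 ^ c * 2 ^ (t + 1) := Nat.mul_le_mul_right _ h1
    rw [← pow_add] at this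
    calc z / 2 ^ t * 2 ^ (t + 1) + 2 ^ (t + 1) = (z / 2 ^ t + 1) * 2 ^ (t + 1) := by ring
      _ ≤ 2 ^ (c + (t + 1)) := this
      _ = 2 ^ (t + c + 1) := by congr 1; ring
  have h4 : b.toNat * 2 ^ t ≤ 2 ^ t := by
    calc b.toNat * 2 ^ t ≤ 1 * 2 ^ t := Nat.mul_le_mul_right _ hb
      _ = 2 ^ t := one_mul _
  have h5 : 2 ^ (t + 1) = 2 * 2 ^ t := pow_succ' _ _
  omega

theorem ins_add {E t : ℕ} (ht : t ≤ E) (b : Bool) (z e : ℕ) :
    ins t b (e * 2 ^ E + z) = e * 2 ^ (E + 1) + ins t b z := by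
  unfold ins
  obtain ⟨c, rfl⟩ := Nat.exists_eq_add_of_le ht
  have e1 : e * 2 ^ (t + c) + z = z + 2 ^ t * (e * 2 ^ c) := by rw [pow_add]; ring
  rw [e1, Nat.add_mul_div_left _ _ (by positivity), Nat.add_mul_mod_self_left]
  ring

theorem ins_mod_div {E t : ℕ} (ht : t ≤ E) (b : Bool) (z : ℕ) (hz : z < 2 ^ (E + 1)) :
    ins t b z % 2 ^ (E + 1) = ins t b (z % 2 ^ E) ∧
      (2 ^ (E + 1) ≤ ins t b z ↔ 2 ^ E ≤ z) := by
  have h1 : z = (z / 2 ^ E) * 2 ^ E + z % 2 ^ E := (Nat.div_add_mod' z (2 ^ E)).symm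
  have h2 : z % 2 ^ E < 2 ^ E := Nat.mod_lt _ (by positivity)
  have h3 := ins_lt ht b _ h2
  have h4 := ins_add ht b (z % 2 ^ E) (z / 2 ^ E)
  rw [← h1] at h4
  have h5 : z / 2 ^ E < 2 := by
    rw [Nat.div_lt_iff_lt_mul (by positivity), ← pow_succ']
    exact hz
  rw [h4]
  constructor
  · rw [add_comm, Nat.add_mul_mod_self_right]
    exact Nat.mod_eq_of_lt h3
  · have hp : 0 < 2 ^ E := by positivity
    rcases Nat.lt_or_ge (z / 2 ^ E) 1 with h6 | h6
    · have h7 : z / 2 ^ E = 0 := Nat.lt_one_iff.1 h6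
      rw [h7, zero_mul, zero_add] at h1 ⊢
      constructor
      · intro h; exact absurd h (not_le.2 h3)
      · intro h; rw [h1] at h; exact absurd h (not_le.2 h2)
    · have h7 : z / 2 ^ E = 1 := le_antisymm (Nat.lt_succ_iff.1 h5) h6
      rw [h7, one_mul] at h1 ⊢
      constructor
      · intro _; rw [h1]; exact Nat.le_add_right _ _
      · intro _; exact Nat.le_add_right _ _

theorem stepN_lt {m : ℕ} (hm : 0 < m) (f : ℕ → Bool) (x : ℕ) : stepN m f x < 2 * m := by
  unfold stepN
  have := Nat.mod_lt x hm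
  split_ifs <;> omega

theorem iterN_lt {m : ℕ} (hm : 0 < m) (t : ℕ) (f : ℕ → ℕ → Bool) (x : ℕ) (hx : x < 2 * m) :
    iterN m t f x < 2 * m := by
  cases t with
  | zero => exact hx
  | succ t => exact stepN_lt hm _ _

/-- The process on `2^(D+2)` positions restricted to a parity class, before the last step. -/
theorem iterN_ins (E : ℕ) (f : ℕ → ℕ → Bool) (b : Bool) (y : ℕ) (hy : y < 2 ^ (E + 1)) :
    ∀ t, t ≤ E + 1 → iterN (2 ^ (E + 1)) t f (2 * y + b.toNat) =
      ins t b (iterN (2 ^ E) t (fun j u => f j (ins j b u)) y) := by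
  intro t
  induction t with
  | zero =>
    intro _
    simp [iterN, ins, Nat.mod_one, mul_comm]
  | succ t ih =>
    intro ht
    have ih' := ih (by omega)
    have hpos : 0 < 2 ^ E := by positivity
    have hy' : y < 2 * 2 ^ E := by rwa [← pow_succ']
    set z := iterN (2 ^ E) t (fun j u => f j (ins j b u)) y with hz
    have hzlt : z < 2 ^ (E + 1) := by
      rw [pow_succ']
      exact iterN_lt hpos t _ y hy'
    obtain ⟨h1, h2⟩ := ins_mod_div (show t ≤ E by omega) b z hzlt
    rw [iterN, ih', iterN, ← hz]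
    unfold stepN
    rw [h1]
    have h3 : decide (2 ^ (E + 1) ≤ ins t b z) = decide (2 ^ E ≤ z) := by
      rw [decide_eq_decide]; exact h2
    rw [h3, ins_succ]
    split_ifs <;> omega

/-- After `D` official steps the position is given by the pass. -/
theorem iterN_pass : ∀ (D : ℕ) (f : ℕ → ℕ → Bool) (v : V D),
    iterN (2 ^ (D - 1)) D f (num D v) = num D (pass D (tab D f) v)
  | 0, _, _ => rfl
  | D + 1, f, v => by
    rw [pass_succ_apply]
    have hnum : num (D + 1) v = 2 * num D (tl v) + (hd v).toNat := rfl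
    rw [hnum]
    -- position before the last step
    have key : iterN (2 ^ D) D f (2 * num D (tl v) + (hd v).toNat) =
        (hd v).toNat * 2 ^ D +
          num D (pass D (tab D (fun j u => f j (ins j (hd v) u))) (tl v)) := by
      cases D with
      | zero =>
        simp [iterN, num]
      | succ E =>
        rw [iterN_ins E f (hd v) _ (num_lt _ _) (E + 1) le_rfl]
        have h1 := iterN_pass (E + 1) (fun j u => f j (ins j (hd v) u)) (tl v)
        rw [Nat.add_sub_cancel] at h1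
        rw [h1]
        exact ins_self _ (num_lt _ _)
    rw [Nat.add_sub_cancel, iterN, key]
    set q := pass D (tab D (fun j u => f j (ins j (hd v) u))) (tl v) with hq
    have hq' : pass D ((tab (D + 1) f).sub (hd v)) (tl v) = q := rfl
    have hqlt := num_lt D q
    rw [hq']
    have htop : (tab (D + 1) f).top q = f D (num D q) := rfl
    rw [htop]
    unfold stepN
    have hmod : ((hd v).toNat * 2 ^ D + num D q) % 2 ^ D = num D q := by
      rw [add_comm, Nat.add_mul_mod_self_right, Nat.mod_eq_of_lt hqlt]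
    have hdec : decide (2 ^ D ≤ (hd v).toNat * 2 ^ D + num D q) = hd v := by
      cases hd v
      · simp only [Bool.toNat_false, zero_mul, zero_add, decide_eq_false_iff_not, not_le]
        exact hqlt
      · simp
    rw [hmod, hdec]
    have hnum2 : num (D + 1) (cons (xor (hd v) (f D (num D q))) q) =
        2 * num D q + (xor (hd v) (f D (num D q))).toNat := rfl
    rw [hnum2]
    cases xor (hd v) (f D (num D q)) <;> simp

theorem iterN_add (m a b : ℕ) (f : ℕ → ℕ → Bool) (x : ℕ) :
    iterN m (a + b) f x = iterN m b (fun t => f (a + t)) (iterN m a f x) := by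
  induction b with
  | zero => rfl
  | succ b ih => rw [← add_assoc, iterN, ih]; rfl

/-- coins of `K` passes -/
def tabs (D K : ℕ) (f : ℕ → ℕ → Bool) : Fin K → Coins D :=
  fun k => tab D (fun t u => f (k * D + t) u)

theorem iterN_passes (D K : ℕ) (f : ℕ → ℕ → Bool) (v : V D) :
    iterN (2 ^ (D - 1)) (K * D) f (num D v) = num D (passes D K (tabs D K f) v) := by
  induction K with
  | zero => simp [iterN, passes]
  | succ K ih =>
    rw [Nat.succ_mul, iterN_add, ih, iterN_pass]
    rfl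

theorem iterN_congr {m : ℕ} (hm : 0 < m) {t : ℕ} {f g : ℕ → ℕ → Bool}
    (h : ∀ j < t, ∀ u < m, f j u = g j u) (x : ℕ) : iterN m t f x = iterN m t g x := by
  induction t with
  | zero => rfl
  | succ t ih =>
    rw [iterN, iterN, ih (fun j hj => h j (by omega))]
    unfold stepN
    rw [h t (by omega) _ (Nat.mod_lt _ hm)]

/-- extension of a table of coins by `false` -/
def ext (m T : ℕ) (cs : Fin T → Fin m → Bool) (t u : ℕ) : Bool :=
  if h : t < T ∧ u < m then cs ⟨t, h.1⟩ ⟨u, h.2⟩ else false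

theorem iterPos_val {m : ℕ} (hm : 0 < m) : ∀ (t : ℕ) (cs : Fin t → Fin m → Bool)
    (x : Fin (2 * m)), (Crest.ProbabilityR.Shuffle.iterPos m t cs x).val =
      iterN m t (ext m t cs) x.val
  | 0, _, _ => rfl
  | t + 1, cs, x => by
    rw [Crest.ProbabilityR.Shuffle.iterPos, iterN]
    have h1 := iterPos_val hm t (fun i => cs i.castSucc) x
    have h2 : iterN m t (ext m t (fun i => cs i.castSucc)) x.val =
        iterN m t (ext m (t + 1) cs) x.val := by
      apply iterN_congr hm
      intro j hj u hu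
      unfold ext
      rw [dif_pos ⟨hj, hu⟩, dif_pos ⟨by omega, hu⟩]
      rfl
    rw [h2] at h1
    unfold Crest.ProbabilityR.Shuffle.stepPos stepN
    simp only [h1]
    congr 2
    congr 1
    congr 1
    unfold ext
    rw [dif_pos ⟨by omega, Nat.mod_lt _ hm⟩]
    rfl

theorem num_surj : ∀ (D u : ℕ), u < 2 ^ D → ∃ v, num D v = u
  | 0, u, h => ⟨(), by simp at h; simp [num, h]⟩
  | D + 1, u, h => by
    obtain ⟨v, hv⟩ := num_surj D (u / 2) (by
      rw [pow_succ] at h
      omega)
    refine ⟨cons (decide (u % 2 = 1)) v, ?_⟩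
    rw [num, tl_cons, hd_cons, hv]
    rcases Nat.mod_two_eq_zero_or_one u with h0 | h0
    · rw [h0]; simp; omega
    · rw [h0]; simp; omega

theorem ins_surj {E j u : ℕ} (hj : j ≤ E) (hu : u < 2 ^ (E + 1)) :
    ∃ (b : Bool) (u' : ℕ), u' < 2 ^ E ∧ ins j b u' = u := by
  obtain ⟨c, rfl⟩ := Nat.exists_eq_add_of_le hj
  have hpos : 0 < 2 ^ j := by positivity
  have hlow : u % 2 ^ j < 2 ^ j := Nat.mod_lt _ hpos
  refine ⟨decide (u / 2 ^ j % 2 = 1), (u / 2 ^ (j + 1)) * 2 ^ j + u % 2 ^ j, ?_, ?_⟩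
  · have h1 : u / 2 ^ (j + 1) < 2 ^ c := by
      rw [Nat.div_lt_iff_lt_mul (by positivity), ← pow_add]
      calc u < 2 ^ (j + c + 1) := hu
        _ = 2 ^ (c + (j + 1)) := by congr 1; ring
    calc u / 2 ^ (j + 1) * 2 ^ j + u % 2 ^ j < u / 2 ^ (j + 1) * 2 ^ j + 2 ^ j := by omega
      _ = (u / 2 ^ (j + 1) + 1) * 2 ^ j := by ring
      _ ≤ 2 ^ c * 2 ^ j := Nat.mul_le_mul_right _ h1
      _ = 2 ^ (j + c) := by rw [← pow_add, add_comm]
  · unfold ins
    have e1 : (u / 2 ^ (j + 1) * 2 ^ j + u % 2 ^ j) / 2 ^ j = u / 2 ^ (j + 1) := by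
      rw [add_comm, Nat.add_mul_div_right _ _ hpos, Nat.div_eq_of_lt hlow, zero_add]
    have e2 : (u / 2 ^ (j + 1) * 2 ^ j + u % 2 ^ j) % 2 ^ j = u % 2 ^ j := by
      rw [add_comm, Nat.add_mul_mod_self_right, Nat.mod_mod]
    rw [e1, e2]
    have e3 : (decide (u / 2 ^ j % 2 = 1)).toNat = u / 2 ^ j % 2 := by
      rcases Nat.mod_two_eq_zero_or_one (u / 2 ^ j) with h0 | h0
      · rw [h0]; rfl
      · rw [h0]; rfl
    rw [e3]
    have e4 : u / 2 ^ (j + 1) = u / 2 ^ j / 2 := by rw [pow_succ, Nat.div_div_eq_div_mul]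
    have e5 := Nat.div_add_mod (u / 2 ^ j) 2
    have e6 := Nat.div_add_mod u (2 ^ j)
    rw [e4, pow_succ]
    calc u / 2 ^ j / 2 * (2 ^ j * 2) + u / 2 ^ j % 2 * 2 ^ j + u % 2 ^ j
        = 2 ^ j * (2 * (u / 2 ^ j / 2) + u / 2 ^ j % 2) + u % 2 ^ j := by ring
      _ = 2 ^ j * (u / 2 ^ j) + u % 2 ^ j := by rw [e5]
      _ = u := e6

theorem tab_inj : ∀ (D : ℕ) (f g : ℕ → ℕ → Bool), tab D f = tab D g →
    ∀ j < D, ∀ u < 2 ^ (D - 1), f j u = g j u
  | 0, _, _, _ => fun j hj => absurd hj (by omega)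
  | D + 1, f, g, h => by
    intro j hj u hu
    rw [Nat.add_sub_cancel] at hu
    have hsub : ∀ b, tab D (fun j u => f j (ins j b u)) = tab D (fun j u => g j (ins j b u)) :=
      fun b => congrArg (fun c : Coins (D + 1) => c.sub b) h
    have htop : ∀ v, f D (num D v) = g D (num D v) :=
      fun v => congrArg (fun c : Coins (D + 1) => c.top v) h
    rcases Nat.lt_or_ge j D with hj' | hj'
    · obtain ⟨E, rfl⟩ : ∃ E, D = E + 1 := ⟨D - 1, by omega⟩
      obtain ⟨b, u', hu', rfl⟩ := ins_surj (show j ≤ E by omega) hu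
      have := tab_inj (E + 1) _ _ (hsub b) j hj' u' (by rwa [Nat.add_sub_cancel])
      exact this
    · have : j = D := by omega
      subst this
      obtain ⟨v, rfl⟩ := num_surj j u hu
      exact htop v

theorem card_Coins : ∀ D, Fintype.card (Coins D) = 2 ^ (D * 2 ^ (D - 1))
  | 0 => rfl
  | D + 1 => by
    have ih := card_Coins D
    rw [← Fintype.card_congr (Coins.mkEquiv D), Fintype.card_prod, Fintype.card_fun,
      Fintype.card_fun, ih, Fintype.card_bool, card_V, Nat.add_sub_cancel, ← pow_mul, ← pow_add]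
    congr 1
    cases D with
    | zero => rfl
    | succ E => rw [Nat.add_sub_cancel, pow_succ]; ring

/-- the bijection between official tables and coins of the passes -/
theorem tabs_bijective (d K : ℕ) :
    Function.Bijective (fun cs : Fin (K * (d + 1)) → Fin (2 ^ d) → Bool =>
      tabs (d + 1) K (ext (2 ^ d) (K * (d + 1)) cs)) := by
  rw [Fintype.bijective_iff_injective_and_card]
  constructor
  · intro cs cs' h
    funext t u
    have ht := t.isLt
    have hk : t.val / (d + 1) < K := (Nat.div_lt_iff_lt_mul (by omega)).2 ht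
    have h1 := congrFun h ⟨t.val / (d + 1), hk⟩
    have h2 := tab_inj (d + 1) _ _ h1 (t.val % (d + 1)) (Nat.mod_lt _ (by omega)) u.val
      (by rw [Nat.add_sub_cancel]; exact u.isLt)
    have h3 : t.val / (d + 1) * (d + 1) + t.val % (d + 1) = t.val := Nat.div_add_mod' _ _
    simp only [h3] at h2
    unfold ext at h2
    rw [dif_pos ⟨ht, u.isLt⟩, dif_pos ⟨ht, u.isLt⟩] at h2
    exact h2
  · rw [Fintype.card_fun, Fintype.card_fun, Fintype.card_fun, Fintype.card_bool, Fintype.card_fin,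
      Fintype.card_fin, Fintype.card_fin, card_Coins, Nat.add_sub_cancel, ← pow_mul, ← pow_mul]
    congr 1
    ring

/-- positions of the two models -/
noncomputable def posEquiv (d : ℕ) : V (d + 1) ≃ Fin (2 * 2 ^ d) :=
  Equiv.ofBijective (fun v => ⟨num (d + 1) v, by rw [← pow_succ']; exact num_lt _ _⟩) (by
    rw [Fintype.bijective_iff_injective_and_card]
    constructor
    · intro v w h
      exact num_injective _ (congrArg Fin.val h)
    · rw [card_V, Fintype.card_fin, pow_succ'])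

theorem posEquiv_val (d : ℕ) (v : V (d + 1)) : (posEquiv d v).val = num (d + 1) v := rfl

theorem iterPos_posEquiv (d K : ℕ) (cs : Fin (K * (d + 1)) → Fin (2 ^ d) → Bool) (v : V (d + 1)) :
    Crest.ProbabilityR.Shuffle.iterPos (2 ^ d) (K * (d + 1)) cs (posEquiv d v) =
      posEquiv d (passes (d + 1) K (tabs (d + 1) K (ext (2 ^ d) (K * (d + 1)) cs)) v) := by
  apply Fin.ext
  rw [iterPos_val (by positivity), posEquiv_val, posEquiv_val]
  exact iterN_passes (d + 1) K _ v

end Bridge

open Bridge in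
theorem bridge (d K : ℕ) :
    Crest.ProbabilityR.Shuffle.tvFromUniform (2 ^ d) (K * (d + 1)) = tv (passLaw (d + 1) K) := by
  classical
  unfold Crest.ProbabilityR.Shuffle.tvFromUniform tv
  congr 1
  have hcard : (Fintype.card (Equiv.Perm (V (d + 1))) : ℝ) = ((2 * 2 ^ d).factorial : ℝ) := by
    rw [Fintype.card_perm, card_V, pow_succ']
  rw [hcard]
  symm
  refine Fintype.sum_equiv (Equiv.permCongr (posEquiv d)) _ _ fun g => ?_
  congr 2
  -- the two probabilities agree
  unfold passLaw Crest.FinProb.uniformProb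
  rw [Finset.expect, Finset.sum_boole]
  have hb := tabs_bijective d K
  have hcardΩ : Fintype.card (Fin (K * (d + 1)) → Fin (2 ^ d) → Bool) =
      Fintype.card (Fin K → Coins (d + 1)) := Fintype.card_of_bijective hb
  have hfilter : (Finset.univ.filter (fun a : Fin K → Coins (d + 1) =>
      passes (d + 1) K a = g)).card =
      (Finset.univ.filter (fun cs : Fin (K * (d + 1)) → Fin (2 ^ d) → Bool =>
        cs ∈ {cs | Crest.ProbabilityR.Shuffle.iterPos (2 ^ d) (K * (d + 1)) cs =
          ⇑((Equiv.permCongr (posEquiv d)) g)})).card := by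
    symm
    refine Finset.card_bij (fun cs _ => tabs (d + 1) K (ext (2 ^ d) (K * (d + 1)) cs)) ?_ ?_ ?_
    · intro cs hcs
      rw [Finset.mem_filter] at hcs ⊢
      refine ⟨Finset.mem_univ _, ?_⟩
      ext1 v
      have h1 := congrFun hcs.2 (posEquiv d v)
      rw [iterPos_posEquiv, Equiv.permCongr_apply, Equiv.symm_apply_apply] at h1
      exact (posEquiv d).injective h1
    · intro cs _ cs' _ h
      exact hb.1 h
    · intro a ha
      rw [Finset.mem_filter] at ha
      obtain ⟨cs, hcs⟩ := hb.2 a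
      refine ⟨cs, ?_, hcs⟩
      rw [Finset.mem_filter]
      refine ⟨Finset.mem_univ _, ?_⟩
      rw [Set.mem_ofPred_eq]
      funext x
      obtain ⟨v, rfl⟩ := (posEquiv d).surjective x
      rw [iterPos_posEquiv, Equiv.permCongr_apply, Equiv.symm_apply_apply]
      have : tabs (d + 1) K (ext (2 ^ d) (K * (d + 1)) cs) = a := hcs
      rw [this, ha.2]
  rw [hfilter, Finset.card_univ, hcardΩ, NNRat.smul_def, div_eq_inv_mul]
  congr 1
  · simp
  · congr 2
    ext cs
    simp only [Finset.mem_filter]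

end Crest.Agent.Thorp
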