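import Crest.Agent.Lib.Row155.Defs2
/-!
Row 155 (Thorp shuffle), chunk C5: path law of the butterfly environment.
-/
set_option autoImplicit false
open Finset
open scoped BigOperators

namespace Crest.Agent.Thorp

theorem eps_comm : ∀ (D : ℕ) (p q : V D × V D), eps D p q = eps D q p
  | 0, _, _ => rfl
  | D + 1, p, q => by
    simp only [eps]
    by_cases h : hd p.1 = hd q.1
    · rw [if_pos h, if_pos h.symm, eps_comm D]
    · have h' : ¬ hd q.1 = hd p.1 := fun e => h e.symm
      rw [if_neg h, if_neg h']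
      by_cases h2 : tl p.2 = tl q.2
      · rw [if_pos h2, if_pos h2.symm]
      · have h2' : ¬ tl q.2 = tl p.2 := fun e => h2 e.symm
        rw [if_neg h2, if_neg h2']

namespace C5

/-- local copy of C3a: positions of `A` stay in (the image of) `A`. -/
theorem pcm : ∀ (D : ℕ) (A : Finset (V D)) (c c' : Coins D) (p : V D) (_ : p ∈ A),
    (pass D c).symm (pass D (combine D A c c') p) ∈ A
  | 0, A, c, c', p, hp => hp
  | D + 1, A, c, c', p, hp => by
    have ih := pcm D (half D A (hd p)) (c.sub (hd p)) (c'.sub (hd p)) (tl p) (by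
      rw [mem_half, cons_hd_tl]; exact hp)
    rw [mem_half] at ih
    rw [pass_succ_apply]
    simp only [combine, Coins.sub_mk, Coins.top_mk]
    set w := pass D (combine D (half D A (hd p)) (c.sub (hd p)) (c'.sub (hd p))) (tl p) with hw
    rw [pass_succ_symm_apply]
    simp only [hd_cons, tl_cons]
    by_cases hb : both D A c w
    · rw [if_pos hb]
      obtain ⟨h0, h1⟩ := hb
      unfold occ at h0 h1
      cases ((hd p).xor ((c.top w).xor (c'.top w))).xor (c.top w)
      · exact h0
      · exact h1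
    · rw [if_neg hb]
      have : ((hd p).xor (c.top w)).xor (c.top w) = hd p := by simp
      rw [this]
      exact ih

/-- the event of `envP` -/
def Sat (D : ℕ) (A : Finset (V D)) (c c' : Coins D) (F : Finset (V D × V D)) : Prop :=
  ∀ f ∈ F, pass D (combine D A c c') f.1 = f.2

instance (D : ℕ) (A : Finset (V D)) (c c' : Coins D) (F : Finset (V D × V D)) :
    Decidable (Sat D A c c' F) := by unfold Sat; infer_instance

theorem envP_eq (D : ℕ) (A : Finset (V D)) (c : Coins D) (F : Finset (V D × V D)) :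
    envP D A c F = 𝔼 c' : Coins D, if Sat D A c c' F then (1 : ℝ) else 0 := rfl

theorem envP_ne_zero_iff (D : ℕ) (A : Finset (V D)) (c : Coins D) (F : Finset (V D × V D)) :
    envP D A c F ≠ 0 ↔ ∃ c', Sat D A c c' F := by
  rw [envP_eq]
  constructor
  · intro h
    by_contra hne
    push Not at hne
    apply h
    apply Finset.expect_eq_zero
    intro c' _
    rw [if_neg (hne c')]
  · rintro ⟨c', hc'⟩ h0
    have h1 : ∀ i ∈ (Finset.univ : Finset (Coins D)), (0 : ℝ) ≤ if Sat D A c i F then 1 else 0 := by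
      intro i _; split_ifs <;> norm_num
    rw [Finset.expect_eq_zero_iff_of_nonneg h1] at h0
    have := h0 c' (Finset.mem_univ _)
    rw [if_pos hc'] at this
    norm_num at this

/-- projection of a constraint to the half -/
def pr {D : ℕ} (g : V (D + 1) × V (D + 1)) : V D × V D := (tl g.1, tl g.2)

/-- constraints of the half `h` -/
def Fh {D : ℕ} (F : Finset (V (D + 1) × V (D + 1))) (h : Bool) : Finset (V D × V D) :=
  (F.filter (fun g => hd g.1 = h)).image pr

/-- the constraint on the top coin -/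
def TC (D : ℕ) (A : Finset (V (D + 1))) (c : Coins (D + 1)) (t : V D → Bool)
    (g : V (D + 1) × V (D + 1)) : Prop :=
  (if both D A c (tl g.2) then xor (c.top (tl g.2)) (t (tl g.2)) else c.top (tl g.2)) =
    xor (hd g.1) (hd g.2)

instance (D : ℕ) (A : Finset (V (D + 1))) (c : Coins (D + 1)) (t : V D → Bool)
    (g : V (D + 1) × V (D + 1)) : Decidable (TC D A c t g) := by unfold TC; infer_instance

theorem sat_succ_iff (D : ℕ) (A : Finset (V (D + 1))) (c : Coins (D + 1)) (s : Bool → Coins D)
    (t : V D → Bool) (F : Finset (V (D + 1) × V (D + 1))) :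
    Sat (D + 1) A c (Coins.mk s t) F ↔
      (∀ h : Bool, Sat D (half D A h) (c.sub h) (s h) (Fh F h)) ∧ ∀ g ∈ F, TC D A c t g := by
  have key : ∀ g : V (D + 1) × V (D + 1),
      pass (D + 1) (combine (D + 1) A c (Coins.mk s t)) g.1 = g.2 ↔
      (pass D (combine D (half D A (hd g.1)) (c.sub (hd g.1)) (s (hd g.1))) (tl g.1) = tl g.2 ∧
        TC D A c t g) := by
    intro g
    rw [pass_succ_apply]
    simp only [combine, Coins.sub_mk, Coins.top_mk]
    constructor
    · intro h
      have h1 := congrArg hd h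
      have h2 := congrArg tl h
      simp only [hd_cons, tl_cons] at h1 h2
      refine ⟨h2, ?_⟩
      rw [h2] at h1
      unfold TC
      rw [← h1]
      simp
    · rintro ⟨h1, h2⟩
      rw [h1]
      unfold TC at h2
      rw [h2]
      ext
      · simp
      · simp
  constructor
  · intro h
    refine ⟨fun b f hf => ?_, fun g hg => ((key g).1 (h g hg)).2⟩
    simp only [Fh, Finset.mem_image, Finset.mem_filter] at hf
    obtain ⟨g, ⟨hg, rfl⟩, rfl⟩ := hf
    exact ((key g).1 (h g hg)).1
  · rintro ⟨h1, h2⟩ g hg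
    refine (key g).2 ⟨h1 (hd g.1) (pr g) ?_, h2 g hg⟩
    simp only [Fh, Finset.mem_image, Finset.mem_filter]
    exact ⟨g, ⟨hg, rfl⟩, rfl⟩

/-- probability of the top constraints -/
noncomputable def TP (D : ℕ) (A : Finset (V (D + 1))) (c : Coins (D + 1))
    (F : Finset (V (D + 1) × V (D + 1))) : ℝ :=
  𝔼 t : V D → Bool, if ∀ g ∈ F, TC D A c t g then (1 : ℝ) else 0

theorem envP_succ (D : ℕ) (A : Finset (V (D + 1))) (c : Coins (D + 1))
    (F : Finset (V (D + 1) × V (D + 1))) :
    envP (D + 1) A c F = envP D (half D A false) (c.sub false) (Fh F false) *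
      envP D (half D A true) (c.sub true) (Fh F true) * TP D A c F := by
  rw [envP_eq, expect_Coins_succ]
  have h1 : ∀ s : Bool → Coins D, (𝔼 t : V D → Bool,
      if Sat (D + 1) A c (Coins.mk s t) F then (1 : ℝ) else 0) =
      ((if Sat D (half D A false) (c.sub false) (s false) (Fh F false) then (1 : ℝ) else 0) *
       (if Sat D (half D A true) (c.sub true) (s true) (Fh F true) then (1 : ℝ) else 0)) *
        TP D A c F := by
    intro s
    rw [TP, Finset.mul_expect]
    refine Finset.expect_congr rfl fun t _ => ?_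
    have hiff := sat_succ_iff D A c s t F
    by_cases h0 : Sat D (half D A false) (c.sub false) (s false) (Fh F false)
    · by_cases h1 : Sat D (half D A true) (c.sub true) (s true) (Fh F true)
      · by_cases h2 : ∀ g ∈ F, TC D A c t g
        · rw [if_pos (hiff.2 ⟨fun b => by cases b <;> assumption, h2⟩), if_pos h0, if_pos h1, if_pos h2]
          norm_num
        · rw [if_neg (fun h => h2 (hiff.1 h).2), if_neg h2]; simp
      · rw [if_neg (fun h => h1 ((hiff.1 h).1 true)), if_neg h1]; simp
    · rw [if_neg (fun h => h0 ((hiff.1 h).1 false)), if_neg h0]; simp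
  simp_rw [h1]
  rw [← Finset.expect_mul]
  congr 1
  rw [envP_eq, envP_eq]
  rw [Finset.expect_mul_expect]
  rw [← Finset.expect_product']
  exact Fintype.expect_equiv (Equiv.boolArrowEquivProd (Coins D)) _ _ (fun s => by rfl)

theorem sat_eq_of_fst {D : ℕ} {A : Finset (V D)} {c c' : Coins D} {F : Finset (V D × V D)}
    (h : Sat D A c c' F) {f g : V D × V D} (hf : f ∈ F) (hg : g ∈ F) (h1 : f.1 = g.1) : f = g := by
  refine Prod.ext h1 ?_
  rw [← h f hf, ← h g hg, h1]

theorem sat_eq_of_snd {D : ℕ} {A : Finset (V D)} {c c' : Coins D} {F : Finset (V D × V D)}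
    (h : Sat D A c c' F) {f g : V D × V D} (hf : f ∈ F) (hg : g ∈ F) (h1 : f.2 = g.2) : f = g := by
  refine sat_eq_of_fst h hf hg ?_
  apply (pass D (combine D A c c')).injective
  rw [h f hf, h g hg, h1]

theorem sat_sub {D : ℕ} {A : Finset (V (D + 1))} {c c' : Coins (D + 1)}
    {F : Finset (V (D + 1) × V (D + 1))} (h : Sat (D + 1) A c c' F) (b : Bool) :
    Sat D (half D A b) (c.sub b) (c'.sub b) (Fh F b) := by
  rw [← Coins.mk_eta c'] at h
  exact ((sat_succ_iff D A c c'.sub c'.top F).1 h).1 b

theorem sat_top {D : ℕ} {A : Finset (V (D + 1))} {c c' : Coins (D + 1)}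
    {F : Finset (V (D + 1) × V (D + 1))} (h : Sat (D + 1) A c c' F) :
    ∀ g ∈ F, TC D A c c'.top g := by
  rw [← Coins.mk_eta c'] at h
  exact ((sat_succ_iff D A c c'.sub c'.top F).1 h).2

theorem pr_mem_Fh {D : ℕ} {F : Finset (V (D + 1) × V (D + 1))} {g : V (D + 1) × V (D + 1)}
    (hg : g ∈ F) : pr g ∈ Fh F (hd g.1) := by
  simp only [Fh, Finset.mem_image, Finset.mem_filter]
  exact ⟨g, ⟨hg, rfl⟩, rfl⟩

theorem sat_inj {D : ℕ} {A : Finset (V (D + 1))} {c c' : Coins (D + 1)}
    {F : Finset (V (D + 1) × V (D + 1))} (h : Sat (D + 1) A c c' F)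
    {f g : V (D + 1) × V (D + 1)} (hf : f ∈ F) (hg : g ∈ F) (h1 : hd f.1 = hd g.1)
    (h2 : tl f.2 = tl g.2) : f = g := by
  have hs := sat_sub h (hd g.1)
  have hfm : pr f ∈ Fh F (hd g.1) := h1 ▸ pr_mem_Fh hf
  have hgm := pr_mem_Fh hg
  have h3 : pr f = pr g := sat_eq_of_snd hs hfm hgm h2
  have h4 : tl f.1 = tl g.1 := congrArg Prod.fst h3
  exact sat_eq_of_fst h hf hg (V_ext h1 h4)

theorem sat_pr_inj {D : ℕ} {A : Finset (V (D + 1))} {c c' : Coins (D + 1)}
    {F : Finset (V (D + 1) × V (D + 1))} (h : Sat (D + 1) A c c' F)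
    {f g : V (D + 1) × V (D + 1)} (hf : f ∈ F) (hg : g ∈ F) (h1 : hd f.1 = hd g.1)
    (h2 : pr f = pr g) : f = g := by
  have h3 : (pr f).2 = (pr g).2 := congrArg Prod.snd h2
  exact sat_inj h hf hg h1 h3

theorem occ_of_sat {D : ℕ} {A : Finset (V (D + 1))} {c c' : Coins (D + 1)}
    {F : Finset (V (D + 1) × V (D + 1))} (h : Sat (D + 1) A c c' F)
    {g : V (D + 1) × V (D + 1)} (hg : g ∈ F) (hA : g.1 ∈ A) :
    occ D A c (hd g.1) (tl g.2) := by
  have h1 := sat_sub h (hd g.1) (pr g) (pr_mem_Fh hg)
  have h2 := pcm D (half D A (hd g.1)) (c.sub (hd g.1)) (c'.sub (hd g.1)) (tl g.1) (by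
    rw [mem_half, cons_hd_tl]; exact hA)
  unfold occ
  rw [← mem_half]
  have h3 : pass D (combine D (half D A (hd g.1)) (c.sub (hd g.1)) (c'.sub (hd g.1))) (tl g.1) =
    tl g.2 := h1
  rw [h3] at h2
  exact h2

theorem both_of_meet {D : ℕ} {A : Finset (V (D + 1))} {c c' : Coins (D + 1)}
    {F : Finset (V (D + 1) × V (D + 1))} (h : Sat (D + 1) A c c' F)
    {f g : V (D + 1) × V (D + 1)} (hf : f ∈ F) (hg : g ∈ F) (hfA : f.1 ∈ A) (hgA : g.1 ∈ A)
    (h1 : hd f.1 ≠ hd g.1) (h2 : tl g.2 = tl f.2) : both D A c (tl f.2) := by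
  have hf1 := occ_of_sat h hf hfA
  have hg1 := occ_of_sat h hg hgA
  rw [h2] at hg1
  unfold both
  rcases hb : hd f.1 with _ | _
  · rw [hb] at hf1 h1
    have : hd g.1 = true := by
      cases hgb : hd g.1
      · rw [hgb] at h1; exact absurd rfl h1
      · rfl
    rw [this] at hg1
    exact ⟨hf1, hg1⟩
  · rw [hb] at hf1 h1
    have : hd g.1 = false := by
      cases hgb : hd g.1
      · rfl
      · rw [hgb] at h1; exact absurd rfl h1
    rw [this] at hg1
    exact ⟨hg1, hf1⟩

/-! ### the top factor -/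

theorem TP_insert_not_both {D : ℕ} {A : Finset (V (D + 1))} {c : Coins (D + 1)}
    {F : Finset (V (D + 1) × V (D + 1))} {f : V (D + 1) × V (D + 1)} {t0 : V D → Bool}
    (h0 : TC D A c t0 f) (hb : ¬ both D A c (tl f.2)) :
    TP D A c (insert f F) = TP D A c F := by
  refine Finset.expect_congr rfl fun t _ => ?_
  have h1 : TC D A c t f := by
    unfold TC at h0 ⊢
    rw [if_neg hb] at h0 ⊢
    exact h0
  simp only [Finset.forall_mem_insert, h1, true_and]

theorem TP_insert_meet {D : ℕ} {A : Finset (V (D + 1))} {c : Coins (D + 1)}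
    {F : Finset (V (D + 1) × V (D + 1))} {f g : V (D + 1) × V (D + 1)} {t0 : V D → Bool}
    (h0 : TC D A c t0 f) (hg : g ∈ F) (hg0 : TC D A c t0 g) (hfg : tl g.2 = tl f.2) :
    TP D A c (insert f F) = TP D A c F := by
  refine Finset.expect_congr rfl fun t _ => ?_
  have hxor : xor (hd g.1) (hd g.2) = xor (hd f.1) (hd f.2) := by
    unfold TC at h0 hg0
    rw [← h0, ← hg0, hfg]
  have h1 : TC D A c t g → TC D A c t f := by
    unfold TC
    rw [hfg, hxor]
    exact id
  have h2 : (∀ x ∈ insert f F, TC D A c t x) ↔ ∀ x ∈ F, TC D A c t x := by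
    rw [Finset.forall_mem_insert]
    exact ⟨fun h => h.2, fun h => ⟨h1 (h g hg), h⟩⟩
  simp only [h2]

theorem TP_insert_half {D : ℕ} {A : Finset (V (D + 1))} {c : Coins (D + 1)}
    {F : Finset (V (D + 1) × V (D + 1))} {f : V (D + 1) × V (D + 1)}
    (hb : both D A c (tl f.2)) (hF : ∀ g ∈ F, tl g.2 ≠ tl f.2) :
    TP D A c (insert f F) * 2 = TP D A c F := by
  classical
  set w := tl f.2 with hw
  let e : (V D → Bool) → (V D → Bool) := fun t => Function.update t w (!(t w))
  have he : Function.Involutive e := by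
    intro t
    funext v
    by_cases hv : v = w
    · subst hv; simp [e]
    · simp [e, Function.update_of_ne hv]
  have hF1 : ∀ t, (∀ g ∈ F, TC D A c (e t) g) ↔ ∀ g ∈ F, TC D A c t g := by
    intro t
    refine forall₂_congr fun g hg => ?_
    unfold TC
    have : e t (tl g.2) = t (tl g.2) := Function.update_of_ne (hF g hg) _ _
    rw [this]
  have hf1 : ∀ t, TC D A c (e t) f ↔ ¬ TC D A c t f := by
    intro t
    unfold TC
    rw [← hw, if_pos hb, if_pos hb]
    have : e t w = !(t w) := by simp [e]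
    rw [this]
    cases c.top w <;> cases t w <;> cases xor (hd f.1) (hd f.2) <;> simp
  have h1 : TP D A c (insert f F) =
      𝔼 t : V D → Bool, if (∀ g ∈ F, TC D A c t g) ∧ ¬ TC D A c t f then (1 : ℝ) else 0 := by
    unfold TP
    refine Fintype.expect_equiv (he.toPerm e) _ _ fun t => ?_
    have h2 : (∀ g ∈ insert f F, TC D A c t g) ↔
        ((∀ g ∈ F, TC D A c (he.toPerm e t) g) ∧ ¬ TC D A c (he.toPerm e t) f) := by
      have e1 : he.toPerm e t = e t := rfl
      rw [e1, hF1, hf1, not_not, Finset.forall_mem_insert]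
      exact and_comm
    by_cases h3 : ∀ g ∈ insert f F, TC D A c t g
    · rw [if_pos h3, if_pos (h2.1 h3)]
    · rw [if_neg h3, if_neg (fun h => h3 (h2.2 h))]
  have h4 : TP D A c (insert f F) + TP D A c (insert f F) = TP D A c F := by
    conv_lhs => enter [2]; rw [h1]
    unfold TP
    rw [← Finset.expect_add_distrib]
    refine Finset.expect_congr rfl fun t _ => ?_
    by_cases h5 : ∀ g ∈ F, TC D A c t g
    · by_cases h6 : TC D A c t f
      · rw [if_pos (Finset.forall_mem_insert _ _ _ |>.2 ⟨h6, h5⟩), if_neg (fun h => h.2 h6),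
          if_pos h5]
        norm_num
      · rw [if_neg (fun h => h6 ((Finset.forall_mem_insert _ _ _).1 h).1), if_pos ⟨h5, h6⟩,
          if_pos h5]
        norm_num
    · rw [if_neg (fun h => h5 ((Finset.forall_mem_insert _ _ _).1 h).2),
        if_neg (fun h => h5 h.1), if_neg h5]
      norm_num
  linarith

theorem Fh_insert_same {D : ℕ} (F : Finset (V (D + 1) × V (D + 1))) (f : V (D + 1) × V (D + 1)) :
    Fh (insert f F) (hd f.1) = insert (pr f) (Fh F (hd f.1)) := by
  unfold Fh
  rw [Finset.filter_insert, if_pos rfl, Finset.image_insert]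

theorem Fh_insert_other {D : ℕ} (F : Finset (V (D + 1) × V (D + 1)))
    (f : V (D + 1) × V (D + 1)) {h : Bool} (hh : hd f.1 ≠ h) : Fh (insert f F) h = Fh F h := by
  unfold Fh
  rw [Finset.filter_insert, if_neg hh]

/-- sum of `eps` over `F` -/
theorem sum_eps {D : ℕ} {A : Finset (V (D + 1))} {c c' : Coins (D + 1)}
    {F : Finset (V (D + 1) × V (D + 1))} {f : V (D + 1) × V (D + 1)}
    (h : Sat (D + 1) A c c' (insert f F)) (hf : f ∉ F) :
    ∑ g ∈ F, eps (D + 1) f g = ∑ g ∈ Fh F (hd f.1), eps D (pr f) g +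
      (if ∃ g ∈ F, tl g.2 = tl f.2 then 1 else 0) := by
  classical
  simp only [eps]
  rw [Finset.sum_ite]
  congr 1
  · unfold Fh
    rw [Finset.sum_image]
    · refine Finset.sum_congr ?_ fun g _ => rfl
      ext g
      simp only [Finset.mem_filter]
      constructor
      · rintro ⟨h1, h2⟩; exact ⟨h1, h2.symm⟩
      · rintro ⟨h1, h2⟩; exact ⟨h1, h2.symm⟩
    · intro g hg g' hg' hgg
      simp only [Finset.coe_filter, Set.mem_ofPred_eq] at hg hg'
      exact sat_pr_inj h (Finset.mem_insert_of_mem hg.1) (Finset.mem_insert_of_mem hg'.1)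
        (hg.2.trans hg'.2.symm) hgg
  · split_ifs with hex
    · obtain ⟨g0, hg0, hgf⟩ := hex
      have hne : ¬ hd f.1 = hd g0.1 := by
        intro heq
        have := sat_inj h (Finset.mem_insert_self _ _) (Finset.mem_insert_of_mem hg0) heq hgf.symm
        rw [this] at hf
        exact hf hg0
      rw [Finset.sum_eq_single g0]
      · rw [if_pos hgf.symm]
      · intro g hg hgne
        rw [Finset.mem_filter] at hg
        rw [if_neg]
        intro h2
        apply hgne
        refine sat_inj h (Finset.mem_insert_of_mem hg.1) (Finset.mem_insert_of_mem hg0) ?_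
          (h2.symm.trans hgf.symm)
        have h3 := hg.2
        revert h3 hne
        cases hd f.1 <;> cases hd g.1 <;> cases hd g0.1 <;> simp
      · intro h2
        exact absurd (Finset.mem_filter.2 ⟨hg0, hne⟩) h2
    · refine Finset.sum_eq_zero fun g hg => ?_
      rw [Finset.mem_filter] at hg
      rw [if_neg]
      intro h2
      exact hex ⟨g, hg.1, h2.symm⟩

end C5

open C5 in
theorem envP_insert : ∀ (D : ℕ) (A : Finset (V D)) (c : Coins D) (F : Finset (V D × V D))
    (f : V D × V D) (_ : f ∉ F) (_ : ∀ g ∈ insert f F, g.1 ∈ A)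
    (_ : envP D A c (insert f F) ≠ 0),
    envP D A c (insert f F) * 2 ^ kap D A c f.1 f.2 =
      envP D A c F * 2 ^ (∑ g ∈ F, eps D f g)
  | 0, A, c, F, f, hf, hA, h => by
    have h1 : F = ∅ := by
      rw [Finset.eq_empty_iff_forall_notMem]
      intro g hg
      apply hf
      have : f = g := Prod.ext rfl rfl
      rw [this]; exact hg
    subst h1
    have h2 : ∀ G : Finset (V 0 × V 0), envP 0 A c G = 1 := by
      intro G
      rw [envP_eq]
      have : ∀ c' : Coins 0, (if Sat 0 A c c' G then (1 : ℝ) else 0) = 1 := by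
        intro c'
        rw [if_pos]
        intro g _
        rfl
      simp only [this]
      exact Finset.expect_const Finset.univ_nonempty _
    rw [h2, h2]
    simp [kap]
  | D + 1, A, c, F, f, hf, hA, h => by
    classical
    obtain ⟨c', hc'⟩ := (envP_ne_zero_iff _ _ _ _).1 h
    have hsub : ∀ b, envP D (half D A b) (c.sub b) (Fh (insert f F) b) ≠ 0 := fun b =>
      (envP_ne_zero_iff _ _ _ _).2 ⟨_, sat_sub hc' b⟩
    have hx : envP D (half D A (hd f.1)) (c.sub (hd f.1)) (Fh (insert f F) (hd f.1)) *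
        2 ^ kap D (half D A (hd f.1)) (c.sub (hd f.1)) (tl f.1) (tl f.2) =
        envP D (half D A (hd f.1)) (c.sub (hd f.1)) (Fh F (hd f.1)) *
          2 ^ (∑ g ∈ Fh F (hd f.1), eps D (pr f) g) := by
      have h1 := hsub (hd f.1)
      rw [Fh_insert_same] at h1 ⊢
      refine envP_insert D _ _ _ (pr f) ?_ ?_ h1
      · intro hmem
        simp only [Fh, Finset.mem_image, Finset.mem_filter] at hmem
        obtain ⟨g, ⟨hg, hgx⟩, hpr⟩ := hmem
        have := sat_pr_inj hc' (Finset.mem_insert_of_mem hg) (Finset.mem_insert_self _ _) hgx hpr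
        rw [this] at hg
        exact hf hg
      · intro g' hg'
        rw [← Fh_insert_same] at hg'
        simp only [Fh, Finset.mem_image, Finset.mem_filter] at hg'
        obtain ⟨g, ⟨hg, hgx⟩, rfl⟩ := hg'
        rw [mem_half, ← hgx]
        exact hA g hg
    have hT : TP D A c (insert f F) * 2 ^ (if both D A c (tl f.2) then 1 else 0) =
        TP D A c F * 2 ^ (if ∃ g ∈ F, tl g.2 = tl f.2 then 1 else 0) := by
      have htop := sat_top hc'
      have hf0 := htop f (Finset.mem_insert_self _ _)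
      by_cases hex : ∃ g ∈ F, tl g.2 = tl f.2
      · obtain ⟨g, hg, hgf⟩ := hex
        have hne : hd f.1 ≠ hd g.1 := by
          intro heq
          have := sat_inj hc' (Finset.mem_insert_self _ _) (Finset.mem_insert_of_mem hg) heq hgf.symm
          rw [this] at hf
          exact hf hg
        have hb := both_of_meet hc' (Finset.mem_insert_self _ _) (Finset.mem_insert_of_mem hg)
          (hA f (Finset.mem_insert_self _ _)) (hA g (Finset.mem_insert_of_mem hg)) hne hgf
        rw [if_pos hb, if_pos ⟨g, hg, hgf⟩,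
          TP_insert_meet hf0 hg (htop g (Finset.mem_insert_of_mem hg)) hgf]
      · rw [if_neg hex]
        by_cases hb : both D A c (tl f.2)
        · rw [if_pos hb, pow_one, pow_zero, mul_one]
          refine TP_insert_half hb ?_
          intro g hg hgf
          exact hex ⟨g, hg, hgf⟩
        · rw [if_neg hb, TP_insert_not_both hf0 hb]
    rw [envP_succ, envP_succ, sum_eps hc' hf]
    have hk : kap (D + 1) A c f.1 f.2 =
        kap D (half D A (hd f.1)) (c.sub (hd f.1)) (tl f.1) (tl f.2) +
          if both D A c (tl f.2) then 1 else 0 := rfl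
    rw [hk, pow_add, pow_add]
    rcases hb : hd f.1 with _ | _
    · rw [Fh_insert_other F f (h := true) (by rw [hb]; simp)]
      rw [hb] at hx
      linear_combination (envP D (half D A true) (c.sub true) (Fh F true) *
        (TP D A c (insert f F) * 2 ^ (if both D A c (tl f.2) then 1 else 0))) * hx +
        (envP D (half D A true) (c.sub true) (Fh F true) *
          (envP D (half D A false) (c.sub false) (Fh F false) *
          2 ^ (∑ g ∈ Fh F false, eps D (pr f) g))) * hT
    · rw [Fh_insert_other F f (h := false) (by rw [hb]; simp)]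
      rw [hb] at hx
      linear_combination (envP D (half D A false) (c.sub false) (Fh F false) *
        (TP D A c (insert f F) * 2 ^ (if both D A c (tl f.2) then 1 else 0))) * hx +
        (envP D (half D A false) (c.sub false) (Fh F false) *
          (envP D (half D A true) (c.sub true) (Fh F true) *
          2 ^ (∑ g ∈ Fh F true, eps D (pr f) g))) * hT

namespace C5

theorem eps_self : ∀ (D : ℕ) (f : V D × V D), eps D f f = 0
  | 0, _ => rfl
  | D + 1, f => by
    simp only [eps, if_true]
    exact eps_self D _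

/-- the meeting indicator in the last layer -/
def mt {D : ℕ} (f g : V (D + 1) × V (D + 1)) : ℕ :=
  if hd f.1 = hd g.1 then 0 else if tl f.2 = tl g.2 then 1 else 0

theorem mt_comm {D : ℕ} (f g : V (D + 1) × V (D + 1)) : mt f g = mt g f := by
  unfold mt
  by_cases h : hd f.1 = hd g.1
  · rw [if_pos h, if_pos h.symm]
  · have h' : ¬ hd g.1 = hd f.1 := fun e => h e.symm
    rw [if_neg h, if_neg h']
    by_cases h2 : tl f.2 = tl g.2
    · rw [if_pos h2, if_pos h2.symm]
    · have h2' : ¬ tl g.2 = tl f.2 := fun e => h2 e.symm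
      rw [if_neg h2, if_neg h2']

theorem mt_row {D : ℕ} {A : Finset (V (D + 1))} {c c' : Coins (D + 1)}
    {F : Finset (V (D + 1) × V (D + 1))} (h : Sat (D + 1) A c c' F)
    (f : V (D + 1) × V (D + 1)) : ∑ g ∈ F, mt f g ≤ 1 := by
  classical
  by_cases hex : ∃ g0 ∈ F, mt f g0 ≠ 0
  · obtain ⟨g0, hg0, hne⟩ := hex
    have hm : ∀ g, mt f g ≠ 0 → ¬ hd f.1 = hd g.1 ∧ tl f.2 = tl g.2 := by
      intro g hg
      unfold mt at hg
      split_ifs at hg with h1 h2
      · exact absurd rfl hg
      · exact ⟨h1, h2⟩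
      · exact absurd rfl hg
    have h0 := hm g0 hne
    rw [Finset.sum_eq_single g0]
    · unfold mt
      split_ifs <;> simp
    · intro g hg hgne
      by_contra hne2
      apply hgne
      have h1 := hm g hne2
      refine sat_inj h hg hg0 ?_ (h1.2.symm.trans h0.2)
      have h3 := h1.1
      have h4 := h0.1
      revert h3 h4
      cases hd f.1 <;> cases hd g.1 <;> cases hd g0.1 <;> simp
    · intro h2; exact absurd hg0 h2
  · push Not at hex
    rw [Finset.sum_eq_zero hex]
    exact Nat.zero_le _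

theorem cross_le {D : ℕ} {A : Finset (V (D + 1))} {c c' : Coins (D + 1)}
    {F : Finset (V (D + 1) × V (D + 1))} (h : Sat (D + 1) A c c' F) (b : Bool) :
    ∑ f ∈ F, ∑ g ∈ F, mt f g ≤ 2 * (F.filter (fun g => hd g.1 = b)).card := by
  classical
  have h1 : ∑ f ∈ F.filter (fun g => hd g.1 = b), ∑ g ∈ F, mt f g ≤
      (F.filter (fun g => hd g.1 = b)).card := by
    calc _ ≤ ∑ f ∈ F.filter (fun g => hd g.1 = b), 1 := Finset.sum_le_sum fun f _ => mt_row h f
      _ = _ := by simp
  have h2 : ∑ f ∈ F.filter (fun g => ¬ hd g.1 = b), ∑ g ∈ F, mt f g ≤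
      ∑ f ∈ F.filter (fun g => hd g.1 = b), ∑ g ∈ F, mt f g := by
    calc ∑ f ∈ F.filter (fun g => ¬ hd g.1 = b), ∑ g ∈ F, mt f g
        = ∑ f ∈ F.filter (fun g => ¬ hd g.1 = b), ∑ g ∈ F.filter (fun g => hd g.1 = b), mt f g := by
          refine Finset.sum_congr rfl fun f hf => ?_
          rw [Finset.sum_filter]
          refine Finset.sum_congr rfl fun g _ => ?_
          split_ifs with hg
          · rfl
          · rw [Finset.mem_filter] at hf
            have : hd f.1 = hd g.1 := by
              have h3 := hf.2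
              revert h3 hg
              cases hd f.1 <;> cases hd g.1 <;> cases b <;> simp
            unfold mt
            rw [if_pos this]
      _ = ∑ g ∈ F.filter (fun g => hd g.1 = b), ∑ f ∈ F.filter (fun g => ¬ hd g.1 = b), mt f g :=
          Finset.sum_comm
      _ ≤ ∑ f ∈ F.filter (fun g => hd g.1 = b), ∑ g ∈ F, mt f g := by
          refine Finset.sum_le_sum fun g _ => ?_
          calc ∑ f ∈ F.filter (fun g => ¬ hd g.1 = b), mt f g
              = ∑ f ∈ F.filter (fun g => ¬ hd g.1 = b), mt g f :=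
                Finset.sum_congr rfl fun f _ => mt_comm f g
            _ ≤ ∑ f ∈ F, mt g f :=
                Finset.sum_le_sum_of_subset (Finset.filter_subset _ _)
  rw [← Finset.sum_filter_add_sum_filter_not F (fun g => hd g.1 = b)]
  omega

theorem card_Fh {D : ℕ} {A : Finset (V (D + 1))} {c c' : Coins (D + 1)}
    {F : Finset (V (D + 1) × V (D + 1))} (h : Sat (D + 1) A c c' F) (b : Bool) :
    (Fh F b).card = (F.filter (fun g => hd g.1 = b)).card := by
  unfold Fh
  apply Finset.card_image_of_injOn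
  intro g hg g' hg' hgg
  simp only [Finset.coe_filter, Set.mem_ofPred_eq] at hg hg'
  exact sat_pr_inj h hg.1 hg'.1 (hg.2.trans hg'.2.symm) hgg

theorem Phi_succ {D : ℕ} {A : Finset (V (D + 1))} {c c' : Coins (D + 1)}
    {F : Finset (V (D + 1) × V (D + 1))} (h : Sat (D + 1) A c c' F) :
    ∑ f ∈ F, ∑ g ∈ F, eps (D + 1) f g =
      (∑ f ∈ Fh F false, ∑ g ∈ Fh F false, eps D f g) +
      (∑ f ∈ Fh F true, ∑ g ∈ Fh F true, eps D f g) + ∑ f ∈ F, ∑ g ∈ F, mt f g := by
  classical
  have hinj : ∀ b : Bool, Set.InjOn (pr (D := D))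
      ((F.filter (fun g => hd g.1 = b) : Finset _) : Set (V (D + 1) × V (D + 1))) := by
    intro b g hg g' hg' hgg
    simp only [Finset.coe_filter, Set.mem_ofPred_eq] at hg hg'
    exact sat_pr_inj h hg.1 hg'.1 (hg.2.trans hg'.2.symm) hgg
  have h1 : ∀ b : Bool, (∑ f ∈ Fh F b, ∑ g ∈ Fh F b, eps D f g) =
      ∑ f ∈ F, ∑ g ∈ F, if hd f.1 = b ∧ hd g.1 = b then eps D (pr f) (pr g) else 0 := by
    intro b
    unfold Fh
    rw [Finset.sum_image (hinj b), Finset.sum_filter]
    refine Finset.sum_congr rfl fun f _ => ?_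
    by_cases hf : hd f.1 = b
    · rw [if_pos hf, Finset.sum_image (hinj b), Finset.sum_filter]
      refine Finset.sum_congr rfl fun g _ => ?_
      by_cases hg : hd g.1 = b
      · rw [if_pos hg, if_pos ⟨hf, hg⟩]
      · rw [if_neg hg, if_neg (fun h => hg h.2)]
    · rw [if_neg hf]
      symm
      refine Finset.sum_eq_zero fun g _ => ?_
      rw [if_neg (fun h => hf h.1)]
  rw [h1, h1, ← Finset.sum_add_distrib, ← Finset.sum_add_distrib]
  refine Finset.sum_congr rfl fun f _ => ?_
  rw [← Finset.sum_add_distrib, ← Finset.sum_add_distrib]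
  refine Finset.sum_congr rfl fun g _ => ?_
  simp only [eps, mt]
  cases hd f.1 <;> cases hd g.1 <;> simp [pr]

/-- `a log a + b log b + 2a ≤ (a+b) log (a+b)` for `a ≤ b` -/
theorem log_ineq {a b : ℝ} (ha : 0 ≤ a) (hab : a ≤ b) :
    a * Real.logb 2 a + b * Real.logb 2 b + 2 * a ≤ (a + b) * Real.logb 2 (a + b) := by
  rcases ha.eq_or_lt with h | hpos
  · rw [← h]; simp
  have hb : 0 < b := lt_of_lt_of_le hpos hab
  have h1 : Real.logb 2 a + 1 ≤ Real.logb 2 (a + b) := by
    have : Real.logb 2 (a * 2) = Real.logb 2 a + 1 := by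
      rw [Real.logb_mul hpos.ne' (by norm_num)]
      simp
    rw [← this]
    exact Real.logb_le_logb_of_le (by norm_num) (by positivity) (by linarith)
  have h2 : b * Real.logb 2 b + a ≤ b * Real.logb 2 (a + b) := by
    have h3 : Real.logb 2 (a + b) = Real.logb 2 b + Real.logb 2 (1 + a / b) := by
      rw [← Real.logb_mul hb.ne' (by positivity)]
      congr 1
      field_simp
      ring
    have h4 : a / b ≤ Real.logb 2 (1 + a / b) := by
      rw [Real.le_logb_iff_rpow_le (by norm_num) (by positivity)]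
      have h5 := rpow_one_add_le_one_add_mul_self (s := 1) (by norm_num)
        (p := a / b) (by positivity) ((div_le_one hb).2 hab)
      norm_num at h5
      linarith
    rw [h3, mul_add]
    have h6 : b * (a / b) = a := by field_simp
    nlinarith
  nlinarith

theorem Phi_le : ∀ (D : ℕ) (A : Finset (V D)) (c c' : Coins D) (F : Finset (V D × V D))
    (_ : Sat D A c c' F),
    ((∑ f ∈ F, ∑ g ∈ F, eps D f g : ℕ) : ℝ) ≤ F.card * Real.logb 2 F.card
  | 0, A, c, c', F, h => by
    have h1 : (∑ f ∈ F, ∑ g ∈ F, eps 0 f g : ℕ) = 0 := by simp [eps]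
    rw [h1]
    rcases Nat.eq_zero_or_pos F.card with h0 | h0
    · rw [h0]; simp
    · have : (1 : ℝ) ≤ F.card := by exact_mod_cast h0
      have := Real.logb_nonneg (b := 2) (by norm_num) this
      push_cast
      positivity
  | D + 1, A, c, c', F, h => by
    classical
    rw [Phi_succ h]
    have h0 := Phi_le D _ _ _ _ (sat_sub h false)
    have h1 := Phi_le D _ _ _ _ (sat_sub h true)
    have c0 := cross_le h false
    have c1 := cross_le h true
    rw [← card_Fh h] at c0 c1
    have hcard : F.card = (Fh F false).card + (Fh F true).card := by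
      rw [card_Fh h, card_Fh h]
      rw [← Finset.card_filter_add_card_filter_not (s := F) (fun g => hd g.1 = false)]
      congr 1
      congr 1
      ext g
      simp
    have c0' : ((∑ f ∈ F, ∑ g ∈ F, mt f g : ℕ) : ℝ) ≤ 2 * (Fh F false).card := by
      exact_mod_cast c0
    have c1' : ((∑ f ∈ F, ∑ g ∈ F, mt f g : ℕ) : ℝ) ≤ 2 * (Fh F true).card := by
      exact_mod_cast c1
    rw [hcard]
    push_cast
    push_cast at h0 h1 c0' c1'
    rcases le_total (((Fh F false).card : ℕ) : ℝ) ((Fh F true).card : ℝ) with hle | hle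
    · have := log_ineq (Nat.cast_nonneg _) hle
      linarith
    · have := log_ineq (Nat.cast_nonneg _) hle
      rw [add_comm ((Fh F true).card : ℝ) ((Fh F false).card : ℝ)] at this
      linarith

end C5

open C5 in
theorem envP_iso (D : ℕ) (A : Finset (V D)) (c : Coins D) (F : Finset (V D × V D))
    (_hA : ∀ g ∈ F, g.1 ∈ A) (h : envP D A c F ≠ 0) (l : ℕ) (hl : F.card ≤ 2 ^ l) :
    ∑ f ∈ F, ∑ g ∈ F.erase f, eps D f g ≤ l * F.card := by
  classical
  obtain ⟨c', hc'⟩ := (envP_ne_zero_iff _ _ _ _).1 h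
  have h1 : ∑ f ∈ F, ∑ g ∈ F.erase f, eps D f g = ∑ f ∈ F, ∑ g ∈ F, eps D f g := by
    refine Finset.sum_congr rfl fun f hf => ?_
    rw [← Finset.add_sum_erase F _ hf, eps_self, zero_add]
  rw [h1]
  have h2 := Phi_le D A c c' F hc'
  have h3 : (F.card : ℝ) * Real.logb 2 F.card ≤ F.card * l := by
    rcases Nat.eq_zero_or_pos F.card with h0 | h0
    · rw [h0]; simp
    · refine mul_le_mul_of_nonneg_left ?_ (Nat.cast_nonneg _)
      have hpos : (0 : ℝ) < F.card := by exact_mod_cast h0
      rw [Real.logb_le_iff_le_rpow (by norm_num) hpos, Real.rpow_natCast]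
      exact_mod_cast hl
  have h4 : ((∑ f ∈ F, ∑ g ∈ F, eps D f g : ℕ) : ℝ) ≤ ((l * F.card : ℕ) : ℝ) := by
    refine (h2.trans h3).trans (le_of_eq ?_)
    push_cast
    ring
  exact_mod_cast h4

end Crest.Agent.Thorp
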