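import Crest.Agent.Lib.Row155.Defs2
/-!
Row 155, chunk T14 (C8b): cycle generating function.
-/
set_option autoImplicit false
open Finset
open scoped BigOperators

namespace Crest.Agent.Thorp

namespace CycGF
open Equiv

open scoped Classical in
theorem cyc_eq_card {N : ℕ} (q : ℕ) (g : Equiv.Perm (Fin N)) :
    cyc q g = (Finset.univ.filter (fun i : Fin N =>
      ∀ j, g.SameCycle i j → (j : ℕ) < q ∧ i ≤ j)).card := by
  unfold cyc
  congr 1
  ext i
  simp only [Finset.mem_filter, Finset.mem_univ, true_and]
  constructor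
  · rintro h j hj
    obtain ⟨m, rfl⟩ := hj.exists_nat_pow_eq
    exact h m
  · intro h m
    exact h _ ⟨m, by simp⟩

theorem cyc_zero {N : ℕ} (g : Equiv.Perm (Fin N)) : cyc 0 g = 0 := by
  rw [cyc_eq_card, Finset.card_eq_zero, Finset.filter_eq_empty_iff]
  intro i _ h
  exact absurd (h i (Equiv.Perm.SameCycle.refl _ _)).1 (Nat.not_lt_zero _)

/-- Two permutations semi-conjugated up to cycles by a map. -/
theorem sameCycle_map {α β : Type*} [Finite α] (g : Equiv.Perm α) (e : Equiv.Perm β) (f : α → β)
    (h : ∀ i, e.SameCycle (f i) (f (g i))) {i j : α} (hij : g.SameCycle i j) :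
    e.SameCycle (f i) (f j) := by
  obtain ⟨m, rfl⟩ := hij.exists_nat_pow_eq
  clear hij
  induction m with
  | zero => exact Equiv.Perm.SameCycle.refl _ _
  | succ m ih =>
    rw [pow_succ', Equiv.Perm.mul_apply]
    exact ih.trans (h _)

theorem dec_zero_zero {N : ℕ} (e : Equiv.Perm (Fin N)) :
    Equiv.Perm.decomposeFin.symm (0, e) 0 = 0 := by simp

theorem dec_zero_succ {N : ℕ} (e : Equiv.Perm (Fin N)) (x : Fin N) :
    Equiv.Perm.decomposeFin.symm (0, e) x.succ = (e x).succ := by
  rw [Equiv.Perm.decomposeFin_symm_apply_succ]; simp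

theorem dec_succ_succ {N : ℕ} (p : Fin N) (e : Equiv.Perm (Fin N)) (x : Fin N) :
    Equiv.Perm.decomposeFin.symm (p.succ, e) x.succ = if e x = p then 0 else (e x).succ := by
  rw [Equiv.Perm.decomposeFin_symm_apply_succ, Equiv.swap_apply_def]
  simp [Fin.succ_ne_zero]

open scoped Classical in
theorem cyc_dec_zero {N : ℕ} (q : ℕ) (e : Equiv.Perm (Fin N)) :
    cyc (q + 1) (Equiv.Perm.decomposeFin.symm (0, e)) = cyc q e + 1 := by
  set g := Equiv.Perm.decomposeFin.symm ((0 : Fin (N + 1)), e) with hg
  have hss : ∀ x y : Fin N, g.SameCycle x.succ y.succ ↔ e.SameCycle x y := by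
    intro x y
    constructor
    · intro h
      by_contra hcon
      -- use powers
      obtain ⟨m, hm⟩ := h.exists_nat_pow_eq
      have : ∀ m, (g ^ m) x.succ = ((e ^ m) x).succ := by
        intro m
        induction m with
        | zero => rfl
        | succ m ih =>
          rw [pow_succ', Equiv.Perm.mul_apply, ih, hg, dec_zero_succ, pow_succ',
            Equiv.Perm.mul_apply]
      rw [this] at hm
      exact hcon ⟨m, by simpa using Fin.succ_injective _ hm⟩
    · intro h
      refine sameCycle_map e g Fin.succ (fun i => ⟨1, ?_⟩) h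
      rw [zpow_one, hg, dec_zero_succ]
  have h0s : ∀ y : Fin N, ¬ g.SameCycle 0 y.succ := by
    intro y h
    obtain ⟨m, hm⟩ := h.exists_nat_pow_eq
    have : ∀ m, (g ^ m) 0 = 0 := by
      intro m
      induction m with
      | zero => rfl
      | succ m ih => rw [pow_succ', Equiv.Perm.mul_apply, ih, hg, dec_zero_zero]
    rw [this] at hm
    exact Fin.succ_ne_zero _ hm.symm
  have h00 : g.SameCycle 0 0 := Equiv.Perm.SameCycle.refl _ _
  rw [cyc_eq_card, cyc_eq_card, Finset.card_filter, Finset.card_filter, Fin.sum_univ_succ,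
    add_comm]
  congr 1
  · refine Finset.sum_congr rfl (fun x _ => ?_)
    refine if_congr ?_ rfl rfl
    constructor
    · intro h y hy
      have := h y.succ ((hss x y).2 hy)
      simpa using this
    · intro h j
      refine Fin.cases ?_ (fun y => ?_) j
      · intro h'
        exact absurd h'.symm (h0s x)
      · intro h'
        have := h y ((hss x y).1 h')
        simpa using this
  · rw [if_pos]
    intro j
    refine Fin.cases ?_ (fun y => ?_) j
    · intro _; simp
    · intro h'; exact absurd h' (h0s y)

open scoped Classical in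
theorem cyc_dec_succ {N : ℕ} (q : ℕ) (p : Fin N) (e : Equiv.Perm (Fin N)) :
    cyc (q + 1) (Equiv.Perm.decomposeFin.symm (p.succ, e)) = cyc q e := by
  set g := Equiv.Perm.decomposeFin.symm (p.succ, e) with hg
  have hg0 : g 0 = p.succ := by rw [hg, Equiv.Perm.decomposeFin_symm_apply_zero]
  have hgs : ∀ x : Fin N, g x.succ = if e x = p then 0 else (e x).succ := fun x => by
    rw [hg, dec_succ_succ]
  let f : Fin (N + 1) → Fin N := Fin.cases p id
  have hf0 : f 0 = p := rfl
  have hfs : ∀ x : Fin N, f x.succ = x := fun x => rfl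
  have key1 : ∀ i j, g.SameCycle i j → e.SameCycle (f i) (f j) := by
    intro i j
    refine sameCycle_map g e f (fun i => ?_)
    refine Fin.cases ?_ (fun x => ?_) i
    · rw [hg0, hf0, hfs]
    · rw [hgs, hfs]
      by_cases h : e x = p
      · rw [if_pos h, hf0, ← h]; exact ⟨1, by simp⟩
      · rw [if_neg h, hfs]; exact ⟨1, by simp⟩
  have key2 : ∀ x y : Fin N, e.SameCycle x y → g.SameCycle x.succ y.succ := by
    intro x y
    refine sameCycle_map e g Fin.succ (fun x => ?_)
    by_cases h : e x = p
    · refine ⟨2, ?_⟩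
      rw [zpow_ofNat, pow_two, Equiv.Perm.mul_apply, hgs, if_pos h, hg0, h]
    · exact ⟨1, by rw [zpow_one, hgs, if_neg h]⟩
  have h0p : g.SameCycle 0 p.succ := ⟨1, by rw [zpow_one, hg0]⟩
  have hss : ∀ x y : Fin N, g.SameCycle x.succ y.succ ↔ e.SameCycle x y :=
    fun x y => ⟨fun h => key1 _ _ h, key2 x y⟩
  have h0s : ∀ y : Fin N, g.SameCycle 0 y.succ ↔ e.SameCycle p y :=
    fun y => ⟨fun h => key1 _ _ h, fun h => h0p.trans (key2 _ _ h)⟩
  rw [cyc_eq_card, cyc_eq_card, Finset.card_filter, Fin.sum_univ_succ, ← Finset.card_filter]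
  -- split the right-hand side
  have hsplit := Finset.card_filter_add_card_filter_not
    (s := Finset.univ.filter (fun i : Fin N => ∀ j, e.SameCycle i j → (j : ℕ) < q ∧ i ≤ j))
    (fun i => e.SameCycle p i)
  rw [← hsplit]
  congr 1
  · rw [Finset.filter_filter]
    by_cases hP : ∀ y : Fin N, e.SameCycle p y → (y : ℕ) < q
    · rw [if_pos]
      · symm
        rw [Finset.card_eq_one]
        -- minimal element of the cycle of p
        let S : Finset (Fin N) := Finset.univ.filter (fun y => e.SameCycle p y)
        have hS : S.Nonempty := ⟨p, by simp [S, Equiv.Perm.SameCycle.refl]⟩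
        refine ⟨S.min' hS, ?_⟩
        have hmem : e.SameCycle p (S.min' hS) := by
          have := S.min'_mem hS
          simpa [S] using this
        ext i
        simp only [Finset.mem_filter, Finset.mem_univ, true_and, Finset.mem_singleton]
        constructor
        · rintro ⟨h1, h2⟩
          apply le_antisymm
          · exact (h1 _ (h2.symm.trans hmem)).2
          · exact S.min'_le _ (by simpa [S] using h2)
        · rintro rfl
          refine ⟨fun j hj => ⟨hP j (hmem.trans hj), S.min'_le _ ?_⟩, hmem⟩
          simpa [S] using hmem.trans hj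
      · intro j
        refine Fin.cases ?_ (fun y => ?_) j
        · intro _; simp
        · intro h'
          have := hP y ((h0s y).1 h')
          simpa using this
    · rw [if_neg]
      · symm
        rw [Finset.card_eq_zero, Finset.filter_eq_empty_iff]
        rintro i _ ⟨h1, h2⟩
        exact hP (fun y hy => (h1 y (h2.symm.trans hy)).1)
      · intro h
        apply hP
        intro y hy
        have := (h y.succ ((h0s y).2 hy)).1
        simpa using this
  · rw [Finset.filter_filter]
    congr 1
    ext x
    simp only [Finset.mem_filter, Finset.mem_univ, true_and]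
    constructor
    · intro h
      refine ⟨fun y hy => ?_, fun hp => ?_⟩
      · have := h y.succ ((hss x y).2 hy)
        simpa using this
      · have := (h 0 ((h0s x).2 hp).symm).2
        simp at this
    · rintro ⟨h1, h2⟩ j
      refine Fin.cases ?_ (fun y => ?_) j
      · intro h'
        exact absurd ((h0s x).1 h'.symm) h2
      · intro h'
        have := h1 y ((hss x y).1 h')
        simpa using this

end CycGF

open CycGF in
/-- C8b -/
theorem expect_pow_cyc (N q : ℕ) (hq : q ≤ N) (z : ℝ) :
    (𝔼 g : Equiv.Perm (Fin N), z ^ cyc q g) =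
      ∏ i ∈ Finset.range q, (1 + (z - 1) / ((N : ℝ) - i)) := by
  induction N generalizing q with
  | zero =>
    obtain rfl : q = 0 := by omega
    simp [cyc_zero]
  | succ N ih =>
    cases q with
    | zero => simp [cyc_zero]
    | succ q =>
      have hq' : q ≤ N := by omega
      rw [Finset.prod_range_succ']
      have hprod : ∏ k ∈ Finset.range q, (1 + (z - 1) / (((N + 1 : ℕ) : ℝ) - ((k + 1 : ℕ) : ℝ))) =
          ∏ i ∈ Finset.range q, (1 + (z - 1) / ((N : ℝ) - i)) := by
        refine Finset.prod_congr rfl (fun k _ => ?_)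
        congr 2
        push_cast
        ring
      rw [hprod, ← ih q hq']
      rw [← Fintype.expect_equiv Equiv.Perm.decomposeFin.symm
        (fun pe : Fin (N + 1) × Equiv.Perm (Fin N) =>
          z ^ cyc (q + 1) (Equiv.Perm.decomposeFin.symm pe)) _ (fun _ => rfl)]
      have h1 : (𝔼 pe : Fin (N + 1) × Equiv.Perm (Fin N),
          z ^ cyc (q + 1) (Equiv.Perm.decomposeFin.symm pe)) =
          𝔼 p : Fin (N + 1), 𝔼 e : Equiv.Perm (Fin N),
            z ^ cyc (q + 1) (Equiv.Perm.decomposeFin.symm (p, e)) :=
        Finset.expect_product' (Finset.univ) (Finset.univ)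
          (fun (p : Fin (N + 1)) (e : Equiv.Perm (Fin N)) =>
            z ^ cyc (q + 1) (Equiv.Perm.decomposeFin.symm (p, e)))
      rw [h1, Fintype.expect_eq_sum_div_card, Fin.sum_univ_succ]
      have h2 : (𝔼 e : Equiv.Perm (Fin N),
          z ^ cyc (q + 1) (Equiv.Perm.decomposeFin.symm ((0 : Fin (N + 1)), e))) =
          (𝔼 e : Equiv.Perm (Fin N), z ^ cyc q e) * z := by
        rw [Finset.expect_mul]
        refine Finset.expect_congr rfl (fun e _ => ?_)
        rw [cyc_dec_zero, pow_succ]
      have h3 : ∀ p : Fin N, (𝔼 e : Equiv.Perm (Fin N),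
          z ^ cyc (q + 1) (Equiv.Perm.decomposeFin.symm (p.succ, e))) =
          𝔼 e : Equiv.Perm (Fin N), z ^ cyc q e := by
        intro p
        refine Finset.expect_congr rfl (fun e _ => ?_)
        rw [cyc_dec_succ]
      rw [h2, Finset.sum_congr rfl (fun p _ => h3 p)]
      simp only [Finset.sum_const, Finset.card_univ, Fintype.card_fin, nsmul_eq_mul,
        Nat.cast_zero, sub_zero]
      have hN : ((N + 1 : ℕ) : ℝ) ≠ 0 := by positivity
      field_simp
      push_cast
      ring

end Crest.Agent.Thorp
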