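import Crest.Agent.Lib.Row155.Defs2
/-!
Row 155 (Thorp shuffle), chunk C6b: shapes of a permutation restricted to `[q]` and the cycle bounds.
-/
set_option autoImplicit false
open Finset
open scoped BigOperators

namespace Crest.Agent.Thorp

/-! ### Iterates -/

section Iter

variable {N : ℕ} (τ : Equiv.Perm (Fin N)) (q : ℕ)

/-- all iterates of `i` are `< q` -/
def AllLt (i : Fin N) : Prop := ∀ m : ℕ, ((τ ^ m) i : ℕ) < q

theorem pow_back (k : ℕ) (i : Fin N) : ∃ n : ℕ, (τ ^ n) ((τ ^ k) i) = i := by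
  refine ⟨orderOf τ * k - k, ?_⟩
  have h1 : 1 ≤ orderOf τ := orderOf_pos τ
  rw [← Equiv.Perm.mul_apply, ← pow_add, Nat.sub_add_cancel (Nat.le_mul_of_pos_left k h1), pow_mul,
    pow_orderOf_eq_one, one_pow, Equiv.Perm.one_apply]

theorem papply_inv (i : Fin N) : τ (τ⁻¹ i) = i := τ.apply_symm_apply i

theorem pinv_apply (i : Fin N) : τ⁻¹ (τ i) = i := τ.symm_apply_apply i

variable {τ q}

theorem AllLt.pow {i : Fin N} (h : AllLt τ q i) (k : ℕ) : AllLt τ q ((τ ^ k) i) := by
  intro m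
  rw [← Equiv.Perm.mul_apply, ← pow_add]
  exact h _

theorem AllLt.of_pow {i : Fin N} {k : ℕ} (h : AllLt τ q ((τ ^ k) i)) : AllLt τ q i := by
  obtain ⟨n, hn⟩ := pow_back τ k i
  have := h.pow n
  rwa [hn] at this

theorem AllLt.of_inv {i : Fin N} (h : AllLt τ q (τ⁻¹ i)) : AllLt τ q i := by
  have := h.pow 1
  rwa [pow_one, papply_inv] at this

theorem AllLt.inv {i : Fin N} (h : AllLt τ q i) : AllLt τ q (τ⁻¹ i) := by
  apply AllLt.of_pow (k := 1)
  rwa [pow_one, papply_inv]

theorem minPer_pos (τ : Equiv.Perm (Fin N)) (i : Fin N) : 0 < Function.minimalPeriod τ i := by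
  apply Function.minimalPeriod_pos_of_mem_periodicPts
  refine ⟨orderOf τ, orderOf_pos τ, ?_⟩
  rw [Function.IsPeriodicPt, Function.IsFixedPt, Equiv.Perm.iterate_eq_pow, pow_orderOf_eq_one]
  rfl

theorem pow_minPer (τ : Equiv.Perm (Fin N)) (i : Fin N) :
    (τ ^ Function.minimalPeriod τ i) i = i := by
  have := Function.iterate_minimalPeriod (f := τ) (x := i)
  rwa [Equiv.Perm.iterate_eq_pow] at this

theorem pow_mod_minPer (τ : Equiv.Perm (Fin N)) (i : Fin N) (n : ℕ) :
    (τ ^ (n % Function.minimalPeriod τ i)) i = (τ ^ n) i := by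
  have := Function.iterate_mod_minimalPeriod_eq (f := τ) (x := i) (n := n)
  rwa [Equiv.Perm.iterate_eq_pow, Equiv.Perm.iterate_eq_pow] at this

theorem minPer_le {i : Fin N} {n : ℕ} (hn : 0 < n) (h : (τ ^ n) i = i) :
    Function.minimalPeriod τ i ≤ n := by
  apply Function.IsPeriodicPt.minimalPeriod_le hn
  rw [Function.IsPeriodicPt, Function.IsFixedPt, Equiv.Perm.iterate_eq_pow]
  exact h

variable (τ q)

open scoped Classical in
/-- length of the component with root `i` -/
noncomputable def clen (i : Fin N) : ℕ :=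
  if h : AllLt τ q i then Function.minimalPeriod τ i
  else Nat.find (not_forall.1 h) + 1

theorem clen_pos (i : Fin N) : 0 < clen τ q i := by
  unfold clen
  split_ifs with h
  · exact minPer_pos τ i
  · exact Nat.succ_pos _

/-- the root of a closed component -/
def ClosedRoot (i : Fin N) : Prop := ∀ m : ℕ, ((τ ^ m) i : ℕ) < q ∧ i ≤ (τ ^ m) i

/-- the root of an open component -/
def OpenRoot (i : Fin N) : Prop := (i : ℕ) < q ∧ ¬ ((τ⁻¹ i : Fin N) : ℕ) < q

variable {τ q}

theorem ClosedRoot.allLt {i : Fin N} (h : ClosedRoot τ q i) : AllLt τ q i := fun m => (h m).1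

theorem OpenRoot.not_allLt {i : Fin N} (h : OpenRoot τ q i) : ¬ AllLt τ q i := by
  intro h1
  have := h1.inv 0
  exact h.2 (by simpa using this)

theorem clen_of_allLt {i : Fin N} (h : AllLt τ q i) : clen τ q i = Function.minimalPeriod τ i := by
  unfold clen
  rw [dif_pos h]

theorem pow_lt_iff {i : Fin N} (h : ¬ AllLt τ q i) {a : ℕ} (ha : a < clen τ q i) :
    ((τ ^ a) i : ℕ) < q ↔ a + 1 < clen τ q i := by
  classical
  have e : clen τ q i = Nat.find (not_forall.1 h) + 1 := by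
    unfold clen
    rw [dif_neg h]
  rw [e] at ha ⊢
  constructor
  · intro h1
    by_contra h2
    have h3 : a = Nat.find (not_forall.1 h) := by omega
    have := Nat.find_spec (not_forall.1 h)
    rw [← h3] at this
    exact this h1
  · intro h1
    by_contra h2
    have := Nat.find_min (not_forall.1 h) (m := a) (by omega)
    exact this h2

theorem two_le_clen {i : Fin N} (h : ¬ AllLt τ q i) (hi : (i : ℕ) < q) : 2 ≤ clen τ q i := by
  have h1 := (pow_lt_iff h (clen_pos τ q i)).1 (by simpa using hi)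
  omega

theorem lt_clen {i : Fin N} (h : ¬ AllLt τ q i) {k : ℕ} (hk : ∀ m ≤ k, ((τ ^ m) i : ℕ) < q) :
    k + 1 < clen τ q i := by
  classical
  have e : clen τ q i = Nat.find (not_forall.1 h) + 1 := by
    unfold clen
    rw [dif_neg h]
  rw [e]
  by_contra h1
  have h2 : Nat.find (not_forall.1 h) ≤ k := by omega
  exact Nat.find_spec (not_forall.1 h) (hk _ h2)

/-- uniqueness of the representation `τ ^ a` of a root -/
theorem root_unique_aux {r s : Fin N} (hr : ClosedRoot τ q r ∨ OpenRoot τ q r)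
    (hs : ClosedRoot τ q s ∨ OpenRoot τ q s) {a b : ℕ} (hab : a ≤ b) (hb : b < clen τ q s)
    (h : (τ ^ a) r = (τ ^ b) s) : r = s ∧ a = b := by
  obtain ⟨k, rfl⟩ := Nat.exists_eq_add_of_le hab
  have hk : r = (τ ^ k) s := by
    rw [pow_add, Equiv.Perm.mul_apply] at h
    exact (τ ^ a).injective h
  rcases Nat.eq_zero_or_pos k with rfl | hk0
  · simpa using hk
  · exfalso
    by_cases hA : AllLt τ q s
    · have hrA : AllLt τ q r := by rw [hk]; exact hA.pow k
      have hrc : ClosedRoot τ q r := hr.resolve_right (fun h => h.not_allLt hrA)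
      have hsc : ClosedRoot τ q s := hs.resolve_right (fun h => h.not_allLt hA)
      have h1 : s ≤ r := by rw [hk]; exact (hsc k).2
      obtain ⟨n, hn⟩ := pow_back τ k s
      have h2 : r ≤ s := by
        have := (hrc n).2
        rw [hk, hn] at this
        rw [hk]
        exact this
      have h3 : (τ ^ k) s = s := by rw [← hk]; exact le_antisymm h2 h1
      have h4 := minPer_le hk0 h3
      rw [clen_of_allLt hA] at hb
      omega
    · have h1 : ((τ ^ (k - 1)) s : ℕ) < q := by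
        rw [pow_lt_iff hA (by omega)]
        omega
      have h2 : τ⁻¹ r = (τ ^ (k - 1)) s := by
        rw [hk]
        obtain ⟨k', rfl⟩ := Nat.exists_eq_add_of_le' hk0
        rw [Nat.add_sub_cancel, pow_succ', Equiv.Perm.mul_apply, pinv_apply]
      have hrc : ClosedRoot τ q r := hr.resolve_right (fun h => h.2 (by rw [h2]; exact h1))
      have h3 : AllLt τ q r := hrc.allLt
      rw [hk] at h3
      exact hA h3.of_pow

theorem root_unique {r s : Fin N} (hr : ClosedRoot τ q r ∨ OpenRoot τ q r)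
    (hs : ClosedRoot τ q s ∨ OpenRoot τ q s) {a b : ℕ} (ha : a < clen τ q r)
    (hb : b < clen τ q s) (h : (τ ^ a) r = (τ ^ b) s) : r = s ∧ a = b := by
  rcases le_total a b with hab | hab
  · exact root_unique_aux hr hs hab hb h
  · obtain ⟨h1, h2⟩ := root_unique_aux hs hr hab ha h.symm
    exact ⟨h1.symm, h2.symm⟩

theorem exists_root {i : Fin N} (hi : (i : ℕ) < q) :
    ∃ r : Fin N, (ClosedRoot τ q r ∨ OpenRoot τ q r) ∧ ∃ a, a < clen τ q r ∧ (τ ^ a) r = i := by
  classical
  by_cases hA : AllLt τ q i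
  · obtain ⟨r, ⟨k, hk⟩, hmin⟩ := WellFounded.has_min (wellFounded_lt (α := Fin N))
      (Set.range (fun k : ℕ => (τ ^ k) i)) ⟨_, 0, rfl⟩
    have hk' : (τ ^ k) i = r := hk
    have hrA : AllLt τ q r := by rw [← hk']; exact hA.pow k
    refine ⟨r, Or.inl ?_, ?_⟩
    · intro m
      refine ⟨hrA m, not_lt.1 (hmin _ ⟨m + k, ?_⟩)⟩
      change (τ ^ (m + k)) i = (τ ^ m) r
      rw [pow_add, Equiv.Perm.mul_apply, hk']
    · obtain ⟨n, hn⟩ := pow_back τ k i
      rw [hk'] at hn
      refine ⟨n % Function.minimalPeriod τ r, ?_, ?_⟩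
      · rw [clen_of_allLt hrA]
        exact Nat.mod_lt _ (minPer_pos τ r)
      · rw [pow_mod_minPer, hn]
  · have hex : ∃ k : ℕ, ¬ (((τ⁻¹ ^ (k + 1)) i : Fin N) : ℕ) < q := by
      by_contra hcon
      push Not at hcon
      apply hA
      intro m
      have h1 : 1 ≤ orderOf τ := orderOf_pos τ
      have h2 : m + 1 ≤ orderOf τ * (m + 1) := Nat.le_mul_of_pos_left _ h1
      have h3 : τ ^ m = τ⁻¹ ^ (orderOf τ * (m + 1) - m) := by
        rw [eq_comm, inv_pow, inv_eq_iff_mul_eq_one, ← pow_add,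
          Nat.sub_add_cancel (by omega), pow_mul, pow_orderOf_eq_one, one_pow]
      rw [h3]
      obtain ⟨c, hc⟩ := Nat.exists_eq_add_of_le' (show 1 ≤ orderOf τ * (m + 1) - m by omega)
      rw [hc]
      exact hcon c
    obtain ⟨k, hkd⟩ : ∃ k, k = Nat.find hex := ⟨_, rfl⟩
    have hk := Nat.find_spec hex
    rw [← hkd] at hk
    have hlt : ∀ m ≤ k, (((τ⁻¹ ^ m) i : Fin N) : ℕ) < q := by
      intro m hm
      rcases Nat.eq_zero_or_pos m with rfl | hm0
      · simpa using hi
      · obtain ⟨m', rfl⟩ := Nat.exists_eq_add_of_le' hm0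
        have := Nat.find_min hex (m := m') (by omega)
        exact not_not.1 this
    have hopen : OpenRoot τ q ((τ⁻¹ ^ k) i) := by
      refine ⟨hlt k le_rfl, ?_⟩
      rw [pow_succ', Equiv.Perm.mul_apply] at hk
      exact hk
    have hback : ∀ m ≤ k, (τ ^ m) ((τ⁻¹ ^ k) i) = (τ⁻¹ ^ (k - m)) i := by
      intro m hm
      have h1 : τ⁻¹ ^ k = τ⁻¹ ^ m * τ⁻¹ ^ (k - m) := by rw [← pow_add]; congr 1; omega
      rw [h1, Equiv.Perm.mul_apply, ← Equiv.Perm.mul_apply, inv_pow, mul_inv_cancel,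
        Equiv.Perm.one_apply]
    refine ⟨(τ⁻¹ ^ k) i, Or.inr hopen, k, ?_, ?_⟩
    · have := lt_clen hopen.not_allLt (k := k) (fun m hm => by
        rw [hback m hm]; exact hlt _ (Nat.sub_le _ _))
      omega
    · rw [hback k le_rfl, Nat.sub_self, pow_zero, Equiv.Perm.one_apply]

end Iter

/-! ### The shape -/

section MkShape

variable {N : ℕ} (τ : Equiv.Perm (Fin N)) (q : ℕ)

open scoped Classical in
/-- set of the roots -/
noncomputable def rootSet : Finset (Fin N) :=
  Finset.univ.filter (fun i => ClosedRoot τ q i ∨ OpenRoot τ q i)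

/-- the `j`-th root -/
noncomputable def rt (j : Fin (rootSet τ q).card) : Fin N := ((rootSet τ q).equivFin.symm j : Fin N)

open scoped Classical in
theorem mem_rootSet {i : Fin N} : i ∈ rootSet τ q ↔ (ClosedRoot τ q i ∨ OpenRoot τ q i) := by
  unfold rootSet
  rw [Finset.mem_filter]
  exact and_iff_right (Finset.mem_univ _)

theorem rt_mem (j : Fin (rootSet τ q).card) :
    ClosedRoot τ q (rt τ q j) ∨ OpenRoot τ q (rt τ q j) :=
  (mem_rootSet τ q).1 ((rootSet τ q).equivFin.symm j).2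

theorem rt_inj : Function.Injective (rt τ q) := by
  intro a b h
  exact (rootSet τ q).equivFin.symm.injective (Subtype.ext h)

theorem rt_surj {r : Fin N} (hr : ClosedRoot τ q r ∨ OpenRoot τ q r) : ∃ j, rt τ q j = r := by
  refine ⟨(rootSet τ q).equivFin ⟨r, (mem_rootSet τ q).2 hr⟩, ?_⟩
  unfold rt
  rw [Equiv.symm_apply_apply]

open scoped Classical in
/-- the shape of `(τ, [q])` -/
noncomputable def mkShape : Shape where
  m := (rootSet τ q).card
  len j := clen τ q (rt τ q j)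
  len_pos _ := clen_pos τ q _
  closed j := decide (AllLt τ q (rt τ q j))

open scoped Classical in
theorem mkShape_closed (j : Fin (mkShape τ q).m) :
    (mkShape τ q).closed j = true ↔ AllLt τ q (rt τ q j) := by
  change decide (AllLt τ q (rt τ q j)) = true ↔ _
  rw [decide_eq_true_eq]

/-- labelling of the shape -/
noncomputable def mkLab (a : (mkShape τ q).Lab) : Fin N := (τ ^ (a.2 : ℕ)) (rt τ q a.1)

theorem mkLab_inj : Function.Injective (mkLab τ q) := by
  rintro ⟨j, a⟩ ⟨j', b⟩ h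
  have h1 : (τ ^ (a : ℕ)) (rt τ q j) = (τ ^ (b : ℕ)) (rt τ q j') := h
  obtain ⟨h2, h3⟩ := root_unique (rt_mem τ q j) (rt_mem τ q j') a.2 b.2 h1
  have h4 := rt_inj τ q h2
  subst h4
  have h5 : a = b := Fin.ext h3
  rw [h5]

variable {τ q}

theorem mkLab_edge (a : (mkShape τ q).Lab) :
    (mkShape τ q).edge a ↔ ((mkLab τ q a : Fin N) : ℕ) < q := by
  unfold Shape.edge mkLab
  rw [mkShape_closed]
  change ((a.2 : ℕ) + 1 < clen τ q (rt τ q a.1) ∨ AllLt τ q (rt τ q a.1)) ↔ _
  by_cases hA : AllLt τ q (rt τ q a.1)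
  · simp only [hA, or_true, true_iff]
    exact hA _
  · simp only [hA, or_false]
    exact (pow_lt_iff hA a.2.2).symm

theorem mkLab_next (a : (mkShape τ q).Lab) (ha : (mkShape τ q).edge a) :
    τ (mkLab τ q a) = mkLab τ q ((mkShape τ q).next a) := by
  unfold mkLab Shape.next
  change τ ((τ ^ (a.2 : ℕ)) (rt τ q a.1)) =
    (τ ^ (((a.2 : ℕ) + 1) % clen τ q (rt τ q a.1))) (rt τ q a.1)
  rw [← Equiv.Perm.mul_apply, ← pow_succ']
  by_cases hA : AllLt τ q (rt τ q a.1)
  · rw [clen_of_allLt hA, pow_mod_minPer]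
  · have h1 : (a.2 : ℕ) + 1 < clen τ q (rt τ q a.1) := by
      rcases ha with h | h
      · exact h
      · exact absurd ((mkShape_closed τ q _).1 h) hA
    rw [Nat.mod_eq_of_lt h1]

theorem mkLab_surj {i : Fin N} (hi : (i : ℕ) < q) : ∃ a, mkLab τ q a = i := by
  obtain ⟨r, hr, a, ha, h⟩ := exists_root (τ := τ) hi
  obtain ⟨j, hj⟩ := rt_surj τ q hr
  subst hj
  exact ⟨⟨j, ⟨a, ha⟩⟩, h⟩

theorem mkShape_closed_iff (j : Fin (mkShape τ q).m) :
    (mkShape τ q).closed j = true ↔ ClosedRoot τ q (rt τ q j) := by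
  rw [mkShape_closed]
  constructor
  · intro h
    exact (rt_mem τ q j).resolve_right (fun h' => h'.not_allLt h)
  · exact fun h => h.allLt

theorem mkShape_card_closed :
    (Finset.univ.filter (fun j => (mkShape τ q).closed j = true)).card = cyc q τ := by
  classical
  unfold cyc
  refine Finset.card_bij (fun j _ => rt τ q j) ?_ ?_ ?_
  · intro j hj
    rw [Finset.mem_filter] at hj ⊢
    exact ⟨Finset.mem_univ _, (mkShape_closed_iff j).1 hj.2⟩
  · intro j _ j' _ h
    exact rt_inj τ q h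
  · intro r hr
    rw [Finset.mem_filter] at hr
    obtain ⟨j, hj⟩ := rt_surj τ q (Or.inl hr.2)
    refine ⟨j, ?_, hj⟩
    have h1 : (mkShape τ q).closed j = true := by
      refine (mkShape_closed_iff j).2 ?_
      rw [hj]
      exact hr.2
    exact Finset.mem_filter.2 ⟨Finset.mem_univ _, h1⟩

theorem mkShape_two_le (j : Fin (mkShape τ q).m) (h : (mkShape τ q).closed j = false) :
    2 ≤ (mkShape τ q).len j := by
  have h1 : ¬ AllLt τ q (rt τ q j) := by
    intro h2
    rw [(mkShape_closed τ q j).2 h2] at h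
    exact Bool.noConfusion h
  have h2 := (rt_mem τ q j).resolve_left (fun h' => h1 h'.allLt)
  exact two_le_clen h1 h2.1

theorem card_edge_eq {S : Shape} {e : S.Lab ↪ Fin N} (hq : q ≤ N)
    (h1 : ∀ a : S.Lab, S.edge a ↔ ((e a : ℕ) < q))
    (h3 : ∀ i : Fin N, (i : ℕ) < q → ∃ a, e a = i) :
    (Finset.univ.filter (fun a : S.Lab => S.edge a)).card = q := by
  have h : (Finset.univ.filter (fun i : Fin N => (i : ℕ) < q)).card = q := by
    rw [Fin.card_filter_val_lt]
    exact min_eq_right hq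
  refine Eq.trans ?_ h
  refine Finset.card_bij (fun a _ => e a) ?_ ?_ ?_
  · intro a ha
    rw [Finset.mem_filter] at ha ⊢
    exact ⟨Finset.mem_univ _, (h1 a).1 ha.2⟩
  · intro a _ b _ h
    exact e.injective h
  · intro i hi
    rw [Finset.mem_filter] at hi
    obtain ⟨a, ha⟩ := h3 i hi.2
    refine ⟨a, ?_, ha⟩
    rw [Finset.mem_filter]
    refine ⟨Finset.mem_univ _, (h1 a).2 ?_⟩
    rw [ha]
    exact hi.2

theorem card_not_edge_eq (S : Shape) :
    (Finset.univ.filter (fun a : S.Lab => ¬ S.edge a)).card =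
      (Finset.univ.filter (fun j => S.closed j = false)).card := by
  refine Finset.card_bij (fun a _ => a.1) ?_ ?_ ?_
  · intro a ha
    rw [Finset.mem_filter] at ha ⊢
    have := ha.2
    unfold Shape.edge at this
    push Not at this
    exact ⟨Finset.mem_univ _, by simpa using this.2⟩
  · rintro ⟨j, a⟩ ha ⟨j', b⟩ hb h
    have h' : j = j' := h
    subst h'
    rw [Finset.mem_filter] at ha hb
    have ha := ha.2
    have hb := hb.2
    unfold Shape.edge at ha hb
    push Not at ha hb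
    have ha1 : S.len j ≤ (a : ℕ) + 1 := ha.1
    have hb1 : S.len j ≤ (b : ℕ) + 1 := hb.1
    have := a.2
    have := b.2
    have h5 : a = b := Fin.ext (by omega)
    rw [h5]
  · intro j hj
    rw [Finset.mem_filter] at hj
    have hl := S.len_pos j
    refine ⟨⟨j, ⟨S.len j - 1, by omega⟩⟩, ?_, rfl⟩
    rw [Finset.mem_filter]
    refine ⟨Finset.mem_univ _, ?_⟩
    unfold Shape.edge
    push Not
    refine ⟨?_, ?_⟩
    · change S.len j ≤ S.len j - 1 + 1
      omega
    · change S.closed j ≠ true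
      rw [hj.2]
      simp

theorem exists_shape' {N : ℕ} (τ : Equiv.Perm (Fin N)) (q : ℕ) (hq : q ≤ N) :
    ∃ (S : Shape) (e : S.Lab ↪ Fin N),
      (∀ a : S.Lab, S.edge a ↔ ((e a : ℕ) < q)) ∧
      (∀ a : S.Lab, S.edge a → τ (e a) = e (S.next a)) ∧
      (∀ i : Fin N, (i : ℕ) < q → ∃ a, e a = i) ∧
      (Finset.univ.filter (fun j => S.closed j = true)).card = cyc q τ ∧
      Fintype.card S.Lab = q + (Finset.univ.filter (fun j => S.closed j = false)).card ∧
      (∀ j, S.closed j = false → 2 ≤ S.len j) := by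
  refine ⟨mkShape τ q, ⟨mkLab τ q, mkLab_inj τ q⟩, mkLab_edge, mkLab_next, fun i hi =>
    mkLab_surj hi, mkShape_card_closed, ?_, mkShape_two_le⟩
  have h1 := card_edge_eq (e := ⟨mkLab τ q, mkLab_inj τ q⟩) hq mkLab_edge
    (fun i hi => mkLab_surj hi)
  have h2 := card_not_edge_eq (mkShape τ q)
  rw [← h2]
  have h3 := Finset.card_filter_add_card_filter_not (s := (Finset.univ : Finset (mkShape τ q).Lab))
    (fun a : (mkShape τ q).Lab => (mkShape τ q).edge a)
  rw [h1] at h3
  rw [h3]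
  rfl

/-- C6b: every permutation `τ` and `q ≤ N` have a shape: the labels are `[q] ∪ τ [q]`. -/
theorem exists_shape {N : ℕ} (τ : Equiv.Perm (Fin N)) (q : ℕ) (hq : q ≤ N) :
    ∃ (S : Shape) (e : S.Lab ↪ Fin N),
      (∀ a : S.Lab, S.edge a ↔ ((e a : ℕ) < q)) ∧
      (∀ a : S.Lab, S.edge a → τ (e a) = e (S.next a)) ∧
      (∀ i : Fin N, (i : ℕ) < q → ∃ a, e a = i) ∧
      (Finset.univ.filter (fun j => S.closed j = true)).card = cyc q τ ∧
      Fintype.card S.Lab = q + (Finset.univ.filter (fun j => S.closed j = false)).card := by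
  obtain ⟨S, e, h1, h2, h3, h4, h5, _⟩ := exists_shape' τ q hq
  exact ⟨S, e, h1, h2, h3, h4, h5⟩

end MkShape

/-! ### Averages over permutations and embeddings -/

section PermAvg

variable {N : ℕ} {L : Type*} [Fintype L] [DecidableEq L]

omit [DecidableEq L] in
theorem exists_perm_extend (e y : L ↪ Fin N) : ∃ h : Equiv.Perm (Fin N), ∀ a, h (e a) = y a := by
  classical
  let f : {x // x ∈ Set.range e} ≃ {x // x ∈ Set.range y} :=
    (Equiv.ofInjective e e.injective).symm.trans (Equiv.ofInjective y y.injective)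
  refine ⟨f.extendSubtype, fun a => ?_⟩
  rw [Equiv.extendSubtype_apply_of_mem f (e a) ⟨a, rfl⟩]
  change ((Equiv.ofInjective y y.injective)
    ((Equiv.ofInjective e e.injective).symm ⟨e a, ⟨a, rfl⟩⟩) : Fin N) = y a
  rw [Equiv.ofInjective_symm_apply]
  rfl

theorem card_mul_sum_perm (e : L ↪ Fin N) (G : (L → Fin N) → ℝ) :
    (Fintype.card (L ↪ Fin N) : ℝ) * ∑ x : Equiv.Perm (Fin N), G (fun a => x (e a)) =
      (N.factorial : ℝ) * ∑ y : L ↪ Fin N, G y := by
  have h1 : ∀ y : L ↪ Fin N, ∑ g : Equiv.Perm (Fin N), G (fun a => g (y a)) =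
      ∑ g : Equiv.Perm (Fin N), G (fun a => g (e a)) := by
    intro y
    obtain ⟨h, hh⟩ := exists_perm_extend e y
    rw [← Equiv.sum_comp (Equiv.mulRight h) (fun g => G (fun a => g (e a)))]
    refine Finset.sum_congr rfl fun g _ => ?_
    congr 1
    funext a
    change g (y a) = (g * h) (e a)
    rw [Equiv.Perm.mul_apply, hh]
  have h2 : ∀ g : Equiv.Perm (Fin N), ∑ y : L ↪ Fin N, G (fun a => g (y a)) =
      ∑ y : L ↪ Fin N, G y := by
    intro g
    rw [← Equiv.sum_comp (Equiv.embeddingCongr (Equiv.refl L) g)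
      (fun y : L ↪ Fin N => G (y : L → Fin N))]
    refine Finset.sum_congr rfl fun y _ => ?_
    rfl
  have h3 : ∑ y : L ↪ Fin N, ∑ g : Equiv.Perm (Fin N), G (fun a => g (y a)) =
      ∑ g : Equiv.Perm (Fin N), ∑ y : L ↪ Fin N, G (fun a => g (y a)) := Finset.sum_comm
  rw [Finset.sum_congr rfl (fun y _ => h1 y), Finset.sum_congr rfl (fun g _ => h2 g),
    Finset.sum_const, Finset.sum_const, nsmul_eq_mul, nsmul_eq_mul, Finset.card_univ,
    Finset.card_univ, Fintype.card_perm, Fintype.card_fin] at h3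
  exact h3

end PermAvg

/-! ### The bounds -/

/-- statement of C6a -/
def BlockBound {N : ℕ} (ν : Equiv.Perm (Fin N) → ℝ) (b l g : ℕ) : Prop :=
  ∀ (w : Equiv.Perm (Fin N)) (S : Shape) (cs : ℕ)
    (_ : cs = (Finset.univ.filter (fun j => S.closed j = true ∧ S.len j ≤ 2 ^ l)).card),
    ∑ x : S.Lab ↪ Fin N, evP ν (S.cons w x) ≤
      2 * (2 ^ l * ((N : ℝ) / 2 ^ g + b)) ^ cs * (N : ℝ) ^ (S.m - cs)

section Bounds

variable {N : ℕ} {ν : Equiv.Perm (Fin N) → ℝ} {b l g : ℕ}

/-- number of long closed components -/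
theorem card_long (S : Shape) (q : ℕ)
    (h : (Finset.univ.filter (fun a : S.Lab => S.edge a)).card = q) :
    (Finset.univ.filter (fun j => S.closed j = true ∧ ¬ S.len j ≤ 2 ^ l)).card ≤ q / 2 ^ l := by
  classical
  rw [Nat.le_div_iff_mul_le (by positivity), ← h]
  set T := Finset.univ.filter (fun j => S.closed j = true ∧ ¬ S.len j ≤ 2 ^ l) with hT
  have h1 : (T.sigma (fun j => (Finset.univ : Finset (Fin (S.len j))))).card =
      ∑ j ∈ T, S.len j := by
    rw [Finset.card_sigma]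
    exact Finset.sum_congr rfl fun j _ => by rw [Finset.card_univ, Fintype.card_fin]
  have h2 : T.card * 2 ^ l ≤ ∑ j ∈ T, S.len j := by
    rw [← smul_eq_mul, ← Finset.sum_const]
    refine Finset.sum_le_sum fun j hj => ?_
    rw [hT, Finset.mem_filter] at hj
    exact (not_le.1 hj.2.2).le
  refine h2.trans ?_
  rw [← h1]
  refine Finset.card_le_card ?_
  intro a ha
  rw [Finset.mem_sigma] at ha
  have ha1 := ha.1
  rw [hT, Finset.mem_filter] at ha1
  rw [Finset.mem_filter]
  exact ⟨Finset.mem_univ _, Or.inr ha1.2.1⟩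

theorem card_comp (S : Shape) :
    S.m = (Finset.univ.filter (fun j => S.closed j = true ∧ S.len j ≤ 2 ^ l)).card +
      (Finset.univ.filter (fun j => S.closed j = true ∧ ¬ S.len j ≤ 2 ^ l)).card +
      (Finset.univ.filter (fun j => S.closed j = false)).card := by
  classical
  have h1 := Finset.card_filter_add_card_filter_not (s := (Finset.univ : Finset (Fin S.m)))
    (fun j => S.closed j = true)
  have h2 := Finset.card_filter_add_card_filter_not
    (s := Finset.univ.filter (fun j : Fin S.m => S.closed j = true))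
    (fun j => S.len j ≤ 2 ^ l)
  rw [Finset.filter_filter, Finset.filter_filter] at h2
  rw [h2]
  rw [Finset.card_univ, Fintype.card_fin] at h1
  have h3 : (Finset.univ.filter (fun j => ¬ S.closed j = true)) =
      (Finset.univ.filter (fun j => S.closed j = false)) := by
    ext j; simp
  rw [← h3, h1]

theorem cons_eq_image (S : Shape) (e : S.Lab ↪ Fin N) (τ w x : Equiv.Perm (Fin N)) (q : ℕ)
    (h1 : ∀ a : S.Lab, S.edge a ↔ ((e a : ℕ) < q))
    (h2 : ∀ a : S.Lab, S.edge a → τ (e a) = e (S.next a))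
    (h3 : ∀ i : Fin N, (i : ℕ) < q → ∃ a, e a = i) :
    (Finset.univ.filter (fun i : Fin N => (i : ℕ) < q)).image (fun i => (x (τ i), w (x i))) =
      S.cons w (fun a => x (e a)) := by
  unfold Shape.cons
  ext p
  simp only [Finset.mem_image, Finset.mem_filter, Finset.mem_univ, true_and]
  constructor
  · rintro ⟨i, hi, rfl⟩
    obtain ⟨a, rfl⟩ := h3 i hi
    refine ⟨a, (h1 a).2 hi, ?_⟩
    rw [h2 a ((h1 a).2 hi)]
  · rintro ⟨a, ha, rfl⟩
    refine ⟨e a, (h1 a).1 ha, ?_⟩
    rw [h2 a ha]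

/-- common part of the two bounds -/
theorem block_shape_le (hB : BlockBound ν b l g)
    (hW : (1 : ℝ) ≤ 2 ^ l * ((N : ℝ) / 2 ^ g + b)) (w : Equiv.Perm (Fin N)) (S : Shape)
    (q C : ℕ) (hq : q ≤ N) (h : (Finset.univ.filter (fun a : S.Lab => S.edge a)).card = q)
    (hC : (Finset.univ.filter (fun j => S.closed j = true)).card = C) :
    ∑ x : S.Lab ↪ Fin N, evP ν (S.cons w x) ≤
      2 * (2 ^ l * ((N : ℝ) / 2 ^ g + b)) ^ C * (N : ℝ) ^ (q / 2 ^ l) *
        (N : ℝ) ^ (Finset.univ.filter (fun j => S.closed j = false)).card := by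
  classical
  have h1 := hB w S _ rfl
  have h2 := card_comp (l := l) S
  have h3 := card_long (l := l) S q h
  set cs := (Finset.univ.filter (fun j => S.closed j = true ∧ S.len j ≤ 2 ^ l)).card with hcs
  set lg := (Finset.univ.filter (fun j => S.closed j = true ∧ ¬ S.len j ≤ 2 ^ l)).card with hlg
  set op := (Finset.univ.filter (fun j => S.closed j = false)).card with hop
  have h4 : S.m - cs = lg + op := by omega
  have h5 : cs ≤ C := by
    rw [hcs, ← hC]
    refine Finset.card_le_card fun j hj => ?_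
    rw [Finset.mem_filter] at hj ⊢
    exact ⟨hj.1, hj.2.1⟩
  refine h1.trans ?_
  rw [h4, pow_add, ← mul_assoc]
  have hN0 : (0 : ℝ) ≤ N := Nat.cast_nonneg _
  have h6 : (N : ℝ) ^ lg ≤ (N : ℝ) ^ (q / 2 ^ l) := by
    rcases Nat.eq_zero_or_pos N with h0 | h0
    · have hq0 : q = 0 := by omega
      have hl0 : lg = 0 := by
        rw [hq0, Nat.zero_div] at h3
        omega
      rw [hl0, hq0, Nat.zero_div]
    · exact pow_le_pow_right₀ (by exact_mod_cast h0) h3
  have h7 : (2 ^ l * ((N : ℝ) / 2 ^ g + b)) ^ cs ≤ (2 ^ l * ((N : ℝ) / 2 ^ g + b)) ^ C :=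
    pow_le_pow_right₀ hW h5
  have hW0 : (0 : ℝ) ≤ 2 ^ l * ((N : ℝ) / 2 ^ g + b) := zero_le_one.trans hW
  refine mul_le_mul_of_nonneg_right ?_ (pow_nonneg hN0 _)
  refine mul_le_mul ?_ h6 (pow_nonneg hN0 _) (mul_nonneg zero_le_two (pow_nonneg hW0 _))
  exact mul_le_mul_of_nonneg_left h7 zero_le_two

theorem cycle_bound_full_of (hB : BlockBound ν b l g)
    (hW : (1 : ℝ) ≤ 2 ^ l * ((N : ℝ) / 2 ^ g + b)) (w τ : Equiv.Perm (Fin N)) :
    ∑ x : Equiv.Perm (Fin N), evP ν (Finset.univ.image (fun i => (x (τ i), w (x i)))) ≤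
      2 * (2 ^ l * ((N : ℝ) / 2 ^ g + b)) ^ cyc N τ * (N : ℝ) ^ (N / 2 ^ l) := by
  classical
  obtain ⟨S, e, h1, h2, h3, h4, h5, h6⟩ := exists_shape' τ N le_rfl
  have hE := card_edge_eq le_rfl h1 h3
  have hop : (Finset.univ.filter (fun j => S.closed j = false)).card = 0 := by
    have ha := card_not_edge_eq S
    rw [← ha, Finset.card_eq_zero, Finset.filter_eq_empty_iff]
    intro a _ hna
    exact hna ((h1 a).2 (e a).2)
  have hL : Fintype.card S.Lab = N := by rw [h5, hop, add_zero]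
  have hmain := block_shape_le hB hW w S N (cyc N τ) le_rfl hE h4
  rw [hop, pow_zero, mul_one] at hmain
  refine le_of_eq_of_le ?_ hmain
  have hc := card_mul_sum_perm e (fun y => evP ν (S.cons w y))
  rw [Fintype.card_embedding_eq, Fintype.card_fin, hL, Nat.descFactorial_self] at hc
  have hf : (N.factorial : ℝ) ≠ 0 := by exact_mod_cast N.factorial_ne_zero
  rw [← mul_left_cancel₀ hf hc]
  refine Finset.sum_congr rfl fun x _ => ?_
  rw [← cons_eq_image S e τ w x N h1 h2 h3]
  congr 2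
  ext i
  simp

theorem pow_mul_descFactorial_le {N q p : ℕ} (hq : 4 * q ≤ N) (hp : p ≤ q) :
    (N : ℝ) ^ p * (N.descFactorial q : ℝ) ≤
      (N.descFactorial (q + p) : ℝ) * Real.exp (4 * q ^ 2 / N) := by
  rcases Nat.eq_zero_or_pos q with h0 | h0
  · subst h0
    have : p = 0 := by omega
    subst this
    simp
  have hN : 0 < N := by omega
  have hNr : (0 : ℝ) < N := by exact_mod_cast hN
  have hqN : (4 : ℝ) * q ≤ N := by exact_mod_cast hq
  have hpq : (p : ℝ) ≤ q := by exact_mod_cast hp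
  have hq0 : (0 : ℝ) ≤ q := Nat.cast_nonneg _
  have h1 : (N.descFactorial (q + p) : ℝ) =
      ((N - q).descFactorial p : ℝ) * (N.descFactorial q : ℝ) := by
    have := Nat.descFactorial_mul_descFactorial (k := q) (m := q + p) (n := N) (by omega)
    rw [Nat.add_sub_cancel_left] at this
    exact_mod_cast this.symm
  have h2 : ((N : ℝ) - 2 * q) ^ p ≤ ((N - q).descFactorial p : ℝ) := by
    have h3 := Nat.pow_sub_le_descFactorial (N - q) p
    have h4 : N - 2 * q ≤ N - q + 1 - p := by omega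
    have h5 : (N - 2 * q) ^ p ≤ (N - q).descFactorial p := (Nat.pow_le_pow_left h4 p).trans h3
    have h6 : (((N - 2 * q : ℕ) : ℝ)) = (N : ℝ) - 2 * q := by
      rw [Nat.cast_sub (by omega)]
      push_cast
      ring
    rw [← h6]
    exact_mod_cast h5
  have h3 : (N : ℝ) ≤ (1 + 4 * q / N) * (N - 2 * q) := by
    have e : (1 + 4 * (q : ℝ) / N) * (N - 2 * q) = N + (2 * q * (N - 4 * q)) / N := by
      field_simp
      ring
    rw [e]
    have : 0 ≤ (2 * q * ((N : ℝ) - 4 * q)) / N :=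
      div_nonneg (mul_nonneg (by positivity) (by linarith)) hNr.le
    linarith
  have h4 : (N : ℝ) ^ p ≤ (1 + 4 * q / N) ^ p * (N - 2 * q) ^ p := by
    rw [← mul_pow]
    exact pow_le_pow_left₀ hNr.le h3 p
  have h5 : (1 + 4 * (q : ℝ) / N) ^ p ≤ Real.exp (4 * q ^ 2 / N) := by
    have h6 : (1 + 4 * (q : ℝ) / N) ≤ Real.exp (4 * q / N) := by
      have := Real.add_one_le_exp (4 * (q : ℝ) / N)
      linarith
    have h7 : (0 : ℝ) ≤ 1 + 4 * (q : ℝ) / N := by positivity
    refine (pow_le_pow_left₀ h7 h6 p).trans ?_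
    rw [← Real.exp_nat_mul]
    apply Real.exp_le_exp.2
    have e : 4 * (q : ℝ) ^ 2 / N = q * (4 * q / N) := by ring
    rw [e]
    exact mul_le_mul_of_nonneg_right hpq (by positivity)
  have h8 : (0 : ℝ) ≤ (N : ℝ) - 2 * q := by linarith
  rw [h1]
  calc (N : ℝ) ^ p * (N.descFactorial q : ℝ)
      ≤ ((1 + 4 * q / N) ^ p * (N - 2 * q) ^ p) * (N.descFactorial q : ℝ) :=
        mul_le_mul_of_nonneg_right h4 (Nat.cast_nonneg _)
    _ ≤ (Real.exp (4 * q ^ 2 / N) * ((N - q).descFactorial p : ℝ)) * (N.descFactorial q : ℝ) := by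
        refine mul_le_mul_of_nonneg_right ?_ (Nat.cast_nonneg _)
        exact mul_le_mul h5 h2 (pow_nonneg h8 _) (Real.exp_pos _).le
    _ = ((N - q).descFactorial p : ℝ) * (N.descFactorial q : ℝ) * Real.exp (4 * q ^ 2 / N) := by
        ring

theorem cycle_bound_part_of (hB : BlockBound ν b l g)
    (hW : (1 : ℝ) ≤ 2 ^ l * ((N : ℝ) / 2 ^ g + b)) (w τ : Equiv.Perm (Fin N))
    (q : ℕ) (hq : 4 * q ≤ N) :
    (N.descFactorial q : ℝ) * 𝔼 x : Equiv.Perm (Fin N),
        evP ν ((Finset.univ.filter (fun i : Fin N => (i : ℕ) < q)).image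
          (fun i => (x (τ i), w (x i)))) ≤
      2 * (2 ^ l * ((N : ℝ) / 2 ^ g + b)) ^ cyc q τ * (N : ℝ) ^ (q / 2 ^ l) *
        Real.exp (4 * q ^ 2 / N) := by
  classical
  have hqN : q ≤ N := by omega
  obtain ⟨S, e, h1, h2, h3, h4, h5, h6⟩ := exists_shape' τ q hqN
  have hE := card_edge_eq hqN h1 h3
  have hmain := block_shape_le hB hW w S q (cyc q τ) hqN hE h4
  set op := (Finset.univ.filter (fun j => S.closed j = false)).card with hop
  have hopq : op ≤ q := by
    rw [← hE]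
    refine Finset.card_le_card_of_injOn (fun j => (⟨j, ⟨0, S.len_pos j⟩⟩ : S.Lab)) ?_ ?_
    · intro j hj
      have hj' := (Finset.mem_filter.1 hj).2
      have := h6 j hj'
      refine Finset.mem_coe.2 (Finset.mem_filter.2 ⟨Finset.mem_univ _, Or.inl ?_⟩)
      change 0 + 1 < S.len j
      omega
    · intro j _ j' _ h
      exact (Sigma.mk.inj h).1
  have hLN : q + op ≤ N := by
    rw [← h5]
    have := Fintype.card_le_of_embedding e
    rwa [Fintype.card_fin] at this
  have hc := card_mul_sum_perm e (fun y => evP ν (S.cons w y))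
  rw [Fintype.card_embedding_eq, Fintype.card_fin, h5] at hc
  have hsum : ∑ x : Equiv.Perm (Fin N),
      evP ν ((Finset.univ.filter (fun i : Fin N => (i : ℕ) < q)).image
        (fun i => (x (τ i), w (x i)))) =
      ∑ x : Equiv.Perm (Fin N), evP ν (S.cons w (fun a => x (e a))) := by
    refine Finset.sum_congr rfl fun x _ => ?_
    rw [← cons_eq_image S e τ w x q h1 h2 h3]
  have hf : (0 : ℝ) < (N.factorial : ℝ) := by exact_mod_cast N.factorial_pos
  have hd : (0 : ℝ) < (N.descFactorial (q + op) : ℝ) := by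
    exact_mod_cast Nat.descFactorial_pos.2 hLN
  rw [Fintype.expect_eq_sum_div_card, hsum, Fintype.card_perm, Fintype.card_fin]
  have hkey : (∑ x : Equiv.Perm (Fin N), evP ν (S.cons w (fun a => x (e a)))) / (N.factorial : ℝ) =
      (∑ y : S.Lab ↪ Fin N, evP ν (S.cons w y)) / (N.descFactorial (q + op) : ℝ) := by
    rw [div_eq_div_iff hf.ne' hd.ne', mul_comm, hc, mul_comm]
  rw [hkey, ← mul_div_assoc, div_le_iff₀ hd]
  have hb := pow_mul_descFactorial_le hq hopq
  have hW0 : (0 : ℝ) ≤ 2 ^ l * ((N : ℝ) / 2 ^ g + b) := zero_le_one.trans hW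
  have hN0 : (0 : ℝ) ≤ N := Nat.cast_nonneg _
  calc (N.descFactorial q : ℝ) * ∑ y : S.Lab ↪ Fin N, evP ν (S.cons w y)
      ≤ (N.descFactorial q : ℝ) * (2 * (2 ^ l * ((N : ℝ) / 2 ^ g + b)) ^ cyc q τ *
          (N : ℝ) ^ (q / 2 ^ l) * (N : ℝ) ^ op) :=
        mul_le_mul_of_nonneg_left hmain (Nat.cast_nonneg _)
    _ = (2 * (2 ^ l * ((N : ℝ) / 2 ^ g + b)) ^ cyc q τ * (N : ℝ) ^ (q / 2 ^ l)) *
          ((N : ℝ) ^ op * (N.descFactorial q : ℝ)) := by ring
    _ ≤ (2 * (2 ^ l * ((N : ℝ) / 2 ^ g + b)) ^ cyc q τ * (N : ℝ) ^ (q / 2 ^ l)) *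
          ((N.descFactorial (q + op) : ℝ) * Real.exp (4 * q ^ 2 / N)) := by
        refine mul_le_mul_of_nonneg_left hb ?_
        exact mul_nonneg (mul_nonneg zero_le_two (pow_nonneg hW0 _)) (pow_nonneg hN0 _)
    _ = _ := by ring

end Bounds

end Crest.Agent.Thorp
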