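import Crest.Agent.Lib.Row155.CycleBound
import Crest.Agent.Lib.Row155.BlockBound
/-!
Row 155 (Thorp shuffle), chunk C6b: the cycle bounds.
-/
set_option autoImplicit false
open Finset
open scoped BigOperators

namespace Crest.Agent.Thorp

theorem cycle_bound_full {N : ℕ} {ν : Equiv.Perm (Fin N) → ℝ} {κ : Fin N → Fin N → ℕ}
    {ε : Fin N × Fin N → Fin N × Fin N → ℕ} {Bad : Finset (Fin N)} {K : ℕ}
    (h : PathLaw ν κ ε Bad K) (b l g : ℕ) (hb : Bad.card ≤ b) (hg : 2 * g + l ≤ K)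
    (hW : (1 : ℝ) ≤ 2 ^ l * ((N : ℝ) / 2 ^ g + b)) (w τ : Equiv.Perm (Fin N)) :
    ∑ x : Equiv.Perm (Fin N), evP ν (Finset.univ.image (fun i => (x (τ i), w (x i)))) ≤
      2 * (2 ^ l * ((N : ℝ) / 2 ^ g + b)) ^ cyc N τ * (N : ℝ) ^ (N / 2 ^ l) :=
  cycle_bound_full_of (fun w S cs hcs => block_bound h b l g hb hg w S cs hcs) hW w τ

theorem cycle_bound_part {N : ℕ} {ν : Equiv.Perm (Fin N) → ℝ} {κ : Fin N → Fin N → ℕ}
    {ε : Fin N × Fin N → Fin N × Fin N → ℕ} {Bad : Finset (Fin N)} {K : ℕ}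
    (h : PathLaw ν κ ε Bad K) (b l g : ℕ) (hb : Bad.card ≤ b) (hg : 2 * g + l ≤ K)
    (hW : (1 : ℝ) ≤ 2 ^ l * ((N : ℝ) / 2 ^ g + b)) (w τ : Equiv.Perm (Fin N))
    (q : ℕ) (hq : 4 * q ≤ N) :
    (N.descFactorial q : ℝ) * 𝔼 x : Equiv.Perm (Fin N),
        evP ν ((Finset.univ.filter (fun i : Fin N => (i : ℕ) < q)).image
          (fun i => (x (τ i), w (x i)))) ≤
      2 * (2 ^ l * ((N : ℝ) / 2 ^ g + b)) ^ cyc q τ * (N : ℝ) ^ (q / 2 ^ l) *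
        Real.exp (4 * q ^ 2 / N) :=
  cycle_bound_part_of (fun w S cs hcs => block_bound h b l g hb hg w S cs hcs) hW w τ q hq

end Crest.Agent.Thorp
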