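import Mathlib
/-!
Row 155 (Thorp shuffle): common definitions.

Positions of a deck of `2 ^ D` cards are bit strings `V D`; `V (D+1) = Bool × V D`, the outer bit is
the direction mixed by the LAST layer of a pass.  One pass = `D` layers.
-/
set_option autoImplicit false
open Finset
open scoped BigOperators

namespace Crest.Agent.Thorp

/-- Positions: bit strings of length `D`. -/
def V : ℕ → Type
  | 0 => Unit
  | D + 1 => Bool × V D

instance instFintypeV : ∀ D, Fintype (V D)
  | 0 => inferInstanceAs (Fintype Unit)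
  | D + 1 =>
    haveI := instFintypeV D
    inferInstanceAs (Fintype (Bool × V D))

instance instDecidableEqV : ∀ D, DecidableEq (V D)
  | 0 => inferInstanceAs (DecidableEq Unit)
  | D + 1 =>
    haveI := instDecidableEqV D
    inferInstanceAs (DecidableEq (Bool × V D))

instance instNonemptyV : ∀ D, Nonempty (V D)
  | 0 => inferInstanceAs (Nonempty Unit)
  | D + 1 =>
    haveI := instNonemptyV D
    inferInstanceAs (Nonempty (Bool × V D))

/-- Outer bit. -/
def hd {D : ℕ} (p : V (D + 1)) : Bool := p.1
/-- Inner bits. -/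
def tl {D : ℕ} (p : V (D + 1)) : V D := p.2
/-- Constructor for `V (D+1)`. -/
def cons {D : ℕ} (h : Bool) (v : V D) : V (D + 1) := (h, v)

@[simp] theorem hd_cons {D : ℕ} (h : Bool) (v : V D) : hd (cons h v) = h := rfl
@[simp] theorem tl_cons {D : ℕ} (h : Bool) (v : V D) : tl (cons h v) = v := rfl
@[simp] theorem cons_hd_tl {D : ℕ} (p : V (D + 1)) : cons (hd p) (tl p) = p := rfl

/-- `V (D+1) ≃ Bool × V D`. -/
def consEquiv (D : ℕ) : Bool × V D ≃ V (D + 1) := Equiv.refl _

@[simp] theorem consEquiv_apply (D : ℕ) (p : Bool × V D) : consEquiv D p = cons p.1 p.2 := rfl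
@[simp] theorem consEquiv_symm_apply (D : ℕ) (p : V (D + 1)) :
    (consEquiv D).symm p = (hd p, tl p) := rfl

@[ext] theorem V_ext {D : ℕ} {p q : V (D + 1)} (h1 : hd p = hd q) (h2 : tl p = tl q) : p = q :=
  Prod.ext h1 h2

@[simp] theorem cons_inj {D : ℕ} {h h' : Bool} {v v' : V D} :
    cons h v = cons h' v' ↔ h = h' ∧ v = v' := by
  constructor
  · intro e; exact ⟨congrArg hd e, congrArg tl e⟩
  · rintro ⟨rfl, rfl⟩; rfl

theorem card_V : ∀ D, Fintype.card (V D) = 2 ^ D
  | 0 => rfl
  | D + 1 => by
    have := card_V D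
    rw [← Fintype.card_congr (consEquiv D), Fintype.card_prod, this, Fintype.card_bool, pow_succ,
      mul_comm]

theorem sum_V_succ {M : Type*} [AddCommMonoid M] {D : ℕ} (f : V (D + 1) → M) :
    ∑ p, f p = ∑ h : Bool, ∑ v : V D, f (cons h v) := by
  rw [← Fintype.sum_prod_type']
  exact (Equiv.sum_comp (consEquiv D) f).symm

theorem expect_V_succ {D : ℕ} (f : V (D + 1) → ℝ) :
    𝔼 p, f p = 𝔼 h : Bool, 𝔼 v : V D, f (cons h v) := by
  rw [← Finset.expect_product']
  exact (Fintype.expect_equiv (consEquiv D) _ _ (fun _ => rfl)).symm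

/-- Coins used in one pass: for each half (initial outer bit) the coins of the first `D` layers
inside this half, and one coin for each switch `{(false, v), (true, v)}` of the last layer. -/
def Coins : ℕ → Type
  | 0 => Unit
  | D + 1 => (Bool → Coins D) × (V D → Bool)

instance instFintypeCoins : ∀ D, Fintype (Coins D)
  | 0 => inferInstanceAs (Fintype Unit)
  | D + 1 =>
    haveI := instFintypeCoins D
    inferInstanceAs (Fintype ((Bool → Coins D) × (V D → Bool)))

instance instDecidableEqCoins : ∀ D, DecidableEq (Coins D)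
  | 0 => inferInstanceAs (DecidableEq Unit)
  | D + 1 =>
    haveI := instDecidableEqCoins D
    inferInstanceAs (DecidableEq ((Bool → Coins D) × (V D → Bool)))

instance instNonemptyCoins : ∀ D, Nonempty (Coins D)
  | 0 => inferInstanceAs (Nonempty Unit)
  | D + 1 =>
    haveI := instNonemptyCoins D
    inferInstanceAs (Nonempty ((Bool → Coins D) × (V D → Bool)))

/-- Coins of the half `h`. -/
def Coins.sub {D : ℕ} (c : Coins (D + 1)) (h : Bool) : Coins D := c.1 h
/-- Coins of the last layer. -/
def Coins.top {D : ℕ} (c : Coins (D + 1)) (v : V D) : Bool := c.2 v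
/-- Constructor for `Coins (D+1)`. -/
def Coins.mk {D : ℕ} (s : Bool → Coins D) (t : V D → Bool) : Coins (D + 1) := (s, t)

@[simp] theorem Coins.sub_mk {D : ℕ} (s : Bool → Coins D) (t : V D → Bool) (h : Bool) :
    (Coins.mk s t).sub h = s h := rfl
@[simp] theorem Coins.top_mk {D : ℕ} (s : Bool → Coins D) (t : V D → Bool) (v : V D) :
    (Coins.mk s t).top v = t v := rfl
@[simp] theorem Coins.mk_eta {D : ℕ} (c : Coins (D + 1)) : Coins.mk c.sub c.top = c := rfl

/-- `Coins (D+1) ≃ (Bool → Coins D) × (V D → Bool)`. -/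
def Coins.mkEquiv (D : ℕ) : (Bool → Coins D) × (V D → Bool) ≃ Coins (D + 1) := Equiv.refl _

@[simp] theorem Coins.mkEquiv_apply (D : ℕ) (p : (Bool → Coins D) × (V D → Bool)) :
    Coins.mkEquiv D p = Coins.mk p.1 p.2 := rfl

theorem expect_Coins_succ {D : ℕ} (f : Coins (D + 1) → ℝ) :
    𝔼 c, f c = 𝔼 s : Bool → Coins D, 𝔼 t : V D → Bool, f (Coins.mk s t) := by
  rw [← Finset.expect_product']
  exact (Fintype.expect_equiv (Coins.mkEquiv D) _ _ (fun _ => rfl)).symm

/-- The permutation of the positions performed by one pass with coins `c`: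
first a pass inside each half, then the last layer. -/
def pass : ∀ D, Coins D → Equiv.Perm (V D)
  | 0, _ => 1
  | D + 1, c =>
    { toFun := fun p =>
        cons (xor (hd p) (c.top (pass D (c.sub (hd p)) (tl p)))) (pass D (c.sub (hd p)) (tl p))
      invFun := fun p =>
        cons (xor (hd p) (c.top (tl p))) ((pass D (c.sub (xor (hd p) (c.top (tl p))))).symm (tl p))
      left_inv := by
        intro p
        simp
      right_inv := by
        intro p
        simp }

theorem pass_succ_apply (D : ℕ) (c : Coins (D + 1)) (p : V (D + 1)) :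
    pass (D + 1) c p =
      cons (xor (hd p) (c.top (pass D (c.sub (hd p)) (tl p)))) (pass D (c.sub (hd p)) (tl p)) := rfl

theorem pass_succ_symm_apply (D : ℕ) (c : Coins (D + 1)) (p : V (D + 1)) :
    (pass (D + 1) c).symm p =
      cons (xor (hd p) (c.top (tl p)))
        ((pass D (c.sub (xor (hd p) (c.top (tl p))))).symm (tl p)) := rfl

/-- `K` consecutive passes (`a 0` first). -/
def passes (D : ℕ) : ∀ K : ℕ, (Fin K → Coins D) → Equiv.Perm (V D)
  | 0, _ => 1
  | K + 1, a => pass D (a (Fin.last K)) * passes D K (fun i => a i.castSucc)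

/-- The law of the permutation performed by `K` passes with uniformly random coins. -/
noncomputable def passLaw (D K : ℕ) (g : Equiv.Perm (V D)) : ℝ :=
  𝔼 a : Fin K → Coins D, if passes D K a = g then 1 else 0

/-- Total variation distance to the uniform law of a real function on a finite type. -/
noncomputable def tv {G : Type*} [Fintype G] (μ : G → ℝ) : ℝ :=
  (1 / 2) * ∑ g, |μ g - 1 / (Fintype.card G : ℝ)|

/-- Law of the positions of a tuple `x` after `K` passes. -/
noncomputable def tupleLaw (D K : ℕ) {q : ℕ} (x : Fin q ↪ V D) (y : Fin q ↪ V D) : ℝ :=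
  𝔼 a : Fin K → Coins D, if (∀ i, passes D K a (x i) = y i) then 1 else 0

/-- Average over the starting tuple of the TV distance to uniform after `K` passes. -/
noncomputable def tupleErr (D K q : ℕ) : ℝ :=
  𝔼 x : Fin q ↪ V D, tv (tupleLaw D K x)

/-! ### Hidden coins -/

/-- The part of `A` in the half `h`. -/
def half (D : ℕ) (A : Finset (V (D + 1))) (h : Bool) : Finset (V D) :=
  Finset.univ.filter (fun v => cons h v ∈ A)

@[simp] theorem mem_half {D : ℕ} {A : Finset (V (D + 1))} {h : Bool} {v : V D} :
    v ∈ half D A h ↔ cons h v ∈ A := by simp [half]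

/-- Just before the last layer, position `(h, v)` is occupied by an element of (the image of) `A`. -/
def occ (D : ℕ) (A : Finset (V (D + 1))) (c : Coins (D + 1)) (h : Bool) (v : V D) : Prop :=
  cons h ((pass D (c.sub h)).symm v) ∈ A

instance instDecOcc (D : ℕ) (A : Finset (V (D + 1))) (c : Coins (D + 1)) (h : Bool) (v : V D) :
    Decidable (occ D A c h v) := by unfold occ; infer_instance

/-- Both positions of the last-layer switch `v` are occupied by elements of `A`. -/
def both (D : ℕ) (A : Finset (V (D + 1))) (c : Coins (D + 1)) (v : V D) : Prop :=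
  occ D A c false v ∧ occ D A c true v

instance instDecBoth (D : ℕ) (A : Finset (V (D + 1))) (c : Coins (D + 1)) (v : V D) :
    Decidable (both D A c v) := by unfold both; infer_instance

/-- Coins of the real pass: at the switches both of whose cards are in `A` (followed along the
visible pass with coins `c`) use `xor c c'`; at the other switches use `c`. -/
def combine : ∀ D, Finset (V D) → Coins D → Coins D → Coins D
  | 0, _, c, _ => c
  | D + 1, A, c, c' =>
    Coins.mk (fun h => combine D (half D A h) (c.sub h) (c'.sub h))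
     (fun v => if both D A c v then xor (c.top v) (c'.top v) else c.top v)

/-- Number of `A`-`A` switches on the path from `y` to `z` in the visible environment `(A, c)`. -/
def kap : ∀ D, Finset (V D) → Coins D → V D → V D → ℕ
  | 0, _, _, _, _ => 0
  | D + 1, A, c, y, z =>
    kap D (half D A (hd y)) (c.sub (hd y)) (tl y) (tl z) + if both D A c (tl z) then 1 else 0

/-- Number of switches at which the paths with (start, end) `p` and `q` meet. -/
def eps : ∀ D, (V D × V D) → (V D × V D) → ℕ
  | 0, _, _ => 0
  | D + 1, p, q =>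
    if hd p.1 = hd q.1 then eps D (tl p.1, tl p.2) (tl q.1, tl q.2)
    else if tl p.2 = tl q.2 then 1 else 0

/-- Probability (over the hidden coins `c'`) that the real pass in the environment `(A, c)` maps
`f.1` to `f.2` for all `f ∈ F`. -/
noncomputable def envP (D : ℕ) (A : Finset (V D)) (c : Coins D) (F : Finset (V D × V D)) : ℝ :=
  𝔼 c' : Coins D, if (∀ f ∈ F, pass D (combine D A c c') f.1 = f.2) then 1 else 0

/-- A start `y` is bad if some environment path from `y` meets fewer than `K` `A`-`A` switches. -/
def badStart (D : ℕ) (A : Finset (V D)) (c : Coins D) (K : ℕ) (y : V D) : Prop :=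
  ∃ c' : Coins D, kap D A c y (pass D (combine D A c c') y) < K

instance instDecBadStart (D : ℕ) (A : Finset (V D)) (c : Coins D) (K : ℕ) (y : V D) :
    Decidable (badStart D A c K y) := by unfold badStart; infer_instance

/-- Good environment: few bad starts, many `A`-`A` switches in the last layer. -/
def Good (d : ℕ) (K b s : ℕ) (A : Finset (V (d + 1))) (c : Coins (d + 1)) : Prop :=
  (A.filter (fun y => badStart (d + 1) A c K y)).card ≤ b ∧
    s ≤ (Finset.univ.filter (fun v : V d => both d A c v)).card

instance instDecGood (d : ℕ) (K b s : ℕ) (A : Finset (V (d + 1))) (c : Coins (d + 1)) :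
    Decidable (Good d K b s A c) := by unfold Good; infer_instance

/-- The set of positions occupied by the lines `L`. -/
def rangeF {Λ : Type*} [Fintype Λ] {D : ℕ} (L : Λ ↪ V D) : Finset (V D) :=
  Finset.univ.map L

@[simp] theorem mem_rangeF {Λ : Type*} [Fintype Λ] {D : ℕ} {L : Λ ↪ V D} {p : V D} :
    p ∈ rangeF L ↔ ∃ i, L i = p := by simp [rangeF]

/-- Law (over the hidden coins) of the relative permutation `w` of the lines `Λ` in a work pass:
the card starting on line `i` ends on line `w i`. -/
noncomputable def relLaw {Λ : Type*} [Fintype Λ] {D : ℕ} (L : Λ ↪ V D) (c : Coins D)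
    (w : Equiv.Perm Λ) : ℝ :=
  𝔼 c' : Coins D,
    if (∀ i, pass D (combine D (rangeF L) c c') (L i) = pass D c (L (w i))) then 1 else 0

/-- Convolution on a finite group. -/
noncomputable def conv {G : Type*} [Group G] [Fintype G] (μ ν : G → ℝ) (g : G) : ℝ :=
  ∑ h, μ h * ν (h⁻¹ * g)

/-- Unit mass at the identity. -/
noncomputable def dirac1 {G : Type*} [Group G] [DecidableEq G] (g : G) : ℝ := if g = 1 then 1 else 0

/-- `convPow μ k = μ * ⋯ * μ` (`k` factors). -/
noncomputable def convPow {G : Type*} [Group G] [Fintype G] [DecidableEq G] (μ : G → ℝ) : ℕ → G → ℝ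
  | 0 => dirac1
  | k + 1 => conv μ (convPow μ k)

/-- Environment of one work pass (start positions of the lines, visible coins). -/
abbrev Env (Λ : Type*) (D : ℕ) := (Λ ↪ V D) × Coins D

/-- Law of the relative permutation after `k` work passes with environments `E 0, E 1, …`
(`E 0` first). -/
noncomputable def relLaws {Λ : Type*} [Fintype Λ] [DecidableEq Λ] {D : ℕ} :
    ∀ k : ℕ, (Fin k → Env Λ D) → Equiv.Perm Λ → ℝ
  | 0, _ => dirac1
  | k + 1, E => conv (relLaw (E (Fin.last k)).1 (E (Fin.last k)).2)
      (relLaws k (fun i => E i.castSucc))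

/-- Average TV distance to uniform of the relative arrangement in the fresh model. -/
noncomputable def freshErr (Λ : Type*) [Fintype Λ] [DecidableEq Λ] (D k : ℕ) : ℝ :=
  𝔼 E : Fin k → Env Λ D, tv (relLaws k E)

/-! ### Group side -/

/-- `r`: law of `w'⁻¹ w` for two independent samples of `relLaw` in a fresh good environment
(a sub-probability class function on the permutations of the lines). -/
noncomputable def rGood (d K b s : ℕ) (g : Equiv.Perm (Fin (2 ^ d))) : ℝ :=
  𝔼 E : Env (Fin (2 ^ d)) (d + 1),
    if Good d K b s (rangeF E.1) E.2 then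
      ∑ w : Equiv.Perm (Fin (2 ^ d)), relLaw E.1 E.2 w * relLaw E.1 E.2 (w * g⁻¹) else 0

open scoped Classical in
/-- Number of cycles (fixed points included) of `g` contained in `{0, …, q-1}`
(counted by their minimal elements). -/
noncomputable def cyc {N : ℕ} (q : ℕ) (g : Equiv.Perm (Fin N)) : ℕ :=
  (Finset.univ.filter (fun i : Fin N =>
    ∀ m : ℕ, ((g ^ m) i : ℕ) < q ∧ i ≤ (g ^ m) i)).card

/-- `psi r q τ = (N)_q ⋅ ∑_{g = τ on 0,…,q-1} r g`. -/
noncomputable def psi {N : ℕ} (r : Equiv.Perm (Fin N) → ℝ) (q : ℕ) (τ : Equiv.Perm (Fin N)) : ℝ :=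
  (N.descFactorial q : ℝ) *
    ∑ g : Equiv.Perm (Fin N), if (∀ i : Fin N, (i : ℕ) < q → g i = τ i) then r g else 0

/-- `f` is orthogonal to all functions of the positions of `j` cards. -/
def HighLevel {N : ℕ} (j : ℕ) (f : Equiv.Perm (Fin N) → ℝ) : Prop :=
  ∀ a b : Fin j ↪ Fin N, (∑ g, if (∀ i, g (a i) = b i) then f g else 0) = 0

/-- Quadratic form `⟨f, r * f⟩`. -/
noncomputable def quad {G : Type*} [Group G] [Fintype G] (r f : G → ℝ) : ℝ :=
  ∑ g, ∑ h, f g * r (g * h⁻¹) * f h


/-! The equation lemmas used in several modules are generated here, once. -/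

theorem eqnHere_passes_eq_def : type_of% @passes.eq_def := @passes.eq_def
theorem eqnHere_passes_eq_1 : type_of% @passes.eq_1 := @passes.eq_1
theorem eqnHere_passes_eq_2 : type_of% @passes.eq_2 := @passes.eq_2
theorem eqnHere_kap_eq_def : type_of% @kap.eq_def := @kap.eq_def
theorem eqnHere_kap_eq_1 : type_of% @kap.eq_1 := @kap.eq_1
theorem eqnHere_kap_eq_2 : type_of% @kap.eq_2 := @kap.eq_2
theorem eqnHere_combine_eq_def : type_of% @combine.eq_def := @combine.eq_def
theorem eqnHere_combine_eq_1 : type_of% @combine.eq_1 := @combine.eq_1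
theorem eqnHere_combine_eq_2 : type_of% @combine.eq_2 := @combine.eq_2
theorem eqnHere_tupleLaw_eq_1 : type_of% @tupleLaw.eq_1 := @tupleLaw.eq_1
theorem eqnHere_dirac1_eq_1 : type_of% @dirac1.eq_1 := @dirac1.eq_1
theorem eqnHere_conv_eq_1 : type_of% @conv.eq_1 := @conv.eq_1
theorem eqnHere_convPow_eq_def : type_of% @convPow.eq_def := @convPow.eq_def
theorem eqnHere_convPow_eq_1 : type_of% @convPow.eq_1 := @convPow.eq_1
theorem eqnHere_convPow_eq_2 : type_of% @convPow.eq_2 := @convPow.eq_2
theorem eqnHere_convPow_congr_simp : type_of% @convPow.congr_simp := @convPow.congr_simp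

end Crest.Agent.Thorp
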