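import Crest.Agent.Lib.Row155.Defs
/-!
Row 155 (Thorp shuffle): further shared definitions.
-/
set_option autoImplicit false
open Finset
open scoped BigOperators

namespace Crest.Agent.Thorp

/-! ## C4 -/

/-- Conditional evolution (given the coins of `c` at the switches visited by the revealed set `R`)
of the density of one unrevealed card. -/
noncomputable def evolve : ∀ D, Finset (V D) → Coins D → (V D → ℝ) → V D → ℝ
  | 0, _, _, φ => φ
  | D + 1, R, c, φ => fun p =>
    if occ D R c false (tl p) ∨ occ D R c true (tl p) then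
      evolve D (half D R (xor (hd p) (c.top (tl p)))) (c.sub (xor (hd p) (c.top (tl p))))
        (fun v => φ (cons (xor (hd p) (c.top (tl p))) v)) (tl p)
    else
      (evolve D (half D R false) (c.sub false) (fun v => φ (cons false v)) (tl p) +
        evolve D (half D R true) (c.sub true) (fun v => φ (cons true v)) (tl p)) / 2

/-- Sum over the boxes of size `2 ^ k` (outer `D - k` bits fixed) of the square of the sum. -/
noncomputable def BS : ∀ D, ℕ → (V D → ℝ) → ℝ
  | 0, _, φ => (∑ p, φ p) ^ 2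
  | D + 1, k, φ => if D + 1 ≤ k then (∑ p, φ p) ^ 2 else ∑ h : Bool, BS D k (fun v => φ (cons h v))

/-- Every box of size at least `2 ^ s0` (strictly inside) has density at most `ρ`. -/
def Reg (s0 : ℕ) (ρ : ℝ) : ∀ D, Finset (V D) → Prop
  | 0, _ => True
  | D + 1, R => (s0 ≤ D → ∀ h, ((half D R h).card : ℝ) ≤ ρ * 2 ^ D) ∧
      ∀ h, Reg s0 ρ D (half D R h)

/-! ## C5, C6 -/

/-- Probability under `ν` of `w f.1 = f.2` for all `f ∈ F`. -/
noncomputable def evP {N : ℕ} (ν : Equiv.Perm (Fin N) → ℝ) (F : Finset (Fin N × Fin N)) : ℝ :=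
  ∑ w : Equiv.Perm (Fin N), if (∀ f ∈ F, w f.1 = f.2) then ν w else 0

/-- Abstract hypotheses on a law `ν` on permutations of the lines. -/
structure PathLaw {N : ℕ} (ν : Equiv.Perm (Fin N) → ℝ) (κ : Fin N → Fin N → ℕ)
    (ε : Fin N × Fin N → Fin N × Fin N → ℕ) (Bad : Finset (Fin N)) (K : ℕ) : Prop where
  nonneg : ∀ w, 0 ≤ ν w
  sum_one : ∑ w, ν w = 1
  symm : ∀ f g, ε f g = ε g f
  ins : ∀ (F : Finset (Fin N × Fin N)) (f : Fin N × Fin N), f ∉ F → evP ν (insert f F) ≠ 0 →
    evP ν (insert f F) * 2 ^ κ f.1 f.2 = evP ν F * 2 ^ (∑ g ∈ F, ε f g)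
  iso : ∀ F : Finset (Fin N × Fin N), evP ν F ≠ 0 → ∀ l : ℕ, F.card ≤ 2 ^ l →
    ∑ f ∈ F, ∑ g ∈ F.erase f, ε f g ≤ l * F.card
  enc : ∀ a, a ∉ Bad → ∀ b, evP ν {(a, b)} ≠ 0 → K ≤ κ a b

/-- Shape: components `j < m` with `len j` labels; `closed j` tells whether the component is a
closed cycle (`true`) or an open path (`false`). -/
structure Shape where
  m : ℕ
  len : Fin m → ℕ
  len_pos : ∀ j, 0 < len j
  closed : Fin m → Bool

/-- Labels of a shape. -/
abbrev Shape.Lab (S : Shape) := Σ j : Fin S.m, Fin (S.len j)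

/-- Index set of the constraints: `⟨j, a⟩` stands for the edge from label `a` to the next label
of the component `j` (cyclically when closed; the last label of an open path has no edge). -/
def Shape.edge (S : Shape) (e : S.Lab) : Prop := (e.2 : ℕ) + 1 < S.len e.1 ∨ S.closed e.1 = true

instance (S : Shape) (e : S.Lab) : Decidable (S.edge e) := by unfold Shape.edge; infer_instance

/-- Next label (cyclically). -/
def Shape.next (S : Shape) (e : S.Lab) : S.Lab :=
  ⟨e.1, ⟨((e.2 : ℕ) + 1) % S.len e.1, Nat.mod_lt _ (S.len_pos e.1)⟩⟩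

/-- Constraint set of a labelling `x` (with fixed permutation `w`): for every edge `e`,
`w'` must map `x (next e)` to `w (x e)`. -/
def Shape.cons {N : ℕ} (S : Shape) (w : Equiv.Perm (Fin N)) (x : S.Lab → Fin N) :
    Finset (Fin N × Fin N) :=
  (Finset.univ.filter (fun e : S.Lab => S.edge e)).image (fun e => (x (S.next e), w (x e)))

/-! ## C7 -/

/-- parameters -/
def pK (d : ℕ) : ℕ := 3 * d / 16
def pb (d : ℕ) : ℕ := 2 ^ (29 * d / 32 + 1)
def ps (d : ℕ) : ℕ := 2 ^ (d - 2 * (d / 512))

/-! ## C10 -/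

/-- Pure level-`j` functions of `j` distinct positions (extended by `0` to non-injective tuples). -/
def PureFn (N j : ℕ) : Submodule ℝ ((Fin j → Fin N) → ℝ) where
  carrier := {φ | (∀ x, ¬ Function.Injective x → φ x = 0) ∧
    ∀ x i, ∑ y, φ (Function.update x i y) = 0}
  add_mem' := by
    rintro a b ⟨ha, ha'⟩ ⟨hb, hb'⟩
    exact ⟨fun x hx => by simp [ha x hx, hb x hx],
      fun x i => by simp [Finset.sum_add_distrib, ha' x i, hb' x i]⟩
  zero_mem' := ⟨fun _ _ => rfl, fun _ _ => by simp⟩
  smul_mem' := by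
    rintro c a ⟨ha, ha'⟩
    exact ⟨fun x hx => by simp [ha x hx], fun x i => by simp [← Finset.mul_sum, ha' x i]⟩


/-! The equation lemmas used in several modules are generated here, once. -/

theorem eqnHere_BS_eq_def : type_of% @BS.eq_def := @BS.eq_def
theorem eqnHere_BS_eq_1 : type_of% @BS.eq_1 := @BS.eq_1
theorem eqnHere_BS_eq_2 : type_of% @BS.eq_2 := @BS.eq_2

end Crest.Agent.Thorp
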