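import Crest.Agent.Lib.Row155.Defs2
/-!
Row 155, chunk T4 (C4a, C4b1): the conditional evolution of one card.
-/
set_option autoImplicit false
open Finset
open scoped BigOperators

namespace Crest.Agent.Thorp

/-- The two-halves recursion of `evolve`, with the half values abbreviated. -/
theorem evolve_succ (D : ℕ) (R : Finset (V (D + 1))) (c : Coins (D + 1)) (φ : V (D + 1) → ℝ)
    (p : V (D + 1)) :
    evolve (D + 1) R c φ p =
      if occ D R c false (tl p) ∨ occ D R c true (tl p) then
        evolve D (half D R (xor (hd p) (c.top (tl p)))) (c.sub (xor (hd p) (c.top (tl p))))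
          (fun v => φ (cons (xor (hd p) (c.top (tl p))) v)) (tl p)
      else
        (evolve D (half D R false) (c.sub false) (fun v => φ (cons false v)) (tl p) +
          evolve D (half D R true) (c.sub true) (fun v => φ (cons true v)) (tl p)) / 2 := rfl

/-- C4b -/
theorem evolve_supp (D : ℕ) (R : Finset (V D)) (c : Coins D) (φ : V D → ℝ)
    (hφ : ∀ p ∈ R, φ p = 0) (y : V D) (hy : (pass D c).symm y ∈ R) : evolve D R c φ y = 0 := by
  induction D with
  | zero => exact hφ y hy
  | succ D ih =>
    rw [pass_succ_symm_apply] at hy
    rw [evolve_succ]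
    have hocc : occ D R c false (tl y) ∨ occ D R c true (tl y) := by
      cases hb : xor (hd y) (c.top (tl y)) with
      | false => left; rw [hb] at hy; exact hy
      | true => right; rw [hb] at hy; exact hy
    rw [if_pos hocc]
    apply ih
    · intro p hp
      exact hφ _ (mem_half.1 hp)
    · exact mem_half.2 hy

/-- General sum lemma: a layer acts switch by switch. -/
theorem evolve_pair (D : ℕ) (R : Finset (V (D + 1))) (c : Coins (D + 1)) (φ : V (D + 1) → ℝ)
    (v : V D) (F : ℝ → ℝ → ℝ) (hF : ∀ a b, F a b = F b a) :
    F (evolve (D + 1) R c φ (cons false v)) (evolve (D + 1) R c φ (cons true v)) =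
      if occ D R c false v ∨ occ D R c true v then
        F (evolve D (half D R false) (c.sub false) (fun v => φ (cons false v)) v)
          (evolve D (half D R true) (c.sub true) (fun v => φ (cons true v)) v)
      else
        F ((evolve D (half D R false) (c.sub false) (fun v => φ (cons false v)) v +
          evolve D (half D R true) (c.sub true) (fun v => φ (cons true v)) v) / 2)
          ((evolve D (half D R false) (c.sub false) (fun v => φ (cons false v)) v +
          evolve D (half D R true) (c.sub true) (fun v => φ (cons true v)) v) / 2) := by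
  rw [evolve_succ, evolve_succ]
  simp only [hd_cons, tl_cons]
  by_cases h : occ D R c false v ∨ occ D R c true v
  · simp only [if_pos h]
    cases c.top v with
    | false => rfl
    | true => exact hF _ _
  · simp only [if_neg h]

/-- C4b -/
theorem evolve_sum (D : ℕ) (R : Finset (V D)) (c : Coins D) (φ : V D → ℝ)
    (_hφ : ∀ p ∈ R, φ p = 0) : ∑ y, evolve D R c φ y = ∑ y, φ y := by
  clear _hφ
  induction D with
  | zero => rfl
  | succ D ih =>
    have h1 := ih (half D R true) (c.sub true) (fun v => φ (cons true v))
    have h0 := ih (half D R false) (c.sub false) (fun v => φ (cons false v))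
    rw [sum_V_succ, sum_V_succ, Fintype.sum_bool, Fintype.sum_bool]
    refine Eq.trans ?_ (congrArg₂ (· + ·) h1 h0)
    rw [← Finset.sum_add_distrib, ← Finset.sum_add_distrib]
    refine Finset.sum_congr rfl (fun v _ => ?_)
    rw [add_comm]
    rw [evolve_pair D R c φ v (fun a b => a + b) (fun a b => add_comm a b)]
    split_ifs with h
    · rw [add_comm]
    · ring

/-- C4b -/
theorem evolve_sq_le (D : ℕ) (R : Finset (V D)) (c : Coins D) (φ : V D → ℝ)
    (_hφ : ∀ p ∈ R, φ p = 0) : ∑ y, evolve D R c φ y ^ 2 ≤ ∑ y, φ y ^ 2 := by
  clear _hφ
  induction D with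
  | zero => exact le_rfl
  | succ D ih =>
    have h1 := ih (half D R true) (c.sub true) (fun v => φ (cons true v))
    have h0 := ih (half D R false) (c.sub false) (fun v => φ (cons false v))
    rw [sum_V_succ, sum_V_succ, Fintype.sum_bool, Fintype.sum_bool]
    refine le_trans ?_ (add_le_add h1 h0)
    rw [← Finset.sum_add_distrib, ← Finset.sum_add_distrib]
    refine Finset.sum_le_sum (fun v _ => ?_)
    rw [add_comm]
    rw [evolve_pair D R c φ v (fun a b => a ^ 2 + b ^ 2) (fun a b => add_comm _ _)]
    split_ifs with h
    · rw [add_comm]
    · nlinarith [sq_nonneg (evolve D (half D R false) (c.sub false) (fun v => φ (cons false v)) v -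
        evolve D (half D R true) (c.sub true) (fun v => φ (cons true v)) v)]

/-! ### C4a -/

/-- Expectation over a pair of independent halves. -/
theorem expect_bool_fun {α : Type*} [Fintype α] (f : (Bool → α) → ℝ) :
    𝔼 s, f s = 𝔼 a, 𝔼 b, f (fun h => if h then b else a) := by
  rw [← Finset.expect_product']
  refine Fintype.expect_equiv (Equiv.boolArrowEquivProd α) _ _ (fun s => ?_)
  congr 1
  ext h
  cases h <;> rfl

theorem expect_bool_mul {α : Type*} [Fintype α] (f g : α → ℝ) :
    𝔼 s : Bool → α, f (s false) * g (s true) = (𝔼 a, f a) * 𝔼 b, g b := by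
  rw [expect_bool_fun, Finset.expect_mul]
  refine Finset.expect_congr rfl (fun a _ => ?_)
  rw [Finset.mul_expect]
  rfl

/-- The coin at one switch can be flipped. -/
theorem expect_flip {α : Type*} [Fintype α] [DecidableEq α] (v0 : α) (f : (α → Bool) → ℝ) :
    𝔼 t, f t = 𝔼 t, (f t + f (Function.update t v0 (!t v0))) / 2 := by
  have h : 𝔼 t, f t = 𝔼 t : α → Bool, f (Function.update t v0 (!t v0)) := by
    have hinv : Function.Involutive (fun t : α → Bool => Function.update t v0 (!t v0)) := by
      intro t
      ext v
      by_cases hv : v = v0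
      · subst hv; simp
      · simp [hv]
    exact Fintype.expect_equiv hinv.toPerm _ _ (fun t => by
      change f t = f (Function.update (Function.update t v0 (!t v0)) v0
        (!(Function.update t v0 (!t v0)) v0))
      simp)
  rw [← Finset.expect_div, Finset.expect_add_distrib, ← h]
  ring

open scoped Classical in
/-- Set version of C4a. -/
theorem evolve_cond_set (D : ℕ) (R : Finset (V D)) (ζ : V D → V D) (φ : V D → ℝ)
    (hφ : ∀ p ∈ R, φ p = 0) (y : V D) :
    (𝔼 c : Coins D, if (∀ p ∈ R, pass D c p = ζ p) then φ ((pass D c).symm y) else 0) =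
      𝔼 c : Coins D, if (∀ p ∈ R, pass D c p = ζ p) then evolve D R c φ y else 0 := by
  induction D with
  | zero => rfl
  | succ D ih =>
    rw [expect_Coins_succ, expect_Coins_succ]
    -- the two conditions
    let C1 : (Bool → Coins D) → Prop := fun s => ∀ p ∈ R, pass D (s (hd p)) (tl p) = tl (ζ p)
    let C2 : (V D → Bool) → Prop := fun t => ∀ p ∈ R, hd (ζ p) = xor (hd p) (t (tl (ζ p)))
    have hcond : ∀ s t, (∀ p ∈ R, pass (D + 1) (Coins.mk s t) p = ζ p) ↔ (C1 s ∧ C2 t) := by
      intro s t
      constructor
      · intro h
        refine ⟨fun p hp => ?_, fun p hp => ?_⟩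
        · rw [← h p hp]; rfl
        · rw [← h p hp]; rfl
      · rintro ⟨h1, h2⟩ p hp
        rw [pass_succ_apply]
        apply V_ext
        · rw [hd_cons, Coins.sub_mk, Coins.top_mk, h1 p hp, h2 p hp]
        · rw [tl_cons, Coins.sub_mk, h1 p hp]
    -- half conditions
    let Ch : Bool → Coins D → Prop := fun h c => ∀ v ∈ half D R h, pass D c v = tl (ζ (cons h v))
    have hC1 : ∀ s, C1 s ↔ (Ch false (s false) ∧ Ch true (s true)) := by
      intro s
      constructor
      · intro h
        exact ⟨fun v hv => h _ (mem_half.1 hv), fun v hv => h _ (mem_half.1 hv)⟩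
      · rintro ⟨h0, h1⟩ p hp
        cases hb : hd p with
        | false =>
          have hp' : cons false (tl p) = p := by rw [← hb]; rfl
          have := h0 (tl p) (mem_half.2 (by rw [hp']; exact hp))
          rw [hp'] at this
          exact this
        | true =>
          have hp' : cons true (tl p) = p := by rw [← hb]; rfl
          have := h1 (tl p) (mem_half.2 (by rw [hp']; exact hp))
          rw [hp'] at this
          exact this
    -- values
    let A : Bool → Coins D → ℝ := fun h c => φ (cons h ((pass D c).symm (tl y)))
    let g : Bool → Coins D → ℝ := fun h c =>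
      evolve D (half D R h) c (fun v => φ (cons h v)) (tl y)
    have ihh : ∀ h, (𝔼 c : Coins D, if Ch h c then A h c else 0) =
        𝔼 c : Coins D, if Ch h c then g h c else 0 := by
      intro h
      exact ih (half D R h) (fun v => tl (ζ (cons h v))) (fun v => φ (cons h v))
        (fun p hp => hφ _ (mem_half.1 hp)) (tl y)
    have key : ∀ h : Bool, (𝔼 s : Bool → Coins D, if C1 s then A h (s h) else 0) =
        𝔼 s : Bool → Coins D, if C1 s then g h (s h) else 0 := by
      intro h
      cases h with
      | false =>
        have e1 : ∀ (B : Coins D → ℝ), (𝔼 s : Bool → Coins D, if C1 s then B (s false) else 0) =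
            (𝔼 c, if Ch false c then B c else 0) * 𝔼 c, if Ch true c then (1 : ℝ) else 0 := by
          intro B
          rw [← expect_bool_mul]
          refine Finset.expect_congr rfl (fun s _ => ?_)
          by_cases h0 : Ch false (s false) <;> by_cases h1 : Ch true (s true) <;>
            simp [hC1, h0, h1]
        rw [e1 (A false), e1 (g false), ihh false]
      | true =>
        have e1 : ∀ (B : Coins D → ℝ), (𝔼 s : Bool → Coins D, if C1 s then B (s true) else 0) =
            (𝔼 c, if Ch false c then (1 : ℝ) else 0) * 𝔼 c, if Ch true c then B c else 0 := by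
          intro B
          rw [← expect_bool_mul]
          refine Finset.expect_congr rfl (fun s _ => ?_)
          by_cases h0 : Ch false (s false) <;> by_cases h1 : Ch true (s true) <;>
            simp [hC1, h0, h1]
        rw [e1 (A true), e1 (g true), ihh true]
    have hsep : ∀ (F : (Bool → Coins D) → ℝ),
        (𝔼 s : Bool → Coins D, 𝔼 t : V D → Bool, (if C1 s then F s else 0) *
          (if C2 t then (1 : ℝ) else 0)) =
        (𝔼 s : Bool → Coins D, if C1 s then F s else 0) *
          𝔼 t : V D → Bool, (if C2 t then (1 : ℝ) else 0) := by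
      intro F
      rw [Finset.expect_mul]
      refine Finset.expect_congr rfl (fun s _ => ?_)
      rw [Finset.mul_expect]
    by_cases hcase : ∃ p ∈ R, tl (ζ p) = tl y
    · -- the last switch is visited by the revealed set
      obtain ⟨p0, hp0, hp0y⟩ := hcase
      set b0 : Bool := xor (hd y) (xor (hd (ζ p0)) (hd p0)) with hb0
      have hL : (𝔼 s : Bool → Coins D, 𝔼 t : V D → Bool,
          if (∀ p ∈ R, pass (D + 1) (Coins.mk s t) p = ζ p) then
            φ ((pass (D + 1) (Coins.mk s t)).symm y) else 0) =
          𝔼 s : Bool → Coins D, 𝔼 t : V D → Bool, (if C1 s then A b0 (s b0) else 0) *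
          (if C2 t then (1 : ℝ) else 0) := by
        refine Finset.expect_congr rfl (fun s _ => Finset.expect_congr rfl (fun t _ => ?_))
        by_cases h1 : C1 s
        · by_cases h2 : C2 t
          · rw [if_pos ((hcond s t).2 ⟨h1, h2⟩), if_pos h1, if_pos h2, mul_one]
            have ht : xor (hd y) (t (tl y)) = b0 := by
              have := h2 p0 hp0
              rw [hp0y] at this
              rw [hb0, this]
              cases hd p0 <;> cases t (tl y) <;> cases hd y <;> rfl
            rw [pass_succ_symm_apply]
            simp only [Coins.top_mk, Coins.sub_mk, ht]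
            rfl
          · rw [if_neg (fun h => h2 ((hcond s t).1 h).2), if_neg h2, mul_zero]
        · rw [if_neg (fun h => h1 ((hcond s t).1 h).1), if_neg h1, zero_mul]
      have hR : (𝔼 s : Bool → Coins D, 𝔼 t : V D → Bool,
          if (∀ p ∈ R, pass (D + 1) (Coins.mk s t) p = ζ p) then
            evolve (D + 1) R (Coins.mk s t) φ y else 0) =
          𝔼 s : Bool → Coins D, 𝔼 t : V D → Bool, (if C1 s then g b0 (s b0) else 0) *
          (if C2 t then (1 : ℝ) else 0) := by
        refine Finset.expect_congr rfl (fun s _ => Finset.expect_congr rfl (fun t _ => ?_))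
        by_cases h1 : C1 s
        · by_cases h2 : C2 t
          · rw [if_pos ((hcond s t).2 ⟨h1, h2⟩), if_pos h1, if_pos h2, mul_one]
            have ht : xor (hd y) (t (tl y)) = b0 := by
              have := h2 p0 hp0
              rw [hp0y] at this
              rw [hb0, this]
              cases hd p0 <;> cases t (tl y) <;> cases hd y <;> rfl
            have hocc : occ D R (Coins.mk s t) (hd p0) (tl y) := by
              unfold occ
              rw [Coins.sub_mk, ← hp0y, ← h1 p0 hp0, Equiv.symm_apply_apply]
              exact hp0
            have hocc' : occ D R (Coins.mk s t) false (tl y) ∨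
                occ D R (Coins.mk s t) true (tl y) := by
              cases hb : hd p0 with
              | false => left; rw [hb] at hocc; exact hocc
              | true => right; rw [hb] at hocc; exact hocc
            rw [evolve_succ, if_pos hocc']
            simp only [Coins.top_mk, Coins.sub_mk, ht]
            rfl
          · rw [if_neg (fun h => h2 ((hcond s t).1 h).2), if_neg h2, mul_zero]
        · rw [if_neg (fun h => h1 ((hcond s t).1 h).1), if_neg h1, zero_mul]
      rw [hL, hR, hsep (fun s => A b0 (s b0)), hsep (fun s => g b0 (s b0)), key b0]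
    · -- the last switch is not visited
      have hno : ∀ p ∈ R, tl (ζ p) ≠ tl y := fun p hp h => hcase ⟨p, hp, h⟩
      have hL : (𝔼 s : Bool → Coins D, 𝔼 t : V D → Bool,
          if (∀ p ∈ R, pass (D + 1) (Coins.mk s t) p = ζ p) then
            φ ((pass (D + 1) (Coins.mk s t)).symm y) else 0) =
          𝔼 s : Bool → Coins D, 𝔼 t : V D → Bool,
            (if C1 s then (A false (s false) + A true (s true)) / 2 else 0) *
          (if C2 t then (1 : ℝ) else 0) := by
        refine Finset.expect_congr rfl (fun s _ => ?_)
        rw [expect_flip (tl y)]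
        refine Finset.expect_congr rfl (fun t _ => ?_)
        have hC2 : C2 (Function.update t (tl y) (!t (tl y))) ↔ C2 t := by
          refine forall₂_congr (fun p hp => ?_)
          rw [Function.update_of_ne (hno p hp)]
        by_cases h1 : C1 s
        · by_cases h2 : C2 t
          · rw [if_pos ((hcond s t).2 ⟨h1, h2⟩), if_pos ((hcond s _).2 ⟨h1, hC2.2 h2⟩),
              if_pos h1, if_pos h2, mul_one]
            rw [pass_succ_symm_apply, pass_succ_symm_apply]
            simp only [Coins.top_mk, Coins.sub_mk, Function.update_self]
            cases hd y <;> cases t (tl y) <;> simp [A, add_comm]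
          · rw [if_neg (fun h => h2 ((hcond s t).1 h).2),
              if_neg (fun h => h2 (hC2.1 ((hcond s _).1 h).2)), if_neg h2]
            simp
        · rw [if_neg (fun h => h1 ((hcond s t).1 h).1),
            if_neg (fun h => h1 ((hcond s _).1 h).1), if_neg h1]
          simp
      have hR : (𝔼 s : Bool → Coins D, 𝔼 t : V D → Bool,
          if (∀ p ∈ R, pass (D + 1) (Coins.mk s t) p = ζ p) then
            evolve (D + 1) R (Coins.mk s t) φ y else 0) =
          𝔼 s : Bool → Coins D, 𝔼 t : V D → Bool,
            (if C1 s then (g false (s false) + g true (s true)) / 2 else 0) *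
          (if C2 t then (1 : ℝ) else 0) := by
        refine Finset.expect_congr rfl (fun s _ => Finset.expect_congr rfl (fun t _ => ?_))
        by_cases h1 : C1 s
        · by_cases h2 : C2 t
          · rw [if_pos ((hcond s t).2 ⟨h1, h2⟩), if_pos h1, if_pos h2, mul_one]
            have hocc : ∀ h, ¬ occ D R (Coins.mk s t) h (tl y) := by
              intro h ho
              unfold occ at ho
              have := h1 _ ho
              rw [hd_cons, tl_cons, Coins.sub_mk, Equiv.apply_symm_apply] at this
              exact hno _ ho this.symm
            rw [evolve_succ, if_neg (by rintro (h | h); exacts [hocc _ h, hocc _ h])]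
            rfl
          · rw [if_neg (fun h => h2 ((hcond s t).1 h).2), if_neg h2, mul_zero]
        · rw [if_neg (fun h => h1 ((hcond s t).1 h).1), if_neg h1, zero_mul]
      rw [hL, hR, hsep (fun s => (A false (s false) + A true (s true)) / 2),
        hsep (fun s => (g false (s false) + g true (s true)) / 2)]
      congr 1
      have hadd : ∀ (B : Bool → Coins D → ℝ),
          (𝔼 s : Bool → Coins D, if C1 s then (B false (s false) + B true (s true)) / 2 else 0) =
          ((𝔼 s : Bool → Coins D, if C1 s then B false (s false) else 0) +
            𝔼 s : Bool → Coins D, if C1 s then B true (s true) else 0) / 2 := by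
        intro B
        rw [← Finset.expect_add_distrib, Finset.expect_div]
        refine Finset.expect_congr rfl (fun s _ => ?_)
        split_ifs <;> simp
      rw [hadd A, hadd g, key false, key true]

/-- C4a -/
theorem evolve_cond (D : ℕ) {m : ℕ} (x : Fin m ↪ V D) (φ : V D → ℝ) (hφ : ∀ i, φ (x i) = 0)
    (z : Fin m → V D) (y : V D) :
    (𝔼 c : Coins D, if (∀ i, pass D c (x i) = z i) then φ ((pass D c).symm y) else 0) =
      𝔼 c : Coins D, if (∀ i, pass D c (x i) = z i) then evolve D (rangeF x) c φ y else 0 := by
  classical
  obtain ⟨ζ, hζ⟩ : ∃ ζ : V D → V D, ∀ i, ζ (x i) = z i :=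
    ⟨Function.extend x z (fun p => p), fun i => x.injective.extend_apply z _ i⟩
  have hiff : ∀ c : Coins D, (∀ i, pass D c (x i) = z i) ↔ ∀ p ∈ rangeF x, pass D c p = ζ p := by
    intro c
    constructor
    · intro h p hp
      obtain ⟨i, rfl⟩ := mem_rangeF.1 hp
      rw [h i, hζ]
    · intro h i
      rw [h _ (mem_rangeF.2 ⟨i, rfl⟩), hζ]
  have := evolve_cond_set D (rangeF x) ζ φ (fun p hp => by
    obtain ⟨i, rfl⟩ := mem_rangeF.1 hp
    exact hφ i) y
  convert this using 3
  · simp only [hiff]
  · simp only [hiff]

end Crest.Agent.Thorp
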