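import Crest.Agent.Lib.Row155.Defs2
/-!
Row 155 (Thorp shuffle), chunk T5 (C4b2): `evolve_BS`, `evolve_energy`.
Energy and box-sum recursion of the conditional density of one card.
-/
set_option autoImplicit false
open Finset
open scoped BigOperators

namespace Crest.Agent.Thorp

namespace T5

/-! ### averaging over coins -/

/-- flip one coin -/
def flip {D : ℕ} (u : V D) (t : V D → Bool) : V D → Bool := Function.update t u (!t u)

theorem flip_self {D : ℕ} (u : V D) (t : V D → Bool) : flip u t u = !t u := by
  simp [flip]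

theorem flip_ne {D : ℕ} {u v : V D} (h : v ≠ u) (t : V D → Bool) : flip u t v = t v := by
  simp [flip, h]

theorem flip_flip {D : ℕ} (u : V D) (t : V D → Bool) : flip u (flip u t) = t := by
  funext v
  by_cases h : v = u
  · subst h; rw [flip_self, flip_self, Bool.not_not]
  · rw [flip_ne h, flip_ne h]

/-- flipping as an equivalence -/
def flipEquiv {D : ℕ} (u : V D) : (V D → Bool) ≃ (V D → Bool) where
  toFun := flip u
  invFun := flip u
  left_inv := flip_flip u
  right_inv := flip_flip u

theorem expect_flip {D : ℕ} (u : V D) (F : (V D → Bool) → ℝ) :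
    𝔼 t, F (flip u t) = 𝔼 t, F t :=
  Fintype.expect_equiv (flipEquiv u) _ _ (fun _ => rfl)

theorem expect_coin {D : ℕ} (u : V D) (g : Bool → ℝ) (H : (V D → Bool) → ℝ)
    (hH : ∀ t, H (flip u t) = H t) :
    𝔼 t, g (t u) * H t = ((g false + g true) / 2) * 𝔼 t, H t := by
  have h1 : 𝔼 t, g (t u) * H t = 𝔼 t, g (!t u) * H t := by
    rw [← expect_flip u (fun t => g (t u) * H t)]
    simp only [flip_self, hH]
  have h2 : 𝔼 t, g (t u) * H t + 𝔼 t, g (!t u) * H t = (g false + g true) * 𝔼 t, H t := by
    rw [← Finset.expect_add_distrib, Finset.mul_expect]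
    refine Finset.expect_congr rfl fun t _ => ?_
    cases t u <;> simp <;> ring
  linarith

theorem expect_coin1 {D : ℕ} (u : V D) (g : Bool → ℝ) :
    𝔼 t : V D → Bool, g (t u) = (g false + g true) / 2 := by
  have := expect_coin u g (fun _ => 1) (fun _ => rfl)
  simpa using this

theorem expect_coin2 {D : ℕ} {u v : V D} (h : u ≠ v) (g g' : Bool → ℝ) :
    𝔼 t : V D → Bool, g (t u) * g' (t v) = ((g false + g true) / 2) * ((g' false + g' true) / 2) := by
  rw [expect_coin u g (fun t => g' (t v)) (fun t => by rw [flip_ne h.symm]), expect_coin1]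

theorem expect_bool_prod {X : Type*} [Fintype X] (F G : X → ℝ) :
    𝔼 s : Bool → X, F (s false) * G (s true) = (𝔼 x, F x) * (𝔼 x, G x) := by
  rw [Finset.expect_mul_expect, ← Finset.expect_product']
  exact Fintype.expect_equiv (Equiv.boolArrowEquivProd X) _ _ (fun _ => rfl)

theorem expect_bool_single {X : Type*} [Fintype X] [Nonempty X] (F : X → ℝ) (h : Bool) :
    𝔼 s : Bool → X, F (s h) = 𝔼 x, F x := by
  cases h
  · have := expect_bool_prod F (fun _ => (1 : ℝ))
    simpa using this
  · have := expect_bool_prod (fun _ => (1 : ℝ)) F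
    simpa using this

/-! ### the two halves -/

/-- the evolved density of the half `h` -/
noncomputable def ev (D : ℕ) (R : Finset (V (D + 1))) (φ : V (D + 1) → ℝ) (h : Bool) (s : Coins D)
    (v : V D) : ℝ :=
  evolve D (half D R h) s (fun w => φ (cons h w)) v

/-- position `v` of the half `h` is occupied after the pass of this half -/
def oc (D : ℕ) (R : Finset (V (D + 1))) (h : Bool) (s : Coins D) (v : V D) : Prop :=
  (pass D s).symm v ∈ half D R h

instance instDecOc (D : ℕ) (R : Finset (V (D + 1))) (h : Bool) (s : Coins D) (v : V D) :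
    Decidable (oc D R h s v) := by unfold oc; infer_instance

theorem occ_iff (D : ℕ) (R : Finset (V (D + 1))) (s : Bool → Coins D) (t : V D → Bool) (h : Bool)
    (v : V D) : occ D R (Coins.mk s t) h v ↔ oc D R h (s h) v := by
  unfold occ oc
  rw [mem_half, Coins.sub_mk]

theorem evolve_cons (D : ℕ) (R : Finset (V (D + 1))) (φ : V (D + 1) → ℝ) (s : Bool → Coins D)
    (t : V D → Bool) (b : Bool) (v : V D) :
    evolve (D + 1) R (Coins.mk s t) φ (cons b v) =
      if oc D R false (s false) v ∨ oc D R true (s true) v then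
        ev D R φ (xor b (t v)) (s (xor b (t v))) v
      else (ev D R φ false (s false) v + ev D R φ true (s true) v) / 2 := by
  rw [evolve]
  simp only [occ_iff, hd_cons, tl_cons, Coins.sub_mk, Coins.top_mk]
  rfl

theorem evolve_supp' : ∀ (D : ℕ) (R : Finset (V D)) (c : Coins D) (φ : V D → ℝ)
    (_ : ∀ p ∈ R, φ p = 0) (y : V D) (_ : (pass D c).symm y ∈ R), evolve D R c φ y = 0
  | 0, R, c, φ, hφ, y, hy => hφ y hy
  | D + 1, R, c, φ, hφ, y, hy => by
    have hc : c = Coins.mk c.sub c.top := rfl
    have hy' : y = cons (hd y) (tl y) := rfl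
    rw [pass_succ_symm_apply] at hy
    have hoc : oc D R (xor (hd y) (c.top (tl y))) (c.sub (xor (hd y) (c.top (tl y)))) (tl y) := by
      unfold oc
      rw [mem_half]
      exact hy
    have hor : oc D R false (c.sub false) (tl y) ∨ oc D R true (c.sub true) (tl y) := by
      revert hoc
      cases xor (hd y) (c.top (tl y))
      · exact fun h => Or.inl h
      · exact fun h => Or.inr h
    rw [hc, hy', evolve_cons, if_pos hor]
    refine evolve_supp' D _ _ _ (fun p hp => ?_) _ hoc
    exact hφ _ (mem_half.mp hp)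

theorem ev_supp (D : ℕ) (R : Finset (V (D + 1))) (φ : V (D + 1) → ℝ) (hφ : ∀ p ∈ R, φ p = 0)
    (h : Bool) (s : Coins D) (v : V D) (hv : oc D R h s v) : ev D R φ h s v = 0 :=
  evolve_supp' D _ _ _ (fun _ hp => hφ _ (mem_half.mp hp)) _ hv

/-- value of the switch as a function of the coin -/
theorem evolve_coin_avg (D : ℕ) (R : Finset (V (D + 1))) (φ : V (D + 1) → ℝ) (s : Bool → Coins D)
    (b : Bool) (v : V D) :
    ((if oc D R false (s false) v ∨ oc D R true (s true) v then
        ev D R φ (xor b false) (s (xor b false)) v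
      else (ev D R φ false (s false) v + ev D R φ true (s true) v) / 2) +
      (if oc D R false (s false) v ∨ oc D R true (s true) v then
        ev D R φ (xor b true) (s (xor b true)) v
      else (ev D R φ false (s false) v + ev D R φ true (s true) v) / 2)) / 2 =
      (ev D R φ false (s false) v + ev D R φ true (s true) v) / 2 := by
  split_ifs with h
  · cases b
    · simp
    · simp
      ring
  · ring

theorem sum_half (D : ℕ) (φ : V (D + 1) → ℝ) :
    ∑ y, φ y = ∑ v, φ (cons false v) + ∑ v, φ (cons true v) := by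
  rw [sum_V_succ, Fintype.sum_bool, add_comm]

theorem evolve_mean : ∀ (D : ℕ) (R : Finset (V D)) (φ : V D → ℝ) (y : V D),
    𝔼 c : Coins D, evolve D R c φ y = (∑ p, φ p) / 2 ^ D
  | 0, R, φ, y => by
    have h1 : ∀ c : Coins 0, evolve 0 R c φ y = φ y := fun _ => rfl
    have : Subsingleton (V 0) := inferInstanceAs (Subsingleton Unit)
    have h2 : ∑ p : V 0, φ p = φ y := Fintype.sum_subsingleton φ y
    simp only [h1, h2, Fintype.expect_const]
    simp
  | D + 1, R, φ, y => by
    have hy' : y = cons (hd y) (tl y) := rfl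
    rw [hy', expect_Coins_succ]
    have h1 : ∀ s : Bool → Coins D,
        𝔼 t : V D → Bool, evolve (D + 1) R (Coins.mk s t) φ (cons (hd y) (tl y)) =
          (ev D R φ false (s false) (tl y) + ev D R φ true (s true) (tl y)) / 2 := by
      intro s
      simp only [evolve_cons]
      refine Eq.trans ?_ (evolve_coin_avg D R φ s (hd y) (tl y))
      exact expect_coin1 (tl y) (fun τ => if oc D R false (s false) (tl y) ∨
        oc D R true (s true) (tl y) then ev D R φ (xor (hd y) τ) (s (xor (hd y) τ)) (tl y)
        else (ev D R φ false (s false) (tl y) + ev D R φ true (s true) (tl y)) / 2)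
    simp only [h1]
    rw [← Finset.expect_div, Finset.expect_add_distrib,
      expect_bool_single (fun x => ev D R φ false x (tl y)) false,
      expect_bool_single (fun x => ev D R φ true x (tl y)) true]
    unfold ev
    rw [evolve_mean D, evolve_mean D, sum_half]
    field_simp
    ring

theorem card_half (D : ℕ) (R : Finset (V (D + 1))) :
    R.card = (half D R false).card + (half D R true).card := by
  have h : ∀ b, (half D R b).card = ∑ v : V D, if cons b v ∈ R then 1 else 0 := by
    intro b
    unfold half
    rw [Finset.card_filter]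
  have h' : R.card = ∑ p : V (D + 1), if p ∈ R then 1 else 0 := by
    simp
  rw [h, h, h', sum_V_succ, Fintype.sum_bool, add_comm]

theorem pass_mean : ∀ (D : ℕ) (R : Finset (V D)) (y : V D),
    𝔼 c : Coins D, (if (pass D c).symm y ∈ R then (1 : ℝ) else 0) = (R.card : ℝ) / 2 ^ D
  | 0, R, y => by
    have h1 : ∀ c : Coins 0, (pass 0 c).symm y = y := fun _ => rfl
    simp only [h1, Fintype.expect_const]
    by_cases h : y ∈ R
    · have : R = {y} := by
        ext z
        simp only [Finset.mem_singleton]
        constructor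
        · intro _; exact Subsingleton.elim (α := Unit) z y
        · rintro rfl; exact h
      rw [if_pos h, this]
      simp
    · have : R = ∅ := by
        ext z
        simp only [Finset.notMem_empty, iff_false]
        intro hz
        apply h
        have : z = y := Subsingleton.elim (α := Unit) z y
        rwa [← this]
      rw [if_neg h, this]
      simp
  | D + 1, R, y => by
    rw [expect_Coins_succ]
    have h1 : ∀ s : Bool → Coins D,
        𝔼 t : V D → Bool, (if (pass (D + 1) (Coins.mk s t)).symm y ∈ R then (1 : ℝ) else 0) =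
          ((if (pass D (s false)).symm (tl y) ∈ half D R false then (1 : ℝ) else 0) +
           (if (pass D (s true)).symm (tl y) ∈ half D R true then (1 : ℝ) else 0)) / 2 := by
      intro s
      have h2 : ∀ t : V D → Bool, (if (pass (D + 1) (Coins.mk s t)).symm y ∈ R then (1 : ℝ) else 0)
          = (fun τ => if (pass D (s (xor (hd y) τ))).symm (tl y) ∈ half D R (xor (hd y) τ)
              then (1 : ℝ) else 0) (t (tl y)) := by
        intro t
        rw [pass_succ_symm_apply]
        simp only [Coins.sub_mk, Coins.top_mk, mem_half]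
        congr
      simp only [h2]
      rw [expect_coin1 (tl y) (fun τ => if (pass D (s (xor (hd y) τ))).symm (tl y) ∈
        half D R (xor (hd y) τ) then (1 : ℝ) else 0)]
      cases hd y
      · simp
      · simp
        ring
    simp only [h1]
    rw [← Finset.expect_div, Finset.expect_add_distrib,
      expect_bool_single (fun x => if (pass D x).symm (tl y) ∈ half D R false then (1 : ℝ) else 0)
        false,
      expect_bool_single (fun x => if (pass D x).symm (tl y) ∈ half D R true then (1 : ℝ) else 0)
        true, pass_mean D, pass_mean D, card_half D R]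
    push_cast
    field_simp
    ring

/-! ### pair correlations -/

/-- correlation of the evolved density -/
noncomputable def Cor (D : ℕ) (R : Finset (V D)) (φ : V D → ℝ) (u v : V D) : ℝ :=
  𝔼 c : Coins D, evolve D R c φ u * evolve D R c φ v

theorem Cor_succ (D : ℕ) (R : Finset (V (D + 1))) (φ : V (D + 1) → ℝ) (hφ : ∀ p ∈ R, φ p = 0)
    (u v : V D) :
    Cor (D + 1) R φ (cons false u) (cons false v) + Cor (D + 1) R φ (cons true u) (cons true v) =
      (Cor D (half D R false) (fun w => φ (cons false w)) u v +
        Cor D (half D R true) (fun w => φ (cons true w)) u v) / 2 +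
      ((∑ w, φ (cons false w)) / 2 ^ D) * ((∑ w, φ (cons true w)) / 2 ^ D) +
      (if u = v then
        (((half D R true).card : ℝ) / 2 ^ D *
            Cor D (half D R false) (fun w => φ (cons false w)) u u +
          ((half D R false).card : ℝ) / 2 ^ D *
            Cor D (half D R true) (fun w => φ (cons true w)) u u) / 2 else 0) := by
  have key : ∀ s : Bool → Coins D,
      𝔼 t : V D → Bool, (evolve (D + 1) R (Coins.mk s t) φ (cons false u) *
          evolve (D + 1) R (Coins.mk s t) φ (cons false v) +
        evolve (D + 1) R (Coins.mk s t) φ (cons true u) *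
          evolve (D + 1) R (Coins.mk s t) φ (cons true v)) =
      (ev D R φ false (s false) u * ev D R φ false (s false) v +
        ev D R φ true (s true) u * ev D R φ true (s true) v) / 2 +
      (ev D R φ false (s false) u * ev D R φ true (s true) v +
        ev D R φ false (s false) v * ev D R φ true (s true) u) / 2 +
      (if u = v then
        ((ev D R φ false (s false) u * ev D R φ false (s false) u) *
            (if (pass D (s true)).symm u ∈ half D R true then 1 else 0) +
          (if (pass D (s false)).symm u ∈ half D R false then 1 else 0) *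
            (ev D R φ true (s true) u * ev D R φ true (s true) u)) / 2 else 0) := by
    intro s
    by_cases huv : u = v
    · subst huv
      have hpt : ∀ t : V D → Bool, (evolve (D + 1) R (Coins.mk s t) φ (cons false u) *
          evolve (D + 1) R (Coins.mk s t) φ (cons false u) +
        evolve (D + 1) R (Coins.mk s t) φ (cons true u) *
          evolve (D + 1) R (Coins.mk s t) φ (cons true u)) =
        (ev D R φ false (s false) u * ev D R φ false (s false) u +
        ev D R φ true (s true) u * ev D R φ true (s true) u) / 2 +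
      (ev D R φ false (s false) u * ev D R φ true (s true) u +
        ev D R φ false (s false) u * ev D R φ true (s true) u) / 2 +
        ((ev D R φ false (s false) u * ev D R φ false (s false) u) *
            (if (pass D (s true)).symm u ∈ half D R true then 1 else 0) +
          (if (pass D (s false)).symm u ∈ half D R false then 1 else 0) *
            (ev D R φ true (s true) u * ev D R φ true (s true) u)) / 2 := by
        intro t
        rw [evolve_cons, evolve_cons]
        by_cases h0 : oc D R false (s false) u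
        · have e0 := ev_supp D R φ hφ false (s false) u h0
          have h0' : (pass D (s false)).symm u ∈ half D R false := h0
          rw [if_pos (Or.inl h0), if_pos (Or.inl h0), if_pos h0']
          by_cases h1 : oc D R true (s true) u
          · have e1 := ev_supp D R φ hφ true (s true) u h1
            cases t u <;> simp [e0, e1]
          · have h1' : ¬ (pass D (s true)).symm u ∈ half D R true := h1
            rw [if_neg h1']
            cases t u
            · simp [e0]
            · simp [e0]
        · have h0' : ¬ (pass D (s false)).symm u ∈ half D R false := h0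
          rw [if_neg h0']
          by_cases h1 : oc D R true (s true) u
          · have e1 := ev_supp D R φ hφ true (s true) u h1
            have h1' : (pass D (s true)).symm u ∈ half D R true := h1
            rw [if_pos (Or.inr h1), if_pos (Or.inr h1), if_pos h1']
            cases t u
            · simp [e1]
            · simp [e1]
          · have h1' : ¬ (pass D (s true)).symm u ∈ half D R true := h1
            rw [if_neg (by tauto), if_neg (by tauto), if_neg h1']
            ring
      rw [if_pos rfl]
      simp only [hpt, Fintype.expect_const]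
    · rw [if_neg huv, Finset.expect_add_distrib]
      have hb : ∀ b : Bool, 𝔼 t : V D → Bool, evolve (D + 1) R (Coins.mk s t) φ (cons b u) *
          evolve (D + 1) R (Coins.mk s t) φ (cons b v) =
          ((ev D R φ false (s false) u + ev D R φ true (s true) u) / 2) *
          ((ev D R φ false (s false) v + ev D R φ true (s true) v) / 2) := by
        intro b
        simp only [evolve_cons]
        refine Eq.trans (expect_coin2 huv
          (fun τ => if oc D R false (s false) u ∨ oc D R true (s true) u then
            ev D R φ (xor b τ) (s (xor b τ)) u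
            else (ev D R φ false (s false) u + ev D R φ true (s true) u) / 2)
          (fun τ => if oc D R false (s false) v ∨ oc D R true (s true) v then
            ev D R φ (xor b τ) (s (xor b τ)) v
            else (ev D R φ false (s false) v + ev D R φ true (s true) v) / 2)) ?_
        rw [evolve_coin_avg, evolve_coin_avg]
      rw [hb, hb]
      ring
  unfold Cor
  rw [← Finset.expect_add_distrib, expect_Coins_succ]
  simp only [key]
  rw [Finset.expect_add_distrib, Finset.expect_add_distrib]
  have hm : ∀ (h : Bool) (w : V D), 𝔼 x : Coins D, ev D R φ h x w =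
      (∑ w, φ (cons h w)) / 2 ^ D := fun h w => evolve_mean D _ _ w
  congr 1
  · congr 1
    · rw [← Finset.expect_div, Finset.expect_add_distrib]
      rw [expect_bool_single (fun x => ev D R φ false x u * ev D R φ false x v) false,
        expect_bool_single (fun x => ev D R φ true x u * ev D R φ true x v) true]
      rfl
    · rw [← Finset.expect_div, Finset.expect_add_distrib]
      rw [expect_bool_prod (fun x => ev D R φ false x u) (fun x => ev D R φ true x v),
        expect_bool_prod (fun x => ev D R φ false x v) (fun x => ev D R φ true x u),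
        hm, hm, hm, hm]
      ring
  · split_ifs with huv
    · rw [← Finset.expect_div, Finset.expect_add_distrib]
      rw [expect_bool_prod (fun x => ev D R φ false x u * ev D R φ false x u)
          (fun x => if (pass D x).symm u ∈ half D R true then (1 : ℝ) else 0),
        expect_bool_prod (fun x => if (pass D x).symm u ∈ half D R false then (1 : ℝ) else 0)
          (fun x => ev D R φ true x u * ev D R φ true x u), pass_mean, pass_mean]
      rw [mul_comm (𝔼 x, ev D R φ false x u * ev D R φ false x u)]
      rfl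
    · simp

theorem evolve_sum' : ∀ (D : ℕ) (R : Finset (V D)) (c : Coins D) (φ : V D → ℝ),
    ∑ y, evolve D R c φ y = ∑ y, φ y
  | 0, _, _, _ => rfl
  | D + 1, R, c, φ => by
    have hc : c = Coins.mk c.sub c.top := rfl
    have h0 : ∑ v, ev D R φ false (c.sub false) v = ∑ v, φ (cons false v) :=
      evolve_sum' D _ _ _
    have h1 : ∑ v, ev D R φ true (c.sub true) v = ∑ v, φ (cons true v) :=
      evolve_sum' D _ _ _
    rw [hc, sum_half, sum_half D φ, ← h0, ← h1, ← Finset.sum_add_distrib,
      ← Finset.sum_add_distrib]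
    refine Finset.sum_congr rfl fun v _ => ?_
    rw [evolve_cons, evolve_cons]
    split_ifs with h
    · cases c.top v
      · rfl
      · exact add_comm _ _
    · ring

theorem evolve_sq_le' : ∀ (D : ℕ) (R : Finset (V D)) (c : Coins D) (φ : V D → ℝ),
    ∑ y, evolve D R c φ y ^ 2 ≤ ∑ y, φ y ^ 2
  | 0, _, _, _ => le_rfl
  | D + 1, R, c, φ => by
    have hc : c = Coins.mk c.sub c.top := rfl
    have h0 := evolve_sq_le' D (half D R false) (c.sub false) (fun w => φ (cons false w))
    have h1 := evolve_sq_le' D (half D R true) (c.sub true) (fun w => φ (cons true w))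
    rw [hc, sum_half, sum_half D (fun y => φ y ^ 2)]
    refine le_trans ?_ (add_le_add h0 h1)
    rw [← Finset.sum_add_distrib, ← Finset.sum_add_distrib]
    refine Finset.sum_le_sum fun v _ => ?_
    rw [evolve_cons, evolve_cons]
    change _ ≤ ev D R φ false (c.sub false) v ^ 2 + ev D R φ true (c.sub true) v ^ 2
    split_ifs with h
    · cases c.top v
      · exact le_rfl
      · exact (add_comm _ _).le
    · nlinarith [sq_nonneg (ev D R φ false (c.sub false) v - ev D R φ true (c.sub true) v)]

/-- mean energy after one pass -/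
noncomputable def En (D : ℕ) (R : Finset (V D)) (φ : V D → ℝ) : ℝ :=
  𝔼 c : Coins D, ∑ y, evolve D R c φ y ^ 2

theorem En_le (D : ℕ) (R : Finset (V D)) (φ : V D → ℝ) : En D R φ ≤ ∑ y, φ y ^ 2 := by
  unfold En
  refine (Finset.expect_le_expect (fun c _ => evolve_sq_le' D R c φ)).trans ?_
  rw [Fintype.expect_const]

theorem En_nonneg (D : ℕ) (R : Finset (V D)) (φ : V D → ℝ) : 0 ≤ En D R φ :=
  Finset.expect_nonneg fun _ _ => Finset.sum_nonneg fun _ _ => sq_nonneg _

theorem En_eq (D : ℕ) (R : Finset (V D)) (φ : V D → ℝ) : En D R φ = ∑ y, Cor D R φ y y := by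
  unfold En Cor
  rw [Finset.expect_sum_comm]
  refine Finset.sum_congr rfl fun y _ => Finset.expect_congr rfl fun c _ => ?_
  ring

theorem sum_sq_half (D : ℕ) (φ : V (D + 1) → ℝ) :
    ∑ y, φ y ^ 2 = ∑ v, φ (cons false v) ^ 2 + ∑ v, φ (cons true v) ^ 2 :=
  sum_half D (fun y => φ y ^ 2)

theorem sum_aux {X : Type*} [Fintype X] (a b : X → ℝ) (x p q : ℝ) :
    ∑ v, ((a v + b v) / 2 + x + (p * a v + q * b v) / 2) =
      (∑ v, a v + ∑ v, b v) / 2 + (Fintype.card X) * x + (p * ∑ v, a v + q * ∑ v, b v) / 2 := by
  have h : ∀ v, (a v + b v) / 2 + x + (p * a v + q * b v) / 2 =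
      (1 + p) / 2 * a v + (1 + q) / 2 * b v + x := fun v => by ring
  simp only [h]
  rw [Finset.sum_add_distrib, Finset.sum_add_distrib, ← Finset.mul_sum, ← Finset.mul_sum,
    Finset.sum_const, Finset.card_univ, nsmul_eq_mul]
  ring

theorem En_succ (D : ℕ) (R : Finset (V (D + 1))) (φ : V (D + 1) → ℝ) (hφ : ∀ p ∈ R, φ p = 0) :
    En (D + 1) R φ =
      (En D (half D R false) (fun w => φ (cons false w)) +
        En D (half D R true) (fun w => φ (cons true w))) / 2 +
      (∑ w, φ (cons false w)) * (∑ w, φ (cons true w)) / 2 ^ D +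
        (((half D R true).card : ℝ) / 2 ^ D * En D (half D R false) (fun w => φ (cons false w)) +
          ((half D R false).card : ℝ) / 2 ^ D *
            En D (half D R true) (fun w => φ (cons true w))) / 2 := by
  rw [En_eq, sum_half, ← Finset.sum_add_distrib]
  simp only [Cor_succ D R φ hφ, if_true]
  rw [sum_aux, ← En_eq, ← En_eq, card_V]
  push_cast
  field_simp

theorem BS_self (D : ℕ) (φ : V D → ℝ) : BS D D φ = (∑ p, φ p) ^ 2 := by
  cases D with
  | zero => rfl
  | succ D => rw [BS, if_pos le_rfl]

theorem BS_succ (D k : ℕ) (hk : k ≤ D) (φ : V (D + 1) → ℝ) :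
    BS (D + 1) k φ = BS D k (fun v => φ (cons false v)) + BS D k (fun v => φ (cons true v)) := by
  rw [BS, if_neg (by omega), Fintype.sum_bool, add_comm]

theorem BS_nonneg : ∀ (D k : ℕ) (φ : V D → ℝ), 0 ≤ BS D k φ
  | 0, _, _ => sq_nonneg _
  | D + 1, k, φ => by
    by_cases hk : k ≤ D
    · rw [BS_succ D k hk]
      exact add_nonneg (BS_nonneg D k _) (BS_nonneg D k _)
    · rw [BS, if_pos (by omega)]
      exact sq_nonneg _

theorem half_card_le (D : ℕ) (R : Finset (V (D + 1))) (h : Bool) :
    ((half D R h).card : ℝ) / 2 ^ D ≤ 1 := by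
  rw [div_le_one (by positivity)]
  have := Finset.card_le_univ (half D R h)
  rw [card_V] at this
  exact_mod_cast this

theorem energy_bound (s0 : ℕ) (ρ : ℝ) (hρ0 : 0 ≤ ρ) (hρ : ρ ≤ 1) : ∀ (D : ℕ) (_ : s0 ≤ D)
    (R : Finset (V D)) (_ : Reg s0 ρ D R) (φ : V D → ℝ) (_ : ∀ p ∈ R, φ p = 0),
    En D R φ ≤
      (∑ y, φ y) ^ 2 / 2 ^ D + ((1 + ρ) / 2) ^ (D - s0) * ∑ y, φ y ^ 2 +
        ∑ k ∈ Finset.Ico s0 D, ((1 + ρ) / 2) ^ (D - 1 - k) / 2 ^ (k + 1) * BS D k φ
  | D, hD, R, hR, φ, hφ => by
    by_cases hs : s0 = D
    · subst hs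
      rw [Nat.sub_self, pow_zero, one_mul, Finset.Ico_self, Finset.sum_empty, add_zero]
      have := En_le s0 R φ
      have h2 : 0 ≤ (∑ y, φ y) ^ 2 / 2 ^ s0 := by positivity
      linarith
    · have hs' : s0 < D := lt_of_le_of_ne hD hs
      obtain ⟨D, rfl⟩ : ∃ D', D = D' + 1 := ⟨D - 1, by omega⟩
      have hs'' : s0 ≤ D := by omega
      obtain ⟨hR1, hR2⟩ := hR
      have hR1 := hR1 hs''
      have ih0 := energy_bound s0 ρ hρ0 hρ D hs'' (half D R false) (hR2 false)
        (fun w => φ (cons false w)) (fun p hp => hφ _ (mem_half.mp hp))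
      have ih1 := energy_bound s0 ρ hρ0 hρ D hs'' (half D R true) (hR2 true)
        (fun w => φ (cons true w)) (fun p hp => hφ _ (mem_half.mp hp))
      rw [En_succ D R φ hφ, sum_half D φ, sum_sq_half D φ, Finset.sum_Ico_succ_top hs'']
      set κ : ℝ := (1 + ρ) / 2 with hκ
      have hκ0 : 0 ≤ κ := by rw [hκ]; linarith
      set S0 := ∑ w, φ (cons false w)
      set S1 := ∑ w, φ (cons true w)
      set Q0 := ∑ w, φ (cons false w) ^ 2
      set Q1 := ∑ w, φ (cons true w) ^ 2
      have hQ0 : 0 ≤ Q0 := Finset.sum_nonneg fun _ _ => sq_nonneg _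
      have hQ1 : 0 ≤ Q1 := Finset.sum_nonneg fun _ _ => sq_nonneg _
      have hpow : κ ^ (D + 1 - s0) = κ * κ ^ (D - s0) := by
        rw [show D + 1 - s0 = (D - s0) + 1 by omega, pow_succ']
      have hsum : ∑ k ∈ Finset.Ico s0 D, κ ^ (D + 1 - 1 - k) / 2 ^ (k + 1) * BS (D + 1) k φ =
          κ * (∑ k ∈ Finset.Ico s0 D, κ ^ (D - 1 - k) / 2 ^ (k + 1) *
            BS D k (fun w => φ (cons false w)) +
          ∑ k ∈ Finset.Ico s0 D, κ ^ (D - 1 - k) / 2 ^ (k + 1) *
            BS D k (fun w => φ (cons true w))) := by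
        rw [← Finset.sum_add_distrib, Finset.mul_sum]
        refine Finset.sum_congr rfl fun k hk => ?_
        rw [Finset.mem_Ico] at hk
        rw [BS_succ D k (by omega), show D + 1 - 1 - k = (D - 1 - k) + 1 by omega, pow_succ']
        ring
      have hlast : κ ^ (D + 1 - 1 - D) / 2 ^ (D + 1) * BS (D + 1) D φ =
          (S0 ^ 2 + S1 ^ 2) / 2 ^ (D + 1) := by
        rw [show D + 1 - 1 - D = 0 by omega, pow_zero, BS_succ D D le_rfl, BS_self, BS_self]
        ring
      rw [hpow, hsum, hlast]
      set Y0 := ∑ k ∈ Finset.Ico s0 D, κ ^ (D - 1 - k) / 2 ^ (k + 1) *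
            BS D k (fun w => φ (cons false w))
      set Y1 := ∑ k ∈ Finset.Ico s0 D, κ ^ (D - 1 - k) / 2 ^ (k + 1) *
            BS D k (fun w => φ (cons true w))
      have hY0 : 0 ≤ Y0 := Finset.sum_nonneg fun k _ =>
        mul_nonneg (div_nonneg (pow_nonneg hκ0 _) (by positivity)) (BS_nonneg _ _ _)
      have hY1 : 0 ≤ Y1 := Finset.sum_nonneg fun k _ =>
        mul_nonneg (div_nonneg (pow_nonneg hκ0 _) (by positivity)) (BS_nonneg _ _ _)
      set E0 := En D (half D R false) (fun w => φ (cons false w))
      set E1 := En D (half D R true) (fun w => φ (cons true w))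
      have hE0 : 0 ≤ E0 := En_nonneg _ _ _
      have hE1 : 0 ≤ E1 := En_nonneg _ _ _
      set r0 := ((half D R false).card : ℝ) / 2 ^ D
      set r1 := ((half D R true).card : ℝ) / 2 ^ D
      have hr0 : r0 ≤ ρ := by
        rw [div_le_iff₀ (by positivity)]; exact hR1 false
      have hr1 : r1 ≤ ρ := by
        rw [div_le_iff₀ (by positivity)]; exact hR1 true
      have hP : 0 < (2 : ℝ) ^ D := by positivity
      have hA0 : (1 + r1) / 2 * E0 ≤ κ * (κ ^ (D - s0) * Q0 + Y0) + 1 * (S0 ^ 2 / 2 ^ D) := by
        have h1 : (1 + r1) / 2 ≤ κ := by rw [hκ]; linarith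
        have h2 : κ ≤ 1 := by rw [hκ]; linarith
        have h3 : (1 + r1) / 2 * E0 ≤ κ * E0 := mul_le_mul_of_nonneg_right h1 hE0
        have h4 : κ * E0 ≤ κ * (S0 ^ 2 / 2 ^ D + κ ^ (D - s0) * Q0 + Y0) :=
          mul_le_mul_of_nonneg_left ih0 hκ0
        have h5 : κ * (S0 ^ 2 / 2 ^ D) ≤ 1 * (S0 ^ 2 / 2 ^ D) :=
          mul_le_mul_of_nonneg_right h2 (by positivity)
        linarith
      have hA1 : (1 + r0) / 2 * E1 ≤ κ * (κ ^ (D - s0) * Q1 + Y1) + 1 * (S1 ^ 2 / 2 ^ D) := by
        have h1 : (1 + r0) / 2 ≤ κ := by rw [hκ]; linarith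
        have h2 : κ ≤ 1 := by rw [hκ]; linarith
        have h3 : (1 + r0) / 2 * E1 ≤ κ * E1 := mul_le_mul_of_nonneg_right h1 hE1
        have h4 : κ * E1 ≤ κ * (S1 ^ 2 / 2 ^ D + κ ^ (D - s0) * Q1 + Y1) :=
          mul_le_mul_of_nonneg_left ih1 hκ0
        have h5 : κ * (S1 ^ 2 / 2 ^ D) ≤ 1 * (S1 ^ 2 / 2 ^ D) :=
          mul_le_mul_of_nonneg_right h2 (by positivity)
        linarith
      have hfin : (S0 + S1) ^ 2 / 2 ^ (D + 1) + (S0 ^ 2 + S1 ^ 2) / 2 ^ (D + 1) =
          S0 * S1 / 2 ^ D + (S0 ^ 2 / 2 ^ D + S1 ^ 2 / 2 ^ D) := by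
        rw [pow_succ]
        field_simp
        ring
      nlinarith

/-! ### box sums -/

/-- kernel of the box sums: `1` if `u` and `v` lie in the same box -/
noncomputable def sb : ∀ D, ℕ → V D → V D → ℝ
  | 0, _, _, _ => 1
  | D + 1, k, u, v => if D + 1 ≤ k then 1 else if hd u = hd v then sb D k (tl u) (tl v) else 0

theorem sb_self : ∀ (D k : ℕ) (u : V D), sb D k u u = 1
  | 0, _, _ => rfl
  | D + 1, k, u => by
    rw [sb, sb_self D k]
    simp

theorem sb_cons (D k : ℕ) (hk : k ≤ D) (h h' : Bool) (u v : V D) :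
    sb (D + 1) k (cons h u) (cons h' v) = if h = h' then sb D k u v else 0 := by
  rw [sb, if_neg (by omega)]
  rfl

theorem BS_eq : ∀ (D k : ℕ) (φ : V D → ℝ),
    BS D k φ = ∑ u, ∑ v, sb D k u v * (φ u * φ v)
  | 0, k, φ => by
    rw [BS, sq, Finset.sum_mul_sum]
    refine Finset.sum_congr rfl fun u _ => Finset.sum_congr rfl fun v _ => ?_
    rw [sb, one_mul]
  | D + 1, k, φ => by
    by_cases hk : k ≤ D
    · rw [BS_succ D k hk, BS_eq D k, BS_eq D k, sum_half D]
      simp only [sum_half D, sb_cons D k hk]
      simp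
    · have hk' : D + 1 ≤ k := by omega
      rw [BS, if_pos hk', sq, Finset.sum_mul_sum]
      refine Finset.sum_congr rfl fun u _ => Finset.sum_congr rfl fun v _ => ?_
      rw [sb, if_pos hk', one_mul]

theorem sum_sb : ∀ (D k : ℕ) (_ : k ≤ D), ∑ u : V D, ∑ v : V D, sb D k u v = 2 ^ D * 2 ^ k
  | D, k, hk => by
    by_cases hkD : k = D
    · subst hkD
      have h1 : ∀ u v : V k, sb k k u v = 1 := by
        intro u v
        cases k with
        | zero => rfl
        | succ k => rw [sb, if_pos le_rfl]
      simp only [h1, Finset.sum_const, Finset.card_univ, card_V, nsmul_eq_mul]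
      push_cast
      ring
    · obtain ⟨D, rfl⟩ : ∃ D', D = D' + 1 := ⟨D - 1, by omega⟩
      have hk' : k ≤ D := by omega
      rw [sum_half D]
      simp only [sum_half D, sb_cons D k hk']
      have := sum_sb D k hk'
      simp only [if_true, Bool.false_eq_true, Bool.true_eq_false, if_false, Finset.sum_const_zero,
        add_zero, zero_add, this]
      ring

/-- mean box sum after one pass -/
noncomputable def EB (D k : ℕ) (R : Finset (V D)) (φ : V D → ℝ) : ℝ :=
  𝔼 c : Coins D, BS D k (evolve D R c φ)

theorem EB_eq (D k : ℕ) (R : Finset (V D)) (φ : V D → ℝ) :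
    EB D k R φ = ∑ u, ∑ v, sb D k u v * Cor D R φ u v := by
  unfold EB Cor
  simp only [BS_eq]
  rw [Finset.expect_sum_comm]
  refine Finset.sum_congr rfl fun u _ => ?_
  rw [Finset.expect_sum_comm]
  refine Finset.sum_congr rfl fun v _ => ?_
  rw [Finset.mul_expect]

theorem EB_succ (D k : ℕ) (hk : k ≤ D) (R : Finset (V (D + 1))) (φ : V (D + 1) → ℝ)
    (hφ : ∀ p ∈ R, φ p = 0) :
    EB (D + 1) k R φ =
      (EB D k (half D R false) (fun w => φ (cons false w)) +
        EB D k (half D R true) (fun w => φ (cons true w))) / 2 +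
      (∑ w, φ (cons false w)) * (∑ w, φ (cons true w)) / 2 ^ (D - k) +
        (((half D R true).card : ℝ) / 2 ^ D * En D (half D R false) (fun w => φ (cons false w)) +
          ((half D R false).card : ℝ) / 2 ^ D *
            En D (half D R true) (fun w => φ (cons true w))) / 2 := by
  have h1 : EB (D + 1) k R φ = ∑ u : V D, ∑ v : V D, sb D k u v *
      (Cor (D + 1) R φ (cons false u) (cons false v) +
        Cor (D + 1) R φ (cons true u) (cons true v)) := by
    rw [EB_eq, sum_half D]
    simp only [sum_half D, sb_cons D k hk]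
    simp only [if_true, Bool.false_eq_true, Bool.true_eq_false, if_false, zero_mul,
      Finset.sum_const_zero, add_zero, zero_add]
    rw [← Finset.sum_add_distrib]
    refine Finset.sum_congr rfl fun u _ => ?_
    rw [← Finset.sum_add_distrib]
    refine Finset.sum_congr rfl fun v _ => ?_
    ring
  rw [h1]
  simp only [Cor_succ D R φ hφ, mul_add, Finset.sum_add_distrib]
  congr 1
  · congr 1
    · rw [EB_eq, EB_eq, ← Finset.sum_add_distrib, Finset.sum_div]
      refine Finset.sum_congr rfl fun u _ => ?_
      rw [← Finset.sum_add_distrib, Finset.sum_div]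
      refine Finset.sum_congr rfl fun v _ => ?_
      ring
    · simp only [← Finset.sum_mul]
      rw [sum_sb D k hk]
      have : (2 : ℝ) ^ D = 2 ^ (D - k) * 2 ^ k := by
        rw [← pow_add, Nat.sub_add_cancel hk]
      rw [this]
      field_simp
  · rw [En_eq, En_eq, Finset.mul_sum, Finset.mul_sum, ← Finset.sum_add_distrib, Finset.sum_div]
    refine Finset.sum_congr rfl fun u _ => ?_
    rw [Finset.sum_eq_single u]
    · rw [if_pos rfl, sb_self, one_mul]
    · intro v _ hv
      rw [if_neg (Ne.symm hv), mul_zero]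
    · intro h
      exact absurd (Finset.mem_univ u) h

theorem EB_bound : ∀ (D k : ℕ) (_ : k ≤ D) (R : Finset (V D)) (φ : V D → ℝ)
    (_ : ∀ p ∈ R, φ p = 0),
    EB D k R φ ≤ ∑ y, φ y ^ 2 + (∑ y, φ y) ^ 2 / 2 ^ (D - k)
  | D, k, hk, R, φ, hφ => by
    by_cases hkD : k = D
    · subst hkD
      unfold EB
      simp only [BS_self, evolve_sum', Fintype.expect_const, Nat.sub_self, pow_zero, div_one]
      have : 0 ≤ ∑ y, φ y ^ 2 := Finset.sum_nonneg fun _ _ => sq_nonneg _
      linarith
    · obtain ⟨D, rfl⟩ : ∃ D', D = D' + 1 := ⟨D - 1, by omega⟩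
      have hk' : k ≤ D := by omega
      have ih0 := EB_bound D k hk' (half D R false)
        (fun w => φ (cons false w)) (fun p hp => hφ _ (mem_half.mp hp))
      have ih1 := EB_bound D k hk' (half D R true)
        (fun w => φ (cons true w)) (fun p hp => hφ _ (mem_half.mp hp))
      have e0 := En_le D (half D R false) (fun w => φ (cons false w))
      have e1 := En_le D (half D R true) (fun w => φ (cons true w))
      have e0' := En_nonneg D (half D R false) (fun w => φ (cons false w))
      have e1' := En_nonneg D (half D R true) (fun w => φ (cons true w))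
      have r0 := half_card_le D R false
      have r1 := half_card_le D R true
      rw [EB_succ D k hk' R φ hφ, sum_half D φ, sum_sq_half D φ]
      have hp0 : ((half D R true).card : ℝ) / 2 ^ D *
          En D (half D R false) (fun w => φ (cons false w)) ≤
          1 * En D (half D R false) (fun w => φ (cons false w)) :=
        mul_le_mul_of_nonneg_right r1 e0'
      have hp1 : ((half D R false).card : ℝ) / 2 ^ D *
          En D (half D R true) (fun w => φ (cons true w)) ≤
          1 * En D (half D R true) (fun w => φ (cons true w)) :=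
        mul_le_mul_of_nonneg_right r0 e1'
      set S0 := ∑ w, φ (cons false w)
      set S1 := ∑ w, φ (cons true w)
      have hfin : (S0 + S1) ^ 2 / 2 ^ (D + 1 - k) =
          S0 * S1 / 2 ^ (D - k) + (S0 ^ 2 / 2 ^ (D - k) + S1 ^ 2 / 2 ^ (D - k)) / 2 := by
        rw [show D + 1 - k = (D - k) + 1 by omega, pow_succ]
        field_simp
        ring
      rw [hfin]
      linarith

end T5

/-- C4b: box sums after one pass. -/
theorem evolve_BS (D k : ℕ) (hk : k ≤ D) (R : Finset (V D)) (φ : V D → ℝ)
    (hφ : ∀ p ∈ R, φ p = 0) :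
    𝔼 c : Coins D, BS D k (evolve D R c φ) ≤ ∑ y, φ y ^ 2 + (∑ y, φ y) ^ 2 / 2 ^ (D - k) :=
  T5.EB_bound D k hk R φ hφ

/-- C4b: energy after one pass from a regular environment. -/
theorem evolve_energy (s0 D : ℕ) (hD : s0 ≤ D) (ρ : ℝ) (hρ0 : 0 ≤ ρ) (hρ : ρ ≤ 1)
    (R : Finset (V D)) (hR : Reg s0 ρ D R) (φ : V D → ℝ) (hφ : ∀ p ∈ R, φ p = 0) :
    𝔼 c : Coins D, ∑ y, evolve D R c φ y ^ 2 ≤
      (∑ y, φ y) ^ 2 / 2 ^ D + ((1 + ρ) / 2) ^ (D - s0) * ∑ y, φ y ^ 2 +
        ∑ k ∈ Finset.Ico s0 D, ((1 + ρ) / 2) ^ (D - 1 - k) / 2 ^ (k + 1) * BS D k φ :=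
  T5.energy_bound s0 ρ hρ0 hρ D hD R hR φ hφ

end Crest.Agent.Thorp
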