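import Crest.Agent.Lib.Row155.GoodProbD
/-! Row 155, chunk T12 (C7): the fresh environment is good with high probability. -/
set_option autoImplicit false
open Finset Filter
open scoped BigOperators Topology

namespace Crest.Agent.Thorp

theorem sq_le_two_pow (d : ℕ) (hd : 6 ≤ d) : (d + 1) * (d + 2) ≤ 2 ^ d := by
  induction d, hd using Nat.le_induction with
  | base => norm_num
  | succ d hd ih =>
    rw [pow_succ]
    nlinarith

/-- lower bound for the falling factorial -/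
theorem desc_lb (d : ℕ) (hd : 6 ≤ d) :
    ((2 : ℝ) ^ (d + 1)) ^ (d + 2) / 2 ≤ (((2 ^ (d + 1)).descFactorial (d + 2) : ℕ) : ℝ) := by
  set n : ℝ := (2 : ℝ) ^ (d + 1) with hn
  have hn0 : 0 < n := by positivity
  have h1 : (((2 ^ (d + 1) + 1 - (d + 2)) ^ (d + 2) : ℕ) : ℝ)
      ≤ (((2 ^ (d + 1)).descFactorial (d + 2) : ℕ) : ℝ) := by
    exact_mod_cast Nat.pow_sub_le_descFactorial (2 ^ (d + 1)) (d + 2)
  refine le_trans ?_ h1
  have hsq := sq_le_two_pow d hd
  have hle : d + 1 ≤ 2 ^ (d + 1) := by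
    rw [pow_succ]; nlinarith
  have h2 : 2 ^ (d + 1) + 1 - (d + 2) = 2 ^ (d + 1) - (d + 1) := by omega
  rw [h2]
  push_cast [Nat.cast_sub hle]
  rw [← hn]
  have hsq' : ((d : ℝ) + 1) * (d + 2) ≤ n / 2 := by
    rw [hn, pow_succ]
    have : ((d : ℝ) + 1) * (d + 2) ≤ 2 ^ d := by exact_mod_cast hsq
    linarith
  have hb : 1 + ((d + 2 : ℕ) : ℝ) * (-((d + 1) / n)) ≤ (1 + (-((d + 1) / n))) ^ (d + 2) := by
    apply one_add_mul_le_pow
    have : ((d : ℝ) + 1) / n ≤ 1 := by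
      rw [div_le_one hn0]
      nlinarith
    linarith
  have hb2 : (1 : ℝ) / 2 ≤ 1 + ((d + 2 : ℕ) : ℝ) * (-((d + 1) / n)) := by
    push_cast
    have : ((d : ℝ) + 2) * ((d + 1) / n) ≤ 1 / 2 := by
      rw [mul_div_assoc', div_le_iff₀ hn0]
      nlinarith
    linarith
  calc n ^ (d + 2) / 2 = n ^ (d + 2) * (1 / 2) := by ring
    _ ≤ n ^ (d + 2) * (1 + (-((d + 1) / n))) ^ (d + 2) :=
        mul_le_mul_of_nonneg_left (le_trans hb2 hb) (by positivity)
    _ = (n - (d + 1)) ^ (d + 2) := by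
        rw [← mul_pow]
        congr 1
        field_simp
        ring

theorem bad_expect' (d : ℕ) (hd : 6 ≤ d) (K : ℕ) :
    𝔼 E : Env (Fin (2 ^ d)) (d + 1), (((rangeF E.1).filter
      (fun y => badStart (d + 1) (rangeF E.1) E.2 K y)).card : ℝ) ≤
      8 ^ K * (5 / 4 : ℝ) ^ (d + 1) := by
  have h1 := bad_expect (N := 2 ^ d) (D := d + 1) (K := K) (by rw [pow_succ]; ring)
    (by have := sq_le_two_pow d hd; rw [pow_succ]; nlinarith) (θ := 1 / 8) (by norm_num)
    (by norm_num)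
  refine le_trans h1 ?_
  have h2 := desc_lb d hd
  have hpos : (0 : ℝ) < ((2 : ℝ) ^ (d + 1)) ^ (d + 2) / 2 := by positivity
  have e1 : (((1 : ℝ) / 8) ^ K)⁻¹ = 8 ^ K := by
    rw [← inv_pow]; norm_num
  rw [e1]
  apply mul_le_mul_of_nonneg_left _ (by positivity)
  have e2 : (((2 ^ d : ℕ) : ℝ)) ^ (d + 1 + 1) * (1 + 2 * (1 / 8)) ^ (d + 1) /
      (((2 ^ (d + 1)).descFactorial (d + 1 + 1) : ℕ) : ℝ)
      ≤ (((2 ^ d : ℕ) : ℝ)) ^ (d + 1 + 1) * (1 + 2 * (1 / 8)) ^ (d + 1) /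
        (((2 : ℝ) ^ (d + 1)) ^ (d + 2) / 2) :=
    div_le_div_of_nonneg_left (by positivity) hpos h2
  calc (2 : ℝ) ^ (d + 1) * ((((2 ^ d : ℕ) : ℝ)) ^ (d + 1 + 1) * (1 + 2 * (1 / 8)) ^ (d + 1) /
      (((2 ^ (d + 1)).descFactorial (d + 1 + 1) : ℕ) : ℝ))
      ≤ (2 : ℝ) ^ (d + 1) * ((((2 ^ d : ℕ) : ℝ)) ^ (d + 1 + 1) * (1 + 2 * (1 / 8)) ^ (d + 1) /
        (((2 : ℝ) ^ (d + 1)) ^ (d + 2) / 2)) := mul_le_mul_of_nonneg_left e2 (by positivity)
    _ = (5 / 4 : ℝ) ^ (d + 1) := by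
        push_cast
        have e3 : (1 + 2 * (1 / 8) : ℝ) = 5 / 4 := by norm_num
        rw [e3]
        have e4 : ((2 : ℝ) ^ (d + 1)) ^ (d + 2) = ((2 : ℝ) ^ d) ^ (d + 2) * 2 ^ (d + 2) := by
          rw [pow_succ (2 : ℝ) d, mul_pow]
        rw [e4]
        have e5 : (2 : ℝ) ^ (d + 2) = 2 ^ (d + 1) * 2 := by rw [pow_succ]
        rw [e5]
        field_simp

theorem good_prob :
    Tendsto (fun d : ℕ => 𝔼 E : Env (Fin (2 ^ d)) (d + 1),
      if Good d (pK d) (pb d) (ps d) (rangeF E.1) E.2 then (1 : ℝ) else 0) atTop (𝓝 1) := by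
  set ρ : ℝ := (5 / 4) / (2 : ℝ) ^ ((11 : ℝ) / 32) with hρ
  have hρ0 : 0 < ρ := by positivity
  have hρ1 : ρ < 1 := by
    rw [hρ, div_lt_one (by positivity)]
    by_contra h
    push Not at h
    have h1 : ((2 : ℝ) ^ ((11 : ℝ) / 32)) ^ 32 ≤ (5 / 4 : ℝ) ^ 32 :=
      pow_le_pow_left₀ (by positivity) h 32
    rw [← Real.rpow_natCast, ← Real.rpow_mul (by norm_num)] at h1
    norm_num at h1
  have hbound : ∀ d : ℕ, 1024 ≤ d →
      1 - (5 / 4 * ρ ^ d + 14 * (1 / 2) ^ d) ≤ 𝔼 E : Env (Fin (2 ^ d)) (d + 1),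
      if Good d (pK d) (pb d) (ps d) (rangeF E.1) E.2 then (1 : ℝ) else 0 := by
    intro d hd
    have hne : Nonempty (Fin (2 ^ d) ↪ V (d + 1)) := by
      rw [Function.Embedding.nonempty_iff_card_le, card_V, Fintype.card_fin]
      exact Nat.pow_le_pow_right (by norm_num) (by omega)
    have hbad := bad_expect' d (by omega) (pK d)
    have htop := top_prob d (ps d) (by omega) (by
      unfold ps
      have h1 : d - 2 * (d / 512) ≤ d - 4 := by omega
      have h2 : (2 : ℝ) ^ (d - 2 * (d / 512)) ≤ 2 ^ (d - 4) :=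
        pow_le_pow_right₀ (by norm_num) h1
      have h3 : (2 : ℝ) ^ d = 2 ^ (d - 4) * 2 ^ 4 := by
        rw [← pow_add]; congr 1; omega
      push_cast
      rw [h3]
      linarith)
    have hb0 : (0 : ℝ) < (pb d : ℝ) := by unfold pb; positivity
    -- pointwise
    have hpt : ∀ E : Env (Fin (2 ^ d)) (d + 1),
        1 - ((((rangeF E.1).filter (fun y => badStart (d + 1) (rangeF E.1) E.2 (pK d) y)).card : ℝ)
          / pb d + (if (Finset.univ.filter (fun v : V d => both d (rangeF E.1) E.2 v)).card < ps d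
        then (1 : ℝ) else 0)) ≤
        if Good d (pK d) (pb d) (ps d) (rangeF E.1) E.2 then (1 : ℝ) else 0 := by
      intro E
      by_cases hG : Good d (pK d) (pb d) (ps d) (rangeF E.1) E.2
      · rw [if_pos hG]
        have : (0 : ℝ) ≤ (((rangeF E.1).filter
          (fun y => badStart (d + 1) (rangeF E.1) E.2 (pK d) y)).card : ℝ) / pb d := by positivity
        split_ifs <;> linarith
      · rw [if_neg hG]
        unfold Good at hG
        rw [not_and_or, not_le, not_le] at hG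
        have h0 : (0 : ℝ) ≤ (((rangeF E.1).filter
          (fun y => badStart (d + 1) (rangeF E.1) E.2 (pK d) y)).card : ℝ) / pb d := by positivity
        rcases hG with h | h
        · have h1 : (1 : ℝ) ≤ (((rangeF E.1).filter
            (fun y => badStart (d + 1) (rangeF E.1) E.2 (pK d) y)).card : ℝ) / pb d := by
            rw [le_div_iff₀ hb0, one_mul]
            exact_mod_cast h.le
          split_ifs <;> linarith
        · rw [if_pos h]; linarith
    refine le_trans ?_ (Finset.expect_le_expect (fun E _ => hpt E))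
    rw [Finset.expect_sub_distrib, Finset.expect_const Finset.univ_nonempty,
      Finset.expect_add_distrib, ← Finset.expect_div]
    have hq : 8 ^ (pK d) * (5 / 4 : ℝ) ^ (d + 1) / pb d ≤ 5 / 4 * ρ ^ d := by
      rw [div_le_iff₀ hb0]
      have h1 : (8 : ℝ) ^ (pK d) ≤ ((2 : ℝ) ^ ((9 : ℝ) / 16)) ^ d := by
        have e : (8 : ℝ) ^ (pK d) = (2 : ℝ) ^ (3 * pK d) := by rw [pow_mul]; norm_num
        rw [e, ← Real.rpow_natCast, ← Real.rpow_natCast, ← Real.rpow_mul (by norm_num)]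
        apply Real.rpow_le_rpow_of_exponent_le (by norm_num)
        have h2 : 16 * pK d ≤ 3 * d := by unfold pK; omega
        have h3 : (16 : ℝ) * pK d ≤ 3 * d := by exact_mod_cast h2
        push_cast
        linarith
      have h2 : ((2 : ℝ) ^ ((29 : ℝ) / 32)) ^ d ≤ (pb d : ℝ) := by
        unfold pb
        push_cast
        rw [← Real.rpow_natCast, ← Real.rpow_natCast, ← Real.rpow_mul (by norm_num)]
        apply Real.rpow_le_rpow_of_exponent_le (by norm_num)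
        have h3 : 29 * d ≤ 32 * (29 * d / 32 + 1) := by omega
        have h4 : (29 : ℝ) * d ≤ 32 * ((29 * d / 32 + 1 : ℕ) : ℝ) := by exact_mod_cast h3
        linarith
      have h3 : ρ * (2 : ℝ) ^ ((29 : ℝ) / 32) = 5 / 4 * (2 : ℝ) ^ ((9 : ℝ) / 16) := by
        rw [hρ]
        have : (2 : ℝ) ^ ((29 : ℝ) / 32) = (2 : ℝ) ^ ((9 : ℝ) / 16) * (2 : ℝ) ^ ((11 : ℝ) / 32) := by
          rw [← Real.rpow_add (by norm_num)]; norm_num
        rw [this]
        field_simp
      calc 8 ^ (pK d) * (5 / 4 : ℝ) ^ (d + 1)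
          ≤ ((2 : ℝ) ^ ((9 : ℝ) / 16)) ^ d * (5 / 4 : ℝ) ^ (d + 1) :=
            mul_le_mul_of_nonneg_right h1 (by positivity)
        _ = 5 / 4 * ρ ^ d * ((2 : ℝ) ^ ((29 : ℝ) / 32)) ^ d := by
            rw [mul_assoc, ← mul_pow, h3, mul_pow, pow_succ]; ring
        _ ≤ 5 / 4 * ρ ^ d * (pb d : ℝ) := mul_le_mul_of_nonneg_left h2 (by positivity)
    have hbad' := div_le_div_of_nonneg_right hbad hb0.le
    have e14 : (14 : ℝ) / 2 ^ d = 14 * (1 / 2) ^ d := by
      rw [one_div_pow]; ring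
    rw [e14] at htop
    linarith
  have hle1 : ∀ d : ℕ, (𝔼 E : Env (Fin (2 ^ d)) (d + 1),
      if Good d (pK d) (pb d) (ps d) (rangeF E.1) E.2 then (1 : ℝ) else 0) ≤ 1 := by
    intro d
    have hne : Nonempty (Fin (2 ^ d) ↪ V (d + 1)) := by
      rw [Function.Embedding.nonempty_iff_card_le, card_V, Fintype.card_fin]
      exact Nat.pow_le_pow_right (by norm_num) (by omega)
    refine le_trans (Finset.expect_le_expect (g := fun _ => (1 : ℝ)) (fun E _ => ?_))
      (le_of_eq (Finset.expect_const Finset.univ_nonempty _))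
    split_ifs <;> norm_num
  have hlim : Tendsto (fun d : ℕ => 1 - (5 / 4 * ρ ^ d + 14 * (1 / 2 : ℝ) ^ d)) atTop (𝓝 1) := by
    have h1 := (tendsto_pow_atTop_nhds_zero_of_lt_one hρ0.le hρ1).const_mul (5 / 4)
    have h2 := (tendsto_pow_atTop_nhds_zero_of_lt_one (by norm_num : (0 : ℝ) ≤ 1 / 2)
      (by norm_num)).const_mul 14
    simpa using (h1.add h2).const_sub 1
  exact tendsto_of_tendsto_of_tendsto_of_le_of_le' hlim tendsto_const_nhds
    (Filter.eventually_atTop.2 ⟨1024, fun d hd => hbound d hd⟩)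
    (Filter.Eventually.of_forall hle1)

end Crest.Agent.Thorp
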