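import Crest.Agent.Lib.Row155.Defs2
/-! Row 155, chunk T12 (C7), part A: expected weight of the environment paths. -/
set_option autoImplicit false
open Finset Filter
open scoped BigOperators Topology

namespace Crest.Agent.Thorp

/-- Weights of the environment paths. -/
noncomputable def zw (θ : ℝ) : ∀ D, Finset (V D) → Coins D → V D → V D → ℝ
  | 0, _, _, _, _ => 1
  | D + 1, A, c, y, z => zw θ D (half D A (hd y)) (c.sub (hd y)) (tl y) (tl z) *
      (if both D A c (tl z) then θ else if hd z = xor (hd y) (c.top (tl z)) then 1 else 0)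

theorem zw_nonneg {θ : ℝ} (hθ : 0 ≤ θ) : ∀ (D : ℕ) (A : Finset (V D)) (c : Coins D) (y z : V D),
    0 ≤ zw θ D A c y z
  | 0, _, _, _, _ => zero_le_one
  | D + 1, A, c, y, z => by
    unfold zw
    apply mul_nonneg (zw_nonneg hθ D _ _ _ _)
    split_ifs <;> first | exact hθ | exact zero_le_one | exact le_rfl

theorem zw_succ (θ : ℝ) (D : ℕ) (A : Finset (V (D + 1))) (c : Coins (D + 1)) (y : V (D + 1))
    (h : Bool) (v : V D) :
    zw θ (D + 1) A c y (cons h v) = zw θ D (half D A (hd y)) (c.sub (hd y)) (tl y) v *
      (if both D A c v then θ else if h = xor (hd y) (c.top v) then 1 else 0) := rfl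

theorem kap_succ (D : ℕ) (A : Finset (V (D + 1))) (c : Coins (D + 1)) (y : V (D + 1))
    (h : Bool) (v : V D) :
    kap (D + 1) A c y (cons h v) = kap D (half D A (hd y)) (c.sub (hd y)) (tl y) v +
      (if both D A c v then 1 else 0) := rfl

theorem combine_sub (D : ℕ) (A : Finset (V (D + 1))) (c c' : Coins (D + 1)) (h : Bool) :
    (combine (D + 1) A c c').sub h = combine D (half D A h) (c.sub h) (c'.sub h) := rfl

theorem combine_top (D : ℕ) (A : Finset (V (D + 1))) (c c' : Coins (D + 1)) (v : V D) :
    (combine (D + 1) A c c').top v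
      = if both D A c v then xor (c.top v) (c'.top v) else c.top v := rfl

theorem zw_path (θ : ℝ) : ∀ (D : ℕ) (A : Finset (V D)) (c c' : Coins D) (y : V D),
    zw θ D A c y (pass D (combine D A c c') y) = θ ^ (kap D A c y (pass D (combine D A c c') y))
  | 0, _, _, _, _ => by simp [zw, kap]
  | D + 1, A, c, c', y => by
    have ih := zw_path θ D (half D A (hd y)) (c.sub (hd y)) (c'.sub (hd y)) (tl y)
    rw [pass_succ_apply, combine_sub, zw_succ, kap_succ, ih, combine_top]
    by_cases hb : both D A c ((pass D (combine D (half D A (hd y)) (c.sub (hd y))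
      (c'.sub (hd y)))) (tl y))
    · rw [if_pos hb, if_pos hb, pow_succ]
    · rw [if_neg hb, if_neg hb, if_neg hb, if_pos rfl, mul_one, add_zero]

theorem zw_occ {θ : ℝ} : ∀ (D : ℕ) (A : Finset (V D)) (c : Coins D) (y z : V D), y ∈ A →
    zw θ D A c y z ≠ 0 → (pass D c).symm z ∈ A
  | 0, A, c, y, z, hy, _ => by
    have : (pass 0 c).symm z = y := rfl
    rw [this]; exact hy
  | D + 1, A, c, y, z, hy, hz => by
    unfold zw at hz
    have h1 := left_ne_zero_of_mul hz
    have h2 := right_ne_zero_of_mul hz
    have hy' : tl y ∈ half D A (hd y) := by rw [mem_half]; simpa using hy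
    have ih := zw_occ D (half D A (hd y)) (c.sub (hd y)) (tl y) (tl z) hy' h1
    rw [mem_half] at ih
    rw [pass_succ_symm_apply]
    by_cases hb : both D A c (tl z)
    · have hb1 : cons false ((pass D (c.sub false)).symm (tl z)) ∈ A := hb.1
      have hb2 : cons true ((pass D (c.sub true)).symm (tl z)) ∈ A := hb.2
      cases h : xor (hd z) (c.top (tl z))
      · exact hb1
      · exact hb2
    · rw [if_neg hb] at h2
      have h3 : hd z = xor (hd y) (c.top (tl z)) := by
        by_contra h; rw [if_neg h] at h2; exact h2 rfl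
      have h4 : xor (hd z) (c.top (tl z)) = hd y := by rw [h3]; simp
      rw [h4]
      exact ih

/-- One coin of the last layer. -/
theorem expect_top {D : ℕ} (v : V D) (f : Bool → ℝ) :
    𝔼 t : V D → Bool, f (t v) = 𝔼 b : Bool, f b := by
  classical
  have e : (V D → Bool) ≃ (({w // w = v}) → Bool) × ({w // ¬ w = v} → Bool) :=
    Equiv.piEquivPiSubtypeProd _ _
  rw [Fintype.expect_equiv (Equiv.piEquivPiSubtypeProd (fun w => w = v) (fun _ => Bool))
    (fun t => f (t v)) (fun p => f (p.1 ⟨v, rfl⟩)) (fun t => rfl)]
  rw [← Finset.univ_product_univ, Finset.expect_product]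
  simp only [Finset.expect_const Finset.univ_nonempty]
  have : Unique {w // w = v} := ⟨⟨⟨v, rfl⟩⟩, fun a => Subtype.ext a.2⟩
  exact Fintype.expect_equiv (Equiv.funUnique {w // w = v} Bool) _ _ (fun t => by
    simp only [Equiv.funUnique_apply]
    rw [this.uniq ⟨v, rfl⟩])

theorem expect_pass_symm : ∀ (D : ℕ) (v : V D) (f : V D → ℝ),
    𝔼 c : Coins D, f ((pass D c).symm v) = 𝔼 u, f u
  | 0, v, f => by
    have h1 : ∀ c : Coins 0, f ((pass 0 c).symm v) = f v := fun c => rfl
    have h2 : ∀ u : V 0, f u = f v := fun u => rfl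
    rw [Finset.expect_congr rfl (fun c _ => h1 c), Finset.expect_congr rfl (fun u _ => h2 u),
      Finset.expect_const Finset.univ_nonempty, Finset.expect_const Finset.univ_nonempty]
  | D + 1, v, f => by
    rw [expect_Coins_succ, expect_V_succ]
    simp only [pass_succ_symm_apply, Coins.top_mk, Coins.sub_mk]
    have h1 : ∀ s : Bool → Coins D, 𝔼 t : V D → Bool,
        f (cons (xor (hd v) (t (tl v))) ((pass D (s (xor (hd v) (t (tl v))))).symm (tl v)))
        = 𝔼 b : Bool, f (cons b ((pass D (s b)).symm (tl v))) := by
      intro s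
      rw [expect_top (tl v) (fun b => f (cons (xor (hd v) b)
        ((pass D (s (xor (hd v) b))).symm (tl v))))]
      have e : Function.Involutive (fun b : Bool => xor (hd v) b) := by
        intro b; simp
      exact Fintype.expect_equiv (e.toPerm) _ _ (fun b => rfl)
    rw [Finset.expect_congr rfl (fun s _ => h1 s), Finset.expect_comm]
    apply Finset.expect_congr rfl
    intro b _
    -- marginal of `s b`
    have h2 : 𝔼 s : Bool → Coins D, f (cons b ((pass D (s b)).symm (tl v)))
        = 𝔼 c : Coins D, f (cons b ((pass D c).symm (tl v))) := by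
      rw [Fintype.expect_equiv (Equiv.boolArrowEquivProd (Coins D))
        (fun s => f (cons b ((pass D (s b)).symm (tl v))))
        (fun p => f (cons b ((pass D (if b then p.2 else p.1)).symm (tl v)))) (fun s => by
          cases b <;> rfl)]
      rw [← Finset.univ_product_univ, Finset.expect_product]
      cases b
      · simp only [Bool.false_eq_true, if_false]
        apply Finset.expect_congr rfl
        intro c _
        rw [Finset.expect_const Finset.univ_nonempty]
      · simp only [if_true]
        rw [Finset.expect_const Finset.univ_nonempty]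
    rw [h2]
    exact expect_pass_symm D (tl v) (fun u => f (cons b u))

end Crest.Agent.Thorp
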