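import Crest.Agent.Lib.Row155.GoodProbA
/-! Row 155, chunk T12 (C7), part B: expected weight = average over tuples of siblings. -/
set_option autoImplicit false
open Finset Filter
open scoped BigOperators Topology

namespace Crest.Agent.Thorp

theorem expect_two {C : Type} [Fintype C] [Nonempty C] (h : Bool) (F : C → C → ℝ) :
    𝔼 s : Bool → C, F (s h) (s (!h)) = 𝔼 a, 𝔼 b, F a b := by
  rw [Fintype.expect_equiv (Equiv.boolArrowEquivProd C)
    (fun s => F (s h) (s (!h)))
    (fun p => F (if h then p.2 else p.1) (if h then p.1 else p.2)) (fun s => by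
      cases h <;> rfl)]
  rw [← Finset.univ_product_univ, Finset.expect_product]
  cases h
  · simp
  · simp only [if_true]
    rw [Finset.expect_comm]

/-- the factor of a sibling -/
noncomputable def gf (θ : ℝ) {D : ℕ} (A : Finset (V D)) (z : V D) : ℝ := if z ∈ A then 2 * θ else 1

theorem gf_nonneg {θ : ℝ} (hθ : 0 ≤ θ) {D : ℕ} (A : Finset (V D)) (z : V D) : 0 ≤ gf θ A z := by
  unfold gf; split_ifs <;> positivity

theorem gf_half (θ : ℝ) {D : ℕ} (A : Finset (V (D + 1))) (h : Bool) (v : V D) :
    gf θ A (cons h v) = gf θ (half D A h) v := by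
  unfold gf
  simp only [mem_half]

/-- Choices of siblings. -/
def Sib : ℕ → Type
  | 0 => Unit
  | D + 1 => Sib D × V D

instance instFintypeSib : ∀ D, Fintype (Sib D)
  | 0 => inferInstanceAs (Fintype Unit)
  | D + 1 =>
    haveI := instFintypeSib D
    inferInstanceAs (Fintype (Sib D × V D))

instance instNonemptySib : ∀ D, Nonempty (Sib D)
  | 0 => inferInstanceAs (Nonempty Unit)
  | D + 1 =>
    haveI := instNonemptySib D
    inferInstanceAs (Nonempty (Sib D × V D))

/-- constructor -/
def Sib.mk {D : ℕ} (U : Sib D) (u : V D) : Sib (D + 1) := (U, u)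

theorem expect_Sib_succ {D : ℕ} (f : Sib (D + 1) → ℝ) :
    𝔼 U, f U = 𝔼 U : Sib D, 𝔼 u : V D, f (Sib.mk U u) := by
  rw [← Finset.expect_product']
  rfl

/-- The tuple `(y, siblings)`. -/
def tup : ∀ D, V D → Sib D → Fin (D + 1) → V D
  | 0, y, _ => fun _ => y
  | D + 1, y, U => Fin.snoc (α := fun _ => V (D + 1))
      (fun k : Fin (D + 1) => cons (hd y) (tup D (tl y) U.1 k)) (cons (!hd y) U.2)

theorem tup_castSucc {D : ℕ} (y : V (D + 1)) (U : Sib D) (u : V D) (k : Fin (D + 1)) :
    tup (D + 1) y (Sib.mk U u) k.castSucc = cons (hd y) (tup D (tl y) U k) :=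
  Fin.snoc_castSucc (α := fun _ => V (D + 1)) (cons (!hd y) u)
    (fun k : Fin (D + 1) => cons (hd y) (tup D (tl y) U k)) k

theorem tup_last {D : ℕ} (y : V (D + 1)) (U : Sib D) (u : V D) :
    tup (D + 1) y (Sib.mk U u) (Fin.last (D + 1)) = cons (!hd y) u :=
  Fin.snoc_last (α := fun _ => V (D + 1)) (cons (!hd y) u)
    (fun k : Fin (D + 1) => cons (hd y) (tup D (tl y) U k))

theorem tup_zero : ∀ (D : ℕ) (y : V D) (U : Sib D), tup D y U 0 = y
  | 0, _, _ => rfl
  | D + 1, y, U => by
    have h := tup_zero D (tl y) U.1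
    have e : (0 : Fin (D + 1 + 1)) = Fin.castSucc (0 : Fin (D + 1)) := rfl
    unfold tup
    rw [e, Fin.snoc_castSucc, h, cons_hd_tl]

theorem tup_injective : ∀ (D : ℕ) (y : V D) (U : Sib D), Function.Injective (tup D y U)
  | 0, _, _ => fun a b _ => Fin.ext (by omega)
  | D + 1, y, U => by
    have ih := tup_injective D (tl y) U.1
    unfold tup
    rw [Fin.snoc_injective_iff]
    refine ⟨?_, ?_⟩
    · intro a b hab
      exact ih ((cons_inj.1 hab).2)
    · rintro ⟨a, ha⟩
      have := (cons_inj.1 ha).1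
      cases h : hd y <;> simp [h] at this

theorem zsum_step (θ : ℝ) (D : ℕ) (A : Finset (V (D + 1))) (y : V (D + 1)) (hy : y ∈ A)
    (s : Bool → Coins D) (t : V D → Bool) :
    ∑ z, zw θ (D + 1) A (Coins.mk s t) y z
      = ∑ v, zw θ D (half D A (hd y)) (s (hd y)) (tl y) v
        * gf θ A (cons (!hd y) ((pass D (s (!hd y))).symm v)) := by
  rw [sum_V_succ, Finset.sum_comm]
  apply Finset.sum_congr rfl
  intro v _
  simp only [zw_succ, Coins.sub_mk, Coins.top_mk]
  rw [← Finset.mul_sum]
  by_cases hz : zw θ D (half D A (hd y)) (s (hd y)) (tl y) v = 0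
  · rw [hz, zero_mul, zero_mul]
  · congr 1
    have hy' : tl y ∈ half D A (hd y) := by rw [mem_half]; simpa using hy
    have hocc := zw_occ D (half D A (hd y)) (s (hd y)) (tl y) v hy' hz
    rw [mem_half] at hocc
    have hboth : both D A (Coins.mk s t) v ↔
        cons (!hd y) ((pass D (s (!hd y))).symm v) ∈ A := by
      unfold both occ
      simp only [Coins.sub_mk]
      cases h : hd y
      · rw [h] at hocc
        simp only [Bool.not_false]
        exact ⟨fun x => x.2, fun x => ⟨hocc, x⟩⟩
      · rw [h] at hocc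
        simp only [Bool.not_true]
        exact ⟨fun x => x.1, fun x => ⟨x, hocc⟩⟩
    unfold gf
    by_cases hb : both D A (Coins.mk s t) v
    · rw [if_pos (hboth.1 hb)]
      simp only [if_pos hb]
      rw [Fintype.sum_bool]; ring
    · rw [if_neg (fun x => hb (hboth.2 x))]
      simp only [if_neg hb]
      have hs : ∀ c : Bool, (∑ x : Bool, if x = c then (1 : ℝ) else 0) = 1 := by
        intro c; simp
      exact hs (xor (hd y) (t v))

theorem EZ (θ : ℝ) : ∀ (D : ℕ) (A : Finset (V D)) (y : V D), y ∈ A →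
    𝔼 c : Coins D, ∑ z, zw θ D A c y z
      = 𝔼 U : Sib D, ∏ k : Fin D, gf θ A (tup D y U k.succ)
  | 0, A, y, _ => by
    have h1 : ∀ c : Coins 0, ∑ z : V 0, zw θ 0 A c y z = 1 := by
      intro c
      have : Fintype.card (V 0) = 1 := rfl
      simp only [zw, Finset.sum_const, Finset.card_univ, this, one_smul]
    rw [Finset.expect_congr rfl (fun c _ => h1 c)]
    simp [Finset.expect_const Finset.univ_nonempty]
  | D + 1, A, y, hy => by
    have ih := EZ θ D (half D A (hd y)) (tl y) (by rw [mem_half]; simpa using hy)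
    rw [expect_Coins_succ]
    set Fn : Coins D → Coins D → ℝ := fun a b => ∑ v, zw θ D (half D A (hd y)) a (tl y) v
          * gf θ A (cons (!hd y) ((pass D b).symm v)) with hFn
    have h1 : ∀ s : Bool → Coins D, 𝔼 t : V D → Bool, ∑ z, zw θ (D + 1) A (Coins.mk s t) y z
        = Fn (s (hd y)) (s (!hd y)) := by
      intro s
      rw [Finset.expect_congr rfl (fun t _ => zsum_step θ D A y hy s t),
        Finset.expect_const Finset.univ_nonempty]
    have h2 : ∀ a : Coins D, 𝔼 b : Coins D, Fn a b
        = (∑ v, zw θ D (half D A (hd y)) a (tl y) v) * 𝔼 u : V D, gf θ A (cons (!hd y) u) := by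
      intro a
      rw [hFn]
      simp only
      rw [Finset.expect_sum_comm, Finset.sum_mul]
      apply Finset.sum_congr rfl
      intro v _
      rw [← Finset.mul_expect, expect_pass_symm D v (fun u => gf θ A (cons (!hd y) u))]
    have h3 : ∀ (U : Sib D) (u : V D),
        ∏ k : Fin (D + 1), gf θ A (tup (D + 1) y (Sib.mk U u) k.succ)
        = (∏ k : Fin D, gf θ (half D A (hd y)) (tup D (tl y) U k.succ)) * gf θ A (cons (!hd y) u) := by
      intro U u
      rw [Fin.prod_univ_castSucc]
      congr 1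
      · apply Finset.prod_congr rfl
        intro k _
        have e : (Fin.castSucc k).succ = Fin.castSucc k.succ := rfl
        rw [← gf_half, e, tup_castSucc]
      · have e : (Fin.last D).succ = Fin.last (D + 1) := rfl
        rw [e, tup_last]
    calc 𝔼 s : Bool → Coins D, 𝔼 t : V D → Bool, ∑ z, zw θ (D + 1) A (Coins.mk s t) y z
        = 𝔼 s : Bool → Coins D, Fn (s (hd y)) (s (!hd y)) :=
          Finset.expect_congr rfl (fun s _ => h1 s)
      _ = 𝔼 a, 𝔼 b, Fn a b := expect_two (hd y) Fn
      _ = 𝔼 a : Coins D, (∑ v, zw θ D (half D A (hd y)) a (tl y) v)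
          * 𝔼 u : V D, gf θ A (cons (!hd y) u) := Finset.expect_congr rfl (fun a _ => h2 a)
      _ = (𝔼 a : Coins D, ∑ v, zw θ D (half D A (hd y)) a (tl y) v)
          * 𝔼 u : V D, gf θ A (cons (!hd y) u) := by rw [← Finset.expect_mul]
      _ = (𝔼 U : Sib D, ∏ k : Fin D, gf θ (half D A (hd y)) (tup D (tl y) U k.succ))
          * 𝔼 u : V D, gf θ A (cons (!hd y) u) := by rw [ih]
      _ = 𝔼 U : Sib D, 𝔼 u : V D, ∏ k : Fin (D + 1), gf θ A (tup (D + 1) y (Sib.mk U u) k.succ) := by
          rw [Finset.expect_mul]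
          apply Finset.expect_congr rfl
          intro U _
          rw [Finset.mul_expect]
          exact Finset.expect_congr rfl (fun u _ => (h3 U u).symm)
      _ = _ := (expect_Sib_succ (fun U => ∏ k : Fin (D + 1), gf θ A (tup (D + 1) y U k.succ))).symm

end Crest.Agent.Thorp
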