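import Crest.Agent.Lib.Row155.GoodProbB
/-! Row 155, chunk T12 (C7), part C: symmetrization over random embeddings. -/
set_option autoImplicit false
open Finset Filter
open scoped BigOperators Topology

namespace Crest.Agent.Thorp

theorem expect_emb_comp {Λ X : Type} [Fintype Λ] [Fintype X] [DecidableEq Λ] [DecidableEq X]
    (σ : Equiv.Perm X) (f : (Λ ↪ X) → ℝ) :
    𝔼 L : Λ ↪ X, f (L.trans σ.toEmbedding) = 𝔼 L : Λ ↪ X, f L :=
  Fintype.expect_equiv (Equiv.embeddingCongr (Equiv.refl Λ) σ) _ _ (fun L => by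
    congr 1)

theorem gp_rangeF_trans {Λ : Type} [Fintype Λ] {D : ℕ} (L : Λ ↪ V D) (σ : Equiv.Perm (V D)) :
    rangeF (L.trans σ.toEmbedding) = (rangeF L).map σ.toEmbedding := by
  ext p
  simp only [rangeF, Finset.mem_map, Finset.mem_univ, true_and, Function.Embedding.trans_apply]
  constructor
  · rintro ⟨a, ha⟩; exact ⟨L a, ⟨a, rfl⟩, ha⟩
  · rintro ⟨_, ⟨a, rfl⟩, ha⟩; exact ⟨a, ha⟩

theorem sym_lemma {Λ : Type} [Fintype Λ] [DecidableEq Λ] {D k : ℕ} (x : Fin k ↪ V D)
    (F : Finset (V D) → (Fin k → V D) → ℝ)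
    (hF : ∀ (σ : Equiv.Perm (V D)) (A : Finset (V D)) (x : Fin k → V D),
      F (A.map σ.toEmbedding) (σ ∘ x) = F A x) :
    𝔼 L : Λ ↪ V D, F (rangeF L) x = 𝔼 L : Λ ↪ V D, 𝔼 w : Fin k ↪ V D, F (rangeF L) w := by
  have h1 : ∀ w : Fin k ↪ V D, 𝔼 L : Λ ↪ V D, F (rangeF L) w = 𝔼 L : Λ ↪ V D, F (rangeF L) x := by
    intro w
    obtain ⟨σ, hσ⟩ := Equiv.Perm.exists_smul_eq_embedding x w
    have h2 : (w : Fin k → V D) = σ ∘ x := by
      rw [← hσ]; rfl
    rw [h2, ← expect_emb_comp σ]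
    apply Finset.expect_congr rfl
    intro L _
    rw [gp_rangeF_trans, hF]
  rw [Finset.expect_comm, Finset.expect_congr rfl (fun w _ => h1 w)]
  have : Nonempty (Fin k ↪ V D) := ⟨x⟩
  rw [Finset.expect_const Finset.univ_nonempty]

/-- Embeddings versus functions. -/
theorem expect_emb_le {D k : ℕ} (hk : k ≤ 2 ^ D) (G : (Fin k → V D) → ℝ) (hG : ∀ w, 0 ≤ G w) :
    𝔼 w : Fin k ↪ V D, G w ≤ (∑ w : Fin k → V D, G w) / ((2 ^ D).descFactorial k : ℝ) := by
  classical
  have hc : Fintype.card (Fin k ↪ V D) = (2 ^ D).descFactorial k := by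
    rw [Fintype.card_embedding_eq, card_V, Fintype.card_fin]
  have h1 : 𝔼 w : Fin k ↪ V D, G w
      = (∑ w : Fin k ↪ V D, G w) / ((2 ^ D).descFactorial k : ℝ) := by
    rw [Fintype.expect_eq_sum_div_card, hc]
  rw [h1]
  apply div_le_div_of_nonneg_right _ (Nat.cast_nonneg _)
  have h2 : ∑ w : Fin k ↪ V D, G w
      = ∑ w ∈ (Finset.univ : Finset (Fin k ↪ V D)).image
        (fun w : Fin k ↪ V D => (w : Fin k → V D)), G w := by
    rw [Finset.sum_image]
    intro a _ b _ hab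
    exact DFunLike.coe_injective hab
  rw [h2]
  exact Finset.sum_le_sum_of_subset_of_nonneg (Finset.subset_univ _) (fun w _ _ => hG w)

/-- The test function of a tuple. -/
noncomputable def Ft (θ : ℝ) {D : ℕ} (A : Finset (V D)) {k : ℕ} (x : Fin (k + 1) → V D) : ℝ :=
  (if x 0 ∈ A then 1 else 0) * ∏ j : Fin k, gf θ A (x j.succ)

theorem Ft_nonneg {θ : ℝ} (hθ : 0 ≤ θ) {D : ℕ} (A : Finset (V D)) {k : ℕ}
    (x : Fin (k + 1) → V D) : 0 ≤ Ft θ A x := by
  unfold Ft
  apply mul_nonneg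
  · split_ifs <;> norm_num
  · exact Finset.prod_nonneg (fun j _ => gf_nonneg hθ _ _)

theorem Ft_equi (θ : ℝ) {D k : ℕ} (σ : Equiv.Perm (V D)) (A : Finset (V D))
    (x : Fin (k + 1) → V D) : Ft θ (A.map σ.toEmbedding) (σ ∘ x) = Ft θ A x := by
  unfold Ft gf
  simp

theorem sum_gf (θ : ℝ) {D : ℕ} (A : Finset (V D)) :
    ∑ z, gf θ A z = (A.card : ℝ) * (2 * θ) + ((2 : ℝ) ^ D - A.card) := by
  classical
  unfold gf
  rw [Finset.sum_ite]
  simp only [Finset.sum_const, nsmul_eq_mul, mul_one]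
  have h1 : (Finset.univ.filter (fun z => z ∈ A)) = A := by ext; simp
  have h2 : (Finset.univ.filter (fun z => ¬ z ∈ A)) = Aᶜ := by ext; simp
  rw [h1, h2, Finset.card_compl, card_V, Nat.cast_sub]
  · push_cast; ring
  · rw [← card_V]; exact Finset.card_le_univ A

theorem sum_Ft (θ : ℝ) {D : ℕ} (A : Finset (V D)) (k : ℕ) :
    ∑ x : Fin (k + 1) → V D, Ft θ A x
      = (A.card : ℝ) * ((A.card : ℝ) * (2 * θ) + ((2 : ℝ) ^ D - A.card)) ^ k := by
  classical
  have h1 : ∀ x : Fin (k + 1) → V D, Ft θ A x = ∏ j : Fin (k + 1),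
      (fun (j : Fin (k + 1)) (z : V D) => if j = 0 then (if z ∈ A then (1 : ℝ) else 0)
        else gf θ A z) j (x j) := by
    intro x
    unfold Ft
    rw [Fin.prod_univ_succ]
    simp [Fin.succ_ne_zero]
  rw [Finset.sum_congr rfl (fun x _ => h1 x)]
  have h2 := (Finset.prod_univ_sum (fun _ : Fin (k + 1) => (Finset.univ : Finset (V D)))
    (fun (j : Fin (k + 1)) (z : V D) => if j = 0 then (if z ∈ A then (1 : ℝ) else 0)
        else gf θ A z)).symm
  rw [Fintype.piFinset_univ] at h2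
  rw [h2, Fin.prod_univ_succ]
  simp only [if_true, Fin.succ_ne_zero, if_false, sum_gf]
  rw [Finset.prod_const, Finset.card_univ, Fintype.card_fin]
  congr 1
  simp

/-- Expected number of bad starts. -/
theorem bad_expect {N D K : ℕ} (hN : 2 * N = 2 ^ D) (hD : D + 1 ≤ 2 ^ D) {θ : ℝ} (hθ : 0 < θ)
    (hθ1 : θ ≤ 1) :
    𝔼 E : Env (Fin N) D, (((rangeF E.1).filter
      (fun y => badStart D (rangeF E.1) E.2 K y)).card : ℝ) ≤
      (θ ^ K)⁻¹ * (2 ^ D * ((N : ℝ) ^ (D + 1) * (1 + 2 * θ) ^ D /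
        ((2 ^ D).descFactorial (D + 1) : ℝ))) := by
  classical
  have hcard : ∀ L : Fin N ↪ V D, (rangeF L).card = N := by
    intro L; simp [rangeF]
  -- pointwise bound
  have h1 : ∀ E : Env (Fin N) D, (((rangeF E.1).filter
      (fun y => badStart D (rangeF E.1) E.2 K y)).card : ℝ)
      ≤ (θ ^ K)⁻¹ * ∑ y, (if y ∈ rangeF E.1 then ∑ z, zw θ D (rangeF E.1) E.2 y z else 0) := by
    intro E
    rw [Finset.card_filter]
    push_cast
    rw [Finset.mul_sum]
    have h2 : ∑ y ∈ rangeF E.1, (if badStart D (rangeF E.1) E.2 K y then (1 : ℝ) else 0)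
        = ∑ y, (if y ∈ rangeF E.1 then
          (if badStart D (rangeF E.1) E.2 K y then (1 : ℝ) else 0) else 0) := by
      rw [Finset.sum_ite_mem, Finset.univ_inter]
    rw [h2]
    apply Finset.sum_le_sum
    intro y _
    split_ifs with hy hb
    · obtain ⟨c', hc'⟩ := hb
      have h3 : θ ^ K ≤ zw θ D (rangeF E.1) E.2 y (pass D (combine D (rangeF E.1) E.2 c') y) := by
        rw [zw_path]
        exact pow_le_pow_of_le_one hθ.le hθ1 hc'.le
      have h4 : zw θ D (rangeF E.1) E.2 y (pass D (combine D (rangeF E.1) E.2 c') y)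
          ≤ ∑ z, zw θ D (rangeF E.1) E.2 y z :=
        Finset.single_le_sum (f := fun z => zw θ D (rangeF E.1) E.2 y z)
          (fun z _ => zw_nonneg hθ.le _ _ _ _ _) (Finset.mem_univ _)
      rw [inv_mul_eq_div, le_div_iff₀ (by positivity), one_mul]
      linarith
    · apply mul_nonneg (by positivity)
      exact Finset.sum_nonneg (fun z _ => zw_nonneg hθ.le _ _ _ _ _)
    · simp
  refine le_trans (Finset.expect_le_expect (fun E _ => h1 E)) ?_
  rw [← Finset.mul_expect]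
  apply mul_le_mul_of_nonneg_left _ (by positivity)
  rw [Finset.expect_sum_comm]
  have hV : (2 : ℝ) ^ D = ∑ _y : V D, (1 : ℝ) := by
    rw [Finset.sum_const, Finset.card_univ, card_V]; simp
  rw [hV, Finset.sum_mul]
  apply Finset.sum_le_sum
  intro y _
  rw [one_mul, ← Finset.univ_product_univ, Finset.expect_product]
  have h5 : ∀ L : Fin N ↪ V D, (𝔼 c : Coins D,
      if y ∈ rangeF L then ∑ z, zw θ D (rangeF L) c y z else 0)
      = 𝔼 U : Sib D, Ft θ (rangeF L) (tup D y U) := by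
    intro L
    by_cases hy : y ∈ rangeF L
    · simp only [hy, if_true]
      rw [EZ θ D (rangeF L) y hy]
      apply Finset.expect_congr rfl
      intro U _
      unfold Ft
      rw [tup_zero, if_pos hy, one_mul]
    · simp only [hy, if_false]
      rw [Finset.expect_const Finset.univ_nonempty]
      symm
      rw [Finset.expect_congr rfl (g := fun _ => (0 : ℝ))]
      · exact Finset.expect_const Finset.univ_nonempty _
      · intro U _
        unfold Ft
        rw [tup_zero, if_neg hy, zero_mul]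
  simp only
  rw [Finset.expect_congr rfl (fun L _ => h5 L), Finset.expect_comm]
  have h6 : ∀ U : Sib D, 𝔼 L : Fin N ↪ V D, Ft θ (rangeF L) (tup D y U)
      ≤ (N : ℝ) ^ (D + 1) * (1 + 2 * θ) ^ D / ((2 ^ D).descFactorial (D + 1) : ℝ) := by
    intro U
    have h7 := sym_lemma (Λ := Fin N) ⟨tup D y U, tup_injective D y U⟩
      (fun A x => Ft θ A x) (fun σ A x => Ft_equi θ σ A x)
    have h8 : ∀ L : Fin N ↪ V D, 𝔼 w : Fin (D + 1) ↪ V D, Ft θ (rangeF L) w
        ≤ (N : ℝ) ^ (D + 1) * (1 + 2 * θ) ^ D / ((2 ^ D).descFactorial (D + 1) : ℝ) := by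
      intro L
      refine le_trans (expect_emb_le hD (fun w => Ft θ (rangeF L) w)
        (fun w => Ft_nonneg hθ.le _ _)) ?_
      rw [sum_Ft, hcard]
      apply le_of_eq
      congr 1
      have : (2 : ℝ) ^ D = 2 * N := by exact_mod_cast hN.symm
      rw [this]
      have e : (N : ℝ) * (2 * θ) + (2 * N - N) = N * (1 + 2 * θ) := by ring
      rw [e, mul_pow, pow_succ]; ring
    calc 𝔼 L : Fin N ↪ V D, Ft θ (rangeF L) (tup D y U)
        = 𝔼 L : Fin N ↪ V D, 𝔼 w : Fin (D + 1) ↪ V D, Ft θ (rangeF L) w := h7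
      _ ≤ _ := by
          rcases isEmpty_or_nonempty (Fin N ↪ V D) with h | h
          · rw [Finset.univ_eq_empty, Finset.expect_empty]
            positivity
          · exact le_trans (Finset.expect_le_expect (fun L _ => h8 L))
              (le_of_eq (Finset.expect_const Finset.univ_nonempty _))
  exact le_trans (Finset.expect_le_expect (fun U _ => h6 U))
    (le_of_eq (Finset.expect_const Finset.univ_nonempty _))

end Crest.Agent.Thorp
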