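import Crest.Agent.Lib.Row155.GoodProbC
/-! Row 155, chunk T12 (C7), part D: many `A`-`A` switches in the last layer. -/
set_option autoImplicit false
open Finset Filter
open scoped BigOperators Topology

namespace Crest.Agent.Thorp

/-- The permutation of the positions before the last layer. -/
def preTop (d : ℕ) (c : Coins (d + 1)) : Equiv.Perm (V (d + 1)) where
  toFun p := cons (hd p) (pass d (c.sub (hd p)) (tl p))
  invFun p := cons (hd p) ((pass d (c.sub (hd p))).symm (tl p))
  left_inv := by intro p; simp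
  right_inv := by intro p; simp

theorem both_iff {Λ : Type} [Fintype Λ] {d : ℕ} (L : Λ ↪ V (d + 1)) (c : Coins (d + 1))
    (v : V d) : both d (rangeF L) c v ↔
      (cons false v ∈ rangeF (L.trans (preTop d c).toEmbedding) ∧
        cons true v ∈ rangeF (L.trans (preTop d c).toEmbedding)) := by
  unfold both occ
  rw [gp_rangeF_trans, Finset.mem_map_equiv, Finset.mem_map_equiv]
  rfl

theorem card_emb_in {D k : ℕ} (A : Finset (V D)) :
    ((Finset.univ : Finset (Fin k ↪ V D)).filter (fun w => ∀ j, w j ∈ A)).card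
      = A.card.descFactorial k := by
  classical
  have e : {w : Fin k ↪ V D // ∀ j, w j ∈ A} ≃ (Fin k ↪ {z // z ∈ A}) :=
    { toFun := fun w => ⟨fun j => ⟨w.1 j, w.2 j⟩, fun a b hab => by
        have := congrArg Subtype.val hab
        exact w.1.injective this⟩
      invFun := fun u => ⟨u.trans (Function.Embedding.subtype _), fun j => (u j).2⟩
      left_inv := fun w => by ext j; rfl
      right_inv := fun u => by ext j; rfl }
  have h1 : Fintype.card {w : Fin k ↪ V D // ∀ j, w j ∈ A} = A.card.descFactorial k := by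
    rw [Fintype.card_congr e, Fintype.card_embedding_eq, Fintype.card_coe, Fintype.card_fin]
  rw [← h1, Fintype.card_subtype]

/-- Probability that given positions belong to a random set. -/
theorem hit_prob {N D k : ℕ} (hND : N ≤ 2 ^ D) (x : Fin k ↪ V D) :
    𝔼 L : Fin N ↪ V D, (if ∀ j, x j ∈ rangeF L then (1 : ℝ) else 0)
      = (N.descFactorial k : ℝ) / ((2 ^ D).descFactorial k : ℝ) := by
  classical
  have hne : Nonempty (Fin N ↪ V D) := by
    rw [Function.Embedding.nonempty_iff_card_le, card_V, Fintype.card_fin]; exact hND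
  have hcard : ∀ L : Fin N ↪ V D, (rangeF L).card = N := by
    intro L; simp [rangeF]
  have h1 := sym_lemma (Λ := Fin N) x (fun A y => if ∀ j, y j ∈ A then (1 : ℝ) else 0)
    (fun σ A y => by simp)
  rw [h1]
  have h2 : ∀ L : Fin N ↪ V D, 𝔼 w : Fin k ↪ V D, (if ∀ j, w j ∈ rangeF L then (1 : ℝ) else 0)
      = (N.descFactorial k : ℝ) / ((2 ^ D).descFactorial k : ℝ) := by
    intro L
    rw [Fintype.expect_eq_sum_div_card, Fintype.card_embedding_eq, card_V, Fintype.card_fin]
    congr 1
    rw [← Finset.sum_filter, Finset.sum_const, nsmul_eq_mul, mul_one]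
    rw [card_emb_in, hcard]
  rw [Finset.expect_congr rfl (fun L _ => h2 L), Finset.expect_const Finset.univ_nonempty]

/-- indicator of a full switch -/
noncomputable def ind {N d : ℕ} (L : Fin N ↪ V (d + 1)) (v : V d) : ℝ :=
  if (cons false v ∈ rangeF L ∧ cons true v ∈ rangeF L) then 1 else 0

theorem cons_ne {d : ℕ} (v v' : V d) : cons false v ≠ cons true v' := by
  intro h; exact Bool.false_ne_true (cons_inj.1 h).1

theorem ind_mean {N d : ℕ} (hND : N ≤ 2 ^ (d + 1)) (v : V d) :
    𝔼 L : Fin N ↪ V (d + 1), ind L v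
      = (N.descFactorial 2 : ℝ) / ((2 ^ (d + 1)).descFactorial 2 : ℝ) := by
  let x : Fin 2 ↪ V (d + 1) := ⟨![cons false v, cons true v], by
    intro a b hab
    fin_cases a <;> fin_cases b <;> first | rfl | (exfalso; simp at hab)⟩
  rw [← hit_prob hND x]
  apply Finset.expect_congr rfl
  intro L _
  unfold ind
  congr 1
  apply propext
  constructor
  · rintro ⟨h1, h2⟩ j
    fin_cases j
    · exact h1
    · exact h2
  · intro h; exact ⟨h 0, h 1⟩

theorem ind_mul_mean {N d : ℕ} (hND : N ≤ 2 ^ (d + 1)) (v v' : V d) (hv : v ≠ v') :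
    𝔼 L : Fin N ↪ V (d + 1), ind L v * ind L v'
      = (N.descFactorial 4 : ℝ) / ((2 ^ (d + 1)).descFactorial 4 : ℝ) := by
  let x : Fin 4 ↪ V (d + 1) := ⟨![cons false v, cons true v, cons false v', cons true v'], by
    intro a b hab
    fin_cases a <;> fin_cases b <;> first | rfl | (exfalso; simp [hv, hv.symm] at hab)⟩
  rw [← hit_prob hND x]
  apply Finset.expect_congr rfl
  intro L _
  unfold ind
  have hiff : (∀ j, x j ∈ rangeF L) ↔ ((cons false v ∈ rangeF L ∧ cons true v ∈ rangeF L) ∧
      (cons false v' ∈ rangeF L ∧ cons true v' ∈ rangeF L)) := by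
    constructor
    · intro h; exact ⟨⟨h 0, h 1⟩, ⟨h 2, h 3⟩⟩
    · rintro ⟨⟨h0, h1⟩, ⟨h2, h3⟩⟩ j
      fin_cases j
      · exact h0
      · exact h1
      · exact h2
      · exact h3
  simp only [hiff]
  by_cases hP : (cons false v ∈ rangeF L ∧ cons true v ∈ rangeF L)
  · by_cases hQ : (cons false v' ∈ rangeF L ∧ cons true v' ∈ rangeF L)
    · rw [if_pos hP, if_pos hQ, if_pos ⟨hP, hQ⟩, mul_one]
    · rw [if_pos hP, if_neg hQ, if_neg (fun h => hQ h.2), mul_zero]
  · rw [if_neg hP, zero_mul, if_neg (fun h => hP h.1)]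

theorem ind_sq {N d : ℕ} (L : Fin N ↪ V (d + 1)) (v : V d) : ind L v * ind L v = ind L v := by
  unfold ind; split_ifs <;> simp

/-- Second moment method. -/
theorem top_prob (d s : ℕ) (hd : 2 ≤ d) (hs : (s : ℝ) ≤ 2 ^ d / 16) :
    𝔼 E : Env (Fin (2 ^ d)) (d + 1),
      (if (Finset.univ.filter (fun v : V d => both d (rangeF E.1) E.2 v)).card < s
        then (1 : ℝ) else 0) ≤ 14 / 2 ^ d := by
  classical
  have hND : 2 ^ d ≤ 2 ^ (d + 1) := Nat.pow_le_pow_right (by norm_num) (by omega)
  have hne : Nonempty (Fin (2 ^ d) ↪ V (d + 1)) := by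
    rw [Function.Embedding.nonempty_iff_card_le, card_V, Fintype.card_fin]; exact hND
  set N : ℝ := 2 ^ d with hN
  have hN4 : 4 ≤ N := by
    rw [hN]
    calc (4 : ℝ) = 2 ^ 2 := by norm_num
      _ ≤ 2 ^ d := pow_le_pow_right₀ (by norm_num) hd
  set p2 : ℝ := (((2 ^ d).descFactorial 2 : ℕ) : ℝ) / (((2 ^ (d + 1)).descFactorial 2 : ℕ) : ℝ) with hp2
  set p4 : ℝ := (((2 ^ d).descFactorial 4 : ℕ) : ℝ) / (((2 ^ (d + 1)).descFactorial 4 : ℕ) : ℝ) with hp4
  have h4 : 4 ≤ 2 ^ d := by
    calc 4 = 2 ^ 2 := by norm_num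
      _ ≤ 2 ^ d := Nat.pow_le_pow_right (by norm_num) hd
  have hp2' : p2 = (N * (N - 1)) / ((2 * N) * (2 * N - 1)) := by
    rw [hp2]
    simp only [Nat.descFactorial_succ, Nat.descFactorial_zero, mul_one, Nat.sub_zero]
    rw [Nat.cast_mul, Nat.cast_mul, Nat.cast_sub (by omega), Nat.cast_sub (by omega)]
    push_cast
    rw [← hN, pow_succ, ← hN]
    ring
  have hp4' : p4 = (N * (N - 1) * (N - 2) * (N - 3)) /
      ((2 * N) * (2 * N - 1) * (2 * N - 2) * (2 * N - 3)) := by
    rw [hp4]
    simp only [Nat.descFactorial_succ, Nat.descFactorial_zero, mul_one, Nat.sub_zero]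
    rw [Nat.cast_mul, Nat.cast_mul, Nat.cast_mul, Nat.cast_mul, Nat.cast_mul, Nat.cast_mul,
      Nat.cast_sub (by omega), Nat.cast_sub (by omega), Nat.cast_sub (by omega),
      Nat.cast_sub (by omega), Nat.cast_sub (by omega), Nat.cast_sub (by omega)]
    push_cast
    rw [← hN, pow_succ, ← hN]
    ring
  have hp20 : 0 ≤ p2 := by rw [hp2]; positivity
  have hp42 : p4 ≤ p2 ^ 2 := by
    rw [hp2', hp4']
    have b1 : 0 < 2 * N - 1 := by linarith
    have b2 : 0 < 2 * N - 2 := by linarith
    have b3 : 0 < 2 * N - 3 := by linarith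
    have b0 : 0 < N := by linarith
    have e1 : (N - 2) / (2 * N - 2) ≤ 1 / 2 := by
      rw [div_le_div_iff₀ b2 (by norm_num)]; linarith
    have e2 : (N - 3) / (2 * N - 3) ≤ (N - 1) / (2 * N - 1) := by
      rw [div_le_div_iff₀ b3 b1]; nlinarith
    have e3 : 0 ≤ (N - 3) / (2 * N - 3) := div_nonneg (by linarith) b3.le
    have e4 : 0 ≤ (N - 1) / (2 * N - 1) := div_nonneg (by linarith) b1.le
    calc N * (N - 1) * (N - 2) * (N - 3) / (2 * N * (2 * N - 1) * (2 * N - 2) * (2 * N - 3))
        = (1 / 2) * ((N - 1) / (2 * N - 1)) * (((N - 2) / (2 * N - 2)) * ((N - 3) / (2 * N - 3))) := by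
          field_simp
      _ ≤ (1 / 2) * ((N - 1) / (2 * N - 1)) * ((1 / 2) * ((N - 1) / (2 * N - 1))) := by
          apply mul_le_mul_of_nonneg_left _ (by positivity)
          exact mul_le_mul e1 e2 e3 (by norm_num)
      _ = (N * (N - 1) / (2 * N * (2 * N - 1))) ^ 2 := by field_simp
  set μ : ℝ := N * p2 with hμ
  have hμ1 : N / 5 ≤ μ := by
    rw [hμ, hp2', ← mul_div_assoc, div_le_div_iff₀ (by norm_num) (by nlinarith)]
    nlinarith [mul_pos (by linarith : (0 : ℝ) < N) (by linarith : (0 : ℝ) < N)]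
  have hμ2 : μ ≤ N / 4 := by
    rw [hμ, hp2', ← mul_div_assoc, div_le_div_iff₀ (by nlinarith) (by norm_num)]
    nlinarith [mul_pos (by linarith : (0 : ℝ) < N) (by linarith : (0 : ℝ) < N)]
  have hsum1 : ∑ _v : V d, (1 : ℝ) = N := by
    rw [Finset.sum_const, Finset.card_univ, card_V, nsmul_eq_mul, mul_one, hN]; push_cast; rfl
  -- the count after reindexing
  let X : (Fin (2 ^ d) ↪ V (d + 1)) → ℝ := fun L => ∑ v : V d, ind L v
  have hX1 : 𝔼 L, X L = μ := by
    simp only [X]
    rw [Finset.expect_sum_comm, Finset.sum_congr rfl (fun v _ => ind_mean hND v), ← hp2, hμ,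
      ← hsum1, Finset.sum_mul]
    simp
  have hX2 : 𝔼 L, X L ^ 2 ≤ μ + μ ^ 2 := by
    have e1 : ∀ L, X L ^ 2 = ∑ v : V d, ∑ v' : V d, ind L v * ind L v' := by
      intro L
      simp only [X]
      rw [pow_two, Finset.sum_mul_sum]
    rw [Finset.expect_congr rfl (fun L _ => e1 L), Finset.expect_sum_comm]
    have e2 : ∀ v : V d, 𝔼 L : Fin (2 ^ d) ↪ V (d + 1), ∑ v' : V d, ind L v * ind L v'
        ≤ p2 + N * p4 := by
      intro v
      rw [Finset.expect_sum_comm, ← Finset.add_sum_erase _ _ (Finset.mem_univ v)]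
      apply add_le_add
      · rw [Finset.expect_congr rfl (fun L _ => ind_sq L v), ind_mean hND v]
      · have e3 : ∀ v' ∈ Finset.univ.erase v, 𝔼 L : Fin (2 ^ d) ↪ V (d + 1), ind L v * ind L v'
            = p4 := by
          intro v' hv'
          rw [ind_mul_mean hND v v' (Finset.ne_of_mem_erase hv').symm]
        rw [Finset.sum_congr rfl e3, Finset.sum_const, nsmul_eq_mul]
        apply mul_le_mul_of_nonneg_right _ (by rw [hp4]; positivity)
        rw [Finset.card_erase_of_mem (Finset.mem_univ _), Finset.card_univ, card_V, hN]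
        have : (2 ^ d - 1 : ℕ) ≤ 2 ^ d := Nat.sub_le _ _
        exact_mod_cast this
    refine le_trans (Finset.sum_le_sum (fun v _ => e2 v)) ?_
    rw [Finset.sum_const, Finset.card_univ, card_V, nsmul_eq_mul]
    push_cast
    rw [← hN, hμ]
    have : N * (N * p4) ≤ N * (N * p2 ^ 2) := by
      apply mul_le_mul_of_nonneg_left _ (by linarith)
      exact mul_le_mul_of_nonneg_left hp42 (by linarith)
    nlinarith
  have hgap : 11 * N / 80 ≤ μ - s := by linarith
  have hgap0 : 0 < μ - s := by linarith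
  -- Chebyshev
  have hcheb : 𝔼 L : Fin (2 ^ d) ↪ V (d + 1), (if X L < s then (1 : ℝ) else 0) ≤ 14 / N := by
    have e1 : ∀ L : Fin (2 ^ d) ↪ V (d + 1), (if X L < s then (1 : ℝ) else 0)
        ≤ (X L ^ 2 - 2 * μ * X L + μ ^ 2) / (μ - s) ^ 2 := by
      intro L
      have e2 : X L ^ 2 - 2 * μ * X L + μ ^ 2 = (μ - X L) ^ 2 := by ring
      rw [e2]
      split_ifs with h
      · rw [le_div_iff₀ (by positivity), one_mul]
        apply pow_le_pow_left₀ hgap0.le
        linarith
      · positivity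
    refine le_trans (Finset.expect_le_expect (fun L _ => e1 L)) ?_
    rw [← Finset.expect_div]
    have e3 : 𝔼 L : Fin (2 ^ d) ↪ V (d + 1), (X L ^ 2 - 2 * μ * X L + μ ^ 2) ≤ μ := by
      rw [Finset.expect_add_distrib, Finset.expect_sub_distrib, ← Finset.mul_expect, hX1,
        Finset.expect_const Finset.univ_nonempty]
      nlinarith
    calc (𝔼 L : Fin (2 ^ d) ↪ V (d + 1), (X L ^ 2 - 2 * μ * X L + μ ^ 2)) / (μ - s) ^ 2
        ≤ μ / (μ - s) ^ 2 := div_le_div_of_nonneg_right e3 (by positivity)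
      _ ≤ (N / 4) / (11 * N / 80) ^ 2 := by
          apply div_le_div₀ (by linarith) hμ2 (by positivity)
          exact pow_le_pow_left₀ (by positivity) hgap 2
      _ ≤ 14 / N := by
          rw [div_le_div_iff₀ (by positivity) (by positivity)]
          nlinarith [mul_pos (by linarith : (0 : ℝ) < N) (by linarith : (0 : ℝ) < N)]
  -- reindex
  rw [← Finset.univ_product_univ, Finset.expect_product, Finset.expect_comm]
  simp only
  have hfix : ∀ c : Coins (d + 1), 𝔼 L : Fin (2 ^ d) ↪ V (d + 1),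
      (if (Finset.univ.filter (fun v : V d => both d (rangeF L) c v)).card < s
        then (1 : ℝ) else 0) ≤ 14 / N := by
    intro c
    refine le_trans (le_of_eq ?_) hcheb
    rw [← expect_emb_comp (preTop d c) (fun L => if X L < s then (1 : ℝ) else 0)]
    apply Finset.expect_congr rfl
    intro L _
    have e1 : (((Finset.univ.filter (fun v : V d => both d (rangeF L) c v)).card : ℕ) : ℝ)
        = X (L.trans (preTop d c).toEmbedding) := by
      simp only [X]
      rw [Finset.card_filter]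
      push_cast
      apply Finset.sum_congr rfl
      intro v _
      unfold ind
      simp only [both_iff]
    rw [← e1]
    simp only [Nat.cast_lt]
  exact le_trans (Finset.expect_le_expect (fun c _ => hfix c))
    (le_of_eq (Finset.expect_const Finset.univ_nonempty _))

end Crest.Agent.Thorp
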