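import Crest.Agent.Lib.Row155.Defs2
/-!
Row 155, chunk T13 (C8a): a Hölder type inequality for convolution powers on a finite group.
-/
set_option autoImplicit false
open Finset
open scoped BigOperators

namespace Crest.Agent.Thorp

/-- Pointwise AM-GM: `∏ aᵢ ≤ (1/(k+1)) ∑ⱼ ∏_{i ≠ j} aᵢ^((k+1)/k)` for `k+1` nonnegative reals. -/
theorem prod_le_avg_prod_erase {ι : Type*} [Fintype ι] [DecidableEq ι] (k : ℕ) (hk : 1 ≤ k)
    (hcard : Fintype.card ι = k + 1) (a : ι → ℝ) (ha : ∀ i, 0 ≤ a i) :
    ∏ i, a i ≤ ∑ j, (1 / ((k : ℝ) + 1)) *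
      ∏ i ∈ Finset.univ.erase j, a i ^ (((k : ℝ) + 1) / k) := by
  have hk0 : (0 : ℝ) < k := by exact_mod_cast hk
  have hk1 : (0 : ℝ) < (k : ℝ) + 1 := by positivity
  have hb : ∀ i, 0 ≤ a i ^ (((k : ℝ) + 1) / k) := fun i => Real.rpow_nonneg (ha i) _
  have key := Real.geom_mean_le_arith_mean_weighted (Finset.univ : Finset ι)
    (fun _ => 1 / ((k : ℝ) + 1))
    (fun j => ∏ i ∈ Finset.univ.erase j, a i ^ (((k : ℝ) + 1) / k))
    (fun _ _ => by positivity)
    (by
      rw [Finset.sum_const, Finset.card_univ, hcard, nsmul_eq_mul]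
      push_cast
      field_simp)
    (fun j _ => Finset.prod_nonneg (fun i _ => hb i))
  refine le_trans (le_of_eq ?_) key
  have h1 : ∀ j : ι, (∏ i ∈ Finset.univ.erase j, a i ^ (((k : ℝ) + 1) / k)) ^
      (1 / ((k : ℝ) + 1)) =
      ∏ i ∈ Finset.univ.erase j, (a i ^ (((k : ℝ) + 1) / k)) ^ (1 / ((k : ℝ) + 1)) := by
    intro j
    rw [Real.finsetProd_rpow _ _ (fun i _ => hb i)]
  have h2 : ∏ j : ι, (∏ i ∈ Finset.univ.erase j, a i ^ (((k : ℝ) + 1) / k)) ^
      (1 / ((k : ℝ) + 1)) =
      ∏ i : ι, ∏ _j ∈ Finset.univ.erase i, (a i ^ (((k : ℝ) + 1) / k)) ^ (1 / ((k : ℝ) + 1)) := by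
    rw [Finset.prod_congr rfl (fun j _ => h1 j)]
    apply Finset.prod_comm'
    intro x y
    simp only [Finset.mem_univ, Finset.mem_erase, and_true, true_and]
    exact ne_comm
  rw [h2]
  refine Finset.prod_congr rfl (fun i _ => ?_)
  rw [Finset.prod_const, Finset.card_erase_of_mem (Finset.mem_univ i), Finset.card_univ, hcard,
    Nat.add_sub_cancel, ← Real.rpow_mul (ha i), ← Real.rpow_natCast, ← Real.rpow_mul (ha i)]
  have : ((k : ℝ) + 1) / k * (1 / ((k : ℝ) + 1)) * (k : ℝ) = 1 := by
    field_simp
  rw [this, Real.rpow_one]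

/-- The product `v 0 * v 1 * ⋯` determines `v j` once the other entries are fixed. -/
theorem ofFn_prod_cancel {G : Type*} [Group G] : ∀ (k : ℕ) (v w : Fin k → G) (j : Fin k),
    (∀ i, i ≠ j → v i = w i) → (List.ofFn v).prod = (List.ofFn w).prod → v j = w j := by
  intro k
  induction k with
  | zero => intro v w j; exact j.elim0
  | succ k ih =>
    intro v w j hne hprod
    rw [List.ofFn_succ, List.ofFn_succ, List.prod_cons, List.prod_cons] at hprod
    refine Fin.cases (motive := fun j => (∀ i, i ≠ j → v i = w i) → v j = w j) ?_ ?_ j hne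
    · intro hne
      have : (fun i : Fin k => v i.succ) = fun i : Fin k => w i.succ := by
        funext i
        exact hne _ (Fin.succ_ne_zero i)
      rw [this] at hprod
      exact mul_right_cancel hprod
    · intro j' hne
      have h0 : v 0 = w 0 := hne 0 (Fin.succ_ne_zero j').symm
      rw [h0] at hprod
      have := mul_left_cancel hprod
      refine ih (fun i => v i.succ) (fun i => w i.succ) j' ?_ this
      intro i hi
      exact hne _ (fun h => hi (Fin.succ_injective _ h))

theorem expect_prod_fin {G : Type*} [Fintype G] (b : G → ℝ) (k : ℕ) :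
    (𝔼 v : Fin k → G, ∏ i, b (v i)) = (𝔼 g, b g) ^ k := by
  classical
  rw [Fintype.expect_eq_sum_div_card, Fintype.expect_eq_sum_div_card, div_pow, Fintype.sum_pow]
  congr 1
  rw [Fintype.card_fun, Fintype.card_fin]
  push_cast
  rfl

theorem prod_erase_none {α : Type*} [Fintype α] [DecidableEq α] (F : Option α → ℝ) :
    ∏ o ∈ Finset.univ.erase none, F o = ∏ i, F (some i) := by
  have : (Finset.univ.erase (none : Option α)) =
      Finset.univ.map Function.Embedding.some := by
    ext o
    cases o <;> simp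
  rw [this, Finset.prod_map]
  rfl

theorem prod_erase_some {α : Type*} [Fintype α] [DecidableEq α] (F : Option α → ℝ) (j : α) :
    ∏ o ∈ Finset.univ.erase (some j), F o = F none * ∏ i ∈ Finset.univ.erase j, F (some i) := by
  have : (Finset.univ.erase (some j)) = Finset.insertNone (Finset.univ.erase j) := by
    ext o
    cases o <;> simp
  rw [this, Finset.prod_insertNone]

/-- Replace the entry `j` of `v` by the inverse of the product of all the entries. -/
def swapEntry {G : Type*} [Group G] {k : ℕ} (j : Fin k) (v : Fin k → G) : Fin k → G :=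
  Function.update v j ((List.ofFn v).prod⁻¹)

theorem swapEntry_injective {G : Type*} [Group G] {k : ℕ} (j : Fin k) :
    Function.Injective (swapEntry (G := G) j) := by
  intro v w h
  have hne : ∀ i, i ≠ j → v i = w i := by
    intro i hi
    have := congrFun h i
    simpa [swapEntry, hi] using this
  have hj : (List.ofFn v).prod = (List.ofFn w).prod := by
    have := congrFun h j
    simpa [swapEntry] using this
  funext i
  by_cases hi : i = j
  · rw [hi]
    exact ofFn_prod_cancel k v w j hne hj
  · exact hne i hi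

/-- (C8a) Hölder inequality for the convolution powers of a nonnegative function on a finite
group. -/
theorem group_holder {G : Type*} [Group G] [Fintype G] (φ : G → ℝ) (hφ : ∀ g, 0 ≤ φ g)
    (k : ℕ) (hk : 1 ≤ k) :
    (𝔼 v : Fin k → G, (∏ i, φ (v i)) * φ ((List.ofFn v).prod⁻¹)) ≤
      (𝔼 g, φ g ^ (((k : ℝ) + 1) / k)) ^ k := by
  classical
  have hk0 : (0 : ℝ) < k := by exact_mod_cast hk
  have hk1 : (0 : ℝ) < (k : ℝ) + 1 := by positivity
  set b : G → ℝ := fun g => φ g ^ (((k : ℝ) + 1) / k) with hb
  -- the family of the `k+1` factors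
  let a : (Fin k → G) → Option (Fin k) → ℝ := fun v o =>
    o.elim (φ ((List.ofFn v).prod⁻¹)) (fun i => φ (v i))
  have ha : ∀ v o, 0 ≤ a v o := by
    intro v o
    cases o with
    | none => exact hφ _
    | some i => exact hφ _
  have hpt : ∀ v : Fin k → G, (∏ i, φ (v i)) * φ ((List.ofFn v).prod⁻¹) ≤
      ∑ j : Option (Fin k), (1 / ((k : ℝ) + 1)) *
        ∏ i ∈ Finset.univ.erase j, a v i ^ (((k : ℝ) + 1) / k) := by
    intro v
    refine le_trans (le_of_eq ?_)
      (prod_le_avg_prod_erase k hk (by simp) (a v) (ha v))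
    rw [Fintype.prod_option, mul_comm]
    rfl
  -- average of each term
  have hterm : ∀ j : Option (Fin k),
      (𝔼 v : Fin k → G, ∏ i ∈ Finset.univ.erase j, a v i ^ (((k : ℝ) + 1) / k)) =
        (𝔼 g, b g) ^ k := by
    intro j
    cases j with
    | none =>
      rw [← expect_prod_fin b k]
      refine Finset.expect_congr rfl (fun v _ => ?_)
      rw [prod_erase_none]
      rfl
    | some j =>
      rw [← expect_prod_fin b k]
      have hbij : Function.Bijective (swapEntry (G := G) j) :=
        (swapEntry_injective j).bijective_of_finite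
      rw [← Fintype.expect_bijective _ hbij (fun v => ∏ i, b (swapEntry j v i))
        (fun v => ∏ i, b (v i)) (fun _ => rfl)]
      refine Finset.expect_congr rfl (fun v _ => ?_)
      rw [prod_erase_some, ← Finset.mul_prod_erase Finset.univ _ (Finset.mem_univ j)]
      congr 1
      · simp [a, b, swapEntry]
      · refine Finset.prod_congr rfl (fun i hi => ?_)
        have hi' : i ≠ j := (Finset.mem_erase.mp hi).1
        simp [a, b, swapEntry, hi']
  calc (𝔼 v : Fin k → G, (∏ i, φ (v i)) * φ ((List.ofFn v).prod⁻¹))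
      ≤ 𝔼 v : Fin k → G, ∑ j : Option (Fin k), (1 / ((k : ℝ) + 1)) *
        ∏ i ∈ Finset.univ.erase j, a v i ^ (((k : ℝ) + 1) / k) :=
        Finset.expect_le_expect (fun v _ => hpt v)
    _ = ∑ j : Option (Fin k), (1 / ((k : ℝ) + 1)) *
        𝔼 v : Fin k → G, ∏ i ∈ Finset.univ.erase j, a v i ^ (((k : ℝ) + 1) / k) := by
        rw [Finset.expect_sum_comm]
        refine Finset.sum_congr rfl (fun j _ => ?_)
        rw [Finset.mul_expect]
    _ = ∑ _j : Option (Fin k), (1 / ((k : ℝ) + 1)) * (𝔼 g, b g) ^ k :=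
        Finset.sum_congr rfl (fun j _ => by rw [hterm j])
    _ = (𝔼 g, b g) ^ k := by
        rw [Finset.sum_const, Finset.card_univ, Fintype.card_option, Fintype.card_fin,
          nsmul_eq_mul]
        push_cast
        field_simp

end Crest.Agent.Thorp
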