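import Crest.Agent.Lib.Row155.LevelGrp
/-!
Row 155 (Thorp shuffle), chunk T18, part 3: `level_bound` from `pure_finrank`, `pure_indep`,
`pure_span` (taken as hypotheses here, so that the file does not depend on the other chunks).
-/
set_option autoImplicit false
set_option linter.unusedSectionVars false
open Finset Module
open scoped BigOperators

namespace Crest.Agent.Thorp.LB

variable {N : ℕ}

abbrev P (N : ℕ) := Equiv.Perm (Fin N)

/-- Number of order embeddings. -/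
theorem card_orderEmb (j n : ℕ) : Fintype.card (Fin j ↪o Fin n) = n.choose j := by
  classical
  have e : (Fin j ↪o Fin n) ≃ {s : Finset (Fin n) // s ∈ Finset.powersetCard j Finset.univ} :=
    { toFun := fun J => ⟨Finset.univ.map J.toEmbedding, by
        rw [Finset.mem_powersetCard]; exact ⟨Finset.subset_univ _, by simp⟩⟩
      invFun := fun s => s.1.orderEmbOfFin (Finset.mem_powersetCard.mp s.2).2
      left_inv := by
        intro J
        symm
        apply Finset.orderEmbOfFin_unique'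
        intro x
        simp
      right_inv := by
        rintro ⟨s, hs⟩
        apply Subtype.ext
        ext x
        have hs' := (Finset.mem_powersetCard.mp hs).2
        have := Finset.range_orderEmbOfFin s hs'
        simp only [Finset.mem_map, Finset.mem_univ, true_and]
        constructor
        · rintro ⟨i, rfl⟩
          exact Finset.orderEmbOfFin_mem s hs' i
        · intro hx
          have : x ∈ Set.range (s.orderEmbOfFin hs') := by rw [this]; exact hx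
          exact this }
  rw [Fintype.card_congr e, Fintype.card_coe, Finset.card_powersetCard, Finset.card_univ,
    Fintype.card_fin]

/-- Every injective tuple is the image of a given injective tuple under a permutation. -/
theorem exists_perm {j : ℕ} (s x : Fin j → Fin N) (hs : Function.Injective s)
    (hx : Function.Injective x) : ∃ g : P N, ∀ i, g (s i) = x i := by
  classical
  let e1 : {y // y ∈ Set.range s} ≃ {y // y ∈ Set.range x} :=
    (Equiv.ofInjective s hs).symm.trans (Equiv.ofInjective x hx)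
  refine ⟨e1.extendSubtype, fun i => ?_⟩
  rw [Equiv.extendSubtype_apply_of_mem e1 (s i) ⟨i, rfl⟩]
  have : (Equiv.ofInjective s hs).symm ⟨s i, ⟨i, rfl⟩⟩ = i := by
    rw [Equiv.symm_apply_eq]; rfl
  simp [e1, this]

/-- Lift of a function of `j` positions along the cards `s`. -/
noncomputable def lift {j : ℕ} (s : Fin j → Fin N) :
    ((Fin j → Fin N) → ℝ) →ₗ[ℝ] (P N → ℝ) where
  toFun φ g := φ (fun i => g (s i))
  map_add' _ _ := rfl
  map_smul' _ _ := rfl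

/-- The operator on functions of tuples. -/
noncomputable def Tt (r : P N → ℝ) (j : ℕ) :
    ((Fin j → Fin N) → ℝ) →ₗ[ℝ] ((Fin j → Fin N) → ℝ) where
  toFun φ x := ∑ h, r h * φ (fun i => h⁻¹ (x i))
  map_add' a b := by
    funext x; simp [mul_add, Finset.sum_add_distrib]
  map_smul' c a := by
    funext x; simp only [Pi.smul_apply, smul_eq_mul, RingHom.id_apply, Finset.mul_sum]
    exact Finset.sum_congr rfl (fun _ _ => by ring)

theorem cv_lift (r : P N → ℝ) {j : ℕ} (s : Fin j → Fin N) (φ : (Fin j → Fin N) → ℝ) :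
    cv r (lift s φ) = lift s (Tt r j φ) := rfl

theorem Tt_pure (r : P N → ℝ) {j : ℕ} (φ : (Fin j → Fin N) → ℝ) (hφ : φ ∈ PureFn N j) :
    Tt r j φ ∈ PureFn N j := by
  obtain ⟨h1, h2⟩ := hφ
  constructor
  · intro x hx
    show ∑ h, r h * φ (fun i => h⁻¹ (x i)) = 0
    refine Finset.sum_eq_zero (fun h _ => ?_)
    rw [h1, mul_zero]
    intro hinj
    apply hx
    intro a b hab
    apply hinj
    simp [hab]
  · intro x i
    show ∑ y, ∑ h, r h * φ (fun i' => h⁻¹ (Function.update x i y i')) = 0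
    rw [Finset.sum_comm]
    refine Finset.sum_eq_zero (fun h _ => ?_)
    rw [← Finset.mul_sum]
    have h3 : ∑ y, φ (fun i' => h⁻¹ (Function.update x i y i')) =
        ∑ y, φ (Function.update (fun i' => h⁻¹ (x i')) i y) := by
      refine Fintype.sum_equiv h⁻¹ _ _ (fun y => ?_)
      congr 1
      funext i'
      by_cases hi : i' = i
      · subst hi; simp
      · simp [Function.update_of_ne hi]
    rw [h3, h2, mul_zero]

theorem lift_inj {j : ℕ} (s : Fin j → Fin N) (hs : Function.Injective s)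
    (φ : (Fin j → Fin N) → ℝ) (hφ : φ ∈ PureFn N j) (h : lift s φ = 0) : φ = 0 := by
  funext x
  by_cases hx : Function.Injective x
  · obtain ⟨g, hg⟩ := exists_perm s x hs hx
    have := congrFun h g
    have h2 : lift s φ g = φ (fun i => g (s i)) := rfl
    rw [h2, funext hg] at this
    exact this
  · exact hφ.1 x hx

/-- Eigenspace of the operator on pure functions. -/
noncomputable def Ej (r : P N → ℝ) (ρ : ℝ) (j : ℕ) : Submodule ℝ ((Fin j → Fin N) → ℝ) :=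
  PureFn N j ⊓ End.eigenspace (Tt r j) ρ

theorem Ej_inv (r : P N → ℝ) (hclass : ∀ g h, r (h * g * h⁻¹) = r g) (ρ : ℝ) (j : ℕ)
    (g : P N) (φ : (Fin j → Fin N) → ℝ) (hφ : φ ∈ Ej r ρ j) :
    (fun x : Fin j → Fin N => φ (g ∘ x)) ∈ Ej r ρ j := by
  obtain ⟨⟨h1, h2⟩, h3⟩ := hφ
  have h3' : Tt r j φ = ρ • φ := End.mem_eigenspace_iff.mp h3
  refine ⟨⟨?_, ?_⟩, ?_⟩
  · intro x hx
    apply h1
    intro hinj
    exact hx (Function.Injective.of_comp hinj)
  · intro x i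
    have h4 : ∑ y, φ (g ∘ Function.update x i y) = ∑ y, φ (Function.update (g ∘ x) i y) := by
      refine Fintype.sum_equiv g _ _ (fun y => ?_)
      congr 1
      funext i'
      by_cases hi : i' = i
      · subst hi; simp
      · simp [Function.update_of_ne hi]
    show ∑ y, φ (g ∘ Function.update x i y) = 0
    rw [h4, h2]
  · show _ ∈ End.eigenspace (Tt r j) ρ
    rw [End.mem_eigenspace_iff]
    funext x
    have h5 := congrFun h3' (g ∘ x)
    show ∑ h, r h * φ (g ∘ (fun i => h⁻¹ (x i))) = ρ • φ (g ∘ x)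
    have h6 : (ρ • φ) (g ∘ x) = ρ • φ (g ∘ x) := rfl
    rw [← h6, ← h5]
    show _ = ∑ h, r h * φ (fun i => h⁻¹ ((g ∘ x) i))
    refine Fintype.sum_equiv (MulAut.conj g).toEquiv _ _ (fun h => ?_)
    show r h * φ (g ∘ (fun i => h⁻¹ (x i))) = r (g * h * g⁻¹) * φ (fun i => (g * h * g⁻¹)⁻¹ (g (x i)))
    rw [hclass]
    congr 2
    funext i
    simp


/-- High level functions as a submodule. -/
def hiSub (N j : ℕ) : Submodule ℝ (P N → ℝ) where
  carrier := {f | HighLevel j f}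
  add_mem' := by
    intro f f' hf hf' a b
    have h1 := hf a b
    have h2 := hf' a b
    have : (∑ g, if (∀ i, g (a i) = b i) then (f + f') g else 0) =
        (∑ g, if (∀ i, g (a i) = b i) then f g else 0) +
          ∑ g, if (∀ i, g (a i) = b i) then f' g else 0 := by
      rw [← Finset.sum_add_distrib]
      exact Finset.sum_congr rfl (fun g _ => by split_ifs <;> simp)
    rw [this, h1, h2, add_zero]
  zero_mem' := by intro a b; simp
  smul_mem' := by
    intro c f hf a b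
    have h1 := hf a b
    have : (∑ g, if (∀ i, g (a i) = b i) then (c • f) g else 0) =
        c * (∑ g, if (∀ i, g (a i) = b i) then f g else 0) := by
      rw [Finset.mul_sum]
      exact Finset.sum_congr rfl (fun g _ => by split_ifs <;> simp)
    rw [this, h1, mul_zero]

theorem mem_hiSub {j : ℕ} {f : P N → ℝ} : f ∈ hiSub N j ↔ HighLevel j f := Iff.rfl

theorem cv_hi (r : P N → ℝ) (j : ℕ) (f : P N → ℝ) (hf : f ∈ hiSub N j) : cv r f ∈ hiSub N j := by
  rw [mem_hiSub] at hf ⊢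
  intro a b
  have h1 : (∑ g, if (∀ i, g (a i) = b i) then cv r f g else 0) =
      ∑ h, r h * ∑ g, if (∀ i, g (a i) = b i) then f (h⁻¹ * g) else 0 := by
    have : ∀ g, (if (∀ i, g (a i) = b i) then cv r f g else 0) =
        ∑ h, r h * (if (∀ i, g (a i) = b i) then f (h⁻¹ * g) else 0) := by
      intro g
      split_ifs
      · rfl
      · simp
    rw [Finset.sum_congr rfl (fun g _ => this g), Finset.sum_comm]
    exact Finset.sum_congr rfl (fun h _ => by rw [Finset.mul_sum])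
  rw [h1]
  refine Finset.sum_eq_zero (fun h _ => ?_)
  have h2 := hf a (b.trans h⁻¹.toEmbedding)
  have h3 : (∑ g, if (∀ i, g (a i) = b i) then f (h⁻¹ * g) else 0) =
      ∑ g, if (∀ i, g (a i) = (b.trans h⁻¹.toEmbedding) i) then f g else 0 := by
    refine Fintype.sum_equiv (Equiv.mulLeft h⁻¹) _ _ (fun g => ?_)
    have : (∀ i, g (a i) = b i) ↔
        (∀ i, ((Equiv.mulLeft h⁻¹) g) (a i) = (b.trans h⁻¹.toEmbedding) i) := by
      refine forall_congr' (fun i => ?_)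
      show g (a i) = b i ↔ h⁻¹ (g (a i)) = h⁻¹ (b i)
      exact (h⁻¹ : P N).injective.eq_iff.symm
    simp only [this]
    rfl
  rw [h3, h2, mul_zero]

/-- Pointwise stabilizer of `0, …, q-1`. -/
def Hq (N q : ℕ) : Subgroup (P N) where
  carrier := {h | ∀ i : Fin N, (i : ℕ) < q → h i = i}
  mul_mem' := by
    intro a b ha hb i hi
    show a (b i) = i
    rw [hb i hi, ha i hi]
  one_mem' := by intro i _; rfl
  inv_mem' := by
    intro a ha i hi
    show a⁻¹ i = i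
    rw [Equiv.Perm.inv_eq_iff_eq]
    exact (ha i hi).symm

instance (N q : ℕ) : DecidablePred (· ∈ Hq N q) := fun h =>
  inferInstanceAs (Decidable (∀ i : Fin N, (i : ℕ) < q → h i = i))

theorem mem_Hq {q : ℕ} {h : P N} : h ∈ Hq N q ↔ ∀ i : Fin N, (i : ℕ) < q → h i = i := Iff.rfl

theorem card_Hq (q : ℕ) (hq : q ≤ N) : Fintype.card (Hq N q) = (N - q).factorial := by
  classical
  have e : Equiv.Perm {i : Fin N // ¬ ((i : ℕ) < q)} ≃ Hq N q :=
    (Equiv.Perm.subtypeEquivSubtypePerm (fun i : Fin N => ¬ ((i : ℕ) < q))).trans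
      (Equiv.subtypeEquivRight (fun h => by
        rw [mem_Hq]
        constructor
        · intro h1 i hi; exact h1 i (not_not.mpr hi)
        · intro h1 i hi; exact h1 i (not_not.mp hi)))
  rw [← Fintype.card_congr e, Fintype.card_perm]
  congr 1
  rw [Fintype.card_subtype_compl, Fintype.card_fin]
  congr 1
  rw [Fintype.card_subtype]
  have : (Finset.univ.filter (fun i : Fin N => (i : ℕ) < q)) =
      Finset.univ.map (Fin.castLEEmb hq) := by
    ext i
    simp only [Finset.mem_filter, Finset.mem_univ, true_and, Finset.mem_map, Fin.castLEEmb_apply]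
    constructor
    · intro hi; exact ⟨⟨i, hi⟩, rfl⟩
    · rintro ⟨a, rfl⟩; exact a.2
  rw [this, Finset.card_map, Finset.card_univ, Fintype.card_fin]

theorem psi_eq_trace (r : P N → ℝ) (hclass : ∀ g h, r (h * g * h⁻¹) = r g) (k q : ℕ) (hq : q ≤ N) :
    psi (convPow r k) q 1 = LinearMap.trace ℝ (P N → ℝ) (((cv r) ^ k) ∘ₗ av (Hq N q)) := by
  rw [cv_pow, trace_cv_av _ _ (convPow_class r hclass k), card_Hq q hq, Fintype.card_perm,
    Fintype.card_fin]
  unfold psi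
  have h1 : (∑ g : P N, if (∀ i : Fin N, (i : ℕ) < q → g i = (1 : P N) i) then convPow r k g else 0)
      = ∑ h : Hq N q, convPow r k h := by
    rw [← Finset.sum_filter]
    refine Finset.sum_subtype _ (fun g => ?_) _
    simp only [Finset.mem_filter, Finset.mem_univ, true_and]
    rfl
  rw [h1, ← mul_assoc]
  congr 1
  have h2 : ((N - q).factorial : ℝ) ≠ 0 := by positivity
  field_simp
  rw [mul_comm]
  exact_mod_cast (Nat.factorial_mul_descFactorial hq)


/-- Statement of `pure_indep`. -/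
def PureIndep (N j q : ℕ) : Prop :=
  ∀ (φ : (Fin j ↪o Fin q) → (Fin j → Fin N) → ℝ), (∀ J, φ J ∈ PureFn N j) →
    (∀ x : Fin q → Fin N, Function.Injective x → ∑ J, φ J (x ∘ J) = 0) → ∀ J : Fin j ↪o Fin q,
    φ J = 0

/-- Statement of `pure_span`. -/
def PureSpan (N j1 : ℕ) : Prop :=
  ∀ (f : Equiv.Perm (Fin N) → ℝ),
    ∃ (fhi : Equiv.Perm (Fin N) → ℝ) (φ : ∀ j : ℕ, (Fin j ↪o Fin N) → (Fin j → Fin N) → ℝ),
      HighLevel j1 fhi ∧ (∀ j J, φ j J ∈ PureFn N j) ∧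
      ∀ g, f g = fhi g + ∑ j ∈ Finset.range (j1 + 1), ∑ J : Fin j ↪o Fin N, φ j J (g ∘ J)

/-- Statement of `pure_finrank`. -/
def PureFinrank (N j : ℕ) : Prop :=
  ∀ (W : Submodule ℝ ((Fin j → Fin N) → ℝ)), W ≤ PureFn N j → W ≠ ⊥ →
    (∀ g : Equiv.Perm (Fin N), ∀ φ ∈ W, (fun x => φ (g ∘ x)) ∈ W) →
    ((N - j) / j) ^ j ≤ Module.finrank ℝ W

theorem dim_sub (r : P N → ℝ) (ρ : ℝ) (j q : ℕ) (hq : q ≤ N) (hind : PureIndep N j q) :
    q.choose j * finrank ℝ (Ej r ρ j) ≤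
      finrank ℝ ↥(End.eigenspace (cv r) ρ ⊓ LinearMap.range (av (Hq N q))) := by
  classical
  let ι : Fin q → Fin N := Fin.castLE hq
  have hι : Function.Injective ι := Fin.castLE_injective hq
  let Θ : ((Fin j ↪o Fin q) → Ej r ρ j) →ₗ[ℝ] (P N → ℝ) :=
    { toFun := fun φ => ∑ J : Fin j ↪o Fin q, lift (ι ∘ J) (φ J : (Fin j → Fin N) → ℝ)
      map_add' := by
        intro a b
        rw [← Finset.sum_add_distrib]
        exact Finset.sum_congr rfl (fun J _ => by simp)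
      map_smul' := by
        intro c a
        rw [RingHom.id_apply, Finset.smul_sum]
        exact Finset.sum_congr rfl (fun J _ => by simp) }
  have hΘ : ∀ φ, Θ φ ∈ End.eigenspace (cv r) ρ ⊓ LinearMap.range (av (Hq N q)) := by
    intro φ
    constructor
    · show Θ φ ∈ End.eigenspace (cv r) ρ
      refine Submodule.sum_mem _ (fun J _ => ?_)
      rw [End.mem_eigenspace_iff, cv_lift]
      have := (φ J).2.2
      rw [End.mem_eigenspace_iff.mp this, map_smul]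
    · refine ⟨Θ φ, av_of_inv _ _ ?_⟩
      intro g h hh
      show (∑ J : Fin j ↪o Fin q, lift (ι ∘ J) (φ J : (Fin j → Fin N) → ℝ)) (g * h) =
        (∑ J : Fin j ↪o Fin q, lift (ι ∘ J) (φ J : (Fin j → Fin N) → ℝ)) g
      rw [Finset.sum_apply, Finset.sum_apply]
      refine Finset.sum_congr rfl (fun J _ => ?_)
      show (φ J : (Fin j → Fin N) → ℝ) (fun i => (g * h) ((ι ∘ J) i)) =
        (φ J : (Fin j → Fin N) → ℝ) (fun i => g ((ι ∘ J) i))
      refine congrArg (φ J : (Fin j → Fin N) → ℝ) (funext (fun i => ?_))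
      show g (h (ι (J i))) = g (ι (J i))
      rw [hh (ι (J i)) (J i).2]
  let Θ' := Θ.codRestrict _ hΘ
  have hinj : Function.Injective Θ' := by
    rw [injective_iff_map_eq_zero]
    intro φ h0
    have h1 : Θ φ = 0 := congrArg Subtype.val h0
    have h2 := hind (fun J => (φ J : (Fin j → Fin N) → ℝ)) (fun J => (φ J).2.1) (by
      intro x hx
      obtain ⟨g, hg⟩ := exists_perm ι x hι hx
      have h3 := congrFun h1 g
      have h4 : Θ φ g = ∑ J, (φ J : (Fin j → Fin N) → ℝ) (fun i => g (ι (J i))) := by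
        show (∑ J : Fin j ↪o Fin q, lift (ι ∘ J) (φ J : (Fin j → Fin N) → ℝ)) g = _
        rw [Finset.sum_apply]; rfl
      rw [h4] at h3
      rw [← Pi.zero_apply (M := fun _ => ℝ) g, ← h3]
      refine Finset.sum_congr rfl (fun J _ => ?_)
      refine congrArg (φ J : (Fin j → Fin N) → ℝ) (funext (fun i => ?_))
      exact (hg (J i)).symm)
    funext J
    exact Subtype.ext (h2 J)
  have h5 := LinearMap.finrank_le_finrank_of_injective hinj
  rw [Module.finrank_pi_fintype, Finset.sum_const, Finset.card_univ, card_orderEmb,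
    smul_eq_mul] at h5
  exact h5

theorem dim_sup (r : P N → ℝ) (hT : (⨆ μ : ℝ, End.eigenspace (cv r) μ) = ⊤)
    (Λ : Finset ℝ) (hΛ : ∀ μ, End.eigenspace (cv r) μ ≠ ⊥ → μ ∈ Λ) (ρ : ℝ) (hρ : ρ ∈ Λ)
    (j1 : ℕ) (hj1 : j1 ≤ N) (hspan : PureSpan N j1) :
    finrank ℝ (End.eigenspace (cv r) ρ) ≤
      finrank ℝ ↥(End.eigenspace (cv r) ρ ⊓ hiSub N j1) +
        ∑ j ∈ Finset.range (j1 + 1), N.choose j * finrank ℝ (Ej r ρ j) := by
  classical
  let I := Σ j : Fin (j1 + 1), (Fin (j : ℕ) ↪o Fin N)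
  let Θ : (↥(End.eigenspace (cv r) ρ ⊓ hiSub N j1) × (∀ p : I, Ej r ρ (p.1 : ℕ))) →ₗ[ℝ]
      (P N → ℝ) :=
    { toFun := fun φ => (φ.1 : P N → ℝ) + ∑ p : I, lift p.2 (φ.2 p : (Fin p.1 → Fin N) → ℝ)
      map_add' := by
        intro a b
        have : ∑ p : I, lift p.2 ((a + b).2 p : (Fin p.1 → Fin N) → ℝ) =
            ∑ p : I, lift p.2 (a.2 p : (Fin p.1 → Fin N) → ℝ) +
              ∑ p : I, lift p.2 (b.2 p : (Fin p.1 → Fin N) → ℝ) := by
          rw [← Finset.sum_add_distrib]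
          exact Finset.sum_congr rfl (fun J _ => by simp)
        rw [this]
        simp only [Prod.fst_add, Submodule.coe_add]
        exact add_add_add_comm _ _ _ _
      map_smul' := by
        intro c a
        rw [RingHom.id_apply, smul_add, Finset.smul_sum]
        congr 1 }
  have hle : End.eigenspace (cv r) ρ ≤ LinearMap.range Θ := by
    intro f hf
    obtain ⟨fhi, φ, hhi, hφ, hfe⟩ := hspan f
    let L := Lagrange.basis Λ (id : ℝ → ℝ) ρ
    have hL := lagrange_mem (cv r) hT Λ hΛ ρ hρ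
    have hfhi : (Polynomial.aeval (cv r) L) fhi ∈ End.eigenspace (cv r) ρ ⊓ hiSub N j1 :=
      ⟨(hL fhi).1, aeval_mem (cv r) (hiSub N j1) (cv_hi r j1) L fhi hhi⟩
    have hEj : ∀ p : I, (Polynomial.aeval (Tt r p.1) L) (φ p.1 p.2) ∈ Ej r ρ p.1 := by
      intro p
      have hpure : (Polynomial.aeval (Tt r p.1) L) (φ p.1 p.2) ∈ PureFn N p.1 :=
        aeval_mem (Tt r p.1) (PureFn N p.1) (fun φ hφ => Tt_pure r φ hφ) L _ (hφ _ _)
      refine ⟨hpure, ?_⟩
      show _ ∈ End.eigenspace (Tt r p.1) ρ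
      rw [End.mem_eigenspace_iff]
      have h1 := aeval_intertwine (Tt r p.1) (cv r) (lift p.2) (fun v => cv_lift r p.2 v) L
        (φ p.1 p.2)
      have h2 := (hL (lift p.2 (φ p.1 p.2))).1
      rw [h1, End.mem_eigenspace_iff, cv_lift, ← map_smul, ← sub_eq_zero, ← map_sub] at h2
      have h3 := lift_inj (p.2 : Fin p.1 → Fin N) p.2.injective _
        (Submodule.sub_mem _ (Tt_pure r _ hpure) (Submodule.smul_mem _ ρ hpure)) h2
      exact sub_eq_zero.mp h3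
    refine ⟨(⟨_, hfhi⟩, fun p => ⟨_, hEj p⟩), ?_⟩
    show (Polynomial.aeval (cv r) L) fhi +
      ∑ p : I, lift p.2 ((Polynomial.aeval (Tt r p.1) L) (φ p.1 p.2)) = f
    have h4 : f = fhi + ∑ p : I, lift p.2 (φ p.1 p.2) := by
      funext g
      rw [hfe g, Pi.add_apply, Finset.sum_apply]
      congr 1
      rw [Finset.sum_range (fun j => ∑ J : Fin j ↪o Fin N, φ j J (g ∘ J))]
      rw [Fintype.sum_sigma]
      rfl
    have h5 : (Polynomial.aeval (cv r) L) f = f := (hL f).2 hf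
    rw [← h5]
    conv_rhs => rw [h4]
    rw [map_add, map_sum]
    congr 1
    refine Finset.sum_congr rfl (fun p _ => ?_)
    exact (aeval_intertwine (Tt r p.1) (cv r) (lift p.2) (fun v => cv_lift r p.2 v) L
        (φ p.1 p.2)).symm
  have h6 : finrank ℝ (End.eigenspace (cv r) ρ) ≤ finrank ℝ (LinearMap.range Θ) :=
    Submodule.finrank_mono hle
  have h7 := LinearMap.finrank_range_le Θ
  refine h6.trans (h7.trans ?_)
  rw [Module.finrank_prod, Module.finrank_pi_fintype, Fintype.sum_sigma]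
  apply le_of_eq
  congr 1
  rw [Finset.sum_range (fun j => N.choose j * finrank ℝ (Ej r ρ j))]
  refine Finset.sum_congr rfl (fun j _ => ?_)
  have h8 : (∑ _J : Fin (j : ℕ) ↪o Fin N, finrank ℝ (Ej r ρ (j : ℕ))) =
      N.choose j * finrank ℝ (Ej r ρ j) := by
    rw [Finset.sum_const, Finset.card_univ, card_orderEmb, smul_eq_mul]
  exact h8


theorem trace_cv (μ : P N → ℝ) :
    LinearMap.trace ℝ (P N → ℝ) (cv μ) = (N.factorial : ℝ) * μ 1 := by
  rw [trace_fun]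
  have h1 : ∀ x : P N, cv μ (Pi.single x 1) x = μ 1 := by
    intro x
    rw [cv_apply', Finset.sum_eq_single x]
    · simp
    · intro a _ ha; simp [Pi.single_apply, ha]
    · simp
  rw [Finset.sum_congr rfl (fun x _ => h1 x), Finset.sum_const, Finset.card_univ,
    Fintype.card_perm, Fintype.card_fin, nsmul_eq_mul]

theorem sum_level_zero (r : P N → ℝ) (hr : ∀ g, 0 ≤ r g) (Λ : Finset ℝ) (m : ℕ) :
    ∑ ρ ∈ Λ, ρ ^ m * (finrank ℝ (Ej r ρ 0) : ℝ) ≤ (∑ g, r g) ^ m := by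
  classical
  have hT : ∀ φ : (Fin 0 → Fin N) → ℝ, Tt r 0 φ = (∑ g, r g) • φ := by
    intro φ
    funext x
    show ∑ h, r h * φ (fun i => h⁻¹ (x i)) = (∑ g, r g) * φ x
    rw [Finset.sum_mul]
    refine Finset.sum_congr rfl (fun h _ => ?_)
    congr 2
    exact Subsingleton.elim _ _
  have h0 : ∀ ρ : ℝ, ρ ≠ ∑ g, r g → finrank ℝ (Ej r ρ 0) = 0 := by
    intro ρ hρ
    have : Ej r ρ 0 = ⊥ := by
      rw [eq_bot_iff]
      rintro φ ⟨-, hφ⟩
      have h1 := End.mem_eigenspace_iff.mp hφ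
      rw [hT, ← sub_eq_zero, ← sub_smul, smul_eq_zero] at h1
      rcases h1 with h1 | h1
      · exact absurd (sub_eq_zero.mp h1).symm hρ
      · exact h1
    rw [this, finrank_bot]
  have h1 : ∀ ρ : ℝ, finrank ℝ (Ej r ρ 0) ≤ 1 := by
    intro ρ
    refine (Submodule.finrank_le _).trans ?_
    rw [Module.finrank_fintype_fun_eq_card]
    simp
  have hs : 0 ≤ ∑ g, r g := Finset.sum_nonneg (fun g _ => hr g)
  by_cases hmem : (∑ g, r g) ∈ Λ
  · rw [Finset.sum_eq_single_of_mem _ hmem (fun ρ _ hρ => by rw [h0 ρ hρ]; simp)]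
    have : (finrank ℝ (Ej r (∑ g, r g) 0) : ℝ) ≤ 1 := by exact_mod_cast h1 _
    nlinarith [pow_nonneg hs m]
  · rw [Finset.sum_eq_zero]
    · positivity
    · intro ρ hρ
      rw [h0 ρ (fun h => hmem (h ▸ hρ))]; simp

theorem sum_level_pos (r : P N → ℝ) (hclass : ∀ g h, r (h * g * h⁻¹) = r g)
    (Λ : Finset ℝ) (hΛ0 : ∀ ρ ∈ Λ, 0 ≤ ρ) (hΛ1 : ∀ ρ ∈ Λ, ρ ≤ 1) (j q : ℕ)
    (hfin : PureFinrank N j) (hm : 1 ≤ (N - j) / j) (k : ℕ) (M : ℝ) (hqj : j ≤ q)
    (hM : ∑ ρ ∈ Λ, ρ ^ k * ((q.choose j * finrank ℝ (Ej r ρ j) : ℕ) : ℝ) ≤ M) :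
    ∑ ρ ∈ Λ, ρ ^ (2 * k + 1) * (finrank ℝ (Ej r ρ j) : ℝ) ≤
      (M / (q.choose j : ℝ)) ^ 2 / (((N - j) / j : ℕ) : ℝ) ^ j := by
  classical
  have hc : (0 : ℝ) < (q.choose j : ℝ) := by exact_mod_cast Nat.choose_pos hqj
  set t : ℝ := M / (q.choose j : ℝ) with ht
  set m : ℝ := (((N - j) / j : ℕ) : ℝ) ^ j with hmdef
  have hm1 : (1 : ℝ) ≤ (((N - j) / j : ℕ) : ℝ) := by exact_mod_cast hm
  have hmpos : 0 < m := by positivity
  have hsum : ∑ ρ ∈ Λ, ρ ^ k * (finrank ℝ (Ej r ρ j) : ℝ) ≤ t := by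
    rw [ht, le_div_iff₀ hc, Finset.sum_mul]
    refine le_trans (le_of_eq (Finset.sum_congr rfl (fun ρ _ => ?_))) hM
    push_cast; ring
  have hterm : ∀ ρ ∈ Λ, ρ ^ k * (finrank ℝ (Ej r ρ j) : ℝ) ≤ t := by
    intro ρ hρ
    refine le_trans ?_ hsum
    exact Finset.single_le_sum (f := fun ρ => ρ ^ k * (finrank ℝ (Ej r ρ j) : ℝ))
      (fun ρ hρ => mul_nonneg (pow_nonneg (hΛ0 ρ hρ) _) (Nat.cast_nonneg _)) hρ
  have ht0 : 0 ≤ t := by
    refine le_trans (Finset.sum_nonneg (fun ρ hρ => ?_)) hsum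
    exact mul_nonneg (pow_nonneg (hΛ0 ρ hρ) _) (Nat.cast_nonneg _)
  have hpt : ∀ ρ ∈ Λ, ρ ^ (2 * k + 1) * (finrank ℝ (Ej r ρ j) : ℝ) ≤
      t / m * (ρ ^ k * (finrank ℝ (Ej r ρ j) : ℝ)) := by
    intro ρ hρ
    have h0 := hΛ0 ρ hρ
    have h1 := hΛ1 ρ hρ
    by_cases hb : Ej r ρ j = ⊥
    · rw [hb, finrank_bot]; simp
    · have hdim : m ≤ (finrank ℝ (Ej r ρ j) : ℝ) := by
        have := hfin (Ej r ρ j) inf_le_left hb (fun g φ hφ => Ej_inv r hclass ρ j g φ hφ)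
        rw [hmdef]
        exact_mod_cast this
      have h2 : ρ ^ k * m ≤ t := by
        refine le_trans ?_ (hterm ρ hρ)
        exact mul_le_mul_of_nonneg_left hdim (pow_nonneg h0 _)
      have h3 : ρ ^ k ≤ t / m := by rw [le_div_iff₀ hmpos]; exact h2
      have h4 : ρ ^ (2 * k + 1) ≤ ρ ^ k * ρ ^ k := by
        have : ρ ^ (2 * k + 1) = ρ ^ k * ρ ^ k * ρ := by ring
        rw [this]
        exact mul_le_of_le_one_right (by positivity) h1
      calc ρ ^ (2 * k + 1) * (finrank ℝ (Ej r ρ j) : ℝ)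
          ≤ (ρ ^ k * ρ ^ k) * (finrank ℝ (Ej r ρ j) : ℝ) :=
            mul_le_mul_of_nonneg_right h4 (Nat.cast_nonneg _)
        _ = ρ ^ k * (ρ ^ k * (finrank ℝ (Ej r ρ j) : ℝ)) := by ring
        _ ≤ t / m * (ρ ^ k * (finrank ℝ (Ej r ρ j) : ℝ)) :=
            mul_le_mul_of_nonneg_right h3 (mul_nonneg (pow_nonneg h0 _) (Nat.cast_nonneg _))
  calc ∑ ρ ∈ Λ, ρ ^ (2 * k + 1) * (finrank ℝ (Ej r ρ j) : ℝ)
      ≤ ∑ ρ ∈ Λ, t / m * (ρ ^ k * (finrank ℝ (Ej r ρ j) : ℝ)) := Finset.sum_le_sum hpt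
    _ = t / m * ∑ ρ ∈ Λ, ρ ^ k * (finrank ℝ (Ej r ρ j) : ℝ) := by rw [Finset.mul_sum]
    _ ≤ t / m * t := mul_le_mul_of_nonneg_left hsum (div_nonneg ht0 hmpos.le)
    _ = t ^ 2 / m := by ring

theorem level_bound_of (r : Equiv.Perm (Fin N) → ℝ) (hr : ∀ g, 0 ≤ r g)
    (hmass : ∑ g, r g ≤ 1) (hclass : ∀ g h, r (h * g * h⁻¹) = r g) (hinv : ∀ g, r g⁻¹ = r g)
    (hpos : ∀ f, 0 ≤ quad r f) (j1 : ℕ) (hj1 : 2 * j1 ≤ N) (k : ℕ) (η : ℝ) (_hη : 0 ≤ η)
    (hhigh : ∀ f, HighLevel j1 f → quad r f ≤ η * ∑ g, f g ^ 2)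
    (qf : ℕ → ℕ) (hqf : ∀ j, 1 ≤ j → j ≤ j1 → j ≤ qf j ∧ qf j + j ≤ N)
    (M : ℕ → ℝ) (hM : ∀ j, 1 ≤ j → j ≤ j1 → psi (convPow r k) (qf j) 1 ≤ M j) (Minf : ℝ)
    (hMinf : (N.factorial : ℝ) * convPow r (2 * k) 1 ≤ Minf)
    (hspan : PureSpan N j1) (hfin : ∀ j, 1 ≤ j → j ≤ j1 → PureFinrank N j)
    (hind : ∀ j, 1 ≤ j → j ≤ j1 → PureIndep N j (qf j)) :
    (N.factorial : ℝ) * convPow r (2 * k + 1) 1 - (∑ g, r g) ^ (2 * k + 1) ≤
      ∑ j ∈ Finset.Icc 1 j1, (N.choose j : ℝ) / (((N - j) / j : ℕ) : ℝ) ^ j *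
        (M j / ((qf j).choose j : ℝ)) ^ 2 + η * Minf := by
  classical
  have hT : (⨆ μ : ℝ, End.eigenspace (cv r) μ) = ⊤ := iSup_eigenspace (cv r) (cv_symm r hinv)
  let Λ : Finset ℝ := (End.finite_hasEigenvalue (cv r)).toFinset
  have hΛiff : ∀ μ, μ ∈ Λ ↔ End.eigenspace (cv r) μ ≠ ⊥ := by
    intro μ
    simp only [Λ, Set.Finite.mem_toFinset, Set.mem_setOf_eq]
    rfl
  have hΛ : ∀ μ, End.eigenspace (cv r) μ ≠ ⊥ → μ ∈ Λ := fun μ h => (hΛiff μ).mpr h
  have hev : ∀ ρ ∈ Λ, ∃ f : P N → ℝ, cv r f = ρ • f ∧ f ≠ 0 := by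
    intro ρ hρ
    obtain ⟨f, hf, h0⟩ := Submodule.exists_mem_ne_zero_of_ne_bot ((hΛiff ρ).mp hρ)
    exact ⟨f, End.mem_eigenspace_iff.mp hf, h0⟩
  have hΛ0 : ∀ ρ ∈ Λ, 0 ≤ ρ := by
    intro ρ hρ
    obtain ⟨f, hf, h0⟩ := hev ρ hρ
    exact eig_nonneg r hpos ρ f hf h0
  have hΛ1 : ∀ ρ ∈ Λ, ρ ≤ 1 := by
    intro ρ hρ
    obtain ⟨f, hf, h0⟩ := hev ρ hρ
    exact (eig_le_mass r hr ρ f hf h0).trans hmass
  have htr : ∀ m : ℕ, (N.factorial : ℝ) * convPow r m 1 =
      ∑ ρ ∈ Λ, ρ ^ m * (finrank ℝ (End.eigenspace (cv r) ρ) : ℝ) := by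
    intro m
    rw [← trace_cv, ← cv_pow]
    have h := trace_pow_proj (cv r) LinearMap.id hT (fun _ => rfl) (fun _ => rfl) Λ hΛ m
    rw [LinearMap.comp_id, LinearMap.range_id] at h
    rw [h]
    refine Finset.sum_congr rfl (fun ρ _ => ?_)
    rw [inf_top_eq]
  have hsup := fun ρ (hρ : ρ ∈ Λ) => dim_sup r hT Λ hΛ ρ hρ j1 (by omega) hspan
  -- high part
  have hhi : ∑ ρ ∈ Λ, ρ ^ (2 * k + 1) *
      (finrank ℝ ↥(End.eigenspace (cv r) ρ ⊓ hiSub N j1) : ℝ) ≤ η * Minf := by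
    have h1 : ∑ ρ ∈ Λ, ρ ^ (2 * k + 1) *
        (finrank ℝ ↥(End.eigenspace (cv r) ρ ⊓ hiSub N j1) : ℝ) ≤
        ∑ ρ ∈ Λ, η * (ρ ^ (2 * k) * (finrank ℝ (End.eigenspace (cv r) ρ) : ℝ)) := by
      refine Finset.sum_le_sum (fun ρ hρ => ?_)
      by_cases hb : End.eigenspace (cv r) ρ ⊓ hiSub N j1 = ⊥
      · rw [hb, finrank_bot]
        have : 0 ≤ η * (ρ ^ (2 * k) * (finrank ℝ (End.eigenspace (cv r) ρ) : ℝ)) :=
          mul_nonneg _hη (mul_nonneg (pow_nonneg (hΛ0 ρ hρ) _) (Nat.cast_nonneg _))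
        simpa using this
      · obtain ⟨f, hf, h0⟩ := Submodule.exists_mem_ne_zero_of_ne_bot hb
        have hle : ρ ≤ η := eig_le r η ρ f (hhigh f hf.2) (End.mem_eigenspace_iff.mp hf.1) h0
        have hd : (finrank ℝ ↥(End.eigenspace (cv r) ρ ⊓ hiSub N j1) : ℝ) ≤
            (finrank ℝ (End.eigenspace (cv r) ρ) : ℝ) := by
          exact_mod_cast Submodule.finrank_mono inf_le_left
        have h2 := pow_nonneg (hΛ0 ρ hρ) (2 * k)
        calc ρ ^ (2 * k + 1) * (finrank ℝ ↥(End.eigenspace (cv r) ρ ⊓ hiSub N j1) : ℝ)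
            = ρ * (ρ ^ (2 * k) * (finrank ℝ ↥(End.eigenspace (cv r) ρ ⊓ hiSub N j1) : ℝ)) := by
              ring
          _ ≤ η * (ρ ^ (2 * k) * (finrank ℝ ↥(End.eigenspace (cv r) ρ ⊓ hiSub N j1) : ℝ)) :=
              mul_le_mul_of_nonneg_right hle (mul_nonneg h2 (Nat.cast_nonneg _))
          _ ≤ η * (ρ ^ (2 * k) * (finrank ℝ (End.eigenspace (cv r) ρ) : ℝ)) :=
              mul_le_mul_of_nonneg_left (mul_le_mul_of_nonneg_left hd h2) _hη
    refine h1.trans ?_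
    rw [← Finset.mul_sum, ← htr]
    exact mul_le_mul_of_nonneg_left hMinf _hη
  -- positive levels
  have hlev : ∀ j ∈ Finset.Icc 1 j1, ∑ ρ ∈ Λ, ρ ^ (2 * k + 1) * (finrank ℝ (Ej r ρ j) : ℝ) ≤
      (M j / ((qf j).choose j : ℝ)) ^ 2 / (((N - j) / j : ℕ) : ℝ) ^ j := by
    intro j hj
    rw [Finset.mem_Icc] at hj
    obtain ⟨hq1, hq2⟩ := hqf j hj.1 hj.2
    have hqN : qf j ≤ N := by omega
    refine sum_level_pos r hclass Λ hΛ0 hΛ1 j (qf j) (hfin j hj.1 hj.2) ?_ k (M j) hq1 ?_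
    · rw [Nat.le_div_iff_mul_le (by omega)]; omega
    · refine le_trans ?_ (hM j hj.1 hj.2)
      rw [psi_eq_trace r hclass k (qf j) hqN,
        trace_pow_proj (cv r) (av (Hq N (qf j))) hT (fun v => cv_av _ _ _) (fun v => av_av _ _)
          Λ hΛ k]
      refine Finset.sum_le_sum (fun ρ hρ => ?_)
      refine mul_le_mul_of_nonneg_left ?_ (pow_nonneg (hΛ0 ρ hρ) _)
      exact_mod_cast dim_sub r ρ j (qf j) hqN (hind j hj.1 hj.2)
  have hmain : ∑ ρ ∈ Λ, ρ ^ (2 * k + 1) * (finrank ℝ (End.eigenspace (cv r) ρ) : ℝ) ≤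
      ∑ ρ ∈ Λ, ρ ^ (2 * k + 1) *
        (finrank ℝ ↥(End.eigenspace (cv r) ρ ⊓ hiSub N j1) : ℝ) +
      ∑ j ∈ Finset.range (j1 + 1), (N.choose j : ℝ) *
        ∑ ρ ∈ Λ, ρ ^ (2 * k + 1) * (finrank ℝ (Ej r ρ j) : ℝ) := by
    have h1 : ∑ j ∈ Finset.range (j1 + 1), (N.choose j : ℝ) *
        ∑ ρ ∈ Λ, ρ ^ (2 * k + 1) * (finrank ℝ (Ej r ρ j) : ℝ) =
        ∑ ρ ∈ Λ, ρ ^ (2 * k + 1) *
          ((∑ j ∈ Finset.range (j1 + 1), N.choose j * finrank ℝ (Ej r ρ j) : ℕ) : ℝ) := by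
      push_cast
      simp only [Finset.mul_sum]
      rw [Finset.sum_comm]
      exact Finset.sum_congr rfl (fun ρ _ => Finset.sum_congr rfl (fun j _ => by ring))
    rw [h1, ← Finset.sum_add_distrib]
    refine Finset.sum_le_sum (fun ρ hρ => ?_)
    rw [← mul_add]
    refine mul_le_mul_of_nonneg_left ?_ (pow_nonneg (hΛ0 ρ hρ) _)
    exact_mod_cast hsup ρ hρ
  have hins : Finset.range (j1 + 1) = insert 0 (Finset.Icc 1 j1) := by
    ext x; simp only [Finset.mem_range, Finset.mem_insert, Finset.mem_Icc]; omega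
  rw [hins, Finset.sum_insert (by simp)] at hmain
  rw [htr (2 * k + 1)]
  have h00 := sum_level_zero r hr Λ (2 * k + 1)
  have hfinal : ∑ j ∈ Finset.Icc 1 j1, (N.choose j : ℝ) *
        ∑ ρ ∈ Λ, ρ ^ (2 * k + 1) * (finrank ℝ (Ej r ρ j) : ℝ) ≤
      ∑ j ∈ Finset.Icc 1 j1, (N.choose j : ℝ) / (((N - j) / j : ℕ) : ℝ) ^ j *
        (M j / ((qf j).choose j : ℝ)) ^ 2 := by
    refine Finset.sum_le_sum (fun j hj => ?_)
    refine (mul_le_mul_of_nonneg_left (hlev j hj) (Nat.cast_nonneg _)).trans (le_of_eq ?_)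
    ring
  simp only [Nat.choose_zero_right, Nat.cast_one, one_mul] at hmain
  linarith

end Crest.Agent.Thorp.LB
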