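import Crest.Agent.Lib.Row155.Pure
/-! Row 155, chunk T17: C10c (pure_indep), C10d (pure_span). -/
set_option autoImplicit false
set_option linter.all false
open Finset
open scoped BigOperators

namespace Crest.Agent.Thorp

theorem exists_extend_avoid {N j q : ℕ} (hq : q + j ≤ N) (J : Fin j ↪o Fin q)
    (x x' : Fin j → Fin N) (hinj : Function.Injective (Sum.elim x x')) :
    ∃ X : Fin q → Fin N, Function.Injective X ∧ (∀ i, X (J i) = x i) ∧ ∀ k i, X k ≠ x' i := by
  classical
  have hxinj : Function.Injective x := fun a b hab => by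
    have := @hinj (Sum.inl a) (Sum.inl b) hab
    simpa using this
  have hx'inj : Function.Injective x' := fun a b hab => by
    have := @hinj (Sum.inr a) (Sum.inr b) hab
    simpa using this
  -- the complement of range x'
  let A : Finset (Fin q) := Finset.univ.image J
  let P : Finset (Fin N) := Finset.univ \ Finset.univ.image x'
  have hPcard : P.card = N - j := by
    rw [Finset.card_sdiff_of_subset (Finset.subset_univ _), Finset.card_image_of_injective _ hx'inj]
    simp
  let f : Fin q → Fin N := fun k => if hk : ∃ i, J i = k then x hk.choose else ⟨0, by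
    have := k.2; omega⟩
  have hf : ∀ i, f (J i) = x i := by
    intro i
    have hk : ∃ i', J i' = J i := ⟨i, rfl⟩
    simp only [f, hk, dif_pos]
    congr 1
    exact J.injective hk.choose_spec
  have hfA : A.image f ⊆ P := by
    intro y hy
    rw [Finset.mem_image] at hy
    obtain ⟨k, hk, rfl⟩ := hy
    rw [Finset.mem_image] at hk
    obtain ⟨i, _, rfl⟩ := hk
    rw [hf]
    simp only [P, Finset.mem_sdiff, Finset.mem_univ, true_and, Finset.mem_image, not_exists]
    intro i' hi'
    have := @hinj (Sum.inr i') (Sum.inl i) hi'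
    simp at this
  have hfinj : Set.InjOn f A := by
    intro a ha b hb hab
    rw [Finset.mem_coe, Finset.mem_image] at ha hb
    obtain ⟨i, _, rfl⟩ := ha
    obtain ⟨i', _, rfl⟩ := hb
    rw [hf, hf] at hab
    rw [hxinj hab]
  have hAcard : (A.image f).card ≤ q := by
    refine Finset.card_image_le.trans ?_
    simpa using Finset.card_le_univ A
  obtain ⟨t, ht1, ht2, ht3⟩ := Finset.exists_subsuperset_card_eq hfA hAcard (by omega)
  obtain ⟨g, hg⟩ := Finset.exists_equiv_extend_of_card_eq (α := Fin q) (t := t) (by simp [ht3])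
    ht1 hfinj
  refine ⟨fun k => (g k : Fin N), ?_, ?_, ?_⟩
  · intro a b hab
    exact g.injective (Subtype.ext hab)
  · intro i
    rw [← hf i]
    exact hg (J i) (Finset.mem_image_of_mem _ (Finset.mem_univ _))
  · intro k i hki
    have h1 := ht2 (g k).2
    simp only [P, Finset.mem_sdiff, Finset.mem_univ, true_and, Finset.mem_image, not_exists] at h1
    exact h1 i hki.symm

/-- independence, with the key lemma as a hypothesis -/
theorem pure_indep_aux {N j q : ℕ} (hq : q + j ≤ N) 
    (hkey : ∀ (φ : (Fin j → Fin N) → ℝ), φ ∈ PureFn N j →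
      (∀ x x' : Fin j → Fin N, Function.Injective (Sum.elim x x') →
      ∑ S : Finset (Fin j), (-1 : ℝ) ^ S.card * φ (fun i => if i ∈ S then x' i else x i) = 0) →
      φ = 0)
    (φ : (Fin j ↪o Fin q) → (Fin j → Fin N) → ℝ) (hφ : ∀ J, φ J ∈ PureFn N j)
    (h : ∀ x : Fin q → Fin N, Function.Injective x → ∑ J, φ J (x ∘ J) = 0) (J : Fin j ↪o Fin q) :
    φ J = 0 := by
  classical
  apply hkey _ (hφ J)
  intro x x' hinj
  obtain ⟨X, hXinj, hXJ, hXx'⟩ := exists_extend_avoid hq J x x' hinj
  have hx'inj : Function.Injective x' := fun a b hab => by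
    have := @hinj (Sum.inr a) (Sum.inr b) hab
    simpa using this
  let Y : Finset (Fin j) → Fin q → Fin N := fun S k =>
    if k ∈ S.image J then Function.extend J x' X k else X k
  have hYmem : ∀ S i, i ∈ S → Y S (J i) = x' i := by
    intro S i hi
    simp only [Y, Finset.mem_image_of_mem _ hi, if_true]
    exact J.injective.extend_apply _ _ _
  have hYJ : ∀ S i, Y S (J i) = if i ∈ S then x' i else x i := by
    intro S i
    by_cases hi : i ∈ S
    · rw [if_pos hi, hYmem S i hi]
    · rw [if_neg hi]
      have : J i ∉ S.image J := by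
        intro hmem
        rw [Finset.mem_image] at hmem
        obtain ⟨i', hi', he⟩ := hmem
        exact hi (J.injective he ▸ hi')
      simp only [Y, this, if_false, hXJ]
  have hYnot : ∀ S k, k ∉ S.image J → Y S k = X k := by
    intro S k hk
    simp only [Y, hk, if_false]
  have hYinj : ∀ S, Function.Injective (Y S) := by
    intro S a b hab
    by_cases ha : a ∈ S.image J <;> by_cases hb : b ∈ S.image J
    · rw [Finset.mem_image] at ha hb
      obtain ⟨i, hi, rfl⟩ := ha
      obtain ⟨i', hi', rfl⟩ := hb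
      rw [hYmem S i hi, hYmem S i' hi'] at hab
      rw [hx'inj hab]
    · rw [hYnot S b hb] at hab
      rw [Finset.mem_image] at ha
      obtain ⟨i, hi, rfl⟩ := ha
      rw [hYmem S i hi] at hab
      exact absurd hab.symm (hXx' b i)
    · rw [hYnot S a ha] at hab
      rw [Finset.mem_image] at hb
      obtain ⟨i, hi, rfl⟩ := hb
      rw [hYmem S i hi] at hab
      exact absurd hab (hXx' a i)
    · rw [hYnot S a ha, hYnot S b hb] at hab
      exact hXinj hab
  have h1 : ∑ S : Finset (Fin j), (-1 : ℝ) ^ S.card * ∑ J', φ J' (Y S ∘ J') = 0 := by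
    apply Finset.sum_eq_zero
    intro S _
    rw [h _ (hYinj S), mul_zero]
  have h2 : ∑ S : Finset (Fin j), (-1 : ℝ) ^ S.card * ∑ J', φ J' (Y S ∘ J') =
      ∑ J', ∑ S : Finset (Fin j), (-1 : ℝ) ^ S.card * φ J' (Y S ∘ J') := by
    rw [Finset.sum_comm]
    exact Finset.sum_congr rfl fun S _ => Finset.mul_sum _ _ _
  rw [h2, Finset.sum_eq_single J] at h1
  · refine Eq.trans (Finset.sum_congr rfl fun S _ => ?_) h1
    congr 2
    ext1 i
    exact (hYJ S i).symm
  · intro J' _ hJ'
    -- there is an index of J not in the range of J'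
    have hex : ∃ i0, J i0 ∉ Set.range J' := by
      by_contra hcon
      push Not at hcon
      apply hJ'
      rw [← OrderEmbedding.range_inj]
      have hsub : Finset.univ.image J ⊆ Finset.univ.image J' := by
        intro k hk
        rw [Finset.mem_image] at hk
        obtain ⟨i, _, rfl⟩ := hk
        obtain ⟨i', hi'⟩ := hcon i
        rw [← hi']
        exact Finset.mem_image_of_mem _ (Finset.mem_univ _)
      have heq := Finset.eq_of_subset_of_card_le hsub (by
        rw [Finset.card_image_of_injective _ J.injective,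
          Finset.card_image_of_injective _ J'.injective])
      have h3 := congrArg (fun s : Finset (Fin q) => (s : Set (Fin q))) heq
      simp only [Finset.coe_image, Finset.coe_univ, Set.image_univ] at h3
      exact h3.symm
    obtain ⟨i0, hi0⟩ := hex
    apply Finset.sum_involution (fun S _ => symmDiff S {i0})
    · intro S _
      have hYeq : Y (symmDiff S {i0}) ∘ J' = Y S ∘ J' := by
        ext1 k
        show Y (symmDiff S {i0}) (J' k) = Y S (J' k)
        have hne : J' k ≠ J i0 := fun he => hi0 ⟨k, he⟩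
        have hiff : J' k ∈ (symmDiff S {i0}).image J ↔ J' k ∈ S.image J := by
          simp only [Finset.mem_image, Finset.mem_symmDiff, Finset.mem_singleton]
          constructor
          · rintro ⟨i, hi, he⟩
            rcases hi with ⟨hi, _⟩ | ⟨hi, _⟩
            · exact ⟨i, hi, he⟩
            · subst hi; exact absurd he.symm hne
          · rintro ⟨i, hi, he⟩
            refine ⟨i, Or.inl ⟨hi, ?_⟩, he⟩
            rintro rfl
            exact hne he.symm
        simp only [Y, hiff]
      rw [hYeq]
      have hcard : (-1 : ℝ) ^ (symmDiff S {i0}).card = -(-1 : ℝ) ^ S.card := by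
        by_cases hi : i0 ∈ S
        · have : symmDiff S {i0} = S.erase i0 := by
            ext a
            simp only [Finset.mem_symmDiff, Finset.mem_singleton, Finset.mem_erase]
            constructor
            · rintro (⟨h1, h2⟩ | ⟨rfl, h2⟩)
              · exact ⟨h2, h1⟩
              · exact absurd hi h2
            · rintro ⟨h1, h2⟩; exact Or.inl ⟨h2, h1⟩
          rw [this]
          have h4 := Finset.card_erase_add_one hi
          rw [← h4, pow_succ]; ring
        · have : symmDiff S {i0} = insert i0 S := by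
            ext a
            simp only [Finset.mem_symmDiff, Finset.mem_singleton, Finset.mem_insert]
            constructor
            · rintro (⟨h1, h2⟩ | ⟨rfl, h2⟩)
              · exact Or.inr h1
              · exact Or.inl rfl
            · rintro (rfl | h1)
              · exact Or.inr ⟨rfl, hi⟩
              · exact Or.inl ⟨h1, fun he => hi (he ▸ h1)⟩
          rw [this, Finset.card_insert_of_notMem hi, pow_succ]; ring
      rw [hcard]; ring
    · intro S _ _ he
      have h5 : symmDiff S {i0} = S := he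
      rw [symmDiff_eq_left] at h5
      simp at h5
    · intro S _
      exact symmDiff_symmDiff_cancel_right _ _
    · intro S _; exact Finset.mem_univ _
  · intro hJ; exact absurd (Finset.mem_univ _) hJ

/-- C10c. -/
theorem pure_indep {N j q : ℕ} (hq : q + j ≤ N) (hN : 2 * j ≤ N)
    (φ : (Fin j ↪o Fin q) → (Fin j → Fin N) → ℝ) (hφ : ∀ J, φ J ∈ PureFn N j)
    (h : ∀ x : Fin q → Fin N, Function.Injective x → ∑ J, φ J (x ∘ J) = 0) (J : Fin j ↪o Fin q) :
    φ J = 0 :=
  pure_indep_aux hq (fun ψ hψ hψ' => pure_alt_zero hN ψ hψ hψ') φ hφ h J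

/-! ### pure_span -/

/-- orthogonal decomposition -/
lemma ps_decomp {ι : Type*} [Fintype ι] (W : Submodule ℝ (ι → ℝ)) (v : ι → ℝ) :
    ∃ w ∈ W, ∃ u : ι → ℝ, v = w + u ∧ ∀ w' ∈ W, ∑ i, w' i * u i = 0 := by
  classical
  let e : EuclideanSpace ℝ ι ≃ₗ[ℝ] (ι → ℝ) := WithLp.linearEquiv 2 ℝ (ι → ℝ)
  obtain ⟨y, hy, z, hz, hyz⟩ := Submodule.exists_add_mem_mem_orthogonal
    (K := W.comap e.toLinearMap) (e.symm v)
  refine ⟨e y, hy, e z, ?_, ?_⟩
  · rw [← map_add, ← hyz, LinearEquiv.apply_symm_apply]
  · intro w' hw'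
    have h1 := (Submodule.mem_orthogonal _ _).1 hz (e.symm w') (by
      rw [Submodule.mem_comap]
      show e (e.symm w') ∈ W
      rw [LinearEquiv.apply_symm_apply]; exact hw')
    rw [PiLp.inner_apply] at h1
    rw [← h1]
    apply Finset.sum_congr rfl
    intro i _
    show w' i * e z i = inner ℝ ((e.symm w') i) (z i)
    rw [real_inner_comm]
    rfl

lemma ps_sum_update {N j : ℕ} (u : (Fin j → Fin N) → ℝ) (x0 : Fin j → Fin N) (i : Fin j) :
    ∑ y, u (Function.update x0 i y) =
      ∑ x : Fin j → Fin N, if (∀ k, k ≠ i → x k = x0 k) then u x else 0 := by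
  classical
  rw [← Finset.sum_filter]
  refine Finset.sum_bij' (fun y _ => Function.update x0 i y) (fun x _ => x i) ?_ ?_ ?_ ?_ ?_
  · intro y _
    rw [Finset.mem_filter]
    exact ⟨Finset.mem_univ _, fun k hk => Function.update_of_ne hk _ _⟩
  · intro x _; exact Finset.mem_univ _
  · intro y _; exact Function.update_self _ _ _
  · intro x hx
    rw [Finset.mem_filter] at hx
    ext1 k
    by_cases hk : k = i
    · subst hk; exact Function.update_self _ _ _
    · show Function.update x0 i (x i) k = x k
      rw [Function.update_of_ne hk]; exact (hx.2 k hk).symm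
  · intro y _; rfl

/-- functions depending on `g ∘ J`, of pure levels `≤ j1` -/
def psLo (N j1 : ℕ) : Submodule ℝ (Equiv.Perm (Fin N) → ℝ) :=
  Submodule.span ℝ {f | ∃ j, j ≤ j1 ∧ ∃ (J : Fin j ↪o Fin N) (φ : (Fin j → Fin N) → ℝ),
    φ ∈ PureFn N j ∧ f = fun g : Equiv.Perm (Fin N) => φ (g ∘ J)}

lemma ps_mem_lo {N : ℕ} (j1 : ℕ) : ∀ j, j ≤ j1 → ∀ (J : Fin j ↪o Fin N)
    (ψ : (Fin j → Fin N) → ℝ), (fun g : Equiv.Perm (Fin N) => ψ (g ∘ J)) ∈ psLo N j1 := by
  classical
  intro j
  induction j with
  | zero =>
    intro hj J ψ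
    apply Submodule.subset_span
    refine ⟨0, hj, J, ψ, ⟨?_, ?_⟩, rfl⟩
    · intro x hx; exact absurd (Function.injective_of_subsingleton x) hx
    · intro x i; exact i.elim0
  | succ j ih =>
    intro hj J ψ
    let ψ' : (Fin (j + 1) → Fin N) → ℝ := fun x => if Function.Injective x then ψ x else 0
    let gen : Fin (j + 1) × (Fin (j + 1) → Fin N) → (Fin (j + 1) → Fin N) → ℝ := fun p x =>
      if Function.Injective x ∧ ∀ k, k ≠ p.1 → x k = p.2 k then 1 else 0
    let W : Submodule ℝ ((Fin (j + 1) → Fin N) → ℝ) := Submodule.span ℝ (Set.range gen)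
    obtain ⟨w, hw, u, hwu, hu⟩ := ps_decomp W ψ'
    have hWzero : ∀ w ∈ W, ∀ x, ¬ Function.Injective x → w x = 0 := by
      intro w hw x hx
      induction hw using Submodule.span_induction with
      | mem w hw =>
        obtain ⟨p, rfl⟩ := hw
        simp only [gen, hx, false_and, if_false]
      | zero => rfl
      | add a b _ _ ha hb => rw [Pi.add_apply, ha, hb, add_zero]
      | smul c a _ ha => rw [Pi.smul_apply, ha, smul_zero]
    have hpure : u ∈ PureFn N (j + 1) := by
      have h0 : ∀ x, ¬ Function.Injective x → u x = 0 := by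
        intro x hx
        have h1 := congrFun hwu x
        rw [Pi.add_apply, hWzero w hw x hx, zero_add] at h1
        rw [← h1]
        simp only [ψ', hx, if_false]
      refine ⟨h0, ?_⟩
      intro x i
      rw [ps_sum_update]
      refine Eq.trans ?_ (hu (gen (i, x)) (Submodule.subset_span ⟨_, rfl⟩))
      apply Finset.sum_congr rfl
      intro y _
      by_cases hy : Function.Injective y
      · by_cases hy2 : ∀ k, k ≠ i → y k = x k
        · rw [if_pos hy2]
          simp only [gen]
          rw [if_pos ⟨hy, hy2⟩, one_mul]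
        · rw [if_neg hy2]
          simp only [gen]
          rw [if_neg (fun h => hy2 h.2), zero_mul]
      · rw [h0 y hy]; simp
    have hψ : (fun g : Equiv.Perm (Fin N) => ψ (g ∘ J)) =
        (fun g : Equiv.Perm (Fin N) => w (g ∘ J)) + fun g : Equiv.Perm (Fin N) => u (g ∘ J) := by
      ext1 g
      have hinj : Function.Injective (g ∘ J) := g.injective.comp J.injective
      have h1 := congrFun hwu (g ∘ J)
      simp only [ψ', hinj, if_true] at h1
      exact h1
    rw [hψ]
    apply Submodule.add_mem
    · -- generators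
      let L : ((Fin (j + 1) → Fin N) → ℝ) →ₗ[ℝ] (Equiv.Perm (Fin N) → ℝ) :=
        { toFun := fun w g => w (g ∘ J)
          map_add' := fun _ _ => rfl
          map_smul' := fun _ _ => rfl }
      have hle : W.map L ≤ psLo N j1 := by
        rw [Submodule.map_span_le]
        rintro _ ⟨⟨i, x0⟩, rfl⟩
        have h2 := ih (by omega) ((Fin.succAboveOrderEmb i).trans J)
          (fun y => if ∀ k, y k = x0 (i.succAbove k) then 1 else 0)
        convert h2 using 1
        ext1 g
        show (if Function.Injective (g ∘ J) ∧ ∀ k, k ≠ i → (g ∘ J) k = x0 k then (1 : ℝ) else 0) = _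
        have hinj : Function.Injective (g ∘ J) := g.injective.comp J.injective
        have hiff : (Function.Injective (g ∘ J) ∧ ∀ k, k ≠ i → (g ∘ J) k = x0 k) ↔
            (∀ k, (g ∘ ((Fin.succAboveOrderEmb i).trans J)) k = x0 (i.succAbove k)) := by
          constructor
          · intro h k
            exact h.2 _ (Fin.succAbove_ne i k)
          · intro h
            refine ⟨hinj, fun k hk => ?_⟩
            obtain ⟨k', rfl⟩ := Fin.exists_succAbove_eq hk
            exact h k'
        simp only [hiff]
      exact hle (Submodule.mem_map_of_mem hw)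
    · exact Submodule.subset_span ⟨j + 1, hj, J, u, hpure, rfl⟩

lemma ps_ind_mem_lo {N : ℕ} (j1 : ℕ) (a b : Fin j1 ↪ Fin N) :
    (fun g : Equiv.Perm (Fin N) => if (∀ i, g (a i) = b i) then (1 : ℝ) else 0) ∈ psLo N j1 := by
  classical
  let s : Finset (Fin N) := Finset.univ.image a
  have hs : s.card = j1 := by
    rw [Finset.card_image_of_injective _ a.injective]; simp
  let J : Fin j1 ↪o Fin N := s.orderEmbOfFin hs
  have hσ : ∀ i, ∃ k, J k = a i := by
    intro i
    have h1 : a i ∈ (s : Set (Fin N)) := by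
      rw [Finset.mem_coe]; exact Finset.mem_image_of_mem _ (Finset.mem_univ _)
    rw [← Finset.range_orderEmbOfFin s hs] at h1
    exact h1
  choose σ hσ using hσ
  have h2 := ps_mem_lo j1 j1 le_rfl J (fun y => if (∀ i, y (σ i) = b i) then (1 : ℝ) else 0)
  convert h2 using 1
  ext1 g
  simp only [Function.comp_apply, hσ]

lemma ps_explicit {N : ℕ} (j1 : ℕ) (f : Equiv.Perm (Fin N) → ℝ) (hf : f ∈ psLo N j1) :
    ∃ (φ : ∀ j : ℕ, (Fin j ↪o Fin N) → (Fin j → Fin N) → ℝ),
      (∀ j J, φ j J ∈ PureFn N j) ∧
      ∀ g, f g = ∑ j ∈ Finset.range (j1 + 1), ∑ J : Fin j ↪o Fin N, φ j J (g ∘ J) := by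
  classical
  induction hf using Submodule.span_induction with
  | mem f hf =>
    obtain ⟨j0, hj0, J0, φ0, hφ0, rfl⟩ := hf
    refine ⟨Pi.single j0 (Pi.single J0 φ0), ?_, ?_⟩
    · intro j J
      by_cases h : j = j0
      · subst h
        rw [Pi.single_eq_same]
        by_cases h' : J = J0
        · subst h'
          rw [Pi.single_eq_same]; exact hφ0
        · rw [Pi.single_eq_of_ne h']; exact Submodule.zero_mem _
      · rw [Pi.single_eq_of_ne h]; exact Submodule.zero_mem _
    · intro g
      rw [Finset.sum_eq_single j0, Finset.sum_eq_single J0]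
      · rw [Pi.single_eq_same, Pi.single_eq_same]
      · intro J _ hJ
        rw [Pi.single_eq_same, Pi.single_eq_of_ne hJ]; rfl
      · intro h; exact absurd (Finset.mem_univ _) h
      · intro j _ hj
        apply Finset.sum_eq_zero
        intro J _
        rw [Pi.single_eq_of_ne hj]; rfl
      · intro h
        rw [Finset.mem_range] at h
        omega
  | zero =>
    refine ⟨fun _ _ => 0, fun j J => Submodule.zero_mem _, fun g => ?_⟩
    simp
  | add a b _ _ ha hb =>
    obtain ⟨φ, hφ, hφ'⟩ := ha
    obtain ⟨χ, hχ, hχ'⟩ := hb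
    refine ⟨fun j J => φ j J + χ j J, fun j J => Submodule.add_mem _ (hφ j J) (hχ j J), ?_⟩
    intro g
    rw [Pi.add_apply, hφ', hχ', ← Finset.sum_add_distrib]
    apply Finset.sum_congr rfl
    intro j _
    rw [← Finset.sum_add_distrib]
    rfl
  | smul c a _ ha =>
    obtain ⟨φ, hφ, hφ'⟩ := ha
    refine ⟨fun j J => c • φ j J, fun j J => Submodule.smul_mem _ c (hφ j J), ?_⟩
    intro g
    rw [Pi.smul_apply, hφ', smul_eq_mul, Finset.mul_sum]
    apply Finset.sum_congr rfl
    intro j _
    rw [Finset.mul_sum]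
    rfl

/-- C10d: every function is a high part plus pure functions of low levels. -/
theorem pure_span {N : ℕ} (j1 : ℕ) (hj1 : j1 ≤ N) (f : Equiv.Perm (Fin N) → ℝ) :
    ∃ (fhi : Equiv.Perm (Fin N) → ℝ) (φ : ∀ j : ℕ, (Fin j ↪o Fin N) → (Fin j → Fin N) → ℝ),
      HighLevel j1 fhi ∧ (∀ j J, φ j J ∈ PureFn N j) ∧
      ∀ g, f g = fhi g + ∑ j ∈ Finset.range (j1 + 1), ∑ J : Fin j ↪o Fin N, φ j J (g ∘ J) := by
  classical
  let gen : (Fin j1 ↪ Fin N) × (Fin j1 ↪ Fin N) → Equiv.Perm (Fin N) → ℝ := fun p g =>
    if (∀ i, g (p.1 i) = p.2 i) then (1 : ℝ) else 0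
  let W : Submodule ℝ (Equiv.Perm (Fin N) → ℝ) := Submodule.span ℝ (Set.range gen)
  obtain ⟨w, hw, u, hwu, hu⟩ := ps_decomp W f
  have hWlo : W ≤ psLo N j1 := by
    rw [Submodule.span_le]
    rintro _ ⟨⟨a, b⟩, rfl⟩
    exact ps_ind_mem_lo j1 a b
  obtain ⟨φ, hφ, hφ'⟩ := ps_explicit j1 w (hWlo hw)
  refine ⟨u, φ, ?_, hφ, ?_⟩
  · intro a b
    refine Eq.trans ?_ (hu (gen (a, b)) (Submodule.subset_span ⟨_, rfl⟩))
    apply Finset.sum_congr rfl
    intro g _
    simp only [gen, ite_mul, one_mul, zero_mul]
  · intro g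
    rw [← hφ' g, hwu, Pi.add_apply, add_comm]

end Crest.Agent.Thorp
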