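import Crest.Agent.Lib.Row155.Level
import Crest.Agent.Lib.Row155.T17
/-!
Row 155 (Thorp shuffle), chunk T18: `level_bound` (C10e), assembled from
`LB.level_bound_of` (Level.lean), `pure_finrank`, `pure_indep`, `pure_span`.
-/
set_option autoImplicit false
open Finset
open scoped BigOperators

namespace Crest.Agent.Thorp

/-- C10e: assembly (uses C10a-d). -/
theorem level_bound {N : ℕ} (r : Equiv.Perm (Fin N) → ℝ) (hr : ∀ g, 0 ≤ r g)
    (hmass : ∑ g, r g ≤ 1) (hclass : ∀ g h, r (h * g * h⁻¹) = r g) (hinv : ∀ g, r g⁻¹ = r g)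
    (hpos : ∀ f, 0 ≤ quad r f) (j1 : ℕ) (hj1 : 2 * j1 ≤ N) (k : ℕ) (η : ℝ) (hη : 0 ≤ η)
    (hhigh : ∀ f, HighLevel j1 f → quad r f ≤ η * ∑ g, f g ^ 2)
    (qf : ℕ → ℕ) (hqf : ∀ j, 1 ≤ j → j ≤ j1 → j ≤ qf j ∧ qf j + j ≤ N)
    (M : ℕ → ℝ) (hM : ∀ j, 1 ≤ j → j ≤ j1 → psi (convPow r k) (qf j) 1 ≤ M j) (Minf : ℝ)
    (hMinf : (N.factorial : ℝ) * convPow r (2 * k) 1 ≤ Minf) :
    (N.factorial : ℝ) * convPow r (2 * k + 1) 1 - (∑ g, r g) ^ (2 * k + 1) ≤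
      ∑ j ∈ Finset.Icc 1 j1, (N.choose j : ℝ) / (((N - j) / j : ℕ) : ℝ) ^ j *
        (M j / ((qf j).choose j : ℝ)) ^ 2 + η * Minf := by
  refine LB.level_bound_of r hr hmass hclass hinv hpos j1 hj1 k η hη hhigh qf hqf M hM Minf hMinf
    ?_ ?_ ?_
  · intro f
    exact pure_span j1 (by omega) f
  · intro j h1 h2 W hW hne hinvW
    exact pure_finrank h1 (by omega) W hW hne hinvW
  · intro j h1 h2 φ hφ h J
    exact pure_indep (hqf j h1 h2).2 (by omega) φ hφ h J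

end Crest.Agent.Thorp
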