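import Crest.Agent.Lib.Row155.Defs2
/-!
Row 155 (Thorp shuffle), chunk T18, part 1: general linear algebra (spectral theorem and traces).
-/
set_option autoImplicit false
open Finset Module
open scoped BigOperators

namespace Crest.Agent.Thorp.LB

/-- Spectral theorem for symmetric operators on `X → ℝ`. -/
theorem iSup_eigenspace {X : Type*} [Fintype X] (T : (X → ℝ) →ₗ[ℝ] (X → ℝ))
    (hT : ∀ u v : X → ℝ, ∑ g, T u g * v g = ∑ g, u g * T v g) :
    (⨆ μ : ℝ, End.eigenspace T μ) = ⊤ := by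
  classical
  let e : EuclideanSpace ℝ X ≃ₗ[ℝ] (X → ℝ) := WithLp.linearEquiv 2 ℝ (X → ℝ)
  let T' : EuclideanSpace ℝ X →ₗ[ℝ] EuclideanSpace ℝ X :=
    e.symm.toLinearMap ∘ₗ T ∘ₗ e.toLinearMap
  have hs : T'.IsSymmetric := by
    intro u v
    have h := hT (e u) (e v)
    simp only [PiLp.inner_apply]
    simp only [RCLike.inner_apply, conj_trivial]
    have h1 : ∀ i, (T' u) i = T (e u) i := fun i => rfl
    have h2 : ∀ i, (T' v) i = T (e v) i := fun i => rfl
    have h3 : ∀ i, u i = e u i := fun i => rfl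
    have h4 : ∀ i, v i = e v i := fun i => rfl
    simp only [h1, h2, h3, h4]
    rw [Finset.sum_congr rfl (fun i _ => mul_comm (e v i) (T (e u) i)), h]
    exact Finset.sum_congr rfl (fun i _ => mul_comm _ _)
  have h := hs.orthogonalComplement_iSup_eigenspaces_eq_bot
  have h2 : (⨆ μ, End.eigenspace T' μ) = ⊤ := by
    rwa [Submodule.orthogonal_eq_bot_iff] at h
  rw [eq_top_iff]
  intro f _
  have hf : e.symm f ∈ (⨆ μ, End.eigenspace T' μ) := by rw [h2]; trivial
  have hle : (⨆ μ, End.eigenspace T' μ) ≤ (⨆ μ, End.eigenspace T μ).comap e.toLinearMap := by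
    apply iSup_le
    intro μ x hx
    refine Submodule.mem_iSup_of_mem μ ?_
    rw [End.mem_eigenspace_iff] at hx ⊢
    have h5 : e (T' x) = T (e x) := by simp [T']
    have h6 : e (T' x) = e (μ • x) := by rw [hx]
    rw [h5, map_smul] at h6
    exact h6
  have := hle hf
  simpa using this

theorem trace_pow_proj {V : Type*} [AddCommGroup V] [Module ℝ V] [FiniteDimensional ℝ V]
    (T P : V →ₗ[ℝ] V) (hT : (⨆ μ : ℝ, End.eigenspace T μ) = ⊤) (hc : ∀ v, T (P v) = P (T v))
    (hP : ∀ v, P (P v) = P v) (Λ : Finset ℝ) (hΛ : ∀ μ, End.eigenspace T μ ≠ ⊥ → μ ∈ Λ) (m : ℕ) :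
    LinearMap.trace ℝ V ((T ^ m) ∘ₗ P) =
      ∑ ρ ∈ Λ, ρ ^ m * (finrank ℝ ↥(End.eigenspace T ρ ⊓ LinearMap.range P) : ℝ) := by
  classical
  have hI : DirectSum.IsInternal (fun μ : ℝ => End.eigenspace T μ) := by
    rw [DirectSum.isInternal_submodule_iff_iSupIndep_and_iSup_eq_top]
    exact ⟨End.eigenspaces_iSupIndep T, hT⟩
  have hN : {μ : ℝ | End.eigenspace T μ ≠ ⊥}.Finite := End.finite_hasEigenvalue T
  have hTm : ∀ (m : ℕ) (ρ : ℝ) (v : V), v ∈ End.eigenspace T ρ → (T ^ m) v = ρ ^ m • v := by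
    intro m ρ v hv
    rw [End.mem_eigenspace_iff] at hv
    induction m with
    | zero => simp
    | succ m ih => rw [pow_succ, Module.End.mul_apply, hv, map_smul, ih, smul_smul, pow_succ, mul_comm]
  have hPE : ∀ (ρ : ℝ) (v : V), v ∈ End.eigenspace T ρ → P v ∈ End.eigenspace T ρ := by
    intro ρ v hv
    rw [End.mem_eigenspace_iff] at hv ⊢
    rw [hc, hv, map_smul]
  have hf : ∀ ρ : ℝ, Set.MapsTo ((T ^ m) ∘ₗ P) (End.eigenspace T ρ) (End.eigenspace T ρ) := by
    intro ρ v hv
    show (T ^ m) (P v) ∈ End.eigenspace T ρ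
    rw [hTm m ρ _ (hPE ρ v hv)]
    exact Submodule.smul_mem _ _ (hPE ρ v hv)
  rw [LinearMap.trace_eq_sum_trace_restrict' hI hN hf]
  have hterm : ∀ ρ : ℝ, LinearMap.trace ℝ ↥(End.eigenspace T ρ)
      (((T ^ m) ∘ₗ P).restrict (hf ρ)) =
      ρ ^ m * (finrank ℝ ↥(End.eigenspace T ρ ⊓ LinearMap.range P) : ℝ) := by
    intro ρ
    let Q : ↥(End.eigenspace T ρ) →ₗ[ℝ] ↥(End.eigenspace T ρ) := P.restrict (hPE ρ)
    have h1 : ((T ^ m) ∘ₗ P).restrict (hf ρ) = ρ ^ m • Q := by
      ext v
      show (T ^ m) (P v) = ρ ^ m • P v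
      exact hTm m ρ _ (hPE ρ v v.2)
    have h2 : LinearMap.IsProj ((LinearMap.range P).comap (End.eigenspace T ρ).subtype) Q := by
      constructor
      · intro v
        show P v ∈ LinearMap.range P
        exact ⟨v, rfl⟩
      · rintro ⟨v, hv⟩ ⟨w, hw⟩
        apply Subtype.ext
        show P v = v
        have hw' : P w = v := hw
        rw [← hw', hP]
    rw [h1, map_smul, h2.trace, smul_eq_mul]
    congr 2
    rw [← Submodule.map_comap_subtype, Submodule.finrank_map_subtype_eq]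
  rw [Finset.sum_congr rfl (fun ρ _ => hterm ρ)]
  apply Finset.sum_subset
  · intro μ hμ
    exact hΛ μ (by simpa using hμ)
  · intro μ _ hμ
    have : End.eigenspace T μ = ⊥ := by
      by_contra h
      exact hμ (by simpa using h)
    rw [this, bot_inf_eq, finrank_bot]
    simp

/-- Intertwining and polynomials. -/
theorem aeval_intertwine {V W : Type*} [AddCommGroup V] [Module ℝ V] [AddCommGroup W] [Module ℝ W]
    (S : V →ₗ[ℝ] V) (T : W →ₗ[ℝ] W) (L : V →ₗ[ℝ] W) (h : ∀ v, T (L v) = L (S v))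
    (p : Polynomial ℝ) (v : V) :
    (Polynomial.aeval T p) (L v) = L ((Polynomial.aeval S p) v) := by
  induction p using Polynomial.induction_on' generalizing v with
  | add p q hp hq => simp only [map_add, LinearMap.add_apply, hp, hq]
  | monomial n a =>
    have hn : ∀ (n : ℕ) (v : V), (T ^ n) (L v) = L ((S ^ n) v) := by
      intro n
      induction n with
      | zero => intro v; simp
      | succ n ih => intro v; rw [pow_succ, pow_succ, Module.End.mul_apply, Module.End.mul_apply, h, ih]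
    simp [Polynomial.aeval_monomial, hn, Module.algebraMap_end_apply]

theorem aeval_mem {V : Type*} [AddCommGroup V] [Module ℝ V] (T : V →ₗ[ℝ] V) (U : Submodule ℝ V)
    (hU : ∀ v ∈ U, T v ∈ U) (p : Polynomial ℝ) (v : V) (hv : v ∈ U) :
    (Polynomial.aeval T p) v ∈ U := by
  have h := aeval_intertwine (T.restrict hU) T U.subtype (fun v => rfl) p ⟨v, hv⟩
  have h2 : (Polynomial.aeval T p) v = U.subtype ((Polynomial.aeval (T.restrict hU) p) ⟨v, hv⟩) := h
  rw [h2]
  exact Subtype.property _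

/-- Spectral projection. -/
theorem lagrange_mem {V : Type*} [AddCommGroup V] [Module ℝ V] [FiniteDimensional ℝ V]
    (T : V →ₗ[ℝ] V) (hT : (⨆ μ : ℝ, End.eigenspace T μ) = ⊤)
    (Λ : Finset ℝ) (hΛ : ∀ μ, End.eigenspace T μ ≠ ⊥ → μ ∈ Λ) (ρ : ℝ) (hρ : ρ ∈ Λ) (v : V) :
    (Polynomial.aeval T (Lagrange.basis Λ id ρ)) v ∈ End.eigenspace T ρ ∧
    (v ∈ End.eigenspace T ρ → (Polynomial.aeval T (Lagrange.basis Λ id ρ)) v = v) := by
  classical
  have key : ∀ (μ : ℝ) (v : V), v ∈ End.eigenspace T μ →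
      (Polynomial.aeval T (Lagrange.basis Λ id ρ)) v = if μ = ρ then v else 0 := by
    intro μ v hv
    by_cases h0 : v = 0
    · subst h0; simp
    · have hne : End.eigenspace T μ ≠ ⊥ := by
        intro hb
        rw [hb, Submodule.mem_bot] at hv
        exact h0 hv
      have hμ := hΛ μ hne
      rw [End.aeval_apply_of_hasEigenvector (⟨hv, h0⟩ : End.HasEigenvector T μ v)]
      split_ifs with h
      · subst h
        have := Lagrange.eval_basis_self (v := (id : ℝ → ℝ)) (s := Λ) (i := μ)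
          (Set.injOn_id _) hμ
        simp only [id] at this
        rw [this, one_smul]
      · have := Lagrange.eval_basis_of_ne (v := (id : ℝ → ℝ)) (s := Λ) (i := ρ) (j := μ)
          (fun hh => h hh.symm) hμ
        simp only [id] at this
        rw [this, zero_smul]
  constructor
  · have hv : v ∈ (⨆ μ : ℝ, End.eigenspace T μ) := by rw [hT]; trivial
    induction hv using Submodule.iSup_induction' with
    | mem μ x hx =>
      rw [key μ x hx]
      split_ifs with h
      · rw [← h]; exact hx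
      · exact Submodule.zero_mem _
    | zero => simp
    | add x y _ _ hx hy => rw [map_add]; exact Submodule.add_mem _ hx hy
  · intro hv
    rw [key ρ v hv, if_pos rfl]

theorem trace_fun {X : Type*} [Fintype X] [DecidableEq X] (T : (X → ℝ) →ₗ[ℝ] (X → ℝ)) :
    LinearMap.trace ℝ (X → ℝ) T = ∑ x, T (Pi.single x 1) x := by
  rw [LinearMap.trace_eq_matrix_trace ℝ (Pi.basisFun ℝ X) T, Matrix.trace]
  refine Finset.sum_congr rfl (fun x _ => ?_)
  simp [LinearMap.toMatrix_apply]

end Crest.Agent.Thorp.LB
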