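import Crest.Agent.Lib.Row155.LevelGen
/-!
Row 155 (Thorp shuffle), chunk T18, part 2: convolution operators on the group and lifts.
-/
set_option autoImplicit false
set_option linter.unusedSectionVars false
set_option linter.unusedSimpArgs false
open Finset Module
open scoped BigOperators

namespace Crest.Agent.Thorp.LB

section Group
variable {G : Type*} [Group G] [Fintype G] [DecidableEq G]

/-- Left convolution by `μ`. -/
noncomputable def cv (μ : G → ℝ) : (G → ℝ) →ₗ[ℝ] (G → ℝ) where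
  toFun f := conv μ f
  map_add' a b := by
    funext g; simp [conv, mul_add, Finset.sum_add_distrib]
  map_smul' c a := by
    funext g; simp only [conv, Pi.smul_apply, smul_eq_mul, RingHom.id_apply, Finset.mul_sum]
    exact Finset.sum_congr rfl (fun _ _ => by ring)

theorem cv_apply (μ f : G → ℝ) (g : G) : cv μ f g = ∑ h, μ h * f (h⁻¹ * g) := rfl

theorem cv_apply' (μ f : G → ℝ) (g : G) : cv μ f g = ∑ a, μ (g * a⁻¹) * f a := by
  rw [cv_apply]
  refine Fintype.sum_equiv ((Equiv.inv G).trans (Equiv.mulRight g)) _ _ (fun h => ?_)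
  simp [Equiv.trans_apply]

theorem conv_assoc (a b f : G → ℝ) : conv (conv a b) f = conv a (conv b f) := by
  funext g
  have h1 : conv (conv a b) f g = ∑ x, ∑ h, a h * b (h⁻¹ * x) * f (x⁻¹ * g) := by
    simp only [conv, Finset.sum_mul]
  have h2 : conv a (conv b f) g = ∑ h, ∑ y, a h * b y * f (y⁻¹ * (h⁻¹ * g)) := by
    simp only [conv, Finset.mul_sum, mul_assoc]
  rw [h1, h2, Finset.sum_comm]
  refine Finset.sum_congr rfl (fun h _ => ?_)
  refine Fintype.sum_equiv (Equiv.mulLeft h⁻¹) _ _ (fun x => ?_)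
  simp [mul_assoc]

theorem conv_dirac (f : G → ℝ) : conv dirac1 f = f := by
  funext g
  simp [conv, dirac1]

theorem cv_pow (r : G → ℝ) (k : ℕ) : (cv r) ^ k = cv (convPow r k) := by
  induction k with
  | zero =>
    refine LinearMap.ext (fun f => funext (fun g => ?_))
    rw [pow_zero]
    exact (congrFun (conv_dirac f) g).symm
  | succ k ih =>
    refine LinearMap.ext (fun f => funext (fun g => ?_))
    rw [pow_succ', Module.End.mul_apply, ih]
    show conv r (conv (convPow r k) f) g = conv (conv r (convPow r k)) f g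
    rw [conv_assoc]

theorem quad_eq (r f : G → ℝ) : quad r f = ∑ g, f g * cv r f g := by
  unfold quad
  refine Finset.sum_congr rfl (fun g _ => ?_)
  rw [cv_apply', Finset.mul_sum]
  exact Finset.sum_congr rfl (fun _ _ => by ring)

theorem cv_symm (r : G → ℝ) (hinv : ∀ g, r g⁻¹ = r g) (u v : G → ℝ) :
    ∑ g, cv r u g * v g = ∑ g, u g * cv r v g := by
  simp only [cv_apply', Finset.sum_mul, Finset.mul_sum]
  rw [Finset.sum_comm]
  refine Finset.sum_congr rfl (fun g _ => Finset.sum_congr rfl (fun a _ => ?_))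
  have : r (a * g⁻¹) = r (g * a⁻¹) := by
    rw [← hinv (g * a⁻¹)]; simp
  rw [this]; ring

/-- Averaging over the (right) subgroup `H`. -/
noncomputable def av (H : Subgroup G) [DecidablePred (· ∈ H)] : (G → ℝ) →ₗ[ℝ] (G → ℝ) where
  toFun f g := (Fintype.card H : ℝ)⁻¹ * ∑ h : H, f (g * h)
  map_add' a b := by
    funext g; simp [mul_add, Finset.sum_add_distrib]
  map_smul' c a := by
    funext g; simp only [Pi.smul_apply, smul_eq_mul, RingHom.id_apply, ← Finset.mul_sum]; ring

theorem av_apply (H : Subgroup G) [DecidablePred (· ∈ H)] (f : G → ℝ) (g : G) :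
    av H f g = (Fintype.card H : ℝ)⁻¹ * ∑ h : H, f (g * h) := rfl

theorem av_of_inv (H : Subgroup G) [DecidablePred (· ∈ H)] (f : G → ℝ)
    (hf : ∀ g, ∀ h ∈ H, f (g * h) = f g) : av H f = f := by
  funext g
  rw [av_apply, Finset.sum_congr rfl (fun (h : H) _ => hf g h h.2)]
  have : (Fintype.card H : ℝ) ≠ 0 := by
    have : 0 < Fintype.card H := Fintype.card_pos
    positivity
  simp [Finset.sum_const, this]

theorem av_inv (H : Subgroup G) [DecidablePred (· ∈ H)] (f : G → ℝ) (g : G) (h : G) (hh : h ∈ H) :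
    av H f (g * h) = av H f g := by
  rw [av_apply, av_apply]
  congr 1
  refine Fintype.sum_equiv (Equiv.mulLeft (⟨h, hh⟩ : H)) _ _ (fun x => ?_)
  simp [mul_assoc]

theorem av_av (H : Subgroup G) [DecidablePred (· ∈ H)] (f : G → ℝ) : av H (av H f) = av H f :=
  av_of_inv H _ (fun g h hh => av_inv H f g h hh)

theorem cv_av (H : Subgroup G) [DecidablePred (· ∈ H)] (r f : G → ℝ) :
    cv r (av H f) = av H (cv r f) := by
  funext g
  simp only [cv_apply, av_apply]
  rw [Finset.sum_congr rfl (fun x _ => mul_left_comm (r x) _ _), ← Finset.mul_sum]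
  congr 1
  simp only [Finset.mul_sum]
  rw [Finset.sum_comm]
  exact Finset.sum_congr rfl (fun h _ => Finset.sum_congr rfl (fun x _ => by rw [mul_assoc]))

theorem trace_cv_av (H : Subgroup G) [DecidablePred (· ∈ H)] (μ : G → ℝ)
    (hclass : ∀ g h, μ (h * g * h⁻¹) = μ g) :
    LinearMap.trace ℝ (G → ℝ) (cv μ ∘ₗ av H) =
      (Fintype.card G : ℝ) * ((Fintype.card H : ℝ)⁻¹ * ∑ h : H, μ h) := by
  rw [trace_fun]
  have h1 : ∀ x : G, (cv μ ∘ₗ av H) (Pi.single x 1) x =
      (Fintype.card H : ℝ)⁻¹ * ∑ h : H, μ h := by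
    intro x
    show cv μ (av H (Pi.single x 1)) x = _
    rw [cv_apply']
    simp only [av_apply]
    rw [Finset.sum_congr rfl (fun a _ => mul_left_comm (μ (x * a⁻¹)) _ _), ← Finset.mul_sum]
    congr 1
    simp only [Finset.mul_sum]
    rw [Finset.sum_comm]
    refine Finset.sum_congr rfl (fun h _ => ?_)
    rw [Finset.sum_eq_single (x * (h : G)⁻¹)]
    · simp only [inv_mul_cancel_right, Pi.single_eq_same, mul_one, mul_inv_rev, inv_inv]
      rw [← mul_assoc]
      exact hclass h x
    · intro a _ ha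
      have : a * (h : G) ≠ x := by
        rintro rfl
        exact ha (by simp)
      simp [Pi.single_apply, this]
    · simp
  rw [Finset.sum_congr rfl (fun x _ => h1 x)]
  simp [Finset.sum_const]

theorem convPow_class (r : G → ℝ) (hclass : ∀ g h, r (h * g * h⁻¹) = r g) (k : ℕ) :
    ∀ g h, convPow r k (h * g * h⁻¹) = convPow r k g := by
  induction k with
  | zero =>
    intro g h
    show dirac1 (h * g * h⁻¹) = dirac1 g
    unfold dirac1
    have : h * g * h⁻¹ = 1 ↔ g = 1 := by
      constructor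
      · intro hh
        have := congrArg (fun x => h⁻¹ * x * h) hh
        simpa [mul_assoc] using this
      · rintro rfl; simp
    simp only [this]
  | succ k ih =>
    intro g h
    show conv r (convPow r k) (h * g * h⁻¹) = conv r (convPow r k) g
    unfold conv
    refine (Fintype.sum_equiv (MulAut.conj h).toEquiv _ _ (fun x => ?_)).symm
    show r x * convPow r k (x⁻¹ * g) =
      r (h * x * h⁻¹) * convPow r k ((h * x * h⁻¹)⁻¹ * (h * g * h⁻¹))
    rw [hclass]
    have : (h * x * h⁻¹)⁻¹ * (h * g * h⁻¹) = h * (x⁻¹ * g) * h⁻¹ := by group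
    rw [this, ih]

/-- Eigenvalues of `cv r`. -/
theorem eig_nonneg (r : G → ℝ) (hpos : ∀ f, 0 ≤ quad r f) (ρ : ℝ) (f : G → ℝ)
    (hf : cv r f = ρ • f) (h0 : f ≠ 0) : 0 ≤ ρ := by
  have h := hpos f
  rw [quad_eq, hf] at h
  have h2 : ∑ g, f g * (ρ • f) g = ρ * ∑ g, f g ^ 2 := by
    rw [Finset.mul_sum]; exact Finset.sum_congr rfl (fun g _ => by simp; ring)
  rw [h2] at h
  have hp : 0 < ∑ g, f g ^ 2 := by
    obtain ⟨g, hg⟩ : ∃ g, f g ≠ 0 := by
      by_contra hcon
      push Not at hcon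
      exact h0 (funext hcon)
    exact Finset.sum_pos' (fun _ _ => sq_nonneg _) ⟨g, Finset.mem_univ _, by positivity⟩
  by_contra hneg
  push Not at hneg
  nlinarith

theorem eig_le (r : G → ℝ) (η : ℝ) (ρ : ℝ) (f : G → ℝ) (hq : quad r f ≤ η * ∑ g, f g ^ 2)
    (hf : cv r f = ρ • f) (h0 : f ≠ 0) : ρ ≤ η := by
  rw [quad_eq, hf] at hq
  have h2 : ∑ g, f g * (ρ • f) g = ρ * ∑ g, f g ^ 2 := by
    rw [Finset.mul_sum]; exact Finset.sum_congr rfl (fun g _ => by simp; ring)
  rw [h2] at hq
  have hp : 0 < ∑ g, f g ^ 2 := by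
    obtain ⟨g, hg⟩ : ∃ g, f g ≠ 0 := by
      by_contra hcon
      push Not at hcon
      exact h0 (funext hcon)
    exact Finset.sum_pos' (fun _ _ => sq_nonneg _) ⟨g, Finset.mem_univ _, by positivity⟩
  exact le_of_mul_le_mul_right hq hp

theorem eig_le_mass (r : G → ℝ) (hr : ∀ g, 0 ≤ r g) (ρ : ℝ) (f : G → ℝ)
    (hf : cv r f = ρ • f) (h0 : f ≠ 0) : ρ ≤ ∑ g, r g := by
  obtain ⟨g0, _, hg0⟩ := Finset.exists_max_image Finset.univ (fun g => |f g|) Finset.univ_nonempty
  have hpos : 0 < |f g0| := by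
    obtain ⟨g, hg⟩ : ∃ g, f g ≠ 0 := by
      by_contra hcon
      push Not at hcon
      exact h0 (funext hcon)
    exact lt_of_lt_of_le (abs_pos.mpr hg) (hg0 g (Finset.mem_univ _))
  have h1 : |ρ| * |f g0| ≤ (∑ g, r g) * |f g0| := by
    have h2 : cv r f g0 = ρ * f g0 := by rw [hf]; rfl
    rw [← abs_mul, ← h2, cv_apply, Finset.sum_mul]
    refine (Finset.abs_sum_le_sum_abs _ _).trans (Finset.sum_le_sum (fun h _ => ?_))
    rw [abs_mul, abs_of_nonneg (hr h)]
    exact mul_le_mul_of_nonneg_left (hg0 _ (Finset.mem_univ _)) (hr h)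
  exact (le_abs_self ρ).trans (le_of_mul_le_mul_right h1 hpos)

end Group

end Crest.Agent.Thorp.LB
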