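import Crest.Agent.Lib.Row155.RelPerm
import Crest.Agent.Lib.Row155.C5
/-!
Row 155, T9: `pathLaw_relLaw` and `psi_rGood_full/part`.
-/
set_option autoImplicit false
open Finset
open scoped BigOperators

namespace Crest.Agent.Thorp

section

variable {N D : ℕ}

theorem evP_eq_sum_mul (ν : Equiv.Perm (Fin N) → ℝ) (F : Finset (Fin N × Fin N)) :
    evP ν F = ∑ w, ν w * (if (∀ f ∈ F, w f.1 = f.2) then (1 : ℝ) else 0) := by
  unfold evP
  refine Finset.sum_congr rfl fun w _ => ?_
  split <;> simp

/-- Endpoints in the position space. -/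
noncomputable def liftF (L : Fin N ↪ V D) (c : Coins D) (f : Fin N × Fin N) : V D × V D :=
  (L f.1, pass D c (L f.2))

theorem liftF_injective (L : Fin N ↪ V D) (c : Coins D) : Function.Injective (liftF L c) := by
  rintro ⟨a, b⟩ ⟨a', b'⟩ h
  simp only [liftF, Prod.mk.injEq] at h
  exact Prod.ext (L.injective h.1) (L.injective ((pass D c).injective h.2))

theorem evP_relLaw_expect (L : Fin N ↪ V D) (c : Coins D) (F : Finset (Fin N × Fin N)) :
    evP (relLaw L c) F =
      𝔼 c' : Coins D, (if (∀ f ∈ F, relPerm L c c' f.1 = f.2) then (1 : ℝ) else 0) := by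
  rw [evP_eq_sum_mul, sum_relLaw_mul L c (fun w => if (∀ f ∈ F, w f.1 = f.2) then (1 : ℝ) else 0)]

theorem evP_relLaw (L : Fin N ↪ V D) (c : Coins D) (F : Finset (Fin N × Fin N)) :
    evP (relLaw L c) F = envP D (rangeF L) c (F.image (liftF L c)) := by
  rw [evP_relLaw_expect]
  unfold envP
  refine Finset.expect_congr rfl fun c' _ => ?_
  have : (∀ f ∈ F, relPerm L c c' f.1 = f.2) ↔
      ∀ f ∈ F.image (liftF L c), pass D (combine D (rangeF L) c c') f.1 = f.2 := by
    simp only [Finset.forall_mem_image]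
    refine forall₂_congr fun f _ => ?_
    simp only [liftF]
    rw [relPerm_spec]
    simp
  simp only [this]

theorem pathLaw_relLaw (L : Fin N ↪ V D) (c : Coins D) (K : ℕ) :
    PathLaw (relLaw L c)
      (fun a b => kap D (rangeF L) c (L a) (pass D c (L b)))
      (fun f g => eps D (L f.1, pass D c (L f.2)) (L g.1, pass D c (L g.2)))
      (Finset.univ.filter (fun a => badStart D (rangeF L) c K (L a))) K where
  nonneg := relLaw_nonneg L c
  sum_one := sum_relLaw L c
  symm := fun f g => eps_comm D _ _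
  ins := by
    intro F f hf h
    rw [evP_relLaw, Finset.image_insert] at h
    have hf' : liftF L c f ∉ F.image (liftF L c) := by
      rw [Finset.mem_image]
      rintro ⟨g, hg, hgf⟩
      exact hf (liftF_injective L c hgf ▸ hg)
    have hA : ∀ g ∈ insert (liftF L c f) (F.image (liftF L c)), g.1 ∈ rangeF L := by
      intro g hg
      rw [Finset.mem_insert, Finset.mem_image] at hg
      rcases hg with rfl | ⟨g', _, rfl⟩ <;> simp [liftF]
    have := envP_insert D (rangeF L) c (F.image (liftF L c)) (liftF L c f) hf' hA h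
    rw [evP_relLaw, evP_relLaw, Finset.image_insert]
    rw [Finset.sum_image (fun a _ b _ hab => liftF_injective L c hab)] at this
    exact this
  iso := by
    intro F h l hl
    rw [evP_relLaw] at h
    have hinj := liftF_injective L c
    have hcard : (F.image (liftF L c)).card = F.card := Finset.card_image_of_injective _ hinj
    have hA : ∀ g ∈ F.image (liftF L c), g.1 ∈ rangeF L := by
      intro g hg
      rw [Finset.mem_image] at hg
      rcases hg with ⟨g', _, rfl⟩
      simp [liftF]
    have := envP_iso D (rangeF L) c (F.image (liftF L c)) hA h l (by rw [hcard]; exact hl)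
    rw [hcard, Finset.sum_image (fun a _ b _ hab => hinj hab)] at this
    refine le_trans (le_of_eq ?_) this
    refine Finset.sum_congr rfl fun f hf => ?_
    have he : (F.image (liftF L c)).erase (liftF L c f) = (F.erase f).image (liftF L c) := by
      rw [Finset.image_erase hinj]
    rw [he, Finset.sum_image (fun a _ b _ hab => hinj hab)]
    rfl
  enc := by
    intro a ha b hab
    simp only [Finset.mem_filter, Finset.mem_univ, true_and] at ha
    rw [evP_relLaw_expect] at hab
    obtain ⟨c', _, hc'⟩ := Finset.exists_ne_zero_of_expect_ne_zero hab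
    have h1 : relPerm L c c' a = b := by
      by_contra hne
      apply hc'
      rw [if_neg]
      intro hall
      exact hne (hall (a, b) (Finset.mem_singleton_self _))
    have h2 : ¬ kap D (rangeF L) c (L a) (pass D (combine D (rangeF L) c c') (L a)) < K :=
      fun hlt => ha ⟨c', hlt⟩
    rw [relPerm_spec, h1] at h2
    exact not_lt.mp h2

end

/-! ### `psi` of `rGood` -/

section

variable {d K b s : ℕ}

/-- Relabelling the lines of an environment. -/
def envRelabel {Λ : Type*} {D : ℕ} (x : Equiv.Perm Λ) : Env Λ D ≃ Env Λ D where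
  toFun E := (x.toEmbedding.trans E.1, E.2)
  invFun E := (x⁻¹.toEmbedding.trans E.1, E.2)
  left_inv E := by
    refine Prod.ext ?_ rfl
    ext i
    simp only [Function.Embedding.trans_apply, Equiv.coe_toEmbedding]
    rw [show x (x⁻¹ i) = i from x.apply_symm_apply i]
  right_inv E := by
    refine Prod.ext ?_ rfl
    ext i
    simp only [Function.Embedding.trans_apply, Equiv.coe_toEmbedding]
    rw [show x⁻¹ (x i) = i from x.symm_apply_apply i]

theorem rGood_relabel (d K b s : ℕ) (g x : Equiv.Perm (Fin (2 ^ d))) :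
    rGood d K b s g = 𝔼 E : Env (Fin (2 ^ d)) (d + 1),
      if Good d K b s (rangeF E.1) E.2 then
        ∑ w, relLaw E.1 E.2 w * relLaw E.1 E.2 (w * (x * g⁻¹ * x⁻¹)) else 0 := by
  unfold rGood
  rw [← Fintype.expect_equiv (envRelabel x) (fun E => if Good d K b s (rangeF (envRelabel x E).1)
    (envRelabel x E).2 then
      ∑ w : Equiv.Perm (Fin (2 ^ d)), relLaw (envRelabel x E).1 (envRelabel x E).2 w *
        relLaw (envRelabel x E).1 (envRelabel x E).2 (w * g⁻¹) else 0) _ (fun _ => rfl)]
  refine Finset.expect_congr rfl fun E _ => ?_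
  have h1 : rangeF (envRelabel x E).1 = rangeF E.1 := rangeF_trans x E.1
  rw [h1]
  have h2 : (envRelabel x E).2 = E.2 := rfl
  rw [h2]
  split
  · have h3 : (envRelabel x E).1 = x.toEmbedding.trans E.1 := rfl
    rw [h3]
    simp only [relLaw_trans]
    refine Fintype.sum_equiv (MulAut.conj x).toEquiv _ _ fun w => ?_
    simp only [MulEquiv.toEquiv_eq_coe, MulEquiv.coe_toEquiv, MulAut.conj_apply]
    congr 2
    group
  · rfl

theorem sum_evP (N : ℕ) (ν : Equiv.Perm (Fin N) → ℝ) (w x τ : Equiv.Perm (Fin N)) (q : ℕ) :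
    (∑ g : Equiv.Perm (Fin N), if (∀ i : Fin N, (i : ℕ) < q → g i = τ i) then
      ν (w * (x * g⁻¹ * x⁻¹)) else 0) =
      evP ν ((Finset.univ.filter (fun i : Fin N => (i : ℕ) < q)).image
          (fun i => (x (τ i), w (x i)))) := by
  unfold evP
  let φ : Equiv.Perm (Fin N) ≃ Equiv.Perm (Fin N) :=
    { toFun := fun g => w * (x * g⁻¹ * x⁻¹)
      invFun := fun w' => x⁻¹ * w'⁻¹ * w * x
      left_inv := fun g => by group
      right_inv := fun w' => by group }
  refine Fintype.sum_equiv φ _ _ fun g => ?_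
  have hc : (∀ i : Fin N, (i : ℕ) < q → g i = τ i) ↔
      ∀ f ∈ ((Finset.univ.filter (fun i : Fin N => (i : ℕ) < q)).image
          (fun i => (x (τ i), w (x i)))), (φ g) f.1 = f.2 := by
    simp only [Finset.forall_mem_image, Finset.mem_filter, Finset.mem_univ, true_and]
    refine forall₂_congr fun i _ => ?_
    show g i = τ i ↔ (w * (x * g⁻¹ * x⁻¹)) (x (τ i)) = w (x i)
    simp only [Equiv.Perm.mul_apply]
    rw [show x⁻¹ (x (τ i)) = τ i from x.symm_apply_apply _]
    rw [w.injective.eq_iff, x.injective.eq_iff]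
    constructor
    · intro h
      rw [← h]
      exact g.symm_apply_apply i
    · intro h
      have h' := congrArg g h
      rw [show g (g⁻¹ (τ i)) = τ i from g.apply_symm_apply _] at h'
      exact h'.symm
  simp only [hc]
  rfl

theorem psi_rGood_eq (d K b s q : ℕ) (τ : Equiv.Perm (Fin (2 ^ d))) :
    psi (rGood d K b s) q τ = 𝔼 E : Env (Fin (2 ^ d)) (d + 1),
      if Good d K b s (rangeF E.1) E.2 then
        ∑ w, relLaw E.1 E.2 w * (((2 ^ d).descFactorial q : ℝ) * 𝔼 x : Equiv.Perm (Fin (2 ^ d)),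
          evP (relLaw E.1 E.2) ((Finset.univ.filter (fun i : Fin (2 ^ d) => (i : ℕ) < q)).image
          (fun i => (x (τ i), w (x i))))) else 0 := by
  have h1 : ∀ g, rGood d K b s g = 𝔼 x : Equiv.Perm (Fin (2 ^ d)),
      𝔼 E : Env (Fin (2 ^ d)) (d + 1), if Good d K b s (rangeF E.1) E.2 then
        ∑ w, relLaw E.1 E.2 w * relLaw E.1 E.2 (w * (x * g⁻¹ * x⁻¹)) else 0 := by
    intro g
    rw [← Fintype.expect_const (ι := Equiv.Perm (Fin (2 ^ d))) (rGood d K b s g)]
    exact Finset.expect_congr rfl fun x _ => rGood_relabel d K b s g x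
  unfold psi
  have h2 : ∀ g : Equiv.Perm (Fin (2 ^ d)),
      (if (∀ i : Fin (2 ^ d), (i : ℕ) < q → g i = τ i) then rGood d K b s g else 0) =
      𝔼 E : Env (Fin (2 ^ d)) (d + 1), 𝔼 x : Equiv.Perm (Fin (2 ^ d)),
        if Good d K b s (rangeF E.1) E.2 then ∑ w, relLaw E.1 E.2 w *
          (if (∀ i : Fin (2 ^ d), (i : ℕ) < q → g i = τ i) then
            relLaw E.1 E.2 (w * (x * g⁻¹ * x⁻¹)) else 0) else 0 := by
    intro g
    rw [Finset.expect_comm]
    split
    · rw [h1]
    · simp
  rw [Finset.sum_congr rfl fun g _ => h2 g]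
  rw [← Finset.expect_sum_comm, Finset.mul_expect]
  refine Finset.expect_congr rfl fun E _ => ?_
  rw [← Finset.expect_sum_comm]
  by_cases hE : Good d K b s (rangeF E.1) E.2
  · simp only [if_pos hE]
    have h3 : ∀ x : Equiv.Perm (Fin (2 ^ d)),
        (∑ g : Equiv.Perm (Fin (2 ^ d)), ∑ w, relLaw E.1 E.2 w *
          (if (∀ i : Fin (2 ^ d), (i : ℕ) < q → g i = τ i) then
            relLaw E.1 E.2 (w * (x * g⁻¹ * x⁻¹)) else 0)) =
        ∑ w, relLaw E.1 E.2 w * evP (relLaw E.1 E.2)
          ((Finset.univ.filter (fun i : Fin (2 ^ d) => (i : ℕ) < q)).image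
          (fun i => (x (τ i), w (x i)))) := by
      intro x
      rw [Finset.sum_comm]
      refine Finset.sum_congr rfl fun w _ => ?_
      rw [← Finset.mul_sum, sum_evP]
    rw [Finset.expect_congr rfl fun x _ => h3 x, Finset.expect_sum_comm, Finset.mul_sum]
    refine Finset.sum_congr rfl fun w _ => ?_
    rw [← Finset.mul_expect]
    ring
  · simp only [if_neg hE]
    simp

theorem psi_rGood_le (d K b s q : ℕ) (τ : Equiv.Perm (Fin (2 ^ d))) (C : ℝ) (hC : 0 ≤ C)
    (h : ∀ E : Env (Fin (2 ^ d)) (d + 1), Good d K b s (rangeF E.1) E.2 →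
      ∀ w : Equiv.Perm (Fin (2 ^ d)),
      (((2 ^ d).descFactorial q : ℝ) * 𝔼 x : Equiv.Perm (Fin (2 ^ d)),
          evP (relLaw E.1 E.2) ((Finset.univ.filter (fun i : Fin (2 ^ d) => (i : ℕ) < q)).image
          (fun i => (x (τ i), w (x i))))) ≤ C) :
    psi (rGood d K b s) q τ ≤ C := by
  rw [psi_rGood_eq]
  rcases isEmpty_or_nonempty (Env (Fin (2 ^ d)) (d + 1)) with hE | hE
  · simpa using hC
  refine Finset.expect_le Finset.univ_nonempty fun E _ => ?_
  split
  · rename_i hg
    calc _ ≤ ∑ w, relLaw E.1 E.2 w * C :=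
          Finset.sum_le_sum fun w _ =>
            mul_le_mul_of_nonneg_left (h E hg w) (relLaw_nonneg _ _ _)
      _ = C := by rw [← Finset.sum_mul, sum_relLaw, one_mul]
  · exact hC

theorem card_bad (d K b s : ℕ) (E : Env (Fin (2 ^ d)) (d + 1))
    (h : Good d K b s (rangeF E.1) E.2) :
    (Finset.univ.filter (fun a => badStart (d + 1) (rangeF E.1) E.2 K (E.1 a))).card ≤ b := by
  refine le_trans (le_of_eq ?_) h.1
  unfold rangeF
  rw [Finset.filter_map, Finset.card_map]
  rfl

end

end Crest.Agent.Thorp
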