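import Crest.Agent.Lib.Row155.GroupHolder
import Crest.Agent.Lib.Row155.CycGF
/-!
Row 155, chunk T13 (C8c): bound for the marginals of the convolution powers of a class function.
-/
set_option autoImplicit false
set_option linter.unusedSectionVars false
open Finset
open scoped BigOperators

namespace Crest.Agent.Thorp

section Conv

variable {G : Type*} [Group G] [Fintype G] [DecidableEq G]

theorem conv_dirac1 (μ : G → ℝ) : conv μ dirac1 = μ := by
  funext g
  unfold conv dirac1
  rw [Finset.sum_eq_single g]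
  · simp
  · intro h _ hne
    have : h⁻¹ * g ≠ 1 := by
      intro e
      exact hne (inv_mul_eq_one.mp e)
    simp [this]
  · intro h
    exact absurd (Finset.mem_univ _) h

theorem conv_class (μ ν : G → ℝ) (hμ : ∀ g h, μ (h * g * h⁻¹) = μ g)
    (hν : ∀ g h, ν (h * g * h⁻¹) = ν g) (g h : G) : conv μ ν (h * g * h⁻¹) = conv μ ν g := by
  unfold conv
  refine (Fintype.sum_equiv (MulAut.conj h).toEquiv _ _ (fun x => ?_)).symm
  show μ x * ν (x⁻¹ * g) = μ (h * x * h⁻¹) * ν ((h * x * h⁻¹)⁻¹ * (h * g * h⁻¹))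
  rw [hμ]
  congr 1
  have : (h * x * h⁻¹)⁻¹ * (h * g * h⁻¹) = h * (x⁻¹ * g) * h⁻¹ := by group
  rw [this, hν]

theorem dirac1_class (g h : G) : dirac1 (h * g * h⁻¹) = (dirac1 g : ℝ) := by
  unfold dirac1
  by_cases hg : g = 1
  · simp [hg]
  · have : h * g * h⁻¹ ≠ 1 := by
      intro e
      apply hg
      have : h * g = h := mul_inv_eq_one.mp e
      simpa using this
    simp [hg, this]

theorem convPow_class (μ : G → ℝ) (hμ : ∀ g h, μ (h * g * h⁻¹) = μ g) (k : ℕ) :
    ∀ g h, convPow μ k (h * g * h⁻¹) = convPow μ k g := by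
  induction k with
  | zero => intro g h; exact dirac1_class g h
  | succ k ih => intro g h; exact conv_class μ _ hμ ih g h

end Conv

section Psi

variable {N : ℕ}

/-- `s` fixes `0, …, q-1`. -/
def Fixes (q : ℕ) (s : Equiv.Perm (Fin N)) : Prop := ∀ i : Fin N, (i : ℕ) < q → s i = i

instance instDecFixes (q : ℕ) (s : Equiv.Perm (Fin N)) : Decidable (Fixes q s) := by
  unfold Fixes; infer_instance

theorem Fixes.mul {q : ℕ} {s t : Equiv.Perm (Fin N)} (hs : Fixes q s) (ht : Fixes q t) :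
    Fixes q (s * t) := by
  intro i hi
  rw [Equiv.Perm.mul_apply, ht i hi, hs i hi]

theorem Fixes.inv {q : ℕ} {s : Equiv.Perm (Fin N)} (hs : Fixes q s) : Fixes q s⁻¹ := by
  intro i hi
  rw [Equiv.Perm.inv_eq_iff_eq, hs i hi]

theorem fixes_mul_right_iff {q : ℕ} {s t : Equiv.Perm (Fin N)} (hs : Fixes q s) :
    Fixes q (t * s) ↔ Fixes q t := by
  constructor
  · intro h
    have := h.mul hs.inv
    simpa using this
  · intro h
    exact h.mul hs

theorem psi_eq (r : Equiv.Perm (Fin N) → ℝ) (q : ℕ) (τ : Equiv.Perm (Fin N)) :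
    psi r q τ = (N.descFactorial q : ℝ) *
      ∑ s : Equiv.Perm (Fin N), if Fixes q s then r (τ * s) else 0 := by
  unfold psi
  congr 1
  refine (Fintype.sum_equiv (Equiv.mulLeft τ) _ _ (fun s => ?_)).symm
  have : Fixes q s ↔ ∀ i : Fin N, (i : ℕ) < q → (τ * s) i = τ i := by
    unfold Fixes
    simp [Equiv.Perm.mul_apply]
  exact if_congr this rfl rfl

/-- `psi r q` is left invariant under the permutations fixing `0, …, q-1` for class functions. -/
theorem psi_left_inv (r : Equiv.Perm (Fin N) → ℝ)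
    (hclass : ∀ g h, r (h * g * h⁻¹) = r g) (q : ℕ) (s τ : Equiv.Perm (Fin N))
    (hs : Fixes q s) : psi r q (s * τ) = psi r q τ := by
  rw [psi_eq, psi_eq]
  congr 1
  refine Fintype.sum_equiv (Equiv.mulRight s) _ _ (fun t => ?_)
  have h1 : r (τ * (t * s)) = r (s * τ * t) := by
    have : τ * (t * s) = s⁻¹ * (s * τ * t) * s⁻¹⁻¹ := by group
    rw [this, hclass]
  exact if_congr (fixes_mul_right_iff hs).symm h1.symm rfl

theorem card_fixes (q : ℕ) (hq : q ≤ N) :
    (∑ s : Equiv.Perm (Fin N), if Fixes q s then (1 : ℝ) else 0) * (N.descFactorial q : ℝ) =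
      (Fintype.card (Equiv.Perm (Fin N)) : ℝ) := by
  have h1 : (Finset.univ.filter (fun s : Equiv.Perm (Fin N) => Fixes q s)).card =
      (N - q).factorial := by
    rw [← Fintype.card_subtype]
    have e : Equiv.Perm {i : Fin N // ¬ (i : ℕ) < q} ≃
        {s : Equiv.Perm (Fin N) // Fixes q s} :=
      (Equiv.Perm.subtypeEquivSubtypePerm (fun i : Fin N => ¬ (i : ℕ) < q)).trans
        (Equiv.subtypeEquivRight (fun s => by simp [Fixes]))
    rw [← Fintype.card_congr e, Fintype.card_perm]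
    congr 1
    rw [Fintype.card_subtype_compl, Fintype.card_fin]
    congr 1
    rw [Fintype.card_fin_lt_of_le hq]
  rw [← Finset.sum_filter, Finset.sum_const, nsmul_eq_mul, mul_one, h1, Fintype.card_perm,
    Fintype.card_fin, ← Nat.cast_mul, Nat.factorial_mul_descFactorial hq]

/-- Convolution and marginals. -/
theorem psi_conv (r f : Equiv.Perm (Fin N) → ℝ) 
    (hf : ∀ g h, f (h * g * h⁻¹) = f g) (q : ℕ) (hq : q ≤ N) (τ : Equiv.Perm (Fin N)) :
    psi (conv r f) q τ = 𝔼 h : Equiv.Perm (Fin N), psi r q h * psi f q (h⁻¹ * τ) := by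
  have hd : (0 : ℝ) < (N.descFactorial q : ℝ) := by
    exact_mod_cast (Nat.descFactorial_pos).mpr hq
  have hcard := card_fixes (N := N) q hq
  have hG : (0 : ℝ) < (Fintype.card (Equiv.Perm (Fin N)) : ℝ) := by
    exact_mod_cast Fintype.card_pos
  set A : ℝ := ∑ s : Equiv.Perm (Fin N), if Fixes q s then (1 : ℝ) else 0 with hA
  have hA0 : A ≠ 0 := by
    intro h0
    rw [h0, zero_mul] at hcard
    exact hG.ne hcard
  -- step 1
  have h1 : psi (conv r f) q τ = ∑ h : Equiv.Perm (Fin N), r h * psi f q (h⁻¹ * τ) := by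
    rw [psi_eq]
    have : ∀ s : Equiv.Perm (Fin N), (if Fixes q s then conv r f (τ * s) else 0) =
        ∑ h : Equiv.Perm (Fin N), r h * (if Fixes q s then f (h⁻¹ * τ * s) else 0) := by
      intro s
      by_cases hs : Fixes q s
      · simp only [hs, if_true]
        unfold conv
        refine Finset.sum_congr rfl (fun h _ => ?_)
        rw [mul_assoc]
      · simp [hs]
    rw [Finset.sum_congr rfl (fun s _ => this s), Finset.sum_comm, Finset.mul_sum]
    refine Finset.sum_congr rfl (fun h _ => ?_)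
    rw [psi_eq, ← Finset.mul_sum]
    ring
  -- step 2
  have h2 : ∀ t : Equiv.Perm (Fin N), Fixes q t →
      psi (conv r f) q τ = ∑ h : Equiv.Perm (Fin N), r (h * t) * psi f q (h⁻¹ * τ) := by
    intro t ht
    rw [h1]
    refine (Fintype.sum_equiv (Equiv.mulRight t) _ _ (fun h => ?_)).symm
    simp only [Equiv.coe_mulRight]
    congr 1
    have : (h * t)⁻¹ * τ = t⁻¹ * (h⁻¹ * τ) := by group
    rw [this, psi_left_inv f hf q _ _ ht.inv]
  have h3 : A * psi (conv r f) q τ =
      ∑ h : Equiv.Perm (Fin N), (∑ t : Equiv.Perm (Fin N), if Fixes q t then r (h * t) else 0) *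
        psi f q (h⁻¹ * τ) := by
    rw [hA, Finset.sum_mul]
    have : ∀ t : Equiv.Perm (Fin N), (if Fixes q t then (1 : ℝ) else 0) * psi (conv r f) q τ =
        ∑ h : Equiv.Perm (Fin N), (if Fixes q t then r (h * t) else 0) * psi f q (h⁻¹ * τ) := by
      intro t
      by_cases ht : Fixes q t
      · simp only [ht, if_true, one_mul]
        exact h2 t ht
      · simp [ht]
    rw [Finset.sum_congr rfl (fun t _ => this t), Finset.sum_comm]
    refine Finset.sum_congr rfl (fun h _ => ?_)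
    rw [Finset.sum_mul]
  have h4 : (Fintype.card (Equiv.Perm (Fin N)) : ℝ) * psi (conv r f) q τ =
      ∑ h : Equiv.Perm (Fin N), psi r q h * psi f q (h⁻¹ * τ) := by
    rw [← hcard, mul_comm A, mul_assoc, h3, Finset.mul_sum]
    refine Finset.sum_congr rfl (fun h _ => ?_)
    rw [psi_eq r q h]
    ring
  rw [Fintype.expect_eq_sum_div_card, ← h4]
  field_simp

theorem psi_convPow_expand (r : Equiv.Perm (Fin N) → ℝ)
    (hclass : ∀ g h, r (h * g * h⁻¹) = r g) (q : ℕ) (hq : q ≤ N) (k : ℕ) :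
    ∀ τ : Equiv.Perm (Fin N), psi (convPow r (k + 1)) q τ =
      𝔼 v : Fin k → Equiv.Perm (Fin N), (∏ i, psi r q (v i)) *
        psi r q ((List.ofFn v).prod⁻¹ * τ) := by
  induction k with
  | zero =>
    intro τ
    have : convPow r (0 + 1) = r := by
      show conv r dirac1 = r
      exact conv_dirac1 r
    rw [this]
    simp
  | succ k ih =>
    intro τ
    show psi (conv r (convPow r (k + 1))) q τ = _
    rw [psi_conv r _ (convPow_class r hclass (k + 1)) q hq τ]
    have h1 : ∀ h : Equiv.Perm (Fin N), psi r q h * psi (convPow r (k + 1)) q (h⁻¹ * τ) =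
        𝔼 v : Fin k → Equiv.Perm (Fin N), (∏ i, psi r q ((Fin.cons h v : Fin (k + 1) → _) i)) *
        psi r q ((List.ofFn (Fin.cons h v : Fin (k + 1) → _)).prod⁻¹ * τ) := by
      intro h
      rw [ih, Finset.mul_expect]
      refine Finset.expect_congr rfl (fun v _ => ?_)
      rw [Fin.prod_univ_succ, List.ofFn_succ, List.prod_cons]
      simp only [Fin.cons_zero, Fin.cons_succ, mul_inv_rev]
      rw [mul_assoc, mul_assoc]
    rw [Finset.expect_congr rfl (fun h _ => h1 h)]
    rw [← Finset.expect_product']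
    refine Fintype.expect_equiv (Fin.consEquiv (fun _ => Equiv.Perm (Fin N))) _ _ (fun p => ?_)
    rfl

end Psi

/-- (C8c) -/
theorem psi_convPow_le {N : ℕ} (r : Equiv.Perm (Fin N) → ℝ) (hr : ∀ g, 0 ≤ r g)
    (hclass : ∀ g h, r (h * g * h⁻¹) = r g) (q : ℕ) (hq : q ≤ N) (B W : ℝ) (hB : 0 ≤ B)
    (hW : 1 ≤ W) (h : ∀ τ, psi r q τ ≤ B * W ^ cyc q τ) (k : ℕ) (hk : 1 ≤ k) :
    psi (convPow r (k + 1)) q 1 ≤ B ^ (k + 1) *
      (∏ i ∈ Finset.range q, (1 + (W ^ (((k : ℝ) + 1) / k) - 1) / ((N : ℝ) - i))) ^ k := by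
  have hk0 : (0 : ℝ) < k := by exact_mod_cast hk
  have hW0 : 0 ≤ W := le_trans zero_le_one hW
  have hpsi : ∀ τ, 0 ≤ psi r q τ := by
    intro τ
    unfold psi
    refine mul_nonneg (Nat.cast_nonneg _) (Finset.sum_nonneg (fun g _ => ?_))
    split_ifs
    · exact hr g
    · exact le_rfl
  have hφ : ∀ τ : Equiv.Perm (Fin N), 0 ≤ B * W ^ cyc q τ := fun τ =>
    mul_nonneg hB (pow_nonneg hW0 _)
  rw [psi_convPow_expand r hclass q hq k 1]
  calc (𝔼 v : Fin k → Equiv.Perm (Fin N), (∏ i, psi r q (v i)) *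
        psi r q ((List.ofFn v).prod⁻¹ * 1))
      ≤ 𝔼 v : Fin k → Equiv.Perm (Fin N), (∏ i, (B * W ^ cyc q (v i))) *
        (B * W ^ cyc q ((List.ofFn v).prod⁻¹)) := by
        refine Finset.expect_le_expect (fun v _ => ?_)
        rw [mul_one]
        exact mul_le_mul (Finset.prod_le_prod (fun i _ => hpsi _) (fun i _ => h _)) (h _)
          (hpsi _) (Finset.prod_nonneg (fun i _ => hφ _))
    _ ≤ (𝔼 g : Equiv.Perm (Fin N), (B * W ^ cyc q g) ^ (((k : ℝ) + 1) / k)) ^ k :=
        group_holder (fun g => B * W ^ cyc q g) hφ k hk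
    _ = (B ^ (((k : ℝ) + 1) / k) *
          𝔼 g : Equiv.Perm (Fin N), (W ^ (((k : ℝ) + 1) / k)) ^ cyc q g) ^ k := by
        rw [Finset.mul_expect]
        congr 1
        refine Finset.expect_congr rfl (fun g _ => ?_)
        rw [Real.mul_rpow hB (pow_nonneg hW0 _), ← Real.rpow_natCast, ← Real.rpow_mul hW0,
          ← Real.rpow_natCast, ← Real.rpow_mul hW0, mul_comm ((cyc q g : ℕ) : ℝ)]
    _ = B ^ (k + 1) *
      (∏ i ∈ Finset.range q, (1 + (W ^ (((k : ℝ) + 1) / k) - 1) / ((N : ℝ) - i))) ^ k := by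
        rw [mul_pow, expect_pow_cyc N q hq]
        congr 1
        rw [← Real.rpow_natCast, ← Real.rpow_mul hB, ← Real.rpow_natCast]
        congr 1
        push_cast
        field_simp

end Crest.Agent.Thorp
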