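import Crest.Agent.Lib.Row155.PathLawRel
import Crest.Agent.Lib.Row155.CycleBoundFinal
/-!
Row 155, T9: `psi_rGood_full/part`.
-/
set_option autoImplicit false
open Finset
open scoped BigOperators

namespace Crest.Agent.Thorp

theorem psi_rGood_full (d K b s l g : ℕ) (hg : 2 * g + l ≤ K)
    (hW : (1 : ℝ) ≤ 2 ^ l * (((2 ^ d : ℕ) : ℝ) / 2 ^ g + b)) (τ : Equiv.Perm (Fin (2 ^ d))) :
    psi (rGood d K b s) (2 ^ d) τ ≤
      2 * (2 ^ l * (((2 ^ d : ℕ) : ℝ) / 2 ^ g + b)) ^ cyc (2 ^ d) τ *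
        ((2 ^ d : ℕ) : ℝ) ^ (2 ^ d / 2 ^ l) := by
  refine psi_rGood_le d K b s (2 ^ d) τ _ (by positivity) fun E hE w => ?_
  have h1 := cycle_bound_full (pathLaw_relLaw E.1 E.2 K) b l g (card_bad d K b s E hE) hg hW w τ
  refine le_trans (le_of_eq ?_) h1
  rw [Nat.descFactorial_self, Fintype.expect_eq_sum_div_card, Fintype.card_perm, Fintype.card_fin,
    mul_div_cancel₀ _ (by positivity)]
  refine Finset.sum_congr rfl fun x _ => ?_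
  congr 2
  ext i
  simp

theorem psi_rGood_part (d K b s l g : ℕ) (hg : 2 * g + l ≤ K)
    (hW : (1 : ℝ) ≤ 2 ^ l * (((2 ^ d : ℕ) : ℝ) / 2 ^ g + b)) (τ : Equiv.Perm (Fin (2 ^ d)))
    (q : ℕ) (hq : 4 * q ≤ 2 ^ d) :
    psi (rGood d K b s) q τ ≤
      2 * (2 ^ l * (((2 ^ d : ℕ) : ℝ) / 2 ^ g + b)) ^ cyc q τ *
        ((2 ^ d : ℕ) : ℝ) ^ (q / 2 ^ l) * Real.exp (4 * q ^ 2 / (2 ^ d : ℕ)) := by
  refine psi_rGood_le d K b s q τ _ (by positivity) fun E hE w => ?_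
  exact cycle_bound_part (pathLaw_relLaw E.1 E.2 K) b l g (card_bad d K b s E hE) hg hW w τ
    q hq

end Crest.Agent.Thorp
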