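import Crest.Agent.Lib.Row155.Defs2
/-!
Row 155 (Thorp shuffle), chunk T16: `pure_alt_zero` (C10a) and `pure_finrank` (C10b).
-/
set_option autoImplicit false
open Finset
open scoped BigOperators

namespace Crest.Agent.Thorp

/-- two injective tuples are related by a permutation -/
lemma pa_exists_perm {ι : Type*} {N : ℕ} (f g : ι → Fin N) (hf : Function.Injective f)
    (hg : Function.Injective g) : ∃ h : Equiv.Perm (Fin N), ∀ i, h (f i) = g i := by
  classical
  obtain ⟨e, he⟩ : ∃ e : {x // x ∈ Set.range f} ≃ {x // x ∈ Set.range g},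
      e = (Equiv.ofInjective f hf).symm.trans (Equiv.ofInjective g hg) := ⟨_, rfl⟩
  refine ⟨e.extendSubtype, fun i => ?_⟩
  rw [Equiv.extendSubtype_apply_of_mem e (f i) ⟨i, rfl⟩, he]
  simp

/-- multi-additivity: summing over all values of coordinate `i` gives zero -/
lemma pa_sum_univ {N j : ℕ} (B : (Fin j → Fin N) → ℝ)
    (hB : ∀ x i, ∑ y, B (Function.update x i y) = 0) (t : Fin j → Finset (Fin N)) (i : Fin j) :
    ∑ y ∈ Fintype.piFinset (Function.update t i Finset.univ), B y = 0 := by
  classical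
  rcases Nat.eq_zero_or_pos N with hN | hN
  · subst hN
    apply Finset.sum_eq_zero
    intro y _
    exact (y i).elim0
  obtain ⟨a⟩ : Nonempty (Fin N) := ⟨⟨0, hN⟩⟩
  have h1 : ∑ y ∈ Fintype.piFinset (Function.update t i Finset.univ), B y =
      ∑ y ∈ Fintype.piFinset (Function.update t i {a}), ∑ v, B (Function.update y i v) := by
    rw [← Finset.sum_product']
    symm
    apply Finset.sum_bij' (fun (p : (Fin j → Fin N) × Fin N) _ => Function.update p.1 i p.2)
      (fun y _ => (Function.update y i a, y i))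
    · rintro ⟨y, v⟩ h
      rw [Finset.mem_product, Fintype.mem_piFinset] at h
      rw [Fintype.mem_piFinset]
      intro k
      by_cases hk : k = i
      · subst hk; simp
      · have := h.1 k
        simp only [Function.update_of_ne hk] at this ⊢
        exact this
    · intro y h
      rw [Fintype.mem_piFinset] at h
      rw [Finset.mem_product, Fintype.mem_piFinset]
      refine ⟨fun k => ?_, Finset.mem_univ _⟩
      by_cases hk : k = i
      · subst hk; simp
      · have := h k
        simp only [Function.update_of_ne hk] at this ⊢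
        exact this
    · rintro ⟨y, v⟩ h
      rw [Finset.mem_product, Fintype.mem_piFinset] at h
      have h2 := h.1 i
      simp only [Function.update_self, Finset.mem_singleton] at h2
      simp only [Function.update_self, Function.update_idem, Prod.mk.injEq, and_true]
      rw [← h2, Function.update_eq_self]
    · intro y h
      simp
    · rintro ⟨y, v⟩ h
      rfl
  rw [h1]
  exact Finset.sum_eq_zero (fun y _ => hB y i)

/-- swapping a set for its complement in one coordinate changes the sign -/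
lemma pa_sum_compl {N j : ℕ} (B : (Fin j → Fin N) → ℝ)
    (hB : ∀ x i, ∑ y, B (Function.update x i y) = 0) (t : Fin j → Finset (Fin N)) (i : Fin j)
    (Z : Finset (Fin N)) :
    ∑ y ∈ Fintype.piFinset (Function.update t i Zᶜ), B y =
      - ∑ y ∈ Fintype.piFinset (Function.update t i Z), B y := by
  classical
  rw [eq_neg_iff_add_eq_zero, ← pa_sum_univ B hB t i]
  rw [← Finset.sum_union]
  · congr 1
    ext y
    simp only [Finset.mem_union, Fintype.mem_piFinset]
    constructor
    · rintro (h | h) k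
      · by_cases hk : k = i
        · subst hk; simp
        · have := h k
          simpa only [Function.update_of_ne hk] using this
      · by_cases hk : k = i
        · subst hk; simp
        · have := h k
          simpa only [Function.update_of_ne hk] using this
    · intro h
      by_cases hy : y i ∈ Z
      · right
        intro k
        by_cases hk : k = i
        · subst hk; simpa using hy
        · have := h k
          simpa only [Function.update_of_ne hk] using this
      · left
        intro k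
        by_cases hk : k = i
        · subst hk; simpa using hy
        · have := h k
          simpa only [Function.update_of_ne hk] using this
  · rw [Finset.disjoint_left]
    intro y h1 h2
    rw [Fintype.mem_piFinset] at h1 h2
    have h3 := h1 i
    have h4 := h2 i
    simp only [Function.update_self, Finset.mem_compl] at h3 h4
    exact h3 h4

/-- coordinates in `S`: values in `A`; other coordinates: the value of `x0` -/
def paT {N j : ℕ} (x0 : Fin j → Fin N) (Z : Finset (Fin N)) (S1 S2 : Finset (Fin j)) :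
    Fin j → Finset (Fin N) :=
  fun i => if i ∈ S1 then Zᶜ else if i ∈ S2 then Z else {x0 i}

lemma pa_sum_flip {N j : ℕ} (B : (Fin j → Fin N) → ℝ)
    (hB : ∀ x i, ∑ y, B (Function.update x i y) = 0) (x0 : Fin j → Fin N) (Z : Finset (Fin N))
    (S1 : Finset (Fin j)) : ∀ S2 : Finset (Fin j), Disjoint S1 S2 →
    ∑ y ∈ Fintype.piFinset (paT x0 Z S1 S2), B y =
      (-1) ^ S1.card * ∑ y ∈ Fintype.piFinset (paT x0 Z ∅ (S1 ∪ S2)), B y := by
  classical
  induction S1 using Finset.induction_on with
  | empty => intro S2 _; simp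
  | insert i S1 hi ih =>
    intro S2 hd
    rw [Finset.disjoint_insert_left] at hd
    have h1 : paT x0 Z (insert i S1) S2 = Function.update (paT x0 Z S1 S2) i Zᶜ := by
      ext1 k
      by_cases hk : k = i
      · subst hk; simp [paT]
      · rw [Function.update_of_ne hk]
        simp [paT, hk]
    have h2 : paT x0 Z S1 (insert i S2) = Function.update (paT x0 Z S1 S2) i Z := by
      ext1 k
      by_cases hk : k = i
      · subst hk; simp [paT, hi]
      · rw [Function.update_of_ne hk]
        simp [paT, hk]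
    rw [h1, pa_sum_compl B hB, ← h2, ih (insert i S2) (by
      rw [Finset.disjoint_insert_right]; exact ⟨hi, hd.2⟩), Finset.card_insert_of_notMem hi,
      Finset.insert_union, Finset.union_insert]
    ring

/-- correlation function -/
noncomputable def paB {N j : ℕ} (φ : (Fin j → Fin N) → ℝ) (x0 y : Fin j → Fin N) : ℝ :=
  ∑ g : Equiv.Perm (Fin N), φ (g ∘ x0) * φ (g ∘ y)

lemma paB_pure {N j : ℕ} (φ : (Fin j → Fin N) → ℝ) (hφ : φ ∈ PureFn N j) (x0 : Fin j → Fin N)
    (y : Fin j → Fin N) (i : Fin j) : ∑ v, paB φ x0 (Function.update y i v) = 0 := by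
  classical
  unfold paB
  rw [Finset.sum_comm]
  apply Finset.sum_eq_zero
  intro g _
  rw [← Finset.mul_sum]
  have h1 : ∑ v, φ (g ∘ Function.update y i v) = 0 := by
    have h2 : ∀ v, φ (g ∘ Function.update y i v) = φ (Function.update (g ∘ y) i (g v)) := by
      intro v
      rw [Function.comp_update]
    rw [Finset.sum_congr rfl (fun v _ => h2 v)]
    rw [Equiv.sum_comp g (fun v => φ (Function.update (g ∘ y) i v))]
    exact hφ.2 _ _
  rw [h1, mul_zero]

lemma paB_noninj {N j : ℕ} (φ : (Fin j → Fin N) → ℝ) (hφ : φ ∈ PureFn N j)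
    (x0 y : Fin j → Fin N) (hy : ¬ Function.Injective y) : paB φ x0 y = 0 := by
  unfold paB
  apply Finset.sum_eq_zero
  intro g _
  rw [hφ.1 (g ∘ y) (fun h => hy (Function.Injective.of_comp h)), mul_zero]

lemma paB_comp {N j : ℕ} (φ : (Fin j → Fin N) → ℝ) (x0 y : Fin j → Fin N)
    (h : Equiv.Perm (Fin N)) (hh : ∀ i, h (x0 i) = x0 i) : paB φ x0 (h ∘ y) = paB φ x0 y := by
  unfold paB
  rw [← Equiv.sum_comp (Equiv.mulRight h) (fun g : Equiv.Perm (Fin N) => φ (g ∘ x0) * φ (g ∘ y))]
  apply Finset.sum_congr rfl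
  intro g _
  have h1 : (⇑((Equiv.mulRight h) g) : Fin N → Fin N) ∘ x0 = g ∘ x0 := by
    ext1 i
    simp [hh]
  have h2 : (⇑((Equiv.mulRight h) g) : Fin N → Fin N) ∘ y = g ∘ (h ∘ y) := by
    ext1 i
    simp
  rw [h1, h2]

/-- permutations of the coordinates fixing everything outside `S` -/
def paG {j : ℕ} (S : Finset (Fin j)) : Finset (Equiv.Perm (Fin j)) :=
  Finset.univ.filter (fun σ => ∀ i, i ∉ S → σ i = i)

lemma paG_sum_mul {j : ℕ} (S : Finset (Fin j)) (τ : Equiv.Perm (Fin j)) (hτ : τ ∈ paG S)
    (f : Equiv.Perm (Fin j) → ℝ) : ∑ σ ∈ paG S, f (τ * σ) = ∑ σ ∈ paG S, f σ := by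
  have hτ' : ∀ i, i ∉ S → τ i = i := by simpa [paG] using hτ
  have hτ'' : ∀ i, i ∉ S → τ⁻¹ i = i := by
    intro i hi
    rw [Equiv.Perm.inv_eq_iff_eq, hτ' i hi]
  apply Finset.sum_bij' (fun σ _ => τ * σ) (fun σ _ => τ⁻¹ * σ)
  · intro σ hσ
    have hσ' : ∀ i, i ∉ S → σ i = i := by simpa [paG] using hσ
    simp only [paG, Finset.mem_filter, Finset.mem_univ, true_and]
    intro i hi
    rw [Equiv.Perm.mul_apply, hσ' i hi, hτ' i hi]
  · intro σ hσ
    have hσ' : ∀ i, i ∉ S → σ i = i := by simpa [paG] using hσ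
    simp only [paG, Finset.mem_filter, Finset.mem_univ, true_and]
    intro i hi
    rw [Equiv.Perm.mul_apply, hσ' i hi, hτ'' i hi]
  · intro σ _; simp
  · intro σ _; simp
  · intro σ _; rfl

lemma paB_sum_nonneg {N j : ℕ} (φ : (Fin j → Fin N) → ℝ) (x0 : Fin j → Fin N)
    (hx0 : Function.Injective x0) (S : Finset (Fin j)) :
    0 ≤ ∑ σ ∈ paG S, paB φ x0 (x0 ∘ σ) := by
  obtain ⟨A, hA⟩ : ∃ A : (Fin j → Fin N) → ℝ, A = fun z => ∑ σ ∈ paG S, φ (z ∘ σ) := ⟨_, rfl⟩
  have h1 : ∑ σ ∈ paG S, paB φ x0 (x0 ∘ σ) =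
      ∑ g : Equiv.Perm (Fin N), φ (g ∘ x0) * A (g ∘ x0) := by
    unfold paB
    rw [Finset.sum_comm]
    apply Finset.sum_congr rfl
    intro g _
    rw [hA, Finset.mul_sum]
    rfl
  have hAinv : ∀ τ ∈ paG S, ∀ z, A (z ∘ τ) = A z := by
    intro τ hτ z
    rw [hA]
    exact paG_sum_mul S τ hτ (fun σ => φ (z ∘ σ))
  have h2 : ∀ τ ∈ paG S, ∑ g : Equiv.Perm (Fin N), φ (g ∘ x0) * A (g ∘ x0) =
      ∑ g : Equiv.Perm (Fin N), φ ((g ∘ x0) ∘ τ) * A (g ∘ x0) := by
    intro τ hτ
    obtain ⟨h, hh⟩ := pa_exists_perm x0 (x0 ∘ τ) hx0 (hx0.comp τ.injective)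
    rw [← Equiv.sum_comp (Equiv.mulRight h)
      (fun g : Equiv.Perm (Fin N) => φ (g ∘ x0) * A (g ∘ x0))]
    apply Finset.sum_congr rfl
    intro g _
    have h3 : (⇑((Equiv.mulRight h) g) : Fin N → Fin N) ∘ x0 = (g ∘ x0) ∘ τ := by
      ext1 i
      simp [hh]
    rw [h3, hAinv τ hτ]
  have h3 : ((paG S).card : ℝ) * ∑ g : Equiv.Perm (Fin N), φ (g ∘ x0) * A (g ∘ x0) =
      ∑ g : Equiv.Perm (Fin N), A (g ∘ x0) ^ 2 := by
    rw [← nsmul_eq_mul, ← Finset.sum_const, Finset.sum_congr rfl h2, Finset.sum_comm]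
    apply Finset.sum_congr rfl
    intro g _
    rw [← Finset.sum_mul, pow_two]
    congr 1
    rw [hA]
  have hcard : 0 < ((paG S).card : ℝ) := by
    rw [Nat.cast_pos, Finset.card_pos]
    exact ⟨1, by simp [paG]⟩
  rw [h1]
  have h4 : 0 ≤ ((paG S).card : ℝ) * ∑ g : Equiv.Perm (Fin N), φ (g ∘ x0) * A (g ∘ x0) := by
    rw [h3]
    exact Finset.sum_nonneg (fun g _ => sq_nonneg _)
  exact nonneg_of_mul_nonneg_right h4 hcard

/-- mixing two tuples -/
def pmix {N j : ℕ} (S : Finset (Fin j)) (x x' : Fin j → Fin N) : Fin j → Fin N :=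
  fun i => if i ∈ S then x' i else x i

lemma pa_outside {N j : ℕ} (φ : (Fin j → Fin N) → ℝ) (hφ : φ ∈ PureFn N j)
    (x0 x0' : Fin j → Fin N) (hinj : Function.Injective (Sum.elim x0 x0')) (S : Finset (Fin j)) :
    ∃ c : ℕ, 0 < c ∧
      ∑ y ∈ Fintype.piFinset (paT x0 (Finset.univ.image x0) S ∅), paB φ x0 y =
        c * paB φ x0 (pmix S x0 x0') := by
  classical
  obtain ⟨Y, hY⟩ : ∃ Y, Y = (Fintype.piFinset (paT x0 (Finset.univ.image x0) S ∅)).filter
      (fun y => Function.Injective y) := ⟨_, rfl⟩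
  have hx0 : Function.Injective x0 := by
    intro a b hab
    have := @hinj (Sum.inl a) (Sum.inl b) hab
    exact Sum.inl_injective this
  have hx0' : Function.Injective x0' := by
    intro a b hab
    have := @hinj (Sum.inr a) (Sum.inr b) hab
    exact Sum.inr_injective this
  have hne : ∀ a b, x0 a ≠ x0' b := by
    intro a b hab
    have := @hinj (Sum.inl a) (Sum.inr b) hab
    exact absurd this (by simp)
  have hmix_inj : Function.Injective (pmix S x0 x0') := by
    intro a b hab
    unfold pmix at hab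
    split_ifs at hab with h1 h2 h2
    · exact hx0' hab
    · exact absurd hab.symm (hne _ _)
    · exact absurd hab (hne _ _)
    · exact hx0 hab
  have hmem : pmix S x0 x0' ∈ Y := by
    rw [hY, Finset.mem_filter, Fintype.mem_piFinset]
    refine ⟨fun k => ?_, hmix_inj⟩
    unfold paT pmix
    by_cases hk : k ∈ S
    · rw [if_pos hk, if_pos hk, Finset.mem_compl, Finset.mem_image]
      rintro ⟨a, _, ha⟩
      exact hne a k ha
    · rw [if_neg hk, if_neg hk]
      simp
  refine ⟨Y.card, Finset.card_pos.2 ⟨_, hmem⟩, ?_⟩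
  rw [← nsmul_eq_mul, ← Finset.sum_const]
  symm
  apply Finset.sum_subset_zero_on_sdiff
  · rw [hY]; exact Finset.filter_subset _ _
  · intro y hy
    rw [Finset.mem_sdiff, hY, Finset.mem_filter, not_and] at hy
    exact paB_noninj φ hφ x0 y (hy.2 hy.1)
  · intro y hy
    rw [hY, Finset.mem_filter, Fintype.mem_piFinset] at hy
    obtain ⟨hy1, hy2⟩ := hy
    -- permutation fixing `x0` and mapping `pmix` to `y`
    have hyS : ∀ k ∈ S, ∀ a, y k ≠ x0 a := by
      intro k hk a ha
      have := hy1 k
      unfold paT at this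
      rw [if_pos hk, Finset.mem_compl] at this
      exact this (Finset.mem_image.2 ⟨a, Finset.mem_univ _, ha.symm⟩)
    have hyN : ∀ k, k ∉ S → y k = x0 k := by
      intro k hk
      have := hy1 k
      unfold paT at this
      rw [if_neg hk] at this
      simpa using this
    obtain ⟨h, hh⟩ := pa_exists_perm (ι := Fin j ⊕ {k // k ∈ S})
      (Sum.elim x0 (fun k => x0' k.1)) (Sum.elim x0 (fun k => y k.1))
      (by
        rintro (a | a) (b | b) hab
        · exact congrArg _ (hx0 hab)
        · exact absurd hab (hne _ _)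
        · exact absurd hab.symm (hne _ _)
        · exact congrArg _ (Subtype.ext (hx0' hab)))
      (by
        rintro (a | a) (b | b) hab
        · exact congrArg _ (hx0 hab)
        · exact absurd hab.symm (hyS _ b.2 _)
        · exact absurd hab (hyS _ a.2 _)
        · exact congrArg _ (Subtype.ext (hy2 hab)))
    have hfix : ∀ i, h (x0 i) = x0 i := fun i => hh (Sum.inl i)
    have hcomp : y = h ∘ pmix S x0 x0' := by
      ext1 k
      unfold pmix
      rw [Function.comp_apply]
      by_cases hk : k ∈ S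
      · rw [if_pos hk]
        exact (hh (Sum.inr ⟨k, hk⟩)).symm
      · rw [if_neg hk, hfix, hyN k hk]
    rw [hcomp, paB_comp φ x0 _ h hfix]

lemma pa_inside {N j : ℕ} (φ : (Fin j → Fin N) → ℝ) (hφ : φ ∈ PureFn N j)
    (x0 : Fin j → Fin N) (hx0 : Function.Injective x0) (S : Finset (Fin j)) :
    ∑ y ∈ Fintype.piFinset (paT x0 (Finset.univ.image x0) ∅ S), paB φ x0 y =
      ∑ σ ∈ paG S, paB φ x0 (x0 ∘ σ) := by
  classical
  have hinj : ∀ σ ∈ paG S, ∀ τ ∈ paG S, x0 ∘ σ = x0 ∘ τ → σ = τ := by
    intro σ _ τ _ h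
    ext1 i
    exact hx0 (congrFun h i)
  have h1 : ∑ σ ∈ paG S, paB φ x0 (x0 ∘ σ) =
      ∑ y ∈ (paG S).image (fun σ : Equiv.Perm (Fin j) => x0 ∘ σ), paB φ x0 y := by
    rw [Finset.sum_image]
    intro σ hσ τ hτ h
    exact hinj σ hσ τ hτ h
  rw [h1]
  symm
  apply Finset.sum_subset_zero_on_sdiff
  · intro y hy
    obtain ⟨σ, hσ, rfl⟩ := Finset.mem_image.1 hy
    have hσ' : ∀ i, i ∉ S → σ i = i := by simpa [paG] using hσ
    rw [Fintype.mem_piFinset]
    intro k
    unfold paT
    by_cases hk : k ∈ S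
    · rw [if_neg (Finset.notMem_empty k), if_pos hk]
      exact Finset.mem_image.2 ⟨σ k, Finset.mem_univ _, rfl⟩
    · rw [if_neg (Finset.notMem_empty k), if_neg hk]
      simp [hσ' k hk]
  · intro y hy
    rw [Finset.mem_sdiff] at hy
    obtain ⟨hy1, hy2⟩ := hy
    apply paB_noninj φ hφ
    intro hyi
    apply hy2
    rw [Fintype.mem_piFinset] at hy1
    have hN : ∀ k, k ∉ S → y k = x0 k := by
      intro k hk
      have := hy1 k
      unfold paT at this
      rw [if_neg (Finset.notMem_empty k), if_neg hk] at this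
      simpa using this
    have hex : ∀ k, ∃ a, x0 a = y k := by
      intro k
      by_cases hk : k ∈ S
      · have := hy1 k
        unfold paT at this
        rw [if_neg (Finset.notMem_empty k), if_pos hk, Finset.mem_image] at this
        obtain ⟨a, _, ha⟩ := this
        exact ⟨a, ha⟩
      · exact ⟨k, (hN k hk).symm⟩
    choose a ha using hex
    have hai : Function.Injective a := by
      intro k l hkl
      apply hyi
      rw [← ha k, ← ha l, hkl]
    have hab : Function.Bijective a := Finite.injective_iff_bijective.1 hai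
    refine Finset.mem_image.2 ⟨Equiv.ofBijective a hab, ?_, ?_⟩
    · simp only [paG, Finset.mem_filter, Finset.mem_univ, true_and, Equiv.ofBijective_apply]
      intro i hi
      apply hx0
      rw [ha, hN i hi]
    · ext1 k
      simp [ha]
  · intro y _; rfl

lemma pa_term_nonneg {N j : ℕ} (φ : (Fin j → Fin N) → ℝ) (hφ : φ ∈ PureFn N j)
    (x0 x0' : Fin j → Fin N) (hinj : Function.Injective (Sum.elim x0 x0')) (S : Finset (Fin j)) :
    0 ≤ (-1) ^ S.card * paB φ x0 (pmix S x0 x0') := by
  have hx0 : Function.Injective x0 := by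
    intro a b hab
    have := @hinj (Sum.inl a) (Sum.inl b) hab
    exact Sum.inl_injective this
  obtain ⟨c, hc, h1⟩ := pa_outside φ hφ x0 x0' hinj S
  have h2 := pa_sum_flip (paB φ x0) (paB_pure φ hφ x0) x0 (Finset.univ.image x0) S ∅
    (Finset.disjoint_empty_right _)
  rw [Finset.union_empty, h1, pa_inside φ hφ x0 hx0 S] at h2
  have h3 := paB_sum_nonneg φ x0 hx0 S
  have hc' : (0 : ℝ) < c := Nat.cast_pos.2 hc
  have h4 : (c : ℝ) * ((-1) ^ S.card * paB φ x0 (pmix S x0 x0')) =
      ∑ σ ∈ paG S, paB φ x0 (x0 ∘ σ) := by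
    calc (c : ℝ) * ((-1) ^ S.card * paB φ x0 (pmix S x0 x0')) =
        (-1) ^ S.card * (c * paB φ x0 (pmix S x0 x0')) := by ring
      _ = ((-1) ^ S.card * (-1) ^ S.card) * ∑ σ ∈ paG S, paB φ x0 (x0 ∘ σ) := by rw [h2]; ring
      _ = _ := by rw [← mul_pow]; norm_num
  rw [← h4] at h3
  exact nonneg_of_mul_nonneg_right h3 hc'

/-- C10a: key lemma. -/
theorem pure_alt_zero {N j : ℕ} (hN : 2 * j ≤ N) (φ : (Fin j → Fin N) → ℝ) (hφ : φ ∈ PureFn N j)
    (h : ∀ x x' : Fin j → Fin N, Function.Injective (Sum.elim x x') →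
      ∑ S : Finset (Fin j), (-1 : ℝ) ^ S.card * φ (fun i => if i ∈ S then x' i else x i) = 0) :
    φ = 0 := by
  classical
  ext x0
  rw [Pi.zero_apply]
  by_cases hx0 : Function.Injective x0
  swap
  · exact hφ.1 x0 hx0
  -- a disjoint injective tuple
  obtain ⟨x0', hinj⟩ : ∃ x0' : Fin j → Fin N, Function.Injective (Sum.elim x0 x0') := by
    obtain ⟨h0, hh0⟩ := pa_exists_perm (N := N) (ι := Fin j)
      (fun i => ⟨i, by omega⟩) x0 (fun a b hab => by
        have := congrArg Fin.val hab
        exact Fin.ext this) hx0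
    refine ⟨fun i => h0 ⟨j + i, by omega⟩, ?_⟩
    rintro (a | a) (b | b) hab
    · exact congrArg _ (hx0 hab)
    · exfalso
      simp only [Sum.elim_inl, Sum.elim_inr] at hab
      rw [← hh0 a] at hab
      have := congrArg Fin.val (h0.injective hab)
      simp only at this
      omega
    · exfalso
      simp only [Sum.elim_inl, Sum.elim_inr] at hab
      rw [← hh0 b] at hab
      have := congrArg Fin.val (h0.injective hab)
      simp only at this
      omega
    · simp only [Sum.elim_inr] at hab
      have := congrArg Fin.val (h0.injective hab)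
      simp only at this
      exact congrArg _ (Fin.ext (by omega))
  have hsum : ∑ S : Finset (Fin j), (-1 : ℝ) ^ S.card * paB φ x0 (pmix S x0 x0') = 0 := by
    have h1 : ∀ g : Equiv.Perm (Fin N), φ (g ∘ x0) *
        ∑ S : Finset (Fin j), (-1 : ℝ) ^ S.card * φ (g ∘ pmix S x0 x0') = 0 := by
      intro g
      have h2 := h (g ∘ x0) (g ∘ x0') (by
        rw [← Sum.comp_elim]
        exact g.injective.comp hinj)
      have h3 : ∀ S : Finset (Fin j), g ∘ pmix S x0 x0' =
          fun i => if i ∈ S then (g ∘ x0') i else (g ∘ x0) i := by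
        intro S
        ext1 i
        unfold pmix
        rw [Function.comp_apply]
        split_ifs <;> rfl
      rw [Finset.sum_congr rfl (fun S _ => by rw [h3 S]), h2, mul_zero]
    have h4 := Finset.sum_eq_zero (s := (Finset.univ : Finset (Equiv.Perm (Fin N))))
      (fun g _ => h1 g)
    rw [← h4]
    simp only [paB, Finset.mul_sum]
    rw [Finset.sum_comm]
    apply Finset.sum_congr rfl
    intro g _
    apply Finset.sum_congr rfl
    intro S _
    ring
  have h0 := (Finset.sum_eq_zero_iff_of_nonneg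
    (fun S _ => pa_term_nonneg φ hφ x0 x0' hinj S)).1 hsum ∅ (Finset.mem_univ _)
  rw [Finset.card_empty, pow_zero, one_mul] at h0
  have hmix : pmix ∅ x0 x0' = x0 := by
    ext1 i
    simp [pmix]
  rw [hmix] at h0
  unfold paB at h0
  have h5 := (Finset.sum_eq_zero_iff_of_nonneg
    (fun (g : Equiv.Perm (Fin N)) _ => mul_self_nonneg (φ (g ∘ x0)))).1 h0 1 (Finset.mem_univ _)
  have h6 := mul_self_eq_zero.1 h5
  simpa using h6

/-! ### C10b -/

lemma pf_swap_mix {N j : ℕ} (x x' : Fin j → Fin N) (hinj : Function.Injective (Sum.elim x x'))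
    (i : Fin j) (S : Finset (Fin j)) (hi : i ∉ S) :
    (Equiv.swap (x i) (x' i) : Fin N → Fin N) ∘ pmix S x x' = pmix (insert i S) x x' := by
  have hx0 : Function.Injective x := by
    intro a b hab
    have := @hinj (Sum.inl a) (Sum.inl b) hab
    exact Sum.inl_injective this
  have hx0' : Function.Injective x' := by
    intro a b hab
    have := @hinj (Sum.inr a) (Sum.inr b) hab
    exact Sum.inr_injective this
  have hne : ∀ a b, x a ≠ x' b := by
    intro a b hab
    have := @hinj (Sum.inl a) (Sum.inr b) hab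
    exact absurd this (by simp)
  ext1 k
  rw [Function.comp_apply]
  unfold pmix
  by_cases hk : k = i
  · subst hk
    rw [if_neg hi, if_pos (Finset.mem_insert_self _ _), Equiv.swap_apply_left]
  · by_cases hkS : k ∈ S
    · rw [if_pos hkS, if_pos (Finset.mem_insert_of_mem hkS), Equiv.swap_apply_of_ne_of_ne]
      · exact (hne _ _).symm
      · exact fun h => hk (hx0' h)
    · rw [if_neg hkS, if_neg (by simp [hk, hkS]), Equiv.swap_apply_of_ne_of_ne]
      · exact fun h => hk (hx0 h)
      · exact hne _ _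

lemma pf_exists_psi {N j : ℕ} (W : Submodule ℝ ((Fin j → Fin N) → ℝ))
    (hinv : ∀ g : Equiv.Perm (Fin N), ∀ φ ∈ W, (fun x => φ (g ∘ x)) ∈ W)
    (φ : (Fin j → Fin N) → ℝ) (hφ : φ ∈ W)
    (x x' : Fin j → Fin N) (hinj : Function.Injective (Sum.elim x x')) (T : Finset (Fin j)) :
    ∃ ψ ∈ W, (∀ i ∈ T, ∀ z : Fin j → Fin N,
        ψ ((Equiv.swap (x i) (x' i) : Fin N → Fin N) ∘ z) = - ψ z) ∧
      ∀ S, Disjoint S T → ψ (pmix S x x') =
        ∑ R ∈ T.powerset, (-1 : ℝ) ^ R.card * φ (pmix (S ∪ R) x x') := by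
  classical
  have hx0 : Function.Injective x := by
    intro a b hab
    have := @hinj (Sum.inl a) (Sum.inl b) hab
    exact Sum.inl_injective this
  have hx0' : Function.Injective x' := by
    intro a b hab
    have := @hinj (Sum.inr a) (Sum.inr b) hab
    exact Sum.inr_injective this
  have hne : ∀ a b, x a ≠ x' b := by
    intro a b hab
    have := @hinj (Sum.inl a) (Sum.inr b) hab
    exact absurd this (by simp)
  induction T using Finset.induction_on with
  | empty =>
    refine ⟨φ, hφ, by simp, fun S _ => by simp⟩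
  | insert i T hi ih =>
    obtain ⟨ψ, hψW, hψ1, hψ2⟩ := ih
    refine ⟨fun z => ψ z - ψ ((Equiv.swap (x i) (x' i) : Fin N → Fin N) ∘ z), ?_, ?_, ?_⟩
    · exact W.sub_mem hψW (hinv _ ψ hψW)
    · intro k hk z
      rcases Finset.mem_insert.1 hk with rfl | hk
      · have : (Equiv.swap (x k) (x' k) : Fin N → Fin N) ∘
            ((Equiv.swap (x k) (x' k) : Fin N → Fin N) ∘ z) = z := by
          ext1 l
          simp
        simp only [this]
        ring
      · have hki : k ≠ i := fun h => hi (h ▸ hk)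
        have hcomm : (Equiv.swap (x i) (x' i) : Fin N → Fin N) ∘
            ((Equiv.swap (x k) (x' k) : Fin N → Fin N) ∘ z) =
            (Equiv.swap (x k) (x' k) : Fin N → Fin N) ∘
            ((Equiv.swap (x i) (x' i) : Fin N → Fin N) ∘ z) := by
          have hd : Equiv.Perm.Disjoint (Equiv.swap (x i) (x' i)) (Equiv.swap (x k) (x' k)) := by
            intro v
            by_cases h1 : v = x i
            · right
              subst h1
              exact Equiv.swap_apply_of_ne_of_ne (fun h => hki (hx0 h).symm) (hne _ _)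
            · by_cases h2 : v = x' i
              · right
                subst h2
                exact Equiv.swap_apply_of_ne_of_ne (hne _ _).symm (fun h => hki (hx0' h).symm)
              · left
                exact Equiv.swap_apply_of_ne_of_ne h1 h2
          ext1 l
          have := congrArg (fun g : Equiv.Perm (Fin N) => g (z l)) hd.commute.eq
          simpa [Equiv.Perm.mul_apply] using this
        simp only [hcomm]
        rw [hψ1 k hk, hψ1 k hk]
        ring
    · intro S hS
      rw [Finset.disjoint_insert_right] at hS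
      simp only
      rw [pf_swap_mix x x' hinj i S hS.1, hψ2 S hS.2, hψ2 (insert i S) (by
        rw [Finset.disjoint_insert_left]; exact ⟨hi, hS.2⟩), Finset.sum_powerset_insert hi]
      rw [sub_eq_add_neg]
      congr 1
      rw [← Finset.sum_neg_distrib]
      apply Finset.sum_congr rfl
      intro R hR
      rw [Finset.mem_powerset] at hR
      rw [Finset.card_insert_of_notMem (fun h => hi (hR h)), Finset.insert_union,
        Finset.union_insert]
      ring

/-- C10b: dimension of invariant spaces of pure functions. -/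
theorem pure_finrank {N j : ℕ} (hj : 1 ≤ j) (hN : 2 * j ≤ N)
    (W : Submodule ℝ ((Fin j → Fin N) → ℝ)) (hW : W ≤ PureFn N j) (hne : W ≠ ⊥)
    (hinv : ∀ g : Equiv.Perm (Fin N), ∀ φ ∈ W, (fun x => φ (g ∘ x)) ∈ W) :
    ((N - j) / j) ^ j ≤ Module.finrank ℝ W := by
  classical
  obtain ⟨φ, hφW, hφ0⟩ := (Submodule.ne_bot_iff W).1 hne
  -- a pair of tuples with nonzero alternating sum
  obtain ⟨x, x', hinj, hsum⟩ : ∃ x x' : Fin j → Fin N, Function.Injective (Sum.elim x x') ∧
      ∑ S : Finset (Fin j), (-1 : ℝ) ^ S.card * φ (fun i => if i ∈ S then x' i else x i) ≠ 0 := by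
    by_contra hcon
    push Not at hcon
    exact hφ0 (pure_alt_zero hN φ (hW hφW) hcon)
  obtain ⟨ψ, hψW, hψ1, hψ2⟩ := pf_exists_psi W hinv φ hφW x x' hinj Finset.univ
  have hψx : ψ x ≠ 0 := by
    have h1 := hψ2 ∅ (Finset.disjoint_empty_left _)
    have h2 : pmix ∅ x x' = x := by ext1 i; simp [pmix]
    rw [h2] at h1
    rw [h1, Finset.powerset_univ]
    simp only [Finset.empty_union]
    exact hsum
  obtain ⟨m, hm⟩ : ∃ m, m = (N - j) / j := ⟨_, rfl⟩
  have hjm : j * m ≤ N - j := by rw [hm]; exact Nat.mul_div_le _ _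
  -- positions
  have hbound : ∀ (i : Fin j) (a : Fin m), j + (i : ℕ) * m + a < N := by
    intro i a
    have h1 : ((i : ℕ) + 1) * m ≤ j * m := Nat.mul_le_mul_right m i.2
    have h2 := a.2
    have h3 : ((i : ℕ) + 1) * m = i * m + m := by ring
    omega
  obtain ⟨P, hP⟩ : ∃ P : (Fin j → Fin m) → Fin j → Fin N,
      P = fun t i => ⟨j + (i : ℕ) * m + t i, hbound i (t i)⟩ := ⟨_, rfl⟩
  obtain ⟨b, hb⟩ : ∃ b : Fin j → Fin N, b = fun i => ⟨i, by omega⟩ := ⟨_, rfl⟩
  have hPval : ∀ t i, (P t i : ℕ) = j + (i : ℕ) * m + t i := by intro t i; rw [hP]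
  have hbval : ∀ i, (b i : ℕ) = i := by intro i; rw [hb]
  have hPP : ∀ t t' i k, P t i = P t' k → i = k ∧ t i = t' k := by
    intro t t' i k h
    have h1 : j + (i : ℕ) * m + t i = j + (k : ℕ) * m + t' k := by
      rw [← hPval, ← hPval, h]
    have h2 : (i : ℕ) * m + t i = (k : ℕ) * m + t' k := by omega
    have hm0 : 0 < m := lt_of_le_of_lt (Nat.zero_le _) (t i).2
    have h3 : (i : ℕ) = k := by
      have e1 : ((i : ℕ) * m + t i) / m = i := by
        rw [mul_comm, Nat.mul_add_div hm0, Nat.div_eq_of_lt (t i).2, add_zero]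
      have e2 : ((k : ℕ) * m + t' k) / m = k := by
        rw [mul_comm, Nat.mul_add_div hm0, Nat.div_eq_of_lt (t' k).2, add_zero]
      rw [← e1, ← e2, h2]
    refine ⟨Fin.ext h3, Fin.ext ?_⟩
    rw [h3] at h2
    omega
  have hbP : ∀ t i k, b i ≠ P t k := by
    intro t i k h
    have h1 : (i : ℕ) = j + (k : ℕ) * m + t k := by rw [← hPval, ← hbval, h]
    have := i.2
    omega
  have hbb : Function.Injective b := by
    intro i k h
    apply Fin.ext
    rw [← hbval, ← hbval, h]
  have hperm : ∀ t, ∃ g : Equiv.Perm (Fin N), (∀ i, g (b i) = x' i) ∧ ∀ i, g (P t i) = x i := by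
    intro t
    obtain ⟨g, hg⟩ := pa_exists_perm (ι := Fin j ⊕ Fin j) (Sum.elim b (P t)) (Sum.elim x' x)
      (by
        rintro (i | i) (k | k) h
        · exact congrArg _ (hbb h)
        · exact absurd h (hbP t _ _)
        · exact absurd h.symm (hbP t _ _)
        · exact congrArg _ (hPP t t i k h).1)
      (by
        rintro (i | i) (k | k) h
        · have := @hinj (Sum.inr i) (Sum.inr k) h
          exact congrArg _ (Sum.inr_injective this)
        · have := @hinj (Sum.inr i) (Sum.inl k) h
          exact absurd this (by simp)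
        · have := @hinj (Sum.inl i) (Sum.inr k) h
          exact absurd this (by simp)
        · have := @hinj (Sum.inl i) (Sum.inl k) h
          exact congrArg _ (Sum.inl_injective this))
    exact ⟨g, fun i => hg (Sum.inl i), fun i => hg (Sum.inr i)⟩
  choose g hg1 hg2 using hperm
  obtain ⟨F, hF⟩ : ∃ F : (Fin j → Fin m) → W,
      F = fun t => ⟨fun z => ψ (g t ∘ z), hinv (g t) ψ hψW⟩ := ⟨_, rfl⟩
  have hFval : ∀ t z, (F t : (Fin j → Fin N) → ℝ) z = ψ (g t ∘ z) := by intro t z; rw [hF]
  have hdiag : ∀ t, (F t : (Fin j → Fin N) → ℝ) (P t) = ψ x := by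
    intro t
    rw [hFval]
    congr 1
    ext1 i
    exact hg2 t i
  have hoff : ∀ t t', t ≠ t' → (F t : (Fin j → Fin N) → ℝ) (P t') = 0 := by
    intro t t' htt
    obtain ⟨i, hi⟩ := Function.ne_iff.1 htt
    rw [hFval]
    have h1 := hψ1 i (Finset.mem_univ _) (g t ∘ P t')
    have h2 : (Equiv.swap (x i) (x' i) : Fin N → Fin N) ∘ (g t ∘ P t') = g t ∘ P t' := by
      ext1 k
      rw [Function.comp_apply, Equiv.swap_apply_of_ne_of_ne]
      · intro h
        rw [Function.comp_apply, ← hg2 t i] at h
        have h3 := (g t).injective h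
        obtain ⟨h4, h5⟩ := hPP t' t k i h3
        subst h4
        exact hi h5.symm
      · intro h
        rw [Function.comp_apply, ← hg1 t i] at h
        have h3 := (g t).injective h
        exact hbP t' i k h3.symm
    rw [h2] at h1
    linarith
  have hli : LinearIndependent ℝ F := by
    rw [Fintype.linearIndependent_iff]
    intro c hc t
    have h1 := congrArg (fun w : W => (w : (Fin j → Fin N) → ℝ) (P t)) hc
    simp only [Submodule.coe_sum, Submodule.coe_smul, Finset.sum_apply, Pi.smul_apply,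
      smul_eq_mul, Submodule.coe_zero, Pi.zero_apply] at h1
    rw [Finset.sum_eq_single t] at h1
    · rw [hdiag] at h1
      exact (mul_eq_zero.1 h1).resolve_right hψx
    · intro t' _ ht'
      rw [hoff t' t ht', mul_zero]
    · intro h; exact absurd (Finset.mem_univ _) h
  have h1 := hli.fintype_card_le_finrank
  rw [Fintype.card_fun, Fintype.card_fin, Fintype.card_fin] at h1
  rw [← hm]
  exact h1

end Crest.Agent.Thorp
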