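import Crest.Agent.Lib.Row155.Defs2
/-!
Row 155, chunk C11a: random transpositions.
-/
set_option autoImplicit false
open Finset
open scoped BigOperators

namespace Crest.Agent.Thorp

theorem TL_abs {E : Type*} [NormedAddCommGroup E] [InnerProductSpace ℝ E] [FiniteDimensional ℝ E]
    (T : E →ₗ[ℝ] E) (hT : T.IsSymmetric) (c : ℝ)
    (h : ∀ (μ : ℝ) (e : E), e ≠ 0 → T e = μ • e → μ ≤ c) (v : E) :
    inner ℝ (T v) v ≤ c * inner ℝ v v := by
  have hn : Module.finrank ℝ E = Module.finrank ℝ E := rfl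
  set b := hT.eigenvectorBasis hn with hb
  have h1 : ∀ x y : E, ∑ i, inner ℝ x (b i) * inner ℝ (b i) y = inner ℝ x y :=
    fun x y => b.sum_inner_mul_inner x y
  rw [← h1 (T v) v, ← h1 v v, Finset.mul_sum]
  refine Finset.sum_le_sum fun i _ => ?_
  have h2 : T (b i) = (hT.eigenvalues hn i) • b i := by
    exact hT.apply_eigenvectorBasis hn i
  have h3 : inner ℝ (T v) (b i) = (hT.eigenvalues hn i) * inner ℝ v (b i) := by
    rw [hT v (b i), h2, inner_smul_right]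
  have h4 : hT.eigenvalues hn i ≤ c := by
    refine h _ (b i) ?_ h2
    intro h0
    have := b.norm_eq_one i
    rw [h0] at this
    simp at this
  rw [h3, mul_assoc]
  refine mul_le_mul_of_nonneg_right h4 ?_
  rw [real_inner_comm (b i) v]
  exact mul_self_nonneg _

/-- spectral lemma -/
theorem TL_spec {ι : Type*} [Fintype ι] (T : (ι → ℝ) →ₗ[ℝ] (ι → ℝ))
    (hT : ∀ f g : ι → ℝ, ∑ i, T f i * g i = ∑ i, f i * T g i)
    (W : Submodule ℝ (ι → ℝ)) (hW : ∀ f ∈ W, T f ∈ W) (c : ℝ)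
    (h : ∀ (μ : ℝ), ∀ e ∈ W, e ≠ 0 → T e = μ • e → μ ≤ c) (f : ι → ℝ) (hf : f ∈ W) :
    ∑ i, f i * T f i ≤ c * ∑ i, f i ^ 2 := by
  let L : (ι → ℝ) ≃ₗ[ℝ] EuclideanSpace ℝ ι := (WithLp.linearEquiv 2 ℝ (ι → ℝ)).symm
  have hin : ∀ x y : ι → ℝ, inner ℝ (L x) (L y) = ∑ i, x i * y i := by
    intro x y
    simp [L, PiLp.inner_apply, mul_comm]
  let T0 : EuclideanSpace ℝ ι →ₗ[ℝ] EuclideanSpace ℝ ι := L.toLinearMap ∘ₗ T ∘ₗ L.symm.toLinearMap
  let W' : Submodule ℝ (EuclideanSpace ℝ ι) := W.map L.toLinearMap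
  have hW' : ∀ x ∈ W', T0 x ∈ W' := by
    rintro x ⟨y, hy, rfl⟩
    refine ⟨T y, hW y hy, ?_⟩
    simp [T0]
  let T1 : W' →ₗ[ℝ] W' := T0.restrict hW'
  have hsymm : T1.IsSymmetric := by
    rintro ⟨x, ⟨y, hy, rfl⟩⟩ ⟨x', ⟨y', hy', rfl⟩⟩
    have e1 : inner ℝ (T1 ⟨L.toLinearMap y, ⟨y, hy, rfl⟩⟩) (⟨L.toLinearMap y', ⟨y', hy', rfl⟩⟩ : W') =
        inner ℝ (L (T y)) (L y') := by
      simp [T1, T0, LinearMap.restrict_apply]
    have e2 : inner ℝ (⟨L.toLinearMap y, ⟨y, hy, rfl⟩⟩ : W') (T1 ⟨L.toLinearMap y', ⟨y', hy', rfl⟩⟩) =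
        inner ℝ (L y) (L (T y')) := by
      simp [T1, T0, LinearMap.restrict_apply]
    rw [e1, e2, hin, hin]
    exact hT y y'
  have key := TL_abs T1 hsymm c (by
    rintro μ ⟨x, ⟨y, hy, rfl⟩⟩ hne he
    refine h μ y hy ?_ ?_
    · rintro rfl
      apply hne
      simp
    · have h1 := congrArg (fun z : W' => (z : EuclideanSpace ℝ ι)) he
      simp only [T1, LinearMap.restrict_apply, T0] at h1
      have h2 : L (T y) = L (μ • y) := by simpa using h1
      exact L.injective h2) ⟨L f, ⟨f, hf, rfl⟩⟩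
  have e1 : inner ℝ (T1 ⟨L f, ⟨f, hf, rfl⟩⟩) (⟨L f, ⟨f, hf, rfl⟩⟩ : W') = inner ℝ (L (T f)) (L f) := by
    simp [T1, T0, LinearMap.restrict_apply]
  have e2 : inner ℝ (⟨L f, ⟨f, hf, rfl⟩⟩ : W') (⟨L f, ⟨f, hf, rfl⟩⟩ : W') = inner ℝ (L f) (L f) := by
    simp
  rw [e1, e2, hin, hin] at key
  calc ∑ i, f i * T f i = ∑ i, T f i * f i := by simp [mul_comm]
    _ ≤ c * ∑ i, f i * f i := key
    _ = c * ∑ i, f i ^ 2 := by simp [sq]

/-- left translation -/
def TLlt {N : ℕ} (s : Equiv.Perm (Fin N)) :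
    (Equiv.Perm (Fin N) → ℝ) →ₗ[ℝ] (Equiv.Perm (Fin N) → ℝ) where
  toFun f := fun g => f (s * g)
  map_add' _ _ := rfl
  map_smul' _ _ := rfl

theorem TLlt_apply {N : ℕ} (s : Equiv.Perm (Fin N)) (f : Equiv.Perm (Fin N) → ℝ)
    (g : Equiv.Perm (Fin N)) : TLlt s f g = f (s * g) := rfl

/-- the permutations supported in `Q` -/
def TLS {N : ℕ} (Q : Finset (Fin N)) : Finset (Equiv.Perm (Fin N)) :=
  Finset.univ.filter (fun s => ∀ i, i ∉ Q → s i = i)

theorem mem_TLS {N : ℕ} {Q : Finset (Fin N)} {s : Equiv.Perm (Fin N)} :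
    s ∈ TLS Q ↔ ∀ i, i ∉ Q → s i = i := by simp [TLS]

/-- symmetrizer -/
def TLU {N : ℕ} (Q : Finset (Fin N)) :
    (Equiv.Perm (Fin N) → ℝ) →ₗ[ℝ] (Equiv.Perm (Fin N) → ℝ) := ∑ s ∈ TLS Q, TLlt s

theorem TLU_apply {N : ℕ} (Q : Finset (Fin N)) (f : Equiv.Perm (Fin N) → ℝ)
    (g : Equiv.Perm (Fin N)) : TLU Q f g = ∑ s ∈ TLS Q, f (s * g) := by
  simp [TLU, TLlt_apply, LinearMap.sum_apply]

theorem TLU_apply' {N : ℕ} (Q : Finset (Fin N)) (f : Equiv.Perm (Fin N) → ℝ)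
    (g : Equiv.Perm (Fin N)) : TLU Q f g =
      ∑ s : Equiv.Perm (Fin N), if (∀ i, i ∉ Q → s i = i) then f (s * g) else 0 := by
  rw [TLU_apply, TLS, Finset.sum_filter]

/-- sum of transpositions -/
def TLT {N : ℕ} (P : Finset (Fin N)) :
    (Equiv.Perm (Fin N) → ℝ) →ₗ[ℝ] (Equiv.Perm (Fin N) → ℝ) :=
  ∑ a ∈ P, ∑ b ∈ P.erase a, TLlt (Equiv.swap a b)

theorem TLT_apply {N : ℕ} (P : Finset (Fin N)) (f : Equiv.Perm (Fin N) → ℝ)
    (g : Equiv.Perm (Fin N)) :
    TLT P f g = ∑ a ∈ P, ∑ b ∈ P.erase a, f (Equiv.swap a b * g) := by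
  simp [TLT, TLlt_apply, LinearMap.sum_apply]

/-- the functions killed by the symmetrizers of size `p+1` -/
def TLW {N : ℕ} (P : Finset (Fin N)) (p : ℕ) : Submodule ℝ (Equiv.Perm (Fin N) → ℝ) :=
  ⨅ Q : {Q : Finset (Fin N) // Q ⊆ P ∧ Q.card = p + 1}, LinearMap.ker (TLU Q.1)

theorem mem_TLW {N : ℕ} {P : Finset (Fin N)} {p : ℕ} {f : Equiv.Perm (Fin N) → ℝ} :
    f ∈ TLW P p ↔ ∀ Q ⊆ P, Q.card = p + 1 → TLU Q f = 0 := by
  simp only [TLW, Submodule.mem_iInf, LinearMap.mem_ker, Subtype.forall]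
  exact ⟨fun h Q h1 h2 => h Q ⟨h1, h2⟩, fun h Q h1 => h Q h1.1 h1.2⟩

theorem TL_swap_mem {N : ℕ} {Q : Finset (Fin N)} {a b : Fin N} (ha : a ∈ Q) (hb : b ∈ Q) :
    Equiv.swap a b ∈ TLS Q := by
  rw [mem_TLS]
  intro i hi
  exact Equiv.swap_apply_of_ne_of_ne (by rintro rfl; exact hi ha) (by rintro rfl; exact hi hb)

theorem TLS_mono {N : ℕ} {Q P : Finset (Fin N)} (h : Q ⊆ P) {s : Equiv.Perm (Fin N)}
    (hs : s ∈ TLS Q) : s ∈ TLS P := by
  rw [mem_TLS] at *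
  exact fun i hi => hs i (fun h' => hi (h h'))

theorem TLS_inv {N : ℕ} {P : Finset (Fin N)} {s : Equiv.Perm (Fin N)}
    (hs : s ∈ TLS P) : s⁻¹ ∈ TLS P := by
  rw [mem_TLS] at *
  intro i hi
  rw [Equiv.Perm.inv_eq_iff_eq, hs i hi]

theorem TLS_mul {N : ℕ} {P : Finset (Fin N)} {s t : Equiv.Perm (Fin N)}
    (hs : s ∈ TLS P) (ht : t ∈ TLS P) : s * t ∈ TLS P := by
  rw [mem_TLS] at *
  intro i hi
  rw [Equiv.Perm.mul_apply, ht i hi, hs i hi]

theorem TLS_map {N : ℕ} {P : Finset (Fin N)} {s : Equiv.Perm (Fin N)}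
    (hs : s ∈ TLS P) {i : Fin N} : s i ∈ P ↔ i ∈ P := by
  constructor
  · intro h
    by_contra h'
    rw [mem_TLS.1 hs i h'] at h
    exact h' h
  · intro h
    by_contra h'
    have h2 := mem_TLS.1 (TLS_inv hs) _ h'
    have h3 : s⁻¹ (s i) = i := by simp
    rw [h3] at h2
    rw [← h2] at h'
    exact h' h

theorem TLS_map_eq {N : ℕ} {P : Finset (Fin N)} {s : Equiv.Perm (Fin N)}
    (hs : s ∈ TLS P) : P.map s.toEmbedding = P := by
  ext i
  simp only [Finset.mem_map_equiv]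
  have := TLS_map (TLS_inv hs) (i := i)
  exact this

/-- conjugation of a symmetrizer -/
theorem TLU_lt {N : ℕ} (Q : Finset (Fin N)) (s : Equiv.Perm (Fin N))
    (f : Equiv.Perm (Fin N) → ℝ) (g : Equiv.Perm (Fin N)) :
    TLU Q (TLlt s f) g = TLU (Q.map s.toEmbedding) f (s * g) := by
  rw [TLU_apply, TLU_apply]
  refine Finset.sum_nbij' (fun t => s * t * s⁻¹) (fun t => s⁻¹ * t * s) ?_ ?_ ?_ ?_ ?_
  · intro t ht
    rw [mem_TLS] at *
    intro i hi
    have h1 : s⁻¹ i ∉ Q := by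
      intro h
      apply hi
      rw [Finset.mem_map_equiv]
      exact h
    simp only [Equiv.Perm.mul_apply]
    rw [ht _ h1]
    simp
  · intro t ht
    rw [mem_TLS] at *
    intro i hi
    have h1 : s i ∉ Q.map s.toEmbedding := by
      intro h
      apply hi
      rw [Finset.mem_map_equiv] at h
      simpa using h
    simp only [Equiv.Perm.mul_apply]
    rw [ht _ h1]
    simp
  · intro t _; group
  · intro t _; group
  · intro t _
    rw [TLlt_apply]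
    congr 1
    group

theorem TLW_lt {N : ℕ} {P : Finset (Fin N)} {p : ℕ} {f : Equiv.Perm (Fin N) → ℝ}
    (hf : f ∈ TLW P p) {s : Equiv.Perm (Fin N)} (hs : s ∈ TLS P) : TLlt s f ∈ TLW P p := by
  rw [mem_TLW] at *
  intro Q hQ hc
  ext g
  rw [TLU_lt, hf (Q.map s.toEmbedding) ?_ (by rw [Finset.card_map, hc])]
  · rfl
  · rw [← TLS_map_eq hs]
    exact Finset.map_subset_map.2 hQ

theorem TLT_lt {N : ℕ} (P : Finset (Fin N)) (f : Equiv.Perm (Fin N) → ℝ)
    {s : Equiv.Perm (Fin N)} (hs : s ∈ TLS P) : TLT P (TLlt s f) = TLlt s (TLT P f) := by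
  ext g
  rw [TLlt_apply, TLT_apply, TLT_apply]
  refine Finset.sum_nbij' (fun a => s a) (fun a => s⁻¹ a) ?_ ?_ ?_ ?_ ?_
  · intro a ha; exact (TLS_map hs).2 ha
  · intro a ha; exact (TLS_map (TLS_inv hs)).2 ha
  · intro a _; simp
  · intro a _; simp
  · intro a ha
    refine Finset.sum_nbij' (fun a => s a) (fun a => s⁻¹ a) ?_ ?_ ?_ ?_ ?_
    · intro b hb
      rw [Finset.mem_erase] at *
      exact ⟨fun h => hb.1 (s.injective h), (TLS_map hs).2 hb.2⟩
    · intro b hb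
      rw [Finset.mem_erase] at *
      exact ⟨fun h => hb.1 (by rw [← h]; simp), (TLS_map (TLS_inv hs)).2 hb.2⟩
    · intro b _; simp
    · intro b _; simp
    · intro b _
      rw [TLlt_apply, ← mul_assoc, ← mul_assoc, Equiv.mul_swap_eq_swap_mul]

theorem TLT_symm {N : ℕ} (P : Finset (Fin N)) (f g : Equiv.Perm (Fin N) → ℝ) :
    ∑ x, TLT P f x * g x = ∑ x, f x * TLT P g x := by
  simp only [TLT_apply, Finset.sum_mul, Finset.mul_sum]
  rw [Finset.sum_comm]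
  conv_rhs => rw [Finset.sum_comm]
  refine Finset.sum_congr rfl fun a _ => ?_
  rw [Finset.sum_comm]
  conv_rhs => rw [Finset.sum_comm]
  refine Finset.sum_congr rfl fun b _ => ?_
  refine Fintype.sum_equiv (Equiv.mulLeft (Equiv.swap a b)) _ _ fun x => ?_
  simp [← mul_assoc]

/-- coset decomposition -/
theorem TLU_insert {N : ℕ} {Q : Finset (Fin N)} {b : Fin N} (hb : b ∉ Q)
    (f : Equiv.Perm (Fin N) → ℝ) (g : Equiv.Perm (Fin N)) :
    TLU (insert b Q) f g = ∑ a ∈ insert b Q, TLU Q f (Equiv.swap a b * g) := by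
  simp only [TLU_apply]
  rw [← Finset.sum_product']
  refine Finset.sum_nbij' (fun t => (t⁻¹ b, t * Equiv.swap (t⁻¹ b) b))
    (fun q => q.2 * Equiv.swap q.1 b) ?_ ?_ ?_ ?_ ?_
  · intro t ht
    rw [Finset.mem_product]
    refine ⟨(TLS_map (TLS_inv ht)).2 (Finset.mem_insert_self b Q), ?_⟩
    simp only
    rw [mem_TLS]
    intro i hi
    rw [Equiv.Perm.mul_apply]
    by_cases h1 : i = b
    · subst h1
      rw [Equiv.swap_apply_right]
      simp
    · by_cases h2 : i = t⁻¹ b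
      · rw [← h2, Equiv.swap_apply_left]
        have h3 : t i = b := by rw [h2]; simp
        have h4 : i ∉ insert b Q := by simp [h1, hi]
        have h5 := mem_TLS.1 ht i h4
        exact absurd (h5.symm.trans h3) h1
      · rw [Equiv.swap_apply_of_ne_of_ne h2 h1]
        exact mem_TLS.1 ht i (by simp [h1, hi])
  · rintro ⟨a, s⟩ hq
    rw [Finset.mem_product] at hq
    exact TLS_mul (TLS_mono (Finset.subset_insert b Q) hq.2)
      (TL_swap_mem hq.1 (Finset.mem_insert_self b Q))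
  · intro t _
    simp [mul_assoc]
  · rintro ⟨a, s⟩ hq
    rw [Finset.mem_product] at hq
    have h1 : s b = b := mem_TLS.1 hq.2 b hb
    have h2 : s⁻¹ b = b := by rw [Equiv.Perm.inv_eq_iff_eq, h1]
    have h3 : (s * Equiv.swap a b)⁻¹ b = a := by
      rw [mul_inv_rev, Equiv.Perm.mul_apply, h2, Equiv.swap_inv, Equiv.swap_apply_right]
    simp only
    rw [h3, mul_assoc, Equiv.swap_mul_self, mul_one]
  · intro t _
    simp only
    rw [mul_assoc t, ← mul_assoc (Equiv.swap (t⁻¹ b) b), Equiv.swap_mul_self, one_mul]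

theorem TLU_swap {N : ℕ} {Q : Finset (Fin N)} {a b : Fin N} (ha : a ∈ Q) (hb : b ∈ Q)
    (f : Equiv.Perm (Fin N) → ℝ) (g : Equiv.Perm (Fin N)) :
    TLU Q f (Equiv.swap a b * g) = TLU Q f g := by
  rw [TLU_apply, TLU_apply]
  refine Finset.sum_nbij' (fun t => t * Equiv.swap a b) (fun t => t * Equiv.swap a b)
    ?_ ?_ ?_ ?_ ?_
  · intro t ht; exact TLS_mul ht (TL_swap_mem ha hb)
  · intro t ht; exact TLS_mul ht (TL_swap_mem ha hb)
  · intro t _; simp [mul_assoc]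
  · intro t _; simp [mul_assoc]
  · intro t _; simp [mul_assoc]

theorem TLU_TLT {N : ℕ} {P Q : Finset (Fin N)} (hQ : Q ⊆ P) (f : Equiv.Perm (Fin N) → ℝ) :
    TLT P (TLU Q f) = TLU Q (TLT P f) := by
  simp only [TLU, LinearMap.sum_apply, map_sum]
  exact Finset.sum_congr rfl fun s hs => TLT_lt P f (TLS_mono hQ hs)

theorem TLW_TLU {N : ℕ} {P Q : Finset (Fin N)} {p : ℕ} (hQ : Q ⊆ P)
    {f : Equiv.Perm (Fin N) → ℝ} (hf : f ∈ TLW P p) : TLU Q f ∈ TLW P p := by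
  simp only [TLU, LinearMap.sum_apply]
  exact Submodule.sum_mem _ fun s hs => TLW_lt hf (TLS_mono hQ hs)

theorem TLW_TLT {N : ℕ} {P : Finset (Fin N)} {p : ℕ}
    {f : Equiv.Perm (Fin N) → ℝ} (hf : f ∈ TLW P p) : TLT P f ∈ TLW P p := by
  simp only [TLT, LinearMap.sum_apply]
  exact Submodule.sum_mem _ fun a ha => Submodule.sum_mem _ fun b hb =>
    TLW_lt hf (TL_swap_mem ha (Finset.mem_of_mem_erase hb))

theorem TLW_mono {N : ℕ} {P P' : Finset (Fin N)} {p : ℕ} (h : P' ⊆ P)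
    {f : Equiv.Perm (Fin N) → ℝ} (hf : f ∈ TLW P p) : f ∈ TLW P' p := by
  rw [mem_TLW] at *
  exact fun Q hQ hc => hf Q (hQ.trans h) hc

/-- matrix coefficients of transpositions -/
def TLc {N : ℕ} (g : Equiv.Perm (Fin N) → ℝ) (a b : Fin N) : ℝ :=
  ∑ x, g x * g (Equiv.swap a b * x)

theorem TLT_ip {N : ℕ} (P : Finset (Fin N)) (g : Equiv.Perm (Fin N) → ℝ) :
    ∑ x, g x * TLT P g x = ∑ a ∈ P, ∑ b ∈ P.erase a, TLc g a b := by
  simp only [TLT_apply, TLc, Finset.mul_sum]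
  rw [Finset.sum_comm]
  refine Finset.sum_congr rfl fun a _ => ?_
  rw [Finset.sum_comm]

theorem TLc_comm {N : ℕ} (g : Equiv.Perm (Fin N) → ℝ) (a b : Fin N) :
    TLc g a b = TLc g b a := by
  rw [TLc, TLc, Equiv.swap_comm]

/-- splitting the double sum -/
theorem TL_split {N : ℕ} {P Q : Finset (Fin N)} (hQ : Q ⊆ P) (c : Fin N → Fin N → ℝ)
    (hc : ∀ a b, c a b = c b a) :
    ∑ a ∈ P, ∑ b ∈ P.erase a, c a b =
      ∑ a ∈ Q, ∑ b ∈ Q.erase a, c a b + 2 * ∑ b ∈ P \ Q, ∑ a ∈ Q, c a b +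
        ∑ a ∈ P \ Q, ∑ b ∈ (P \ Q).erase a, c a b := by
  have h1 : ∀ R : Finset (Fin N), ∑ a ∈ R, ∑ b ∈ R.erase a, c a b =
      ∑ a ∈ R, ∑ b ∈ R, c a b - ∑ a ∈ R, c a a := by
    intro R
    rw [← Finset.sum_sub_distrib]
    refine Finset.sum_congr rfl fun a ha => ?_
    rw [← Finset.add_sum_erase R _ ha]
    ring
  rw [h1, h1, h1]
  have h2 : ∀ F : Fin N → ℝ, ∑ a ∈ P, F a = ∑ a ∈ Q, F a + ∑ a ∈ P \ Q, F a := by
    intro F
    rw [add_comm]
    exact (Finset.sum_sdiff hQ).symm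
  rw [h2 (fun a => c a a), h2 (fun a => ∑ b ∈ P, c a b)]
  simp only [h2 (fun b => c _ b), Finset.sum_add_distrib]
  have h3 : ∑ a ∈ Q, ∑ b ∈ P \ Q, c a b = ∑ b ∈ P \ Q, ∑ a ∈ Q, c a b := Finset.sum_comm
  have h4 : ∑ a ∈ P \ Q, ∑ b ∈ Q, c a b = ∑ b ∈ P \ Q, ∑ a ∈ Q, c a b := by
    refine Finset.sum_congr rfl fun a _ => Finset.sum_congr rfl fun b _ => hc _ _
  rw [h3, h4]
  ring

theorem TL_main {N : ℕ} (p : ℕ) (hp : 1 ≤ p) : ∀ (n : ℕ) (P : Finset (Fin N)), P.card = n →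
    ∀ f ∈ TLW P p, ∑ x, f x * TLT P f x ≤ (P.card : ℝ) * (p - 1) * ∑ x, f x ^ 2 := by
  intro n
  induction n using Nat.strong_induction_on with
  | _ n ih =>
  intro P hP f hf
  refine TL_spec (TLT P) (TLT_symm P) (TLW P p) (fun f hf => TLW_TLT hf) _ ?_ f hf
  intro μ e he hne hμ
  -- the case of an empty set
  rcases P.eq_empty_or_nonempty with hP0 | ⟨a0, ha0⟩
  · subst hP0
    have h0 : μ • e = 0 := by
      rw [← hμ]
      ext x
      simp [TLT_apply]
    have h1 : μ = 0 := by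
      rcases smul_eq_zero.1 h0 with h | h
      · exact h
      · exact absurd h hne
    simp [h1]
  -- the maximal level
  let pred : ℕ → Prop := fun q => ∃ Q ⊆ P, Q.card = q ∧ ∃ e ∈ TLW P p, TLT P e = μ • e ∧
    TLU Q e ≠ 0
  have hp1 : pred 1 := by
    refine ⟨{a0}, by simpa using ha0, by simp, e, he, hμ, ?_⟩
    have h1 : TLU {a0} e = e := by
      ext x
      rw [TLU_apply]
      have h2 : TLS {a0} = {1} := by
        ext s
        rw [mem_TLS, Finset.mem_singleton]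
        constructor
        · intro h
          ext i
          by_cases hi : i = a0
          · subst hi
            by_contra hne
            have h3 : s (s i) = s i := h (s i) (by
              intro h4
              rw [Finset.mem_singleton] at h4
              exact hne (by rw [h4]; rfl))
            have h4 : s i = i := s.injective h3
            exact hne (by rw [h4]; rfl)
          · rw [h i (by simpa using hi)]; rfl
        · rintro rfl i _; rfl
      rw [h2]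
      simp
    rw [h1]
    exact hne
  have hpp : ¬ pred (p + 1) := by
    rintro ⟨Q, hQ, hQc, e', he', -, h2⟩
    exact h2 (mem_TLW.1 he' Q hQ hQc)
  obtain ⟨q, hq1, hqp, hq, hq'⟩ : ∃ q, 1 ≤ q ∧ q ≤ p ∧ pred q ∧ ¬ pred (q + 1) := by
    by_contra hcon
    push Not at hcon
    have : ∀ q, 1 ≤ q → q ≤ p + 1 → pred q := by
      intro q h1
      induction q, h1 using Nat.le_induction with
      | base => intro _; exact hp1
      | succ q hq ih => intro h2; exact hcon q hq (by omega) (ih (by omega))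
    exact hpp (this (p + 1) (by omega) le_rfl)
  obtain ⟨Q, hQ, hQc, e', he', hμ', hg0⟩ := hq
  set g := TLU Q e' with hg
  have hgW : g ∈ TLW P p := TLW_TLU hQ he'
  have hgT : TLT P g = μ • g := by rw [hg, TLU_TLT hQ, hμ', map_smul]
  have hpos : 0 < ∑ x, g x ^ 2 := by
    have h1 : ∃ x, g x ≠ 0 := by
      by_contra h
      push Not at h
      exact hg0 (funext h)
    obtain ⟨x, hx⟩ := h1
    exact Finset.sum_pos' (fun _ _ => sq_nonneg _) ⟨x, Finset.mem_univ _, by positivity⟩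
  have e1 : ∑ x, g x * TLT P g x = μ * ∑ x, g x ^ 2 := by
    rw [hgT, Finset.mul_sum]
    refine Finset.sum_congr rfl fun x _ => ?_
    simp only [Pi.smul_apply, smul_eq_mul]
    ring
  rw [TLT_ip, TL_split hQ _ (TLc_comm g)] at e1
  -- pairs inside `Q`
  have e2 : ∑ a ∈ Q, ∑ b ∈ Q.erase a, TLc g a b = (q : ℝ) * (q - 1) * ∑ x, g x ^ 2 := by
    have h1 : ∀ a ∈ Q, ∑ b ∈ Q.erase a, TLc g a b = ((q : ℝ) - 1) * ∑ x, g x ^ 2 := by
      intro a ha
      rw [Finset.sum_congr rfl (g := fun _ => ∑ x, g x ^ 2), Finset.sum_const,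
        Finset.card_erase_of_mem ha, hQc, nsmul_eq_mul, Nat.cast_sub hq1, Nat.cast_one]
      intro b hb
      rw [TLc]
      refine Finset.sum_congr rfl fun x _ => ?_
      rw [hg, TLU_swap ha (Finset.mem_of_mem_erase hb), sq]
    rw [Finset.sum_congr rfl h1, Finset.sum_const, hQc, nsmul_eq_mul]
    ring
  -- cross pairs
  have e3 : ∑ b ∈ P \ Q, ∑ a ∈ Q, TLc g a b = -((P.card : ℝ) - q) * ∑ x, g x ^ 2 := by
    have h1 : ∀ b ∈ P \ Q, ∑ a ∈ Q, TLc g a b = -∑ x, g x ^ 2 := by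
      intro b hb
      rw [Finset.mem_sdiff] at hb
      have h2 : TLU (insert b Q) e' = 0 := by
        by_contra hne'
        apply hq'
        exact ⟨insert b Q, Finset.insert_subset hb.1 hQ, by rw [Finset.card_insert_of_notMem hb.2, hQc],
          e', he', hμ', hne'⟩
      have h3 : ∀ x, g x + ∑ a ∈ Q, g (Equiv.swap a b * x) = 0 := by
        intro x
        have h4 := congrFun h2 x
        rw [TLU_insert hb.2, Finset.sum_insert hb.2, Equiv.swap_self] at h4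
        exact h4
      have h5 : ∑ a ∈ Q, TLc g a b = ∑ x, g x * ∑ a ∈ Q, g (Equiv.swap a b * x) := by
        simp only [TLc, Finset.mul_sum]
        rw [Finset.sum_comm]
      rw [h5, ← Finset.sum_neg_distrib]
      refine Finset.sum_congr rfl fun x _ => ?_
      have h6 : ∑ a ∈ Q, g (Equiv.swap a b * x) = - g x := by linarith [h3 x]
      rw [h6]
      ring
    rw [Finset.sum_congr rfl h1, Finset.sum_const, Finset.card_sdiff_of_subset hQ, hQc, nsmul_eq_mul,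
      Nat.cast_sub (by rw [← hQc]; exact Finset.card_le_card hQ)]
    ring
  -- pairs outside `Q`
  have hcard : (P \ Q).card = P.card - q := by rw [Finset.card_sdiff_of_subset hQ, hQc]
  have hqP : q ≤ P.card := by rw [← hQc]; exact Finset.card_le_card hQ
  have e4 : ∑ a ∈ P \ Q, ∑ b ∈ (P \ Q).erase a, TLc g a b ≤
      ((P.card : ℝ) - q) * (p - 1) * ∑ x, g x ^ 2 := by
    rw [← TLT_ip]
    have := ih (P \ Q).card (by omega) (P \ Q) rfl g (TLW_mono Finset.sdiff_subset hgW)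
    rw [hcard, Nat.cast_sub hqP] at this
    exact this
  rw [e2, e3] at e1
  have h7 : μ * ∑ x, g x ^ 2 ≤ ((P.card : ℝ) * (p - 1)) * ∑ x, g x ^ 2 := by
    rw [← e1]
    have h8 : (q : ℝ) ≤ p := by exact_mod_cast hqp
    have h9 : (q : ℝ) ≤ P.card := by exact_mod_cast hqP
    have h10 : (1 : ℝ) ≤ q := by exact_mod_cast hq1
    have h11 : ((q : ℝ) * (q - 1) + 2 * (-((P.card : ℝ) - q)) + ((P.card : ℝ) - q) * (p - 1)) ≤
        (P.card : ℝ) * (p - 1) := by nlinarith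
    have h12 := mul_le_mul_of_nonneg_right h11 hpos.le
    nlinarith [h12, e4]
  exact le_of_mul_le_mul_right h7 hpos

/-- C11a: random transpositions. -/
theorem transposition_level {N : ℕ} (p : ℕ) (hp : 1 ≤ p) (P : Finset (Fin N))
    (f : Equiv.Perm (Fin N) → ℝ)
    (hf : ∀ Q ⊆ P, Q.card = p + 1 → ∀ g : Equiv.Perm (Fin N),
      (∑ s : Equiv.Perm (Fin N), if (∀ i, i ∉ Q → s i = i) then f (s * g) else 0) = 0) :
    ∑ a ∈ P, ∑ b ∈ P.erase a, ∑ g, f g * f (Equiv.swap a b * g) ≤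
      (P.card : ℝ) * (p - 1) * ∑ g, f g ^ 2 := by
  have h1 : f ∈ TLW P p := by
    rw [mem_TLW]
    intro Q hQ hc
    ext g
    rw [TLU_apply', hf Q hQ hc g]
    rfl
  have h2 := TL_main p hp P.card P rfl f h1
  rw [TLT_ip] at h2
  exact h2

end Crest.Agent.Thorp
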