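import Crest.Agent.Lib.Row155.Defs2
import Crest.Agent.Lib.Row155.TLevel
/-!
Row 155 (Thorp shuffle), chunk C11b: `quad_rGood_high`.
-/
set_option autoImplicit false
open Finset
open scoped BigOperators

namespace Crest.Agent.Thorp
namespace QH

variable {N : ℕ}

/-- Average over a swap. -/
noncomputable def sw (a b : Fin N) (f : Equiv.Perm (Fin N) → ℝ) (g : Equiv.Perm (Fin N)) : ℝ :=
  (f g + f (Equiv.swap a b * g)) / 2

/-- Iterated average. -/
noncomputable def itF (a b : ℕ → Fin N) (f : Equiv.Perm (Fin N) → ℝ) :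
    ℕ → Equiv.Perm (Fin N) → ℝ
  | 0 => f
  | i + 1 => sw (a i) (b i) (itF a b f i)

theorem itF_congr {a b a' b' : ℕ → Fin N} (f : Equiv.Perm (Fin N) → ℝ) (i : ℕ)
    (h : ∀ k < i, a k = a' k ∧ b k = b' k) : itF a b f i = itF a' b' f i := by
  induction i with
  | zero => rfl
  | succ i ih =>
    simp only [itF]
    rw [ih (fun k hk => h k (hk.trans (Nat.lt_succ_self i))), (h i (Nat.lt_succ_self i)).1,
      (h i (Nat.lt_succ_self i)).2]

theorem norm_sw (a b : Fin N) (f : Equiv.Perm (Fin N) → ℝ) :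
    ∑ g, sw a b f g ^ 2 =
      (1 / 2) * ∑ g, f g ^ 2 + (1 / 2) * ∑ g, f g * f (Equiv.swap a b * g) := by
  have h : ∑ g, f (Equiv.swap a b * g) ^ 2 = ∑ g, f g ^ 2 :=
    Equiv.sum_comp (Equiv.mulLeft (Equiv.swap a b)) (fun g => f g ^ 2)
  have : ∑ g, sw a b f g ^ 2 = ∑ g, ((1 / 4) * f g ^ 2 + (1 / 4) * f (Equiv.swap a b * g) ^ 2 +
      (1 / 2) * (f g * f (Equiv.swap a b * g))) := by
    refine Finset.sum_congr rfl fun g _ => ?_
    unfold sw; ring
  rw [this, sum_add_distrib, sum_add_distrib, ← mul_sum, ← mul_sum, ← mul_sum, h]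
  ring

/-- The vanishing condition for `Q`. -/
def Van (Q : Finset (Fin N)) (f : Equiv.Perm (Fin N) → ℝ) : Prop :=
  ∀ g : Equiv.Perm (Fin N), (∑ s : Equiv.Perm (Fin N), if (∀ i, i ∉ Q → s i = i) then f (s * g)
    else 0) = 0

theorem sw_van {Q : Finset (Fin N)} {f : Equiv.Perm (Fin N) → ℝ} (hf : Van Q f) {a b : Fin N}
    (ha : a ∉ Q) (hb : b ∉ Q) : Van Q (sw a b f) := by
  intro g
  have h1 : (∑ s : Equiv.Perm (Fin N), if (∀ i, i ∉ Q → s i = i) then sw a b f (s * g) else 0) =
      (1 / 2) * (∑ s : Equiv.Perm (Fin N), if (∀ i, i ∉ Q → s i = i) then f (s * g) else 0) +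
      (1 / 2) * (∑ s : Equiv.Perm (Fin N), if (∀ i, i ∉ Q → s i = i) then
        f (s * (Equiv.swap a b * g)) else 0) := by
    rw [mul_sum, mul_sum, ← sum_add_distrib]
    refine Finset.sum_congr rfl fun s _ => ?_
    by_cases hs : ∀ i, i ∉ Q → s i = i
    · rw [if_pos hs, if_pos hs, if_pos hs]
      have : Equiv.swap a b * (s * g) = s * (Equiv.swap a b * g) := by
        rw [← mul_assoc, ← mul_assoc, Equiv.mul_swap_eq_swap_mul, hs a ha, hs b hb]
      unfold sw
      rw [this]; ring
    · rw [if_neg hs, if_neg hs, if_neg hs]; ring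
  rw [h1, hf g, hf]; ring

theorem itF_van {Q : Finset (Fin N)} {f : Equiv.Perm (Fin N) → ℝ} (hf : Van Q f)
    (a b : ℕ → Fin N) (i : ℕ) (h : ∀ k < i, a k ∉ Q ∧ b k ∉ Q) : Van Q (itF a b f i) := by
  induction i with
  | zero => exact hf
  | succ i ih =>
    exact sw_van (ih fun k hk => h k (hk.trans (Nat.lt_succ_self i)))
      (h i (Nat.lt_succ_self i)).1 (h i (Nat.lt_succ_self i)).2

theorem van_of_high {j : ℕ} {f : Equiv.Perm (Fin N) → ℝ} (hf : HighLevel j f)
    (Q : Finset (Fin N)) (hQ : Q.card + j = N) : Van Q f := by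
  intro g
  have hc : (Finset.univ \ Q).card = j := by
    rw [Finset.card_univ_sdiff, Fintype.card_fin]; omega
  -- enumerate the complement of `Q`
  let e : Fin j ≃ (Finset.univ \ Q : Finset (Fin N)) := ((Finset.univ \ Q).equivFinOfCardEq hc).symm
  let b : Fin j ↪ Fin N := e.toEmbedding.trans (Function.Embedding.subtype _)
  let a : Fin j ↪ Fin N := b.trans g.symm.toEmbedding
  have key := hf a b
  rw [← Equiv.sum_comp (Equiv.mulRight g)] at key
  refine Eq.trans ?_ key
  refine Finset.sum_congr rfl fun s _ => ?_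
  have hiff : (∀ i, i ∉ Q → s i = i) ↔ ∀ i, (Equiv.mulRight g s) (a i) = b i := by
    constructor
    · intro h i
      have hb : b i ∉ Q := by
        have := (e i).2
        simp only [Finset.mem_sdiff, Finset.mem_univ, true_and] at this
        exact this
      have : (Equiv.mulRight g s) (a i) = s (b i) := by
        simp [a, Equiv.Perm.mul_apply]
      rw [this, h _ hb]
    · intro h i hi
      have hi' : i ∈ (Finset.univ \ Q : Finset (Fin N)) := by simp [hi]
      have h2 := h (e.symm ⟨i, hi'⟩)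
      have hb : b (e.symm ⟨i, hi'⟩) = i := by
        simp [b]
      have h3 : (Equiv.mulRight g s) (a (e.symm ⟨i, hi'⟩)) = s (b (e.symm ⟨i, hi'⟩)) := by
        simp [a, Equiv.Perm.mul_apply]
      rw [h3, hb] at h2
      exact h2
  by_cases hs : ∀ i, i ∉ Q → s i = i
  · rw [if_pos hs, if_pos (hiff.1 hs)]; rfl
  · rw [if_neg hs, if_neg (fun h => hs (hiff.2 h))]

theorem high_zero {j : ℕ} {f : Equiv.Perm (Fin N) → ℝ} (hf : HighLevel j f) (hj : N ≤ j + 1)
    (hj' : j ≤ N) : f = 0 := by
  funext g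
  let a : Fin j ↪ Fin N := Fin.castLEEmb hj'
  have key := hf a (a.trans g.toEmbedding)
  rw [Finset.sum_eq_single g] at key
  · simpa using key
  · intro h _ hne
    rw [if_neg]
    intro hh
    apply hne
    -- `h` and `g` agree at all but at most one point
    have hag : ∀ i : Fin N, (i : ℕ) < j → h i = g i := by
      intro i hi
      have := hh ⟨i, hi⟩
      simpa [a] using this
    ext i
    by_cases hi : (i : ℕ) < j
    · rw [hag i hi]
    · -- the only remaining point
      have huniq : ∀ i' : Fin N, ¬ (i' : ℕ) < j → i' = i := by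
        intro i' hi'
        apply Fin.ext
        have := i.2; have := i'.2
        omega
      have h1 : h.symm (g i) = i := by
        by_contra hcon
        have h2 : ((h.symm (g i) : Fin N) : ℕ) < j := by
          by_contra h3
          exact hcon (huniq _ h3)
        have h4 := hag _ h2
        rw [Equiv.apply_symm_apply] at h4
        exact hcon (g.injective h4).symm
      have h5 : g i = h i := by
        have := congrArg h h1
        rwa [Equiv.apply_symm_apply] at this
      rw [h5]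
  · intro h; exact absurd (Finset.mem_univ _) h

/-- A permutation moving `u ↦ u'`, `v ↦ v'` and fixing everything outside `P`. -/
theorem exists_move {P : Finset (Fin N)} {u v u' v' : Fin N} (hu : u ∈ P) (hv : v ∈ P)
    (hu' : u' ∈ P) (hv' : v' ∈ P) (huv : u ≠ v) (huv' : u' ≠ v') :
    ∃ π : Equiv.Perm (Fin N), π u = u' ∧ π v = v' ∧ ∀ i, i ∉ P → π i = i := by
  have hc : Equiv.swap u u' v ∈ P := by
    rw [Equiv.swap_apply_def]
    split_ifs <;> assumption
  have hne : Equiv.swap u u' v ≠ u' := by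
    intro h
    have : Equiv.swap u u' v = Equiv.swap u u' u := by rw [h, Equiv.swap_apply_left]
    exact huv ((Equiv.swap u u').injective this).symm
  refine ⟨Equiv.swap (Equiv.swap u u' v) v' * Equiv.swap u u', ?_, ?_, ?_⟩
  · rw [Equiv.Perm.mul_apply, Equiv.swap_apply_left, Equiv.swap_apply_of_ne_of_ne hne.symm huv']
  · rw [Equiv.Perm.mul_apply, Equiv.swap_apply_left]
  · intro i hi
    have h1 : i ≠ u := fun h => hi (h ▸ hu)
    have h2 : i ≠ u' := fun h => hi (h ▸ hu')
    have h3 : i ≠ Equiv.swap u u' v := fun h => hi (h ▸ hc)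
    have h4 : i ≠ v' := fun h => hi (h ▸ hv')
    rw [Equiv.Perm.mul_apply, Equiv.swap_apply_of_ne_of_ne h1 h2,
      Equiv.swap_apply_of_ne_of_ne h3 h4]

/-- Labels used by the first `i` pairs. -/
def used (a b : ℕ → Fin N) (i : ℕ) : Finset (Fin N) :=
  (Finset.range i).image a ∪ (Finset.range i).image b

theorem card_used (a b : ℕ → Fin N) (i : ℕ) : (used a b i).card ≤ 2 * i := by
  unfold used
  refine (Finset.card_union_le _ _).trans ?_
  have h1 := Finset.card_image_le (s := Finset.range i) (f := a)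
  have h2 := Finset.card_image_le (s := Finset.range i) (f := b)
  rw [Finset.card_range] at h1 h2
  omega

/-- The statement of C11a (proved in another file). -/
def TL : Prop := ∀ {N : ℕ} (p : ℕ) (_ : 1 ≤ p) (P : Finset (Fin N))
    (f : Equiv.Perm (Fin N) → ℝ)
    (_ : ∀ Q ⊆ P, Q.card = p + 1 → ∀ g : Equiv.Perm (Fin N),
      (∑ s : Equiv.Perm (Fin N), if (∀ i, i ∉ Q → s i = i) then f (s * g) else 0) = 0),
    ∑ a ∈ P, ∑ b ∈ P.erase a, ∑ g, f g * f (Equiv.swap a b * g) ≤
      (P.card : ℝ) * (p - 1) * ∑ g, f g ^ 2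

theorem sum_off_diag (P : Finset (Fin N)) (c : ℝ) :
    ∑ u ∈ P, ∑ _v ∈ P.erase u, c = (P.card : ℝ) * ((P.card : ℝ) - 1) * c := by
  have : ∀ u ∈ P, ∑ _v ∈ P.erase u, c = ((P.card : ℝ) - 1) * c := by
    intro u hu
    rw [Finset.sum_const, Finset.card_erase_of_mem hu, nsmul_eq_mul,
      Nat.cast_sub (Finset.card_pos.2 ⟨u, hu⟩)]
    simp
  rw [Finset.sum_congr rfl this, Finset.sum_const, nsmul_eq_mul]; ring

/-- Averaged norm after adding one random pair. -/
theorem step (htl : TL) {j : ℕ} (hj : j + 2 ≤ N) {f : Equiv.Perm (Fin N) → ℝ}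
    (hf : HighLevel j f) (a b : ℕ → Fin N) (i : ℕ) (hi : 2 * i + 2 ≤ j) (hab : a i ≠ b i)
    (ha : a i ∉ used a b i) (hb : b i ∉ used a b i) :
    ∑ x : Equiv.Perm (Fin N), ∑ g, itF (x ∘ a) (x ∘ b) f (i + 1) g ^ 2 ≤
      (1 - ((j : ℝ) - 2 * i) / (2 * N)) *
        ∑ x : Equiv.Perm (Fin N), ∑ g, itF (x ∘ a) (x ∘ b) f i g ^ 2 := by
  classical
  set G : Equiv.Perm (Fin N) → Equiv.Perm (Fin N) → ℝ := fun x => itF (x ∘ a) (x ∘ b) f i with hG
  set P : Finset (Fin N) := Finset.univ \ used a b i with hP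
  have haP : a i ∈ P := by simp [hP, ha]
  have hbP : b i ∈ P := by simp [hP, hb]
  set S := ∑ x : Equiv.Perm (Fin N), ∑ g, G x g ^ 2 with hS
  have hS0 : 0 ≤ S := Finset.sum_nonneg fun _ _ => Finset.sum_nonneg fun _ _ => sq_nonneg _
  -- card of `P`
  have hPc : N ≤ P.card + 2 * i := by
    rw [hP, Finset.card_univ_sdiff, Fintype.card_fin]
    have := card_used a b i
    omega
  have hPN : P.card ≤ N := by
    have := Finset.card_le_univ P
    rwa [Fintype.card_fin] at this
  -- invariance
  have hinv : ∀ π : Equiv.Perm (Fin N), (∀ k, k ∉ P → π k = k) → ∀ x, G (x * π) = G x := by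
    intro π hπ x
    simp only [hG]
    apply itF_congr
    intro k hk
    have h1 : a k ∉ P := by
      simp only [hP, used, Finset.mem_sdiff, Finset.mem_univ, true_and, not_not,
        Finset.mem_union, Finset.mem_image, Finset.mem_range]
      exact Or.inl ⟨k, hk, rfl⟩
    have h2 : b k ∉ P := by
      simp only [hP, used, Finset.mem_sdiff, Finset.mem_univ, true_and, not_not,
        Finset.mem_union, Finset.mem_image, Finset.mem_range]
      exact Or.inr ⟨k, hk, rfl⟩
    simp only [Function.comp, Equiv.Perm.mul_apply]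
    rw [hπ _ h1, hπ _ h2]
    exact ⟨rfl, rfl⟩
  -- the cross term
  set X := ∑ x : Equiv.Perm (Fin N), ∑ g, G x g * G x (Equiv.swap (x (a i)) (x (b i)) * g) with hX
  have hXuv : ∀ u ∈ P, ∀ v ∈ P.erase u,
      ∑ x : Equiv.Perm (Fin N), ∑ g, G x g * G x (Equiv.swap (x u) (x v) * g) = X := by
    intro u hu v hv
    have hv' := Finset.mem_of_mem_erase hv
    have huv : u ≠ v := (Finset.ne_of_mem_erase hv).symm
    obtain ⟨π, h1, h2, h3⟩ := exists_move haP hbP hu hv' hab huv
    rw [hX]
    refine Eq.symm (Eq.trans (Equiv.sum_comp (Equiv.mulRight π) _).symm ?_)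
    refine Finset.sum_congr rfl fun x _ => ?_
    simp only [Equiv.coe_mulRight]
    rw [hinv π h3 x, Equiv.Perm.mul_apply, Equiv.Perm.mul_apply, h1, h2]
  have hXle : (P.card : ℝ) * ((P.card : ℝ) - 1) * X ≤ (P.card : ℝ) * ((N : ℝ) - j - 2) * S := by
    have h1 : (P.card : ℝ) * ((P.card : ℝ) - 1) * X =
        ∑ x : Equiv.Perm (Fin N), ∑ u ∈ P, ∑ v ∈ P.erase u,
          ∑ g, G x g * G x (Equiv.swap (x u) (x v) * g) := by
      rw [← sum_off_diag P X]
      symm
      rw [Finset.sum_comm]
      refine Finset.sum_congr rfl fun u hu => ?_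
      rw [Finset.sum_comm]
      exact Finset.sum_congr rfl fun v hv => hXuv u hu v hv
    rw [h1, hS, Finset.mul_sum]
    refine Finset.sum_le_sum fun x _ => ?_
    have hcard : (P.map x.toEmbedding).card = P.card := Finset.card_map _
    have h2 := htl (N - j - 1) (by omega) (P.map x.toEmbedding) (G x) (by
      intro Q hQ hQc
      have hvan : Van Q f := van_of_high hf Q (by omega)
      have : Van Q (G x) := by
        apply itF_van hvan
        intro k hk
        have aux : ∀ y : Fin N, y ∉ P → x y ∉ Q := by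
          intro y hy hxy
          have := hQ hxy
          rw [Finset.mem_map] at this
          obtain ⟨z, hz, hzx⟩ := this
          exact hy (x.injective hzx ▸ hz)
        constructor
        · apply aux
          simp only [hP, used, Finset.mem_sdiff, Finset.mem_univ, true_and, not_not,
            Finset.mem_union, Finset.mem_image, Finset.mem_range]
          exact Or.inl ⟨k, hk, rfl⟩
        · apply aux
          simp only [hP, used, Finset.mem_sdiff, Finset.mem_univ, true_and, not_not,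
            Finset.mem_union, Finset.mem_image, Finset.mem_range]
          exact Or.inr ⟨k, hk, rfl⟩
      exact this)
    rw [hcard] at h2
    have h3 : ∑ u ∈ P.map x.toEmbedding, ∑ v ∈ (P.map x.toEmbedding).erase u,
        ∑ g, G x g * G x (Equiv.swap u v * g) =
        ∑ u ∈ P, ∑ v ∈ P.erase u, ∑ g, G x g * G x (Equiv.swap (x u) (x v) * g) := by
      rw [Finset.sum_map]
      refine Finset.sum_congr rfl fun u hu => ?_
      have : (P.map x.toEmbedding).erase (x.toEmbedding u) = (P.erase u).map x.toEmbedding := by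
        rw [Finset.map_erase]
      rw [this, Finset.sum_map]
      rfl
    rw [h3] at h2
    have h4 : (((N - j - 1 : ℕ) : ℝ) - 1) = (N : ℝ) - j - 2 := by
      rw [Nat.cast_sub (by omega), Nat.cast_sub (by omega)]; push_cast; ring
    rw [h4] at h2
    exact h2
  have hPpos : (0 : ℝ) < P.card := by
    have : 0 < P.card := by omega
    exact_mod_cast this
  have hX1 : ((P.card : ℝ) - 1) * X ≤ ((N : ℝ) - j - 2) * S := by
    have : (P.card : ℝ) * (((P.card : ℝ) - 1) * X) ≤ (P.card : ℝ) * (((N : ℝ) - j - 2) * S) := by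
      linarith
    exact le_of_mul_le_mul_left this hPpos
  have hleft : ∑ x : Equiv.Perm (Fin N), ∑ g, itF (x ∘ a) (x ∘ b) f (i + 1) g ^ 2 =
      (1 / 2) * S + (1 / 2) * X := by
    rw [hS, hX, Finset.mul_sum, Finset.mul_sum, ← Finset.sum_add_distrib]
    refine Finset.sum_congr rfl fun x _ => ?_
    simp only [itF]
    rw [norm_sw]
    rfl
  rw [hleft]
  -- numerical part
  have hPc' : (N : ℝ) ≤ P.card + 2 * i := by exact_mod_cast hPc
  have hPN' : (P.card : ℝ) ≤ N := by exact_mod_cast hPN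
  have hi' : 2 * (i : ℝ) + 2 ≤ j := by exact_mod_cast hi
  have hj' : (j : ℝ) + 2 ≤ N := by exact_mod_cast hj
  have hN0 : (0 : ℝ) < N := by have : (0 : ℝ) ≤ j := Nat.cast_nonneg j; linarith
  have hi0 : (0 : ℝ) ≤ i := Nat.cast_nonneg i
  have hX2 : X ≤ (1 - ((j : ℝ) - 2 * i) / N) * S := by
    have hq : (0 : ℝ) < (P.card : ℝ) - 1 := by linarith
    have h5 : X ≤ (((N : ℝ) - j - 2) / ((P.card : ℝ) - 1)) * S := by
      rw [div_mul_eq_mul_div, le_div_iff₀ hq]
      linarith
    refine h5.trans (mul_le_mul_of_nonneg_right ?_ hS0)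
    rw [div_le_iff₀ hq]
    have h6 : (1 - ((j : ℝ) - 2 * i) / N) * ((P.card : ℝ) - 1) =
        (P.card : ℝ) - 1 - ((j : ℝ) - 2 * i) * (((P.card : ℝ) - 1) / N) := by ring
    rw [h6]
    have h7 : ((P.card : ℝ) - 1) / N ≤ 1 := by
      rw [div_le_one hN0]; linarith
    have h8 : ((j : ℝ) - 2 * i) * (((P.card : ℝ) - 1) / N) ≤ (j : ℝ) - 2 * i := by
      have : 0 ≤ (j : ℝ) - 2 * i := by linarith
      nlinarith
    linarith
  have h9 : (1 - ((j : ℝ) - 2 * i) / (2 * N)) * S =
      (1 / 2) * S + (1 / 2) * ((1 - ((j : ℝ) - 2 * i) / N) * S) := by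
    field_simp
    ring
  rw [h9]
  linarith

theorem iter (htl : TL) {j : ℕ} (hj : j + 2 ≤ N) {f : Equiv.Perm (Fin N) → ℝ}
    (hf : HighLevel j f) (a b : ℕ → Fin N) (t : ℕ) (ht : 2 * t ≤ j) (hab : ∀ i < t, a i ≠ b i)
    (ha : ∀ i < t, a i ∉ used a b i) (hb : ∀ i < t, b i ∉ used a b i) :
    ∑ x : Equiv.Perm (Fin N), ∑ g, itF (x ∘ a) (x ∘ b) f t g ^ 2 ≤
      Real.exp (-((t : ℝ) * ((j : ℝ) - t + 1) / (2 * N))) *
        (Fintype.card (Equiv.Perm (Fin N)) * ∑ g, f g ^ 2) := by
  induction t with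
  | zero => simp [itF]
  | succ i ih =>
    have h1 := ih (by omega) (fun k hk => hab k (by omega)) (fun k hk => ha k (by omega))
      (fun k hk => hb k (by omega))
    have h2 := step htl hj hf a b i (by omega) (hab i (by omega)) (ha i (by omega))
      (hb i (by omega))
    refine h2.trans ?_
    have hN0 : (0 : ℝ) < N := by
      have : 0 < N := by omega
      exact_mod_cast this
    have hi' : 2 * (i : ℝ) + 2 ≤ j := by exact_mod_cast (by omega : 2 * i + 2 ≤ j)
    have hj' : (j : ℝ) + 2 ≤ N := by exact_mod_cast hj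
    have hi0 : (0 : ℝ) ≤ i := Nat.cast_nonneg i
    have hfac0 : 0 ≤ 1 - ((j : ℝ) - 2 * i) / (2 * N) := by
      rw [sub_nonneg, div_le_one (by linarith)]
      linarith
    have hfac : 1 - ((j : ℝ) - 2 * i) / (2 * N) ≤ Real.exp (-(((j : ℝ) - 2 * i) / (2 * N))) := by
      have := Real.add_one_le_exp (-(((j : ℝ) - 2 * i) / (2 * N)))
      linarith
    have hS0 : 0 ≤ ∑ x : Equiv.Perm (Fin N), ∑ g, itF (x ∘ a) (x ∘ b) f i g ^ 2 :=
      Finset.sum_nonneg fun _ _ => Finset.sum_nonneg fun _ _ => sq_nonneg _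
    refine (mul_le_mul hfac h1 hS0 (Real.exp_pos _).le).trans (le_of_eq ?_)
    rw [← mul_assoc, ← Real.exp_add]
    congr 2
    push_cast
    field_simp
    ring

theorem iter' (htl : TL) {j : ℕ} (hj : j + 2 ≤ N) {f : Equiv.Perm (Fin N) → ℝ}
    (hf : HighLevel j f) (a b : ℕ → Fin N) (hab : ∀ i < j / 2, a i ≠ b i)
    (ha : ∀ i < j / 2, a i ∉ used a b i) (hb : ∀ i < j / 2, b i ∉ used a b i) :
    ∑ x : Equiv.Perm (Fin N), ∑ g, itF (x ∘ a) (x ∘ b) f (j / 2) g ^ 2 ≤
      Real.exp (-(((j : ℝ) ^ 2 - 1) / (8 * N))) *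
        (Fintype.card (Equiv.Perm (Fin N)) * ∑ g, f g ^ 2) := by
  refine (iter htl hj hf a b (j / 2) (by omega) hab ha hb).trans ?_
  refine mul_le_mul_of_nonneg_right ?_
    (mul_nonneg (Nat.cast_nonneg _) (Finset.sum_nonneg fun _ _ => sq_nonneg _))
  rw [Real.exp_le_exp, neg_le_neg_iff]
  have hN0 : (0 : ℝ) < N := by
    have : 0 < N := by omega
    exact_mod_cast this
  rw [div_le_div_iff₀ (by positivity) (by positivity)]
  obtain ⟨t, h | h⟩ := Nat.even_or_odd' j
  · have h1 : j / 2 = t := by omega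
    rw [h1, h]
    push_cast
    nlinarith [(Nat.cast_nonneg t : (0 : ℝ) ≤ t), mul_nonneg hN0.le (Nat.cast_nonneg t : (0 : ℝ) ≤ t)]
  · have h1 : j / 2 = t := by omega
    rw [h1, h]
    push_cast
    nlinarith [(Nat.cast_nonneg t : (0 : ℝ) ≤ t), mul_nonneg hN0.le (Nat.cast_nonneg t : (0 : ℝ) ≤ t)]

/-! ### The relative law -/

section rel

set_option linter.unusedSectionVars false

variable {Λ : Type*} [Fintype Λ] [DecidableEq Λ] {D : ℕ}

theorem relLaw_nonneg (L : Λ ↪ V D) (c : Coins D) (w : Equiv.Perm Λ) : 0 ≤ relLaw L c w := by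
  unfold relLaw
  refine Finset.expect_nonneg fun _ _ => ?_
  split_ifs <;> norm_num

theorem sum_relLaw_le (L : Λ ↪ V D) (c : Coins D) : ∑ w, relLaw L c w ≤ 1 := by
  unfold relLaw
  rw [← Finset.expect_sum_comm]
  refine (Finset.expect_le_expect (g := fun _ => (1 : ℝ)) fun c' _ => ?_).trans
    (le_of_eq (Finset.expect_const Finset.univ_nonempty _))
  rw [Finset.sum_ite, Finset.sum_const_zero, add_zero, Finset.sum_const, nsmul_eq_mul, mul_one]
  have : (Finset.univ.filter (fun w : Equiv.Perm Λ => ∀ i, pass D (combine D (rangeF L) c c') (L i)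
      = pass D c (L (w i)))).card ≤ 1 := by
    rw [Finset.card_le_one]
    intro w hw w' hw'
    rw [Finset.mem_filter] at hw hw'
    ext i
    have := (hw.2 i).symm.trans (hw'.2 i)
    exact L.injective ((pass D c).injective this)
  exact_mod_cast this

theorem rangeF_trans (x : Equiv.Perm Λ) (L : Λ ↪ V D) :
    rangeF (x.toEmbedding.trans L) = rangeF L := by
  ext p
  simp only [mem_rangeF]
  constructor
  · rintro ⟨i, hi⟩; exact ⟨x i, hi⟩
  · rintro ⟨i, hi⟩; exact ⟨x.symm i, by simpa using hi⟩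

theorem relLaw_trans (x : Equiv.Perm Λ) (L : Λ ↪ V D) (c : Coins D) (w : Equiv.Perm Λ) :
    relLaw (x.toEmbedding.trans L) c w = relLaw L c (x * w * x⁻¹) := by
  unfold relLaw
  rw [rangeF_trans]
  refine Finset.expect_congr rfl fun c' _ => ?_
  have : (∀ i, pass D (combine D (rangeF L) c c') ((x.toEmbedding.trans L) i) =
      pass D c ((x.toEmbedding.trans L) (w i))) ↔
      (∀ i, pass D (combine D (rangeF L) c c') (L i) = pass D c (L ((x * w * x⁻¹) i))) := by
    constructor
    · intro h i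
      have := h (x.symm i)
      simpa using this
    · intro h i
      have := h (x i)
      simpa using this
  by_cases h : ∀ i, pass D (combine D (rangeF L) c c') ((x.toEmbedding.trans L) i) =
      pass D c ((x.toEmbedding.trans L) (w i))
  · rw [if_pos h, if_pos (this.1 h)]
  · rw [if_neg h, if_neg (fun h' => h (this.2 h'))]

/-- Flip the coin of the last-layer switch `v`. -/
def flipC {d : ℕ} (v : V d) (c : Coins (d + 1)) : Coins (d + 1) :=
  Coins.mk c.sub (Function.update c.top v (!c.top v))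

theorem flipC_flipC {d : ℕ} (v : V d) (c : Coins (d + 1)) : flipC v (flipC v c) = c := by
  change Coins.mk c.sub (Function.update (Function.update c.top v (!c.top v)) v
    (!(Function.update c.top v (!c.top v)) v)) = c
  rw [Function.update_self, Function.update_idem, Bool.not_not, Function.update_eq_self]
  rfl

/-- Flip the outer bit of a position whose inner position is `v`. -/
def flipV {d : ℕ} (v : V d) (p : V (d + 1)) : V (d + 1) :=
  if tl p = v then cons (!hd p) (tl p) else p

theorem flipV_flipV {d : ℕ} (v : V d) (p : V (d + 1)) : flipV v (flipV v p) = p := by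
  unfold flipV
  by_cases h : tl p = v
  · simp [h]
    rw [← h]; rfl
  · simp [h]

theorem flipV_inj {d : ℕ} (v : V d) {p q : V (d + 1)} (h : flipV v p = flipV v q) : p = q := by
  rw [← flipV_flipV v p, h, flipV_flipV]

theorem pass_combine_flip {d : ℕ} (A : Finset (V (d + 1))) (c c' : Coins (d + 1)) (v : V d)
    (hv : both d A c v) (p : V (d + 1)) :
    pass (d + 1) (combine (d + 1) A c (flipC v c')) p =
      flipV v (pass (d + 1) (combine (d + 1) A c c') p) := by
  have hsub : ∀ h, (combine (d + 1) A c (flipC v c')).sub h = (combine (d + 1) A c c').sub h :=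
    fun h => rfl
  have htop : ∀ u, (combine (d + 1) A c (flipC v c')).top u =
      xor ((combine (d + 1) A c c').top u) (decide (u = v)) := by
    intro u
    change (if both d A c u then xor (c.top u) ((flipC v c').top u) else c.top u) =
      xor (if both d A c u then xor (c.top u) (c'.top u) else c.top u) (decide (u = v))
    by_cases hu : u = v
    · subst hu
      rw [if_pos hv, if_pos hv]
      have : (flipC u c').top u = !c'.top u := by
        change Function.update c'.top u (!c'.top u) u = _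
        rw [Function.update_self]
      rw [this]
      simp
    · have : (flipC v c').top u = c'.top u := by
        change Function.update c'.top v (!c'.top v) u = _
        rw [Function.update_of_ne hu]
      rw [this]
      simp [hu]
  rw [pass_succ_apply, pass_succ_apply, hsub, htop]
  unfold flipV
  by_cases h : (pass d ((combine (d + 1) A c c').sub (hd p))) (tl p) = v
  · simp [h]
  · simp [h]

theorem relLaw_swap {d : ℕ} (L : Λ ↪ V (d + 1)) (c : Coins (d + 1)) (v : V d)
    (hv : both d (rangeF L) c v) (α β : Λ) (hα : pass (d + 1) c (L α) = cons false v)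
    (hβ : pass (d + 1) c (L β) = cons true v) (w : Equiv.Perm Λ) :
    relLaw L c (Equiv.swap α β * w) = relLaw L c w := by
  unfold relLaw
  let e : Coins (d + 1) ≃ Coins (d + 1) :=
    ⟨flipC v, flipC v, flipC_flipC v, flipC_flipC v⟩
  refine Fintype.expect_equiv e _ _ fun c' => ?_
  have key : ∀ k : Λ, pass (d + 1) c (L (Equiv.swap α β k)) = flipV v (pass (d + 1) c (L k)) := by
    intro k
    by_cases h1 : k = α
    · subst h1
      rw [Equiv.swap_apply_left, hα, hβ]
      simp [flipV]
    · by_cases h2 : k = β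
      · subst h2
        rw [Equiv.swap_apply_right, hα, hβ]
        simp [flipV]
      · rw [Equiv.swap_apply_of_ne_of_ne h1 h2]
        have : tl (pass (d + 1) c (L k)) ≠ v := by
          intro h
          rcases Bool.eq_false_or_eq_true (hd (pass (d + 1) c (L k))) with h3 | h3
          · apply h2
            apply L.injective
            apply (pass (d + 1) c).injective
            rw [hβ]
            exact V_ext h3 h
          · apply h1
            apply L.injective
            apply (pass (d + 1) c).injective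
            rw [hα]
            exact V_ext h3 h
        unfold flipV
        rw [if_neg this]
  have hiff : (∀ i, pass (d + 1) (combine (d + 1) (rangeF L) c c') (L i) =
      pass (d + 1) c (L ((Equiv.swap α β * w) i))) ↔
      (∀ i, pass (d + 1) (combine (d + 1) (rangeF L) c (e c')) (L i) =
        pass (d + 1) c (L (w i))) := by
    refine forall_congr' fun i => ?_
    rw [Equiv.Perm.mul_apply, key]
    have h3 : pass (d + 1) (combine (d + 1) (rangeF L) c (e c')) (L i) =
      flipV v (pass (d + 1) (combine (d + 1) (rangeF L) c c') (L i)) :=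
      pass_combine_flip _ _ _ _ hv _
    rw [h3]
    constructor
    · intro h
      rw [h, flipV_flipV]
    · intro h
      rw [← h, flipV_flipV]
  by_cases h : ∀ i, pass (d + 1) (combine (d + 1) (rangeF L) c c') (L i) =
      pass (d + 1) c (L ((Equiv.swap α β * w) i))
  · rw [if_pos h, if_pos (hiff.1 h)]
  · rw [if_neg h, if_neg (fun h' => h (hiff.2 h'))]

theorem exists_pairs [Nonempty Λ] {d : ℕ} (L : Λ ↪ V (d + 1)) (c : Coins (d + 1)) (t : ℕ)
    (ht : t ≤ (Finset.univ.filter (fun v : V d => both d (rangeF L) c v)).card) :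
    ∃ (a b : ℕ → Λ) (v : ℕ → V d),
      (∀ k < t, both d (rangeF L) c (v k) ∧ pass (d + 1) c (L (a k)) = cons false (v k) ∧
        pass (d + 1) c (L (b k)) = cons true (v k)) ∧
      ∀ k < t, ∀ l < t, v k = v l → k = l := by
  classical
  set S := Finset.univ.filter (fun v : V d => both d (rangeF L) c v) with hS
  have hex : ∀ v ∈ S, ∀ e : Bool, ∃ i : Λ, pass (d + 1) c (L i) = cons e v := by
    intro v hv e
    rw [hS, Finset.mem_filter] at hv
    have hocc : occ d (rangeF L) c (xor e (c.top v)) v := by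
      rcases xor e (c.top v) with _ | _
      · exact hv.2.1
      · exact hv.2.2
    unfold occ at hocc
    rw [mem_rangeF] at hocc
    obtain ⟨i, hi⟩ := hocc
    refine ⟨i, ?_⟩
    rw [hi, pass_succ_apply]
    simp
  let en : Fin S.card ≃ S := S.equivFin.symm
  let v : ℕ → V d := fun k => if h : k < S.card then (en ⟨k, h⟩ : V d) else Classical.arbitrary _
  have hv : ∀ k < t, v k ∈ S := by
    intro k hk
    have h : k < S.card := lt_of_lt_of_le hk ht
    simp only [v, dif_pos h]
    exact (en ⟨k, h⟩).2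
  have hex' : ∀ e : Bool, ∀ k, ∃ i : Λ, k < t → pass (d + 1) c (L i) = cons e (v k) := by
    intro e k
    by_cases hk : k < t
    · obtain ⟨i, hi⟩ := hex (v k) (hv k hk) e
      exact ⟨i, fun _ => hi⟩
    · exact ⟨Classical.arbitrary _, fun h => absurd h hk⟩
  choose a ha using hex' false
  choose b hb using hex' true
  refine ⟨a, b, v, fun k hk => ⟨?_, ha k hk, hb k hk⟩, ?_⟩
  · have := hv k hk
    rw [hS, Finset.mem_filter] at this
    exact this.2
  · intro k hk l hl hkl
    have h1 : k < S.card := lt_of_lt_of_le hk ht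
    have h2 : l < S.card := lt_of_lt_of_le hl ht
    simp only [v, dif_pos h1, dif_pos h2] at hkl
    have := en.injective (Subtype.ext hkl)
    exact congrArg Fin.val this

end rel

theorem smooth_le (ν : Equiv.Perm (Fin N) → ℝ) (h0 : ∀ w, 0 ≤ ν w) (h1 : ∑ w, ν w ≤ 1)
    (a b : ℕ → Fin N) (f : Equiv.Perm (Fin N) → ℝ) (i : ℕ)
    (h : ∀ k < i, ∀ w, ν (Equiv.swap (a k) (b k) * w) = ν w) :
    ∑ t, (∑ w, ν w * f (w * t)) ^ 2 ≤ ∑ g, itF a b f i g ^ 2 := by
  have key : ∀ t, ∑ w, ν w * f (w * t) = ∑ w, ν w * itF a b f i (w * t) := by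
    intro t
    induction i with
    | zero => rfl
    | succ i ih =>
      rw [ih (fun k hk => h k (by omega))]
      have h2 : ∑ w, ν w * itF a b f i (Equiv.swap (a i) (b i) * (w * t)) =
          ∑ w, ν w * itF a b f i (w * t) := by
        rw [← Equiv.sum_comp (Equiv.mulLeft (Equiv.swap (a i) (b i)))
          (fun w => ν w * itF a b f i (w * t))]
        refine Finset.sum_congr rfl fun w _ => ?_
        rw [Equiv.coe_mulLeft, h i (by omega), mul_assoc]
      have h3 : ∑ w, ν w * itF a b f (i + 1) (w * t) =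
          (1 / 2) * ∑ w, ν w * itF a b f i (w * t) +
          (1 / 2) * ∑ w, ν w * itF a b f i (Equiv.swap (a i) (b i) * (w * t)) := by
        rw [Finset.mul_sum, Finset.mul_sum, ← Finset.sum_add_distrib]
        refine Finset.sum_congr rfl fun w _ => ?_
        simp only [itF, sw]
        ring
      rw [h3, h2]; ring
  set F := itF a b f i with hF
  calc ∑ t, (∑ w, ν w * f (w * t)) ^ 2 = ∑ t, (∑ w, ν w * F (w * t)) ^ 2 := by
        refine Finset.sum_congr rfl fun t _ => ?_
        rw [key]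
    _ ≤ ∑ t, ∑ w, ν w * F (w * t) ^ 2 := by
        refine Finset.sum_le_sum fun t _ => ?_
        have := Finset.sum_sq_le_sum_mul_sum_of_sq_le_mul Finset.univ
          (r := fun w => ν w * F (w * t)) (f := fun w => ν w) (g := fun w => ν w * F (w * t) ^ 2)
          (fun w _ => h0 w) (fun w _ => mul_nonneg (h0 w) (sq_nonneg _))
          (fun w _ => le_of_eq (by ring))
        refine this.trans ?_
        have h5 : 0 ≤ ∑ w, ν w * F (w * t) ^ 2 :=
          Finset.sum_nonneg fun w _ => mul_nonneg (h0 w) (sq_nonneg _)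
        nlinarith
    _ = ∑ w, ν w * ∑ g, F g ^ 2 := by
        rw [Finset.sum_comm]
        refine Finset.sum_congr rfl fun w _ => ?_
        rw [← Finset.mul_sum]
        congr 1
        exact Equiv.sum_comp (Equiv.mulLeft w) (fun g => F g ^ 2)
    _ ≤ ∑ g, F g ^ 2 := by
        rw [← Finset.sum_mul]
        have h5 : 0 ≤ ∑ g, F g ^ 2 := Finset.sum_nonneg fun w _ => sq_nonneg _
        nlinarith

section grp

variable {G : Type*} [Group G] [Fintype G]

theorem conj_avg (ν : G → ℝ) (k : G) :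
    ∑ x : G, ∑ w : G, ν (x * w * x⁻¹) * ν (x * (w * k) * x⁻¹) =
      ∑ x : G, ∑ w : G, ν (x * w * x⁻¹) * ν (x * (k * w) * x⁻¹) := by
  rw [Finset.sum_comm]
  symm
  rw [Finset.sum_comm]
  refine Finset.sum_congr rfl fun w _ => ?_
  symm
  rw [← Equiv.sum_comp (Equiv.mulRight w⁻¹)]
  refine Finset.sum_congr rfl fun x _ => ?_
  rw [Equiv.coe_mulRight]
  congr 2 <;> group

theorem quad_form (ν f : G → ℝ) :
    ∑ t, (∑ w, ν w * f (w * t)) ^ 2 =
      ∑ g, ∑ h, f g * (∑ w, ν w * ν (h * g⁻¹ * w)) * f h := by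
  have h1 : ∑ t, (∑ w, ν w * f (w * t)) ^ 2 =
      ∑ a, ∑ t, ∑ b, ν a * f (a * t) * (ν b * f (b * t)) := by
    rw [Finset.sum_comm]
    refine Finset.sum_congr rfl fun t _ => ?_
    rw [sq, Finset.sum_mul_sum]
  have h2 : ∀ a, ∑ t, ∑ b, ν a * f (a * t) * (ν b * f (b * t)) =
      ∑ g, ∑ h, ν a * f g * (ν (h * g⁻¹ * a) * f h) := by
    intro a
    rw [← Equiv.sum_comp (Equiv.mulLeft a⁻¹)]
    refine Finset.sum_congr rfl fun g _ => ?_
    rw [← Equiv.sum_comp (Equiv.mulRight (g⁻¹ * a))]
    refine Finset.sum_congr rfl fun h _ => ?_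
    simp only [Equiv.coe_mulRight, Equiv.coe_mulLeft]
    have e1 : a * (a⁻¹ * g) = g := by group
    have e2 : h * (g⁻¹ * a) * (a⁻¹ * g) = h := by group
    rw [e1, e2, mul_assoc h]
  rw [h1, Finset.sum_congr rfl fun a _ => h2 a, Finset.sum_comm]
  refine Finset.sum_congr rfl fun g _ => ?_
  rw [Finset.sum_comm]
  refine Finset.sum_congr rfl fun h _ => ?_
  rw [Finset.mul_sum, Finset.sum_mul]
  refine Finset.sum_congr rfl fun w _ => ?_
  ring

/-- The quadratic form of `w ↦ ∑ ν w ν (w g⁻¹)`. -/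
noncomputable def S1 (ν f : G → ℝ) : ℝ :=
  ∑ g, ∑ h, f g * (∑ w, ν w * ν (w * (g * h⁻¹)⁻¹)) * f h

theorem sum_S1 (ν f : G → ℝ) :
    ∑ x : G, S1 (fun w => ν (x * w * x⁻¹)) f =
      ∑ x : G, ∑ t, (∑ w, ν (x * w * x⁻¹) * f (w * t)) ^ 2 := by
  simp only [quad_form (fun w => ν (_ * w * _)) f]
  unfold S1
  rw [Finset.sum_comm]
  symm
  rw [Finset.sum_comm]
  refine Finset.sum_congr rfl fun g _ => ?_
  symm
  rw [Finset.sum_comm]
  symm
  rw [Finset.sum_comm]
  refine Finset.sum_congr rfl fun h _ => ?_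
  rw [← Finset.sum_mul, ← Finset.sum_mul, ← Finset.mul_sum, ← Finset.mul_sum]
  congr 2
  have := conj_avg ν (h * g⁻¹)
  rw [this.symm]
  refine Finset.sum_congr rfl fun x _ => Finset.sum_congr rfl fun w _ => ?_
  congr 3
  group

end grp

/-- Bound for one good environment, summed over the relabellings. -/
theorem good_bound (htl : TL) {d j : ℕ} (hj : j + 2 ≤ 2 ^ d) {f : Equiv.Perm (Fin (2 ^ d)) → ℝ}
    (hf : HighLevel j f) (L : Fin (2 ^ d) ↪ V (d + 1)) (c : Coins (d + 1))
    (hs : j / 2 ≤ (Finset.univ.filter (fun v : V d => both d (rangeF L) c v)).card) :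
    ∑ x : Equiv.Perm (Fin (2 ^ d)), S1 (fun w => relLaw L c (x * w * x⁻¹)) f ≤
      Real.exp (-(((j : ℝ) ^ 2 - 1) / (8 * 2 ^ d))) *
        (Fintype.card (Equiv.Perm (Fin (2 ^ d))) * ∑ g, f g ^ 2) := by
  have : Nonempty (Fin (2 ^ d)) := ⟨⟨0, by positivity⟩⟩
  obtain ⟨a, b, v, hv, hinj⟩ := exists_pairs L c (j / 2) hs
  have hne : ∀ k < j / 2, ∀ l < j / 2, k ≠ l → a k ≠ a l ∧ a k ≠ b l ∧ b k ≠ a l ∧ b k ≠ b l := by
    intro k hk l hl hkl
    have h1 := hv k hk
    have h2 := hv l hl
    have h3 : v k ≠ v l := fun h => hkl (hinj k hk l hl h)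
    have aux : ∀ (e e' : Bool) (i i' : Fin (2 ^ d)), pass (d + 1) c (L i) = cons e (v k) →
        pass (d + 1) c (L i') = cons e' (v l) → i ≠ i' := by
      intro e e' i i' hi hi' h
      rw [h, hi'] at hi
      exact h3 (cons_inj.1 hi).2.symm
    exact ⟨aux _ _ _ _ h1.2.1 h2.2.1, aux _ _ _ _ h1.2.1 h2.2.2, aux _ _ _ _ h1.2.2 h2.2.1,
      aux _ _ _ _ h1.2.2 h2.2.2⟩
  have hab : ∀ k < j / 2, a k ≠ b k := by
    intro k hk h
    have h1 := (hv k hk).2.1
    rw [h, (hv k hk).2.2] at h1
    have := (cons_inj.1 h1).1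
    simp at this
  have ha : ∀ k < j / 2, a k ∉ used a b k := by
    intro k hk h
    simp only [used, Finset.mem_union, Finset.mem_image, Finset.mem_range] at h
    rcases h with ⟨l, hl, h⟩ | ⟨l, hl, h⟩
    · exact (hne k hk l (by omega) (by omega)).1 h.symm
    · exact (hne k hk l (by omega) (by omega)).2.1 h.symm
  have hb : ∀ k < j / 2, b k ∉ used a b k := by
    intro k hk h
    simp only [used, Finset.mem_union, Finset.mem_image, Finset.mem_range] at h
    rcases h with ⟨l, hl, h⟩ | ⟨l, hl, h⟩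
    · exact (hne k hk l (by omega) (by omega)).2.2.1 h.symm
    · exact (hne k hk l (by omega) (by omega)).2.2.2 h.symm
  have h1 := iter' htl hj hf a b hab ha hb
  have h2 : ((2 ^ d : ℕ) : ℝ) = 2 ^ d := by push_cast; rfl
  rw [h2] at h1
  refine le_trans ?_ h1
  rw [sum_S1]
  refine le_trans ?_ (le_of_eq (Equiv.sum_comp (Equiv.inv (Equiv.Perm (Fin (2 ^ d))))
    (fun x => ∑ g, itF (x ∘ a) (x ∘ b) f (j / 2) g ^ 2)))
  refine Finset.sum_le_sum fun x _ => ?_
  have h3 : (fun w => relLaw L c (x * w * x⁻¹)) = relLaw (x.toEmbedding.trans L) c := by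
    funext w; rw [relLaw_trans]
  have h4 : ∀ t, ∑ w, relLaw L c (x * w * x⁻¹) * f (w * t) =
      ∑ w, relLaw (x.toEmbedding.trans L) c w * f (w * t) := by
    intro t
    refine Finset.sum_congr rfl fun w _ => ?_
    rw [relLaw_trans]
  rw [Finset.sum_congr rfl fun t _ => by rw [h4 t]]
  refine smooth_le (relLaw (x.toEmbedding.trans L) c) (relLaw_nonneg _ _) (sum_relLaw_le _ _)
    _ _ f (j / 2) ?_
  intro k hk w
  refine relLaw_swap _ c (v k) ?_ _ _ ?_ ?_ w
  · rw [rangeF_trans]; exact (hv k hk).1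
  · have : (x.toEmbedding.trans L) (((Equiv.inv (Equiv.Perm (Fin (2 ^ d)))) x ∘ a) k) = L (a k) := by
      simp
    rw [this]; exact (hv k hk).2.1
  · have : (x.toEmbedding.trans L) (((Equiv.inv (Equiv.Perm (Fin (2 ^ d)))) x ∘ b) k) = L (b k) := by
      simp
    rw [this]; exact (hv k hk).2.2

/-- Relabelling the lines in the average over environments. -/
theorem expect_env {d : ℕ} (Φ : Env (Fin (2 ^ d)) (d + 1) → ℝ) (x : Equiv.Perm (Fin (2 ^ d))) :
    𝔼 E, Φ E = 𝔼 E : Env (Fin (2 ^ d)) (d + 1), Φ (x.toEmbedding.trans E.1, E.2) := by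
  let e : Env (Fin (2 ^ d)) (d + 1) ≃ Env (Fin (2 ^ d)) (d + 1) :=
    { toFun := fun E => (x.toEmbedding.trans E.1, E.2)
      invFun := fun E => (x.symm.toEmbedding.trans E.1, E.2)
      left_inv := fun E => by
        apply Prod.ext
        · refine DFunLike.ext _ _ fun i => ?_
          simp
        · rfl
      right_inv := fun E => by
        apply Prod.ext
        · refine DFunLike.ext _ _ fun i => ?_
          simp
        · rfl }
  exact (Fintype.expect_equiv e _ _ fun E => rfl).symm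

theorem quad_rGood (d K b s : ℕ) (f : Equiv.Perm (Fin (2 ^ d)) → ℝ) :
    quad (rGood d K b s) f = 𝔼 E : Env (Fin (2 ^ d)) (d + 1),
      if Good d K b s (rangeF E.1) E.2 then S1 (relLaw E.1 E.2) f else 0 := by
  unfold quad rGood S1
  have h1 : ∀ g h : Equiv.Perm (Fin (2 ^ d)), (f g * (𝔼 E : Env (Fin (2 ^ d)) (d + 1),
      if Good d K b s (rangeF E.1) E.2 then
        ∑ w : Equiv.Perm (Fin (2 ^ d)), relLaw E.1 E.2 w * relLaw E.1 E.2 (w * (g * h⁻¹)⁻¹)
      else 0) * f h) = 𝔼 E : Env (Fin (2 ^ d)) (d + 1),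
      if Good d K b s (rangeF E.1) E.2 then
        f g * (∑ w : Equiv.Perm (Fin (2 ^ d)), relLaw E.1 E.2 w *
          relLaw E.1 E.2 (w * (g * h⁻¹)⁻¹)) * f h
      else 0 := by
    intro g h
    rw [Finset.mul_expect, Finset.expect_mul]
    refine Finset.expect_congr rfl fun E _ => ?_
    split_ifs <;> ring
  simp only [h1]
  rw [Finset.sum_congr rfl fun g _ => (Finset.expect_sum_comm _ _ _).symm,
    ← Finset.expect_sum_comm]
  refine Finset.expect_congr rfl fun E _ => ?_
  split_ifs
  · rfl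
  · simp

theorem main (htl : TL) (d K b s j : ℕ) (hj : j ≤ 2 ^ d) (hs : j ≤ 2 * s + 1)
    (f : Equiv.Perm (Fin (2 ^ d)) → ℝ) (hf : HighLevel j f) :
    quad (rGood d K b s) f ≤
      Real.exp (-(((j : ℝ) ^ 2 - 1) / (8 * 2 ^ d))) * ∑ g, f g ^ 2 := by
  by_cases hj2 : j + 2 ≤ 2 ^ d
  swap
  · have h0 : f = 0 := high_zero hf (by omega) hj
    rw [h0]
    simp [quad]
  have hcard : (0 : ℝ) < Fintype.card (Equiv.Perm (Fin (2 ^ d))) := by
    exact_mod_cast Fintype.card_pos
  set R := Real.exp (-(((j : ℝ) ^ 2 - 1) / (8 * 2 ^ d))) with hR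
  have hF : 0 ≤ ∑ g, f g ^ 2 := Finset.sum_nonneg fun _ _ => sq_nonneg _
  have key : (Fintype.card (Equiv.Perm (Fin (2 ^ d))) : ℝ) * quad (rGood d K b s) f ≤
      Fintype.card (Equiv.Perm (Fin (2 ^ d))) * (R * ∑ g, f g ^ 2) := by
    have h1 : (Fintype.card (Equiv.Perm (Fin (2 ^ d))) : ℝ) * quad (rGood d K b s) f =
        𝔼 E : Env (Fin (2 ^ d)) (d + 1), if Good d K b s (rangeF E.1) E.2 then
          ∑ x : Equiv.Perm (Fin (2 ^ d)), S1 (fun w => relLaw E.1 E.2 (x * w * x⁻¹)) f else 0 := by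
      have h2 : (Fintype.card (Equiv.Perm (Fin (2 ^ d))) : ℝ) * quad (rGood d K b s) f =
          ∑ _x : Equiv.Perm (Fin (2 ^ d)), quad (rGood d K b s) f := by
        rw [Finset.sum_const, nsmul_eq_mul, Finset.card_univ]
      rw [h2]
      have h3 : ∀ x : Equiv.Perm (Fin (2 ^ d)), quad (rGood d K b s) f =
          𝔼 E : Env (Fin (2 ^ d)) (d + 1), if Good d K b s (rangeF E.1) E.2 then
            S1 (fun w => relLaw E.1 E.2 (x * w * x⁻¹)) f else 0 := by
        intro x
        rw [quad_rGood, expect_env _ x]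
        refine Finset.expect_congr rfl fun E _ => ?_
        simp only [rangeF_trans]
        have : relLaw (x.toEmbedding.trans E.1) E.2 =
            fun w => relLaw E.1 E.2 (x * w * x⁻¹) := by
          funext w; rw [relLaw_trans]
        rw [this]
      rw [Finset.sum_congr rfl fun x _ => h3 x, ← Finset.expect_sum_comm]
      refine Finset.expect_congr rfl fun E _ => ?_
      split_ifs
      · rfl
      · simp
    rw [h1]
    have hbd : ∀ E ∈ (Finset.univ : Finset (Env (Fin (2 ^ d)) (d + 1))),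
        (if Good d K b s (rangeF E.1) E.2 then
          ∑ x : Equiv.Perm (Fin (2 ^ d)), S1 (fun w => relLaw E.1 E.2 (x * w * x⁻¹)) f else 0) ≤
        Fintype.card (Equiv.Perm (Fin (2 ^ d))) * (R * ∑ g, f g ^ 2) := by
      intro E _
      split_ifs with hG
      · have := good_bound htl hj2 hf E.1 E.2 (by
          have := hG.2
          omega)
        rw [← hR] at this
        refine this.trans (le_of_eq ?_)
        ring
      · have : 0 ≤ R := (Real.exp_pos _).le
        positivity
    have hne : (Finset.univ : Finset (Env (Fin (2 ^ d)) (d + 1))).Nonempty := by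
      have : Nonempty (Fin (2 ^ d) ↪ V (d + 1)) := by
        apply Function.Embedding.nonempty_of_card_le
        rw [card_V, Fintype.card_fin]
        exact Nat.pow_le_pow_right (by norm_num) (by omega)
      exact Finset.univ_nonempty
    exact Finset.expect_le hne hbd
  exact le_of_mul_le_mul_left key hcard

end QH

/-- C11b -/
theorem quad_rGood_high (d K b s j : ℕ) (hj : j ≤ 2 ^ d) (hs : j ≤ 2 * s + 1)
    (f : Equiv.Perm (Fin (2 ^ d)) → ℝ) (hf : HighLevel j f) :
    quad (rGood d K b s) f ≤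
      Real.exp (-(((j : ℝ) ^ 2 - 1) / (8 * 2 ^ d))) * ∑ g, f g ^ 2 :=
  QH.main (fun p hp P f hf => transposition_level p hp P f hf) d K b s j hj hs f hf

end Crest.Agent.Thorp
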