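import Crest.Agent.Lib.Row155.Defs2
/-!
Row 155 (Thorp shuffle), chunk C9a,b: abstract part (random environments, convolution powers).
-/
set_option autoImplicit false
set_option linter.unusedSectionVars false
open Finset
open scoped BigOperators

namespace Crest.Agent.Thorp
namespace RG

section Group

variable {G : Type*} [Group G] [Fintype G] [DecidableEq G]

theorem sum_left (f : G → ℝ) (a : G) : ∑ g, f (a * g) = ∑ g, f g :=
  Equiv.sum_comp (Equiv.mulLeft a) f

theorem sum_right (f : G → ℝ) (a : G) : ∑ g, f (g * a) = ∑ g, f g :=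
  Equiv.sum_comp (Equiv.mulRight a) f

theorem sum_inv (f : G → ℝ) : ∑ g, f g⁻¹ = ∑ g, f g :=
  Equiv.sum_comp (Equiv.inv G) f

/-- law of `v⁻¹ w` -/
noncomputable def rho (ν : G → ℝ) (g : G) : ℝ := ∑ w, ν w * ν (w * g⁻¹)

theorem rho_nonneg {ν : G → ℝ} (hν : ∀ g, 0 ≤ ν g) (g : G) : 0 ≤ rho ν g :=
  Finset.sum_nonneg fun _ _ => mul_nonneg (hν _) (hν _)

theorem rho_inv (ν : G → ℝ) (g : G) : rho ν g⁻¹ = rho ν g := by
  unfold rho
  rw [← sum_right _ g⁻¹]
  refine Finset.sum_congr rfl fun w _ => ?_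
  rw [mul_comm]
  simp [mul_assoc]

theorem rho_sum {ν : G → ℝ} (h : ∑ g, ν g = 1) : ∑ g, rho ν g = 1 := by
  unfold rho
  rw [Finset.sum_comm]
  have : ∀ w : G, ∑ g, ν w * ν (w * g⁻¹) = ν w := by
    intro w
    rw [← Finset.mul_sum, sum_inv (fun g => ν (w * g)), sum_left ν w, h, mul_one]
  rw [Finset.sum_congr rfl (fun w _ => this w), h]

theorem rho_conj (ν : G → ℝ) (x g : G) :
    rho (fun w => ν (x * w * x⁻¹)) g = rho ν (x * g * x⁻¹) := by
  unfold rho
  have : ∑ w, ν w * ν (w * (x * g * x⁻¹)⁻¹) =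
      ∑ w, ν (x * (w * x⁻¹)) * ν (x * (w * x⁻¹) * (x * g * x⁻¹)⁻¹) := by
    rw [sum_right (fun w => ν (x * w) * ν (x * w * (x * g * x⁻¹)⁻¹)) x⁻¹,
      sum_left (fun w => ν w * ν (w * (x * g * x⁻¹)⁻¹)) x]
  rw [this]
  refine Finset.sum_congr rfl fun w _ => ?_
  congr 2 <;> group

theorem conv_nonneg {μ ν : G → ℝ} (hμ : ∀ g, 0 ≤ μ g) (hν : ∀ g, 0 ≤ ν g) (g : G) :
    0 ≤ conv μ ν g :=
  Finset.sum_nonneg fun _ _ => mul_nonneg (hμ _) (hν _)

theorem conv_sum (μ ν : G → ℝ) : ∑ g, conv μ ν g = (∑ g, μ g) * ∑ g, ν g := by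
  unfold conv
  rw [Finset.sum_comm, Finset.sum_mul]
  refine Finset.sum_congr rfl fun h _ => ?_
  rw [← Finset.mul_sum, sum_left ν h⁻¹]

theorem conv_class {μ ν : G → ℝ} (hμ : ∀ g h, μ (h * g * h⁻¹) = μ g)
    (hν : ∀ g h, ν (h * g * h⁻¹) = ν g) (g h : G) : conv μ ν (h * g * h⁻¹) = conv μ ν g := by
  unfold conv
  rw [← Equiv.sum_comp (MulAut.conj h).toEquiv]
  refine Finset.sum_congr rfl fun a _ => ?_
  change μ (h * a * h⁻¹) * ν ((h * a * h⁻¹)⁻¹ * (h * g * h⁻¹)) = μ a * ν (a⁻¹ * g)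
  rw [hμ, ← hν (a⁻¹ * g) h]
  congr 2
  group

theorem dirac1_class (g h : G) : dirac1 (h * g * h⁻¹) = dirac1 g := by
  unfold dirac1
  by_cases hg : g = 1
  · subst hg; simp
  · rw [if_neg hg, if_neg]
    intro h1
    apply hg
    have : h * g = h := by
      rwa [mul_inv_eq_one] at h1
    simpa using this

theorem convPow_class {r : G → ℝ} (hr : ∀ g h, r (h * g * h⁻¹) = r g) (k : ℕ) (g h : G) :
    convPow r k (h * g * h⁻¹) = convPow r k g := by
  induction k generalizing g h with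
  | zero => exact dirac1_class g h
  | succ k ih => exact conv_class hr (fun g h => ih g h) g h

/-- key algebraic identity -/
theorem key_identity (ν μ c : G → ℝ) (hc : ∀ g h, c (h * g * h⁻¹) = c g) :
    ∑ a, ∑ t, conv ν μ a * conv ν μ (t * a) * c t =
      ∑ a, ∑ s, μ a * μ (s * a) * conv (rho ν) c s := by
  have hL : ∑ a, ∑ t, conv ν μ a * conv ν μ (t * a) * c t =
      ∑ h, ∑ v, ν h * ν v * ∑ a, ∑ s, μ a * μ (s * a) * c (h⁻¹ * v * s) := by
    have e1 : ∀ a t, conv ν μ a * conv ν μ (t * a) * c t =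
        ∑ h, ∑ v, ν h * ν v * (μ (h⁻¹ * a) * μ (v⁻¹ * (t * a)) * c t) := by
      intro a t
      unfold conv
      rw [Finset.sum_mul_sum, Finset.sum_mul]
      refine Finset.sum_congr rfl fun h _ => ?_
      rw [Finset.sum_mul]
      refine Finset.sum_congr rfl fun v _ => ?_
      ring
    have e2 : ∑ a, ∑ t, conv ν μ a * conv ν μ (t * a) * c t =
        ∑ h, ∑ v, ∑ a, ∑ t, ν h * ν v * (μ (h⁻¹ * a) * μ (v⁻¹ * (t * a)) * c t) := by
      calc ∑ a, ∑ t, conv ν μ a * conv ν μ (t * a) * c t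
          = ∑ a, ∑ t, ∑ h, ∑ v, ν h * ν v * (μ (h⁻¹ * a) * μ (v⁻¹ * (t * a)) * c t) :=
            Finset.sum_congr rfl fun a _ => Finset.sum_congr rfl fun t _ => e1 a t
        _ = ∑ a, ∑ h, ∑ v, ∑ t, ν h * ν v * (μ (h⁻¹ * a) * μ (v⁻¹ * (t * a)) * c t) := by
            refine Finset.sum_congr rfl fun a _ => ?_
            rw [Finset.sum_comm]
            refine Finset.sum_congr rfl fun h _ => ?_
            rw [Finset.sum_comm]
        _ = ∑ h, ∑ v, ∑ a, ∑ t, ν h * ν v * (μ (h⁻¹ * a) * μ (v⁻¹ * (t * a)) * c t) := by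
            rw [Finset.sum_comm]
            refine Finset.sum_congr rfl fun h _ => ?_
            rw [Finset.sum_comm]
    rw [e2]
    refine Finset.sum_congr rfl fun h _ => Finset.sum_congr rfl fun v _ => ?_
    rw [← sum_left _ h, Finset.mul_sum]
    refine Finset.sum_congr rfl fun a _ => ?_
    rw [← sum_right _ h⁻¹, ← sum_left _ v, Finset.mul_sum]
    refine Finset.sum_congr rfl fun s _ => ?_
    have e3 : h⁻¹ * (h * a) = a := by group
    have e4 : v⁻¹ * (v * s * h⁻¹ * (h * a)) = s * a := by group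
    have e5 : c (v * s * h⁻¹) = c (h⁻¹ * v * s) := by
      rw [← hc (h⁻¹ * v * s) h]
      congr 1
      group
    rw [e3, e4, e5]
  rw [hL]
  have hR : ∀ s, conv (rho ν) c s = ∑ h, ∑ v, ν h * ν v * c (h⁻¹ * v * s) := by
    intro s
    unfold conv rho
    simp only [Finset.sum_mul]
    rw [Finset.sum_comm]
    refine Finset.sum_congr rfl fun h _ => ?_
    rw [← sum_inv, ← sum_left _ h⁻¹]
    refine Finset.sum_congr rfl fun v _ => ?_
    have e1 : h * (h⁻¹ * v)⁻¹⁻¹ = v := by group
    have e2 : ((h⁻¹ * v)⁻¹)⁻¹ * s = h⁻¹ * v * s := by group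
    rw [e1, e2]
  simp only [hR, Finset.mul_sum]
  calc ∑ h, ∑ v, ∑ a, ∑ s, ν h * ν v * (μ a * μ (s * a) * c (h⁻¹ * v * s))
      = ∑ h, ∑ a, ∑ v, ∑ s, ν h * ν v * (μ a * μ (s * a) * c (h⁻¹ * v * s)) := by
        refine Finset.sum_congr rfl fun h _ => ?_
        rw [Finset.sum_comm]
    _ = ∑ a, ∑ h, ∑ s, ∑ v, ν h * ν v * (μ a * μ (s * a) * c (h⁻¹ * v * s)) := by
        rw [Finset.sum_comm]
        refine Finset.sum_congr rfl fun a _ => Finset.sum_congr rfl fun h _ => ?_
        rw [Finset.sum_comm]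
    _ = ∑ a, ∑ s, ∑ h, ∑ v, μ a * μ (s * a) * (ν h * ν v * c (h⁻¹ * v * s)) := by
        refine Finset.sum_congr rfl fun a _ => ?_
        rw [Finset.sum_comm]
        refine Finset.sum_congr rfl fun s _ => Finset.sum_congr rfl fun h _ =>
          Finset.sum_congr rfl fun v _ => ?_
        ring

/-! ### total variation -/

theorem tv_nonneg' (μ : G → ℝ) : 0 ≤ tv μ :=
  mul_nonneg (by norm_num) (Finset.sum_nonneg fun _ _ => abs_nonneg _)

theorem card_pos' : (0 : ℝ) < Fintype.card G := by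
  exact_mod_cast Fintype.card_pos

theorem tv_le_one {μ : G → ℝ} (h0 : ∀ g, 0 ≤ μ g) (h1 : ∑ g, μ g = 1) : tv μ ≤ 1 := by
  unfold tv
  have hc := card_pos' (G := G)
  have : ∑ g, |μ g - 1 / (Fintype.card G : ℝ)| ≤ ∑ g, (μ g + 1 / (Fintype.card G : ℝ)) := by
    refine Finset.sum_le_sum fun g _ => ?_
    have h2 : (0 : ℝ) ≤ 1 / (Fintype.card G : ℝ) := by positivity
    have h3 := h0 g
    rw [abs_le]
    constructor <;> linarith
  rw [Finset.sum_add_distrib, h1, Finset.sum_const, Finset.card_univ, nsmul_eq_mul] at this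
  have h4 : (Fintype.card G : ℝ) * (1 / Fintype.card G) = 1 := by
    field_simp
  rw [h4] at this
  linarith

theorem sq_dev {μ : G → ℝ} (h1 : ∑ g, μ g = 1) :
    (Fintype.card G : ℝ) * ∑ g, (μ g - 1 / (Fintype.card G : ℝ)) ^ 2 =
      Fintype.card G * ∑ g, μ g ^ 2 - 1 := by
  have hc := card_pos' (G := G)
  have e : ∀ g, (μ g - 1 / (Fintype.card G : ℝ)) ^ 2 =
      μ g ^ 2 - 2 / Fintype.card G * μ g + (1 / (Fintype.card G : ℝ)) ^ 2 := by
    intro g; ring
  rw [Finset.sum_congr rfl (fun g _ => e g), Finset.sum_add_distrib, Finset.sum_sub_distrib,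
    ← Finset.mul_sum, h1, Finset.sum_const, Finset.card_univ, nsmul_eq_mul]
  field_simp
  ring

theorem sq_dev_nonneg {μ : G → ℝ} (h1 : ∑ g, μ g = 1) :
    0 ≤ Fintype.card G * ∑ g, μ g ^ 2 - 1 := by
  rw [← sq_dev h1]
  have hc := card_pos' (G := G)
  exact mul_nonneg hc.le (Finset.sum_nonneg fun _ _ => sq_nonneg _)

theorem tv_le_sqrt {μ : G → ℝ} (h1 : ∑ g, μ g = 1) :
    tv μ ≤ (1 / 2) * Real.sqrt (Fintype.card G * ∑ g, μ g ^ 2 - 1) := by
  unfold tv
  apply mul_le_mul_of_nonneg_left _ (by norm_num)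
  apply Real.le_sqrt_of_sq_le
  rw [← sq_dev h1]
  have h2 := sq_sum_le_card_mul_sum_sq (s := (Finset.univ : Finset G))
    (f := fun g => |μ g - 1 / (Fintype.card G : ℝ)|)
  simp only [sq_abs, Finset.card_univ] at h2
  exact h2

end Group

section Env

variable {G : Type*} [Group G] [Fintype G] [DecidableEq G]
variable {ι : Type*} [Fintype ι]

/-- product law of independent steps -/
noncomputable def laws (ν : ι → G → ℝ) : ∀ k : ℕ, (Fin k → ι) → G → ℝ
  | 0, _ => dirac1
  | k + 1, E => conv (ν (E (Fin.last k))) (laws ν k (fun i => E i.castSucc))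

theorem laws_nonneg {ν : ι → G → ℝ} (hν : ∀ e g, 0 ≤ ν e g) : ∀ (k : ℕ) (E : Fin k → ι) (g : G),
    0 ≤ laws ν k E g
  | 0, _, g => by
    change 0 ≤ dirac1 g
    unfold dirac1
    split_ifs <;> norm_num
  | k + 1, E, g => conv_nonneg (hν _) (laws_nonneg hν k _) g

theorem laws_sum {ν : ι → G → ℝ} (hν : ∀ e, ∑ g, ν e g = 1) : ∀ (k : ℕ) (E : Fin k → ι),
    ∑ g, laws ν k E g = 1
  | 0, _ => by
    change ∑ g : G, dirac1 g = 1
    simp [dirac1]
  | k + 1, E => by
    change ∑ g, conv _ _ g = 1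
    rw [conv_sum, hν, laws_sum hν k, mul_one]

theorem expect_succ {k : ℕ} (f : (Fin (k + 1) → ι) → ℝ) :
    𝔼 E, f E = 𝔼 E' : Fin k → ι, 𝔼 e : ι, f (Fin.snoc (α := fun _ => ι) E' e) := by
  rw [← Finset.expect_product' (s := Finset.univ) (t := Finset.univ)]
  refine (Fintype.expect_equiv ((Equiv.prodComm _ _).trans
    (Fin.snocEquiv (fun _ : Fin (k + 1) => ι))) _ _ (fun x => ?_)).symm
  rfl

variable (ν : ι → G → ℝ) (good : ι → Prop) [DecidablePred good]

/-- average of `rho` over the good environments -/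
noncomputable def rr (g : G) : ℝ := 𝔼 e, if good e then rho (ν e) g else 0

noncomputable def Phi (k : ℕ) (c : G → ℝ) : ℝ :=
  𝔼 E : Fin k → ι, if (∀ i, good (E i)) then
    ∑ a, ∑ t, laws ν k E a * laws ν k E (t * a) * c t else 0

theorem forall_snoc {k : ℕ} (E : Fin k → ι) (e : ι) :
    (∀ i, good (Fin.snoc (α := fun _ => ι) E e i)) ↔ (∀ i, good (E i)) ∧ good e := by
  constructor
  · intro h
    refine ⟨fun i => ?_, ?_⟩
    · have := h i.castSucc
      rwa [Fin.snoc_castSucc] at this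
    · have := h (Fin.last k)
      rwa [Fin.snoc_last] at this
  · rintro ⟨h1, h2⟩ i
    refine Fin.lastCases ?_ (fun j => ?_) i
    · rw [Fin.snoc_last]; exact h2
    · rw [Fin.snoc_castSucc]; exact h1 j

theorem Phi_succ (k : ℕ) (c : G → ℝ) (hc : ∀ g h, c (h * g * h⁻¹) = c g) :
    Phi ν good (k + 1) c = Phi ν good k (conv (rr ν good) c) := by
  unfold Phi
  rw [expect_succ]
  refine Finset.expect_congr rfl fun E _ => ?_
  have h1 : ∀ e : ι, laws ν (k + 1) (Fin.snoc (α := fun _ => ι) E e) = conv (ν e) (laws ν k E) := by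
    intro e
    change conv (ν (Fin.snoc (α := fun _ => ι) E e (Fin.last k))) (laws ν k (fun i =>
      Fin.snoc (α := fun _ => ι) E e i.castSucc)) = _
    simp only [Fin.snoc_last, Fin.snoc_castSucc]
  by_cases hE : ∀ i, good (E i)
  · rw [if_pos hE]
    have h2 : ∀ e : ι, (if (∀ i, good (Fin.snoc (α := fun _ => ι) E e i)) then
        ∑ a, ∑ t, laws ν (k + 1) (Fin.snoc (α := fun _ => ι) E e) a *
          laws ν (k + 1) (Fin.snoc (α := fun _ => ι) E e) (t * a) * c t else 0) =
        if good e then ∑ a, ∑ s, laws ν k E a * laws ν k E (s * a) * conv (rho (ν e)) c s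
          else 0 := by
      intro e
      by_cases he : good e
      · rw [if_pos ((forall_snoc good E e).2 ⟨hE, he⟩), if_pos he, h1, key_identity _ _ _ hc]
      · rw [if_neg (fun h => he ((forall_snoc good E e).1 h).2), if_neg he]
    rw [Finset.expect_congr rfl (fun e _ => h2 e)]
    have h3 : ∀ s, conv (rr ν good) c s = 𝔼 e, if good e then conv (rho (ν e)) c s else 0 := by
      intro s
      unfold conv rr
      simp only [Finset.expect_mul]
      rw [← Finset.expect_sum_comm]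
      refine Finset.expect_congr rfl fun e _ => ?_
      split_ifs
      · rfl
      · simp
    simp only [h3, Finset.mul_expect]
    rw [Finset.sum_congr rfl (fun a _ => (Finset.expect_sum_comm _ _ _).symm),
      ← Finset.expect_sum_comm]
    refine Finset.expect_congr rfl fun e _ => ?_
    split_ifs
    · rfl
    · simp
  · rw [if_neg hE]
    apply Finset.expect_eq_zero
    intro e _
    rw [if_neg (fun h => hE ((forall_snoc good E e).1 h).1)]

theorem rr_class_of (h : ∀ g h, rr ν good (h * g * h⁻¹) = rr ν good g) (k j : ℕ) :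
    Phi ν good k (convPow (rr ν good) j) = convPow (rr ν good) (j + k) 1 := by
  induction k generalizing j with
  | zero =>
    unfold Phi
    have h1 : ∀ E : Fin 0 → ι, (if (∀ i, good (E i)) then
        ∑ a, ∑ t, laws ν 0 E a * laws ν 0 E (t * a) * convPow (rr ν good) j t else 0) =
        convPow (rr ν good) j 1 := by
      intro E
      rw [if_pos (fun i => i.elim0)]
      change ∑ a : G, ∑ t : G, dirac1 a * dirac1 (t * a) * convPow (rr ν good) j t = _
      rw [Finset.sum_eq_single 1]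
      · rw [Finset.sum_eq_single 1]
        · simp [dirac1]
        · intro t _ ht
          simp [dirac1, ht]
        · intro h; exact absurd (Finset.mem_univ _) h
      · intro a _ ha
        simp [dirac1, ha]
      · intro h; exact absurd (Finset.mem_univ _) h
    rw [Finset.expect_congr rfl (fun E _ => h1 E)]
    rw [Fintype.expect_const, add_zero]
  | succ k ih =>
    rw [Phi_succ ν good k _ (fun g h' => convPow_class h j g h')]
    have := ih (j + 1)
    rw [show j + (k + 1) = j + 1 + k by ring]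
    exact this

theorem expect_good_sq (h : ∀ g h, rr ν good (h * g * h⁻¹) = rr ν good g) (k : ℕ) :
    (𝔼 E : Fin k → ι, if (∀ i, good (E i)) then ∑ a, laws ν k E a ^ 2 else 0) =
      convPow (rr ν good) k 1 := by
  have h1 := rr_class_of ν good h k 0
  rw [zero_add] at h1
  rw [← h1]
  unfold Phi
  refine Finset.expect_congr rfl fun E _ => ?_
  split_ifs
  · refine Finset.sum_congr rfl fun a _ => ?_
    change _ = ∑ t : G, laws ν k E a * laws ν k E (t * a) * dirac1 t
    rw [Finset.sum_eq_single 1]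
    · simp [dirac1, sq]
    · intro t _ ht
      simp [dirac1, ht]
    · intro h; exact absurd (Finset.mem_univ _) h
  · rfl

theorem rr_sum {ν : ι → G → ℝ} (hν1 : ∀ e, ∑ g, ν e g = 1) :
    ∑ g, rr ν good g = 𝔼 e, if good e then (1 : ℝ) else 0 := by
  unfold rr
  rw [← Finset.expect_sum_comm]
  refine Finset.expect_congr rfl fun e _ => ?_
  split_ifs
  · exact rho_sum (hν1 e)
  · simp

theorem expect_all_good (k : ℕ) :
    (𝔼 E : Fin k → ι, if (∀ i, good (E i)) then (1 : ℝ) else 0) =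
      (𝔼 e, if good e then (1 : ℝ) else 0) ^ k := by
  induction k with
  | zero =>
    have h1 : ∀ E : Fin 0 → ι, (if (∀ i, good (E i)) then (1 : ℝ) else 0) = 1 := by
      intro E
      rw [if_pos (fun i => i.elim0)]
    rw [Finset.expect_congr rfl (fun E _ => h1 E), Fintype.expect_const, pow_zero]
  | succ k ih =>
    rw [expect_succ, pow_succ, ← ih, Finset.expect_mul]
    refine Finset.expect_congr rfl fun E _ => ?_
    rw [Finset.mul_expect]
    refine Finset.expect_congr rfl fun e _ => ?_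
    by_cases hE : ∀ i, good (E i)
    · by_cases he : good e
      · rw [if_pos ((forall_snoc good E e).2 ⟨hE, he⟩), if_pos hE, if_pos he, mul_one]
      · rw [if_neg (fun h => he ((forall_snoc good E e).1 h).2), if_neg he, mul_zero]
    · rw [if_neg (fun h => hE ((forall_snoc good E e).1 h).1), if_neg hE, zero_mul]

theorem expect_sqrt_le {κ : Type*} [Fintype κ] [Nonempty κ] (X : κ → ℝ) (hX : ∀ e, 0 ≤ X e) :
    (𝔼 e, Real.sqrt (X e)) ≤ Real.sqrt (𝔼 e, X e) := by
  apply Real.le_sqrt_of_sq_le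
  rw [Fintype.expect_eq_sum_div_card, Fintype.expect_eq_sum_div_card, div_pow]
  have hc : (0 : ℝ) < Fintype.card κ := by exact_mod_cast Fintype.card_pos
  rw [div_le_div_iff₀ (by positivity) hc]
  have h2 := sq_sum_le_card_mul_sum_sq (s := (Finset.univ : Finset κ))
    (f := fun e => Real.sqrt (X e))
  simp only [Finset.card_univ] at h2
  have h3 : ∑ e, Real.sqrt (X e) ^ 2 = ∑ e, X e :=
    Finset.sum_congr rfl fun e _ => Real.sq_sqrt (hX e)
  rw [h3] at h2
  calc (∑ e, Real.sqrt (X e)) ^ 2 * (Fintype.card κ : ℝ)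
      ≤ ((Fintype.card κ : ℝ) * ∑ e, X e) * Fintype.card κ :=
        mul_le_mul_of_nonneg_right h2 hc.le
    _ = (∑ e, X e) * (Fintype.card κ : ℝ) ^ 2 := by ring

/-- abstract form of the comparison -/
theorem expect_tv_le [Nonempty ι] {ν : ι → G → ℝ} (hν0 : ∀ e g, 0 ≤ ν e g)
    (hν1 : ∀ e, ∑ g, ν e g = 1) (h : ∀ g h, rr ν good (h * g * h⁻¹) = rr ν good g) (k : ℕ) :
    (𝔼 E : Fin k → ι, tv (laws ν k E)) ≤ (1 - (∑ g, rr ν good g) ^ k) +
      (1 / 2) * Real.sqrt ((Fintype.card G : ℝ) * convPow (rr ν good) k 1 -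
        (∑ g, rr ν good g) ^ k) := by
  have hgood := expect_all_good good k
  rw [← rr_sum good hν1] at hgood
  have hX : ∀ E : Fin k → ι, 0 ≤ (Fintype.card G : ℝ) * ∑ g, laws ν k E g ^ 2 - 1 :=
    fun E => sq_dev_nonneg (laws_sum hν1 k E)
  have hpt : ∀ E : Fin k → ι, tv (laws ν k E) ≤ (1 - if (∀ i, good (E i)) then (1 : ℝ) else 0) +
      (1 / 2) * Real.sqrt (if (∀ i, good (E i)) then
        (Fintype.card G : ℝ) * ∑ g, laws ν k E g ^ 2 - 1 else 0) := by
    intro E
    split_ifs with hE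
    · rw [sub_self, zero_add]
      exact tv_le_sqrt (laws_sum hν1 k E)
    · rw [Real.sqrt_zero, mul_zero, add_zero, sub_zero]
      exact tv_le_one (laws_nonneg hν0 k E) (laws_sum hν1 k E)
  refine (Finset.expect_le_expect fun E _ => hpt E).trans ?_
  rw [Finset.expect_add_distrib, Finset.expect_sub_distrib, Fintype.expect_const, hgood,
    ← Finset.mul_expect]
  refine add_le_add le_rfl (mul_le_mul_of_nonneg_left ?_ (by norm_num))
  refine (expect_sqrt_le _ (fun E => ?_)).trans ?_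
  · split_ifs
    · exact hX E
    · exact le_rfl
  · apply Real.sqrt_le_sqrt
    apply le_of_eq
    rw [← expect_good_sq ν good h k, ← hgood, Finset.mul_expect, ← Finset.expect_sub_distrib]
    refine Finset.expect_congr rfl fun E _ => ?_
    split_ifs <;> simp

/-- positivity of the quadratic form -/
theorem quad_rr_nonneg (h : ∀ g h, rr ν good (h * g * h⁻¹) = rr ν good g) (f : G → ℝ) :
    0 ≤ quad (rr ν good) f := by
  unfold quad
  have h1 : ∀ g h' : G, rr ν good (g * h'⁻¹) = 𝔼 e, if good e then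
      ∑ u, ν e (u * g) * ν e (u * h') else 0 := by
    intro g h'
    have e1 : rr ν good (g * h'⁻¹) = rr ν good (h'⁻¹ * g) := by
      rw [← h (h'⁻¹ * g) h']
      congr 1
      group
    rw [e1]
    unfold rr
    refine Finset.expect_congr rfl fun e _ => ?_
    split_ifs
    · unfold rho
      rw [← sum_right _ g]
      refine Finset.sum_congr rfl fun u _ => ?_
      congr 2
      group
    · rfl
  have h2 : ∑ g, ∑ h', f g * rr ν good (g * h'⁻¹) * f h' =
      𝔼 e, if good e then ∑ u, (∑ g, f g * ν e (u * g)) ^ 2 else 0 := by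
    simp only [h1, Finset.mul_expect, Finset.expect_mul]
    rw [Finset.sum_congr rfl (fun a _ => (Finset.expect_sum_comm _ _ _).symm),
      ← Finset.expect_sum_comm]
    refine Finset.expect_congr rfl fun e _ => ?_
    split_ifs
    · simp only [sq, Finset.mul_sum, Finset.sum_mul]
      calc ∑ g, ∑ h', ∑ u, f g * (ν e (u * g) * ν e (u * h')) * f h'
          = ∑ g, ∑ u, ∑ h', f g * (ν e (u * g) * ν e (u * h')) * f h' :=
            Finset.sum_congr rfl fun g _ => Finset.sum_comm
        _ = ∑ u, ∑ g, ∑ h', f g * (ν e (u * g) * ν e (u * h')) * f h' := Finset.sum_comm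
        _ = ∑ u, ∑ g, ∑ h', f g * ν e (u * g) * (f h' * ν e (u * h')) := by
            refine Finset.sum_congr rfl fun u _ => Finset.sum_congr rfl fun g _ =>
              Finset.sum_congr rfl fun h' _ => ?_
            ring
        _ = _ := Finset.sum_congr rfl fun u _ => Finset.sum_comm
    · simp
  rw [h2]
  apply Finset.expect_nonneg
  intro e _
  split_ifs
  · exact Finset.sum_nonneg fun _ _ => sq_nonneg _
  · exact le_rfl

end Env

end RG

end Crest.Agent.Thorp
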