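import Crest.Agent.Lib.Row155.Defs2
/-!
Row 155 (Thorp shuffle), chunk T2: monotonicity of the distance in the number of passes (C2) and
the visible / hidden decomposition of one pass (C3a).
-/
set_option autoImplicit false
open Finset
open scoped BigOperators

namespace Crest.Agent.Thorp

/-! ## C2 -/

theorem passLaw_succ (D K : ℕ) (g : Equiv.Perm (V D)) :
    passLaw D (K + 1) g = 𝔼 c : Coins D, passLaw D K ((pass D c)⁻¹ * g) := by
  unfold passLaw
  rw [← Finset.expect_product' (Finset.univ : Finset (Coins D))
    (Finset.univ : Finset (Fin K → Coins D))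
    (fun c a => if passes D K a = (pass D c)⁻¹ * g then (1 : ℝ) else 0)]
  refine (Fintype.expect_equiv (Fin.snocEquiv (fun _ : Fin (K + 1) => Coins D)) _ _ ?_).symm
  rintro ⟨c, a⟩
  have h1 : passes D (K + 1) (Fin.snocEquiv (fun _ : Fin (K + 1) => Coins D) (c, a)) =
      pass D c * passes D K a := by
    simp only [passes, Fin.snocEquiv_apply, Fin.snoc_last, Fin.snoc_castSucc]
  rw [h1]
  have h2 : (passes D K a = (pass D c)⁻¹ * g) ↔ (pass D c * passes D K a = g) := by
    rw [eq_inv_mul_iff_mul_eq]
  simp only [h2]

theorem tv_passLaw_succ (D K : ℕ) : tv (passLaw D (K + 1)) ≤ tv (passLaw D K) := by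
  unfold tv
  refine mul_le_mul_of_nonneg_left ?_ (by norm_num)
  have h1 : ∀ g : Equiv.Perm (V D),
      |passLaw D (K + 1) g - 1 / (Fintype.card (Equiv.Perm (V D)) : ℝ)| ≤
        𝔼 c : Coins D, |passLaw D K ((pass D c)⁻¹ * g) -
          1 / (Fintype.card (Equiv.Perm (V D)) : ℝ)| := by
    intro g
    have h2 : passLaw D (K + 1) g - 1 / (Fintype.card (Equiv.Perm (V D)) : ℝ) =
        𝔼 c : Coins D, (passLaw D K ((pass D c)⁻¹ * g) -
          1 / (Fintype.card (Equiv.Perm (V D)) : ℝ)) := by
      rw [Finset.expect_sub_distrib, passLaw_succ, Finset.expect_const Finset.univ_nonempty]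
    rw [h2]
    exact Finset.abs_expect_le _ _
  calc ∑ g, |passLaw D (K + 1) g - 1 / (Fintype.card (Equiv.Perm (V D)) : ℝ)|
      ≤ ∑ g : Equiv.Perm (V D), 𝔼 c : Coins D, |passLaw D K ((pass D c)⁻¹ * g) -
          1 / (Fintype.card (Equiv.Perm (V D)) : ℝ)| := Finset.sum_le_sum fun g _ => h1 g
    _ = 𝔼 c : Coins D, ∑ g : Equiv.Perm (V D), |passLaw D K ((pass D c)⁻¹ * g) -
          1 / (Fintype.card (Equiv.Perm (V D)) : ℝ)| := (Finset.expect_sum_comm _ _ _).symm
    _ = 𝔼 _c : Coins D, ∑ g : Equiv.Perm (V D), |passLaw D K g -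
          1 / (Fintype.card (Equiv.Perm (V D)) : ℝ)| := by
        refine Finset.expect_congr rfl fun c _ => ?_
        exact Equiv.sum_comp (Equiv.mulLeft (pass D c)⁻¹)
          (fun g => |passLaw D K g - 1 / (Fintype.card (Equiv.Perm (V D)) : ℝ)|)
    _ = _ := Finset.expect_const Finset.univ_nonempty _

theorem tv_passLaw_anti (D : ℕ) {K K' : ℕ} (h : K ≤ K') :
    tv (passLaw D K') ≤ tv (passLaw D K) := by
  induction K', h using Nat.le_induction with
  | base => exact le_rfl
  | succ n _ ih => exact (tv_passLaw_succ D n).trans ih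

/-! ## C3a -/

/-- C3a -/
theorem pass_combine_not_mem (D : ℕ) (A : Finset (V D)) (c c' : Coins D) (p : V D) (hp : p ∉ A) :
    pass D (combine D A c c') p = pass D c p := by
  induction D with
  | zero => rfl
  | succ D ih =>
    have hv : tl p ∉ half D A (hd p) := by
      rw [mem_half, cons_hd_tl]; exact hp
    have h1 := ih (half D A (hd p)) (c.sub (hd p)) (c'.sub (hd p)) (tl p) hv
    rw [pass_succ_apply, pass_succ_apply]
    simp only [combine, Coins.sub_mk, Coins.top_mk]
    rw [h1]
    have h2 : ¬ both D A c (pass D (c.sub (hd p)) (tl p)) := by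
      rintro ⟨hf, ht⟩
      have h3 : ∀ h, occ D A c h (pass D (c.sub (hd p)) (tl p)) := by
        intro h; cases h
        · exact hf
        · exact ht
      have h4 := h3 (hd p)
      unfold occ at h4
      rw [Equiv.symm_apply_apply, cons_hd_tl] at h4
      exact hp h4
    rw [if_neg h2]

/-- C3a -/
theorem pass_combine_mem (D : ℕ) (A : Finset (V D)) (c c' : Coins D) (p : V D) (hp : p ∈ A) :
    (pass D c).symm (pass D (combine D A c c') p) ∈ A := by
  induction D with
  | zero => exact hp
  | succ D ih =>
    have hv : tl p ∈ half D A (hd p) := by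
      rw [mem_half, cons_hd_tl]; exact hp
    have h1 := ih (half D A (hd p)) (c.sub (hd p)) (c'.sub (hd p)) (tl p) hv
    rw [pass_succ_apply, pass_succ_symm_apply]
    simp only [combine, Coins.sub_mk, Coins.top_mk, hd_cons, tl_cons]
    set w := pass D (combine D (half D A (hd p)) (c.sub (hd p)) (c'.sub (hd p))) (tl p) with hw
    have hocc : occ D A c (hd p) w := by
      unfold occ
      rwa [mem_half] at h1
    by_cases hb : both D A c w
    · have h3 : ∀ h, occ D A c h w := by
        intro h; cases h
        · exact hb.1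
        · exact hb.2
      exact h3 _
    · rw [if_neg hb]
      have h5 : (((hd p) ^^ c.top w) ^^ c.top w) = hd p := by simp
      rw [h5]
      exact hocc

theorem combine_injective (D : ℕ) (A : Finset (V D)) (c' : Coins D) :
    Function.Injective (fun c => combine D A c c') := by
  induction D with
  | zero => intro a b _; rfl
  | succ D ih =>
    intro c1 c2 h
    simp only [combine] at h
    have hs : ∀ b, c1.sub b = c2.sub b := by
      intro b
      have h1 := congrArg (fun c => Coins.sub c b) h
      simp only [Coins.sub_mk] at h1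
      exact ih (half D A b) (c'.sub b) h1
    have hocc : ∀ b v, occ D A c1 b v ↔ occ D A c2 b v := by
      intro b v
      unfold occ
      rw [hs b]
    have hboth : ∀ v, both D A c1 v ↔ both D A c2 v := by
      intro v
      unfold both
      rw [hocc, hocc]
    have ht : ∀ v, c1.top v = c2.top v := by
      intro v
      have h1 := congrArg (fun c => Coins.top c v) h
      simp only [Coins.top_mk, hboth v] at h1
      split_ifs at h1
      · have hx : ∀ a b c : Bool, (a ^^ c) = (b ^^ c) → a = b := by decide
        exact hx _ _ _ h1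
      · exact h1
    rw [← Coins.mk_eta c1, ← Coins.mk_eta c2]
    have e1 : c1.sub = c2.sub := funext hs
    have e2 : c1.top = c2.top := funext ht
    rw [e1, e2]

/-- C3a: for fixed hidden coins and fixed `A` the map `c ↦ combine A c c'` is a bijection. -/
theorem combine_bijective (D : ℕ) (A : Finset (V D)) (c' : Coins D) :
    Function.Bijective (fun c => combine D A c c') :=
  Finite.injective_iff_bijective.mp (combine_injective D A c')

end Crest.Agent.Thorp
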