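import Crest.Agent.Lib.Row155.Defs2
import Crest.Agent.Lib.Row155.RGoodAbs
import Crest.Agent.Lib.Row155.T2
/-!
Row 155 (Thorp shuffle), chunk C9a,b: the class function `rGood` and the fresh model.
-/
set_option autoImplicit false
set_option linter.unusedSectionVars false
open Finset
open scoped BigOperators

namespace Crest.Agent.Thorp

namespace RG

section Rel

variable {Λ : Type*} [Fintype Λ] [DecidableEq Λ] {D : ℕ}

theorem relLaw_nonneg (L : Λ ↪ V D) (c : Coins D) (w : Equiv.Perm Λ) : 0 ≤ relLaw L c w := by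
  unfold relLaw
  apply Finset.expect_nonneg
  intro c' _
  split_ifs <;> norm_num

theorem exists_unique_rel (L : Λ ↪ V D) (c c' : Coins D) :
    ∃ w : Equiv.Perm Λ, ∀ w' : Equiv.Perm Λ,
      (∀ i, pass D (combine D (rangeF L) c c') (L i) = pass D c (L (w' i))) ↔ w' = w := by
  have h1 : ∀ i : Λ, ∃ j : Λ, pass D (combine D (rangeF L) c c') (L i) = pass D c (L j) := by
    intro i
    have := pass_combine_mem D (rangeF L) c c' (L i) (mem_rangeF.2 ⟨i, rfl⟩)
    obtain ⟨j, hj⟩ := mem_rangeF.1 this
    exact ⟨j, by rw [hj, Equiv.apply_symm_apply]⟩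
  choose w hw using h1
  have hinj : Function.Injective w := by
    intro i i' hii
    apply L.injective
    apply (pass D (combine D (rangeF L) c c')).injective
    rw [hw i, hw i', hii]
  refine ⟨Equiv.ofBijective w (Finite.injective_iff_bijective.1 hinj), fun w' => ⟨fun h => ?_, ?_⟩⟩
  · ext i
    apply L.injective
    apply (pass D c).injective
    rw [Equiv.ofBijective_apply, ← h i, hw i]
  · rintro rfl i
    rw [Equiv.ofBijective_apply]
    exact hw i

theorem relLaw_sum (L : Λ ↪ V D) (c : Coins D) : ∑ w, relLaw L c w = 1 := by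
  unfold relLaw
  rw [← Finset.expect_sum_comm]
  have : ∀ c' : Coins D, (∑ w : Equiv.Perm Λ,
      if (∀ i, pass D (combine D (rangeF L) c c') (L i) = pass D c (L (w i))) then (1 : ℝ) else 0) =
      1 := by
    intro c'
    obtain ⟨w, hw⟩ := exists_unique_rel L c c'
    simp only [hw]
    simp
  rw [Finset.expect_congr rfl (fun c' _ => this c'), Fintype.expect_const]

/-- relabelling of the lines -/
theorem rangeF_relabel (x : Equiv.Perm Λ) (L : Λ ↪ V D) :
    rangeF (x.toEmbedding.trans L) = rangeF L := by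
  ext p
  rw [mem_rangeF, mem_rangeF]
  constructor
  · rintro ⟨i, hi⟩
    exact ⟨x i, hi⟩
  · rintro ⟨i, hi⟩
    exact ⟨x.symm i, by simpa using hi⟩

theorem relLaw_relabel (x : Equiv.Perm Λ) (L : Λ ↪ V D) (c : Coins D) (w : Equiv.Perm Λ) :
    relLaw (x.toEmbedding.trans L) c w = relLaw L c (x * w * x⁻¹) := by
  unfold relLaw
  rw [rangeF_relabel]
  refine Finset.expect_congr rfl fun c' _ => ?_
  have : (∀ i, pass D (combine D (rangeF L) c c') ((x.toEmbedding.trans L) i) =
      pass D c ((x.toEmbedding.trans L) (w i))) ↔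
      ∀ i, pass D (combine D (rangeF L) c c') (L i) = pass D c (L ((x * w * x⁻¹) i)) := by
    constructor
    · intro h i
      have := h (x⁻¹ i)
      simpa using this
    · intro h i
      have := h (x i)
      simpa using this
  simp only [this]

theorem relLaws_eq : ∀ (k : ℕ) (E : Fin k → Env Λ D),
    relLaws k E = laws (fun e : Env Λ D => relLaw e.1 e.2) k E
  | 0, _ => rfl
  | k + 1, E => by
    change conv _ (relLaws k _) = conv _ (laws _ k _)
    rw [relLaws_eq k]

end Rel

theorem rGood_eq (d K b s : ℕ) : rGood d K b s =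
    rr (fun e : Env (Fin (2 ^ d)) (d + 1) => relLaw e.1 e.2)
      (fun e => Good d K b s (rangeF e.1) e.2) := rfl

end RG

open RG

theorem rGood_nonneg (d K b s : ℕ) (g : Equiv.Perm (Fin (2 ^ d))) : 0 ≤ rGood d K b s g := by
  unfold rGood
  apply Finset.expect_nonneg
  intro e _
  split_ifs
  · exact Finset.sum_nonneg fun w _ => mul_nonneg (relLaw_nonneg _ _ _) (relLaw_nonneg _ _ _)
  · exact le_rfl

theorem rGood_class (d K b s : ℕ) (g h : Equiv.Perm (Fin (2 ^ d))) :
    rGood d K b s (h * g * h⁻¹) = rGood d K b s g := by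
  unfold rGood
  let σ : Env (Fin (2 ^ d)) (d + 1) ≃ Env (Fin (2 ^ d)) (d + 1) :=
    { toFun := fun E => (h.toEmbedding.trans E.1, E.2)
      invFun := fun E => (h.symm.toEmbedding.trans E.1, E.2)
      left_inv := by
        intro E
        refine Prod.ext (Function.Embedding.ext fun i => ?_) rfl
        simp
      right_inv := by
        intro E
        refine Prod.ext (Function.Embedding.ext fun i => ?_) rfl
        simp }
  refine Fintype.expect_equiv σ _ _ fun E => ?_
  change (if Good d K b s (rangeF E.1) E.2 then _ else 0) =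
    if Good d K b s (rangeF (h.toEmbedding.trans E.1)) E.2 then
      ∑ w : Equiv.Perm (Fin (2 ^ d)), relLaw (h.toEmbedding.trans E.1) E.2 w *
        relLaw (h.toEmbedding.trans E.1) E.2 (w * g⁻¹) else 0
  rw [rangeF_relabel]
  split_ifs
  · have h1 := rho_conj (relLaw E.1 E.2) h g
    unfold rho at h1
    simp only [relLaw_relabel]
    exact h1.symm
  · rfl

theorem rGood_inv (d K b s : ℕ) (g : Equiv.Perm (Fin (2 ^ d))) :
    rGood d K b s g⁻¹ = rGood d K b s g := by
  unfold rGood
  refine Finset.expect_congr rfl fun e _ => ?_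
  split_ifs
  · exact rho_inv (relLaw e.1 e.2) g
  · rfl

theorem rGood_pos (d K b s : ℕ) (f : Equiv.Perm (Fin (2 ^ d)) → ℝ) :
    0 ≤ quad (rGood d K b s) f :=
  quad_rr_nonneg _ _ (fun g h => rGood_class d K b s g h) f

theorem rGood_mass (d K b s : ℕ) :
    ∑ g, rGood d K b s g =
      𝔼 E : Env (Fin (2 ^ d)) (d + 1), if Good d K b s (rangeF E.1) E.2 then (1 : ℝ) else 0 :=
  rr_sum _ (fun e => relLaw_sum e.1 e.2)

/-- C9b -/
theorem freshErr_le (d K b s k : ℕ) :
    freshErr (Fin (2 ^ d)) (d + 1) k ≤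
      (1 - (∑ g, rGood d K b s g) ^ k) +
        (1 / 2) * Real.sqrt (((2 ^ d).factorial : ℝ) * convPow (rGood d K b s) k 1 -
          (∑ g, rGood d K b s g) ^ k) := by
  have hne : Nonempty (Fin (2 ^ d) ↪ V (d + 1)) := by
    apply Function.Embedding.nonempty_of_card_le
    rw [Fintype.card_fin, card_V]
    exact Nat.pow_le_pow_right (by norm_num) (Nat.le_succ d)
  have h1 := expect_tv_le (ι := Env (Fin (2 ^ d)) (d + 1))
    (fun e : Env (Fin (2 ^ d)) (d + 1) => Good d K b s (rangeF e.1) e.2)
    (ν := fun e => relLaw e.1 e.2)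
    (fun e g => relLaw_nonneg e.1 e.2 g) (fun e => relLaw_sum e.1 e.2)
    (fun g h => rGood_class d K b s g h) k
  rw [Fintype.card_perm, Fintype.card_fin] at h1
  unfold freshErr
  refine le_trans (le_of_eq ?_) h1
  refine Finset.expect_congr rfl fun E _ => ?_
  rw [relLaws_eq]

end Crest.Agent.Thorp
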