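import Crest.Agent.Lib.Row155.Defs2
/-!
Row 155 (Thorp shuffle), chunk C4c: a uniformly random tuple of at most half of the positions is
regular (hypergeometric tail and union bound over the boxes).
-/
set_option autoImplicit false
set_option linter.unusedSectionVars false
open Finset
open scoped BigOperators

namespace Crest.Agent.Thorp
namespace RegProb

variable {W : Type*} [Fintype W] [DecidableEq W]

/-- range of a tuple -/
def rg {m : ℕ} (x : Fin m ↪ W) : Finset W := Finset.univ.map x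

theorem mem_rg {m : ℕ} {x : Fin m ↪ W} {p : W} : p ∈ rg x ↔ ∃ i, x i = p := by simp [rg]

theorem card_rg {m : ℕ} (x : Fin m ↪ W) : (rg x).card = m := by simp [rg]

/-- number of tuples whose range contains `T` -/
noncomputable def cnt (m : ℕ) (T : Finset W) : ℝ := ∑ x : Fin m ↪ W, if T ⊆ rg x then (1 : ℝ) else 0

theorem cnt_nonneg (m : ℕ) (T : Finset W) : 0 ≤ cnt m T :=
  Finset.sum_nonneg fun x _ => by split_ifs <;> norm_num

theorem cnt_insert_eq (m : ℕ) (T : Finset W) {a b : W} (ha : a ∉ T) (hb : b ∉ T) :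
    cnt m (insert a T) = cnt m (insert b T) := by
  unfold cnt
  let e : (Fin m ↪ W) ≃ (Fin m ↪ W) :=
    Equiv.embeddingCongr (Equiv.refl _) (Equiv.swap a b)
  refine Fintype.sum_equiv e _ _ fun x => ?_
  have he : ∀ i, e x i = Equiv.swap a b (x i) := fun i => rfl
  have hmem : ∀ p, Equiv.swap a b p ∈ rg (e x) ↔ p ∈ rg x := by
    intro p
    rw [mem_rg, mem_rg]
    constructor
    · rintro ⟨i, hi⟩
      rw [he] at hi
      exact ⟨i, (Equiv.swap a b).injective hi⟩
    · rintro ⟨i, hi⟩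
      exact ⟨i, by rw [he, hi]⟩
  have hT : ∀ p ∈ T, Equiv.swap a b p = p := by
    intro p hp
    apply Equiv.swap_apply_of_ne_of_ne
    · rintro rfl; exact ha hp
    · rintro rfl; exact hb hp
  have : insert a T ⊆ rg x ↔ insert b T ⊆ rg (e x) := by
    rw [Finset.insert_subset_iff, Finset.insert_subset_iff]
    refine and_congr ?_ ?_
    · have := hmem a
      rw [Equiv.swap_apply_left] at this
      exact this.symm
    · constructor
      · intro h p hp
        have := (hmem p).2 (h hp)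
        rwa [hT p hp] at this
      · intro h p hp
        apply (hmem p).1
        rw [hT p hp]
        exact h hp
  by_cases h : insert a T ⊆ rg x
  · rw [if_pos h, if_pos (this.1 h)]
  · rw [if_neg h, if_neg (fun h' => h (this.2 h'))]

theorem sum_cnt_insert (m : ℕ) (T : Finset W) :
    ∑ a ∈ Tᶜ, cnt m (insert a T) = ((m : ℝ) - T.card) * cnt m T := by
  unfold cnt
  rw [Finset.sum_comm, Finset.mul_sum]
  refine Finset.sum_congr rfl fun x _ => ?_
  by_cases h : T ⊆ rg x
  · rw [if_pos h, mul_one]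
    have h1 : ∀ a ∈ Tᶜ, (if insert a T ⊆ rg x then (1 : ℝ) else 0) =
        if a ∈ rg x then (1 : ℝ) else 0 := by
      intro a _
      by_cases h2 : a ∈ rg x
      · rw [if_pos h2, if_pos (Finset.insert_subset h2 h)]
      · rw [if_neg h2, if_neg (fun h3 => h2 (h3 (Finset.mem_insert_self a T)))]
    rw [Finset.sum_congr rfl h1, Finset.sum_ite_mem, Finset.sum_const, nsmul_eq_mul, mul_one]
    have h3 : Tᶜ ∩ rg x = rg x \ T := by
      ext p; simp [and_comm]
    rw [h3, Finset.card_sdiff_of_subset h, card_rg, Nat.cast_sub]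
    rw [← card_rg x]
    exact Finset.card_le_card h
  · rw [if_neg h, mul_zero]
    apply Finset.sum_eq_zero
    intro a _
    rw [if_neg]
    intro h2
    exact h (fun p hp => h2 (Finset.mem_insert_of_mem hp))

theorem cnt_insert_le (m : ℕ) (hm : 2 * m ≤ Fintype.card W) (T : Finset W) {a : W} (ha : a ∉ T) :
    2 * cnt m (insert a T) ≤ cnt m T := by
  have h1 := sum_cnt_insert m T
  have h2 : ∑ b ∈ Tᶜ, cnt m (insert b T) = (Tᶜ).card * cnt m (insert a T) := by
    rw [Finset.sum_congr rfl (fun b hb => cnt_insert_eq m T (Finset.mem_compl.1 hb) ha),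
      Finset.sum_const, nsmul_eq_mul]
  rw [h2] at h1
  have h3 : 0 < (Tᶜ).card := Finset.card_pos.2 ⟨a, Finset.mem_compl.2 ha⟩
  have h4 : (Tᶜ).card + T.card = Fintype.card W := by
    rw [add_comm]; exact Finset.card_add_card_compl T
  have h5 : (0 : ℝ) < (Tᶜ).card := by exact_mod_cast h3
  have h6 : ((Tᶜ).card : ℝ) + T.card = Fintype.card W := by exact_mod_cast h4
  have h7 : (2 : ℝ) * m ≤ Fintype.card W := by exact_mod_cast hm
  have h8 := cnt_nonneg m T
  have h9 : (0 : ℝ) ≤ T.card := by positivity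
  have h10 : (Tᶜ).card * (2 * cnt m (insert a T)) ≤ (Tᶜ).card * cnt m T := by
    have : (Tᶜ).card * (2 * cnt m (insert a T)) = 2 * ((m : ℝ) - T.card) * cnt m T := by
      rw [mul_assoc, ← h1]; ring
    rw [this]
    apply mul_le_mul_of_nonneg_right _ h8
    linarith
  exact le_of_mul_le_mul_left h10 h5

theorem cnt_le (m : ℕ) (hm : 2 * m ≤ Fintype.card W) (T : Finset W) :
    cnt m T ≤ (1 / 2 : ℝ) ^ T.card * Fintype.card (Fin m ↪ W) := by
  induction T using Finset.induction_on with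
  | empty =>
    simp [cnt]
  | insert a T ha ih =>
    have h1 := cnt_insert_le m hm T ha
    rw [Finset.card_insert_of_notMem ha, pow_succ]
    linarith

/-- exponential moment of the hypergeometric law -/
theorem sum_two_pow_le (m : ℕ) (hm : 2 * m ≤ Fintype.card W) (C : Finset W) :
    ∑ x : Fin m ↪ W, (2 : ℝ) ^ (C ∩ rg x).card ≤
      (3 / 2 : ℝ) ^ C.card * Fintype.card (Fin m ↪ W) := by
  have h1 : ∀ x : Fin m ↪ W, (2 : ℝ) ^ (C ∩ rg x).card =
      ∑ T ∈ C.powerset, if T ⊆ rg x then (1 : ℝ) else 0 := by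
    intro x
    rw [← Finset.sum_filter]
    have : C.powerset.filter (fun T => T ⊆ rg x) = (C ∩ rg x).powerset := by
      ext T
      rw [Finset.mem_filter, Finset.mem_powerset, Finset.mem_powerset, Finset.subset_inter_iff]
    rw [this, Finset.sum_const, Finset.card_powerset]
    simp
  calc ∑ x : Fin m ↪ W, (2 : ℝ) ^ (C ∩ rg x).card
      = ∑ T ∈ C.powerset, cnt m T := by
        rw [Finset.sum_congr rfl (fun x _ => h1 x), Finset.sum_comm]
        rfl
    _ ≤ ∑ T ∈ C.powerset, (1 / 2 : ℝ) ^ T.card * Fintype.card (Fin m ↪ W) :=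
        Finset.sum_le_sum fun T _ => cnt_le m hm T
    _ = (3 / 2 : ℝ) ^ C.card * Fintype.card (Fin m ↪ W) := by
        rw [← Finset.sum_mul]
        congr 1
        have := Finset.sum_pow_mul_eq_add_pow (1 / 2 : ℝ) 1 C
        simp only [one_pow, mul_one] at this
        rw [this]
        norm_num

/-- tail of the hypergeometric law -/
theorem sum_bad_le (m : ℕ) (hm : 2 * m ≤ Fintype.card W) (C : Finset W) :
    ∑ x : Fin m ↪ W, (if ((C ∩ rg x).card : ℝ) ≤ 3 / 4 * C.card then (0 : ℝ) else 1) ≤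
      (9 / 10 : ℝ) ^ C.card * Fintype.card (Fin m ↪ W) := by
  have h1 : ∀ x : Fin m ↪ W, (if ((C ∩ rg x).card : ℝ) ≤ 3 / 4 * C.card then (0 : ℝ) else 1) ≤
      (3 / 5 : ℝ) ^ C.card * (2 : ℝ) ^ (C ∩ rg x).card := by
    intro x
    split_ifs with h
    · positivity
    · rw [not_le] at h
      have h2 : 3 * C.card ≤ 4 * (C ∩ rg x).card := by
        have : (3 : ℝ) * C.card ≤ 4 * (C ∩ rg x).card := by linarith
        exact_mod_cast this
      have h3 : (1 : ℝ) ≤ ((3 / 5 : ℝ) ^ C.card * (2 : ℝ) ^ (C ∩ rg x).card) ^ 4 := by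
        calc (1 : ℝ) ≤ ((3 / 5 : ℝ) ^ 4 * 8) ^ C.card := one_le_pow₀ (by norm_num)
          _ = ((3 / 5 : ℝ) ^ C.card) ^ 4 * 2 ^ (3 * C.card) := by
              rw [mul_pow, ← pow_mul, ← pow_mul, mul_comm 4, pow_mul 2 3]
              norm_num
          _ ≤ ((3 / 5 : ℝ) ^ C.card) ^ 4 * 2 ^ (4 * (C ∩ rg x).card) := by
              gcongr
              norm_num
          _ = ((3 / 5 : ℝ) ^ C.card * (2 : ℝ) ^ (C ∩ rg x).card) ^ 4 := by
              rw [mul_pow, ← pow_mul 2, mul_comm 4 (C ∩ rg x).card]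
      by_contra h4
      rw [not_le] at h4
      have h5 : (0 : ℝ) ≤ (3 / 5 : ℝ) ^ C.card * (2 : ℝ) ^ (C ∩ rg x).card := by positivity
      have := pow_lt_one₀ h5 h4 (by norm_num : 4 ≠ 0)
      linarith
  calc ∑ x : Fin m ↪ W, (if ((C ∩ rg x).card : ℝ) ≤ 3 / 4 * C.card then (0 : ℝ) else 1)
      ≤ ∑ x : Fin m ↪ W, (3 / 5 : ℝ) ^ C.card * (2 : ℝ) ^ (C ∩ rg x).card :=
        Finset.sum_le_sum fun x _ => h1 x
    _ = (3 / 5 : ℝ) ^ C.card * ∑ x : Fin m ↪ W, (2 : ℝ) ^ (C ∩ rg x).card := by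
        rw [Finset.mul_sum]
    _ ≤ (3 / 5 : ℝ) ^ C.card * ((3 / 2 : ℝ) ^ C.card * Fintype.card (Fin m ↪ W)) := by
        gcongr
        exact sum_two_pow_le m hm C
    _ = (9 / 10 : ℝ) ^ C.card * Fintype.card (Fin m ↪ W) := by
        rw [← mul_assoc, ← mul_pow]
        norm_num

/-- trace of the range of a tuple on a box `ι : V D ↪ W` -/
def tr {m : ℕ} (D : ℕ) (ι : V D ↪ W) (x : Fin m ↪ W) : Finset (V D) :=
  Finset.univ.filter fun v => ι v ∈ rg x

theorem card_tr {m : ℕ} (D : ℕ) (ι : V D ↪ W) (x : Fin m ↪ W) :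
    (tr D ι x).card = (Finset.univ.map ι ∩ rg x).card := by
  rw [← Finset.card_map ι]
  congr 1
  ext p
  simp only [tr, Finset.mem_map, Finset.mem_filter, Finset.mem_univ, true_and,
    Finset.mem_inter]
  constructor
  · rintro ⟨v, hv, rfl⟩
    exact ⟨⟨v, rfl⟩, hv⟩
  · rintro ⟨⟨v, rfl⟩, hv⟩
    exact ⟨v, hv, rfl⟩

/-- `cons h` as an embedding -/
def consEmb (D : ℕ) (h : Bool) : V D ↪ V (D + 1) := ⟨cons h, fun _ _ e => (cons_inj.1 e).2⟩

theorem half_tr {m : ℕ} (D : ℕ) (ι : V (D + 1) ↪ W) (x : Fin m ↪ W) (h : Bool) :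
    half D (tr (D + 1) ι x) h = tr D ((consEmb D h).trans ι) x := by
  ext v
  simp only [tr, mem_half, Finset.mem_filter, Finset.mem_univ, true_and]
  rfl

open Classical in
theorem sum_not_reg_le (s0 m : ℕ) (hm : 2 * m ≤ Fintype.card W) : ∀ (D : ℕ) (ι : V D ↪ W),
    ∑ x : Fin m ↪ W, (if Reg s0 (3 / 4) D (tr D ι x) then (0 : ℝ) else 1) ≤
      (2 ^ (D + 1) - 2) * (9 / 10 : ℝ) ^ (2 ^ s0) * Fintype.card (Fin m ↪ W)
  | 0, ι => by
    simp [Reg]
  | D + 1, ι => by
    have hbox : ∀ h : Bool, s0 ≤ D → ∑ x : Fin m ↪ W,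
        (if ((tr D ((consEmb D h).trans ι) x).card : ℝ) ≤ 3 / 4 * 2 ^ D then (0 : ℝ) else 1) ≤
          (9 / 10 : ℝ) ^ (2 ^ s0) * Fintype.card (Fin m ↪ W) := by
      intro h hs
      have h1 := sum_bad_le m hm (Finset.univ.map ((consEmb D h).trans ι))
      rw [Finset.card_map, Finset.card_univ, card_V] at h1
      refine le_trans (le_of_eq ?_) (h1.trans ?_)
      · refine Finset.sum_congr rfl fun x _ => ?_
        rw [card_tr]
        push_cast
        rfl
      · apply mul_le_mul_of_nonneg_right _ (by positivity)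
        exact pow_le_pow_of_le_one (by norm_num) (by norm_num)
          (Nat.pow_le_pow_right (by norm_num) hs)
    have hpt : ∀ x : Fin m ↪ W, (if Reg s0 (3 / 4) (D + 1) (tr (D + 1) ι x) then (0 : ℝ) else 1) ≤
        ∑ h : Bool, ((if s0 ≤ D then
          (if ((tr D ((consEmb D h).trans ι) x).card : ℝ) ≤ 3 / 4 * 2 ^ D then (0 : ℝ) else 1)
            else 0) +
          (if Reg s0 (3 / 4) D (tr D ((consEmb D h).trans ι) x) then (0 : ℝ) else 1)) := by
      intro x
      have hnn : ∀ h : Bool, (0 : ℝ) ≤ ((if s0 ≤ D then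
          (if ((tr D ((consEmb D h).trans ι) x).card : ℝ) ≤ 3 / 4 * 2 ^ D then (0 : ℝ) else 1)
            else 0) +
          (if Reg s0 (3 / 4) D (tr D ((consEmb D h).trans ι) x) then (0 : ℝ) else 1)) := by
        intro h
        split_ifs <;> norm_num
      by_cases hR : Reg s0 (3 / 4) (D + 1) (tr (D + 1) ι x)
      · rw [if_pos hR]
        exact Finset.sum_nonneg fun h _ => hnn h
      · rw [if_neg hR]
        have hR' : ¬ ((s0 ≤ D → ∀ h, ((half D (tr (D + 1) ι x) h).card : ℝ) ≤ 3 / 4 * 2 ^ D) ∧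
          ∀ h, Reg s0 (3 / 4) D (half D (tr (D + 1) ι x) h)) := hR
        simp only [half_tr] at hR'
        rw [not_and_or] at hR'
        have hex : ∃ h : Bool, (1 : ℝ) ≤ ((if s0 ≤ D then
          (if ((tr D ((consEmb D h).trans ι) x).card : ℝ) ≤ 3 / 4 * 2 ^ D then (0 : ℝ) else 1)
            else 0) +
          (if Reg s0 (3 / 4) D (tr D ((consEmb D h).trans ι) x) then (0 : ℝ) else 1)) := by
          rcases hR' with h1 | h1
          · push Not at h1
            obtain ⟨hs, h, hh⟩ := h1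
            refine ⟨h, ?_⟩
            rw [if_pos hs, if_neg (not_le.2 hh)]
            split_ifs <;> norm_num
          · push Not at h1
            obtain ⟨h, hh⟩ := h1
            refine ⟨h, ?_⟩
            rw [if_neg hh]
            split_ifs <;> norm_num
        obtain ⟨h, hh⟩ := hex
        exact hh.trans (Finset.single_le_sum (f := fun h : Bool => ((if s0 ≤ D then
          (if ((tr D ((consEmb D h).trans ι) x).card : ℝ) ≤ 3 / 4 * 2 ^ D then (0 : ℝ) else 1)
            else 0) +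
          (if Reg s0 (3 / 4) D (tr D ((consEmb D h).trans ι) x) then (0 : ℝ) else 1)))
          (fun h _ => hnn h) (Finset.mem_univ h))
    calc ∑ x : Fin m ↪ W, (if Reg s0 (3 / 4) (D + 1) (tr (D + 1) ι x) then (0 : ℝ) else 1)
        ≤ ∑ x : Fin m ↪ W, ∑ h : Bool, ((if s0 ≤ D then
          (if ((tr D ((consEmb D h).trans ι) x).card : ℝ) ≤ 3 / 4 * 2 ^ D then (0 : ℝ) else 1)
            else 0) +
          (if Reg s0 (3 / 4) D (tr D ((consEmb D h).trans ι) x) then (0 : ℝ) else 1)) :=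
          Finset.sum_le_sum fun x _ => hpt x
      _ = ∑ h : Bool, ((if s0 ≤ D then ∑ x : Fin m ↪ W,
          (if ((tr D ((consEmb D h).trans ι) x).card : ℝ) ≤ 3 / 4 * 2 ^ D then (0 : ℝ) else 1)
            else 0) +
          ∑ x : Fin m ↪ W,
            (if Reg s0 (3 / 4) D (tr D ((consEmb D h).trans ι) x) then (0 : ℝ) else 1)) := by
          rw [Finset.sum_comm]
          refine Finset.sum_congr rfl fun h _ => ?_
          rw [Finset.sum_add_distrib]
          congr 1
          split_ifs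
          · rfl
          · simp
      _ ≤ ∑ _h : Bool, ((9 / 10 : ℝ) ^ (2 ^ s0) * Fintype.card (Fin m ↪ W) +
          (2 ^ (D + 1) - 2) * (9 / 10 : ℝ) ^ (2 ^ s0) * Fintype.card (Fin m ↪ W)) := by
          refine Finset.sum_le_sum fun h _ => add_le_add ?_ (sum_not_reg_le s0 m hm D _)
          split_ifs with hs
          · exact hbox h hs
          · positivity
      _ = (2 ^ (D + 1 + 1) - 2) * (9 / 10 : ℝ) ^ (2 ^ s0) * Fintype.card (Fin m ↪ W) := by
          simp only [Finset.sum_const, Finset.card_univ, Fintype.card_bool, nsmul_eq_mul]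
          push_cast
          ring

end RegProb

/-- C4c: a uniformly random tuple of at most half of the positions is regular. -/
theorem reg_prob (s0 D m : ℕ) (hm : 2 * m ≤ 2 ^ D) :
    (𝔼 x : Fin m ↪ V D, open Classical in if Reg s0 (3 / 4) D (rangeF x) then (0 : ℝ) else 1) ≤
      2 ^ (D + 1) * (9 / 10 : ℝ) ^ (2 ^ s0) := by
  classical
  have h1 := RegProb.sum_not_reg_le (W := V D) s0 m (by rw [card_V]; exact hm) D
    (Function.Embedding.refl _)
  have h2 : ∀ x : Fin m ↪ V D, RegProb.tr D (Function.Embedding.refl _) x = rangeF x := by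
    intro x
    ext v
    simp [RegProb.tr, RegProb.rg]
  simp only [h2] at h1
  rw [Fintype.expect_eq_sum_div_card]
  have hpos : (0 : ℝ) ≤ (9 / 10 : ℝ) ^ (2 ^ s0) := by positivity
  rcases Nat.eq_zero_or_pos (Fintype.card (Fin m ↪ V D)) with h0 | h0
  · rw [h0, Nat.cast_zero, div_zero]
    positivity
  · have h0' : (0 : ℝ) < Fintype.card (Fin m ↪ V D) := by exact_mod_cast h0
    rw [div_le_iff₀ h0']
    refine le_trans (le_of_eq ?_) (h1.trans ?_)
    · exact Finset.sum_congr rfl fun x _ => by congr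
    · apply mul_le_mul_of_nonneg_right _ h0'.le
      apply mul_le_mul_of_nonneg_right _ hpos
      linarith

end Crest.Agent.Thorp
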