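import Crest.Agent.Lib.Row155.Defs2
/-!
Row 155: the relative permutation of the lines in a work pass (API for `relLaw`).
-/
set_option autoImplicit false
open Finset
open scoped BigOperators

namespace Crest.Agent.Thorp

/-- local copy of C3a. -/
theorem pass_combine_mem_aux : ∀ (D : ℕ) (A : Finset (V D)) (c c' : Coins D) (p : V D), p ∈ A →
    (pass D c).symm (pass D (combine D A c c') p) ∈ A
  | 0, A, c, c', p, hp => hp
  | D + 1, A, c, c', p, hp => by
    obtain ⟨h, v, rfl⟩ : ∃ h v, p = cons h v := ⟨hd p, tl p, rfl⟩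
    have ih := pass_combine_mem_aux D (half D A h) (c.sub h) (c'.sub h) v (mem_half.mpr hp)
    rw [pass_succ_apply]
    simp only [hd_cons, tl_cons]
    set v' := pass D ((combine (D + 1) A c c').sub h) v with hv'
    have hv'' : v' = pass D (combine D (half D A h) (c.sub h) (c'.sub h)) v := rfl
    rw [pass_succ_symm_apply]
    simp only [hd_cons, tl_cons]
    rw [← hv''] at ih
    have hocc : occ D A c h v' := mem_half.mp ih
    have htop : (combine (D + 1) A c c').top v' =
        if both D A c v' then xor (c.top v') (c'.top v') else c.top v' := rfl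
    rw [htop]
    by_cases hb : both D A c v'
    · rw [if_pos hb]
      have hall : ∀ k, occ D A c k v' := by
        intro k; cases k
        · exact hb.1
        · exact hb.2
      exact hall _
    · rw [if_neg hb]
      have : xor (xor h (c.top v')) (c.top v') = h := by simp
      rw [this]
      exact hocc

section RelPerm

variable {Λ : Type*} [Fintype Λ] {D : ℕ}

theorem exists_rel (L : Λ ↪ V D) (c c' : Coins D) (i : Λ) :
    ∃ j, pass D (combine D (rangeF L) c c') (L i) = pass D c (L j) := by
  have h := pass_combine_mem_aux D (rangeF L) c c' (L i) (mem_rangeF.mpr ⟨i, rfl⟩)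
  obtain ⟨j, hj⟩ := mem_rangeF.mp h
  exact ⟨j, by rw [hj]; simp⟩

/-- The function underlying the relative permutation. -/
noncomputable def relFun (L : Λ ↪ V D) (c c' : Coins D) (i : Λ) : Λ := (exists_rel L c c' i).choose

theorem relFun_spec (L : Λ ↪ V D) (c c' : Coins D) (i : Λ) :
    pass D (combine D (rangeF L) c c') (L i) = pass D c (L (relFun L c c' i)) :=
  (exists_rel L c c' i).choose_spec

theorem relFun_injective (L : Λ ↪ V D) (c c' : Coins D) : Function.Injective (relFun L c c') := by
  intro i j hij
  have h1 := relFun_spec L c c' i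
  rw [hij, ← relFun_spec L c c' j] at h1
  exact L.injective ((pass D _).injective h1)

/-- The relative permutation: the card starting on line `i` ends on line `relPerm L c c' i`. -/
noncomputable def relPerm (L : Λ ↪ V D) (c c' : Coins D) : Equiv.Perm Λ :=
  Equiv.ofBijective (relFun L c c') (Finite.injective_iff_bijective.mp (relFun_injective L c c'))

theorem relPerm_spec (L : Λ ↪ V D) (c c' : Coins D) (i : Λ) :
    pass D (combine D (rangeF L) c c') (L i) = pass D c (L (relPerm L c c' i)) :=
  relFun_spec L c c' i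

theorem relPerm_eq_iff (L : Λ ↪ V D) (c c' : Coins D) (w : Equiv.Perm Λ) :
    (∀ i, pass D (combine D (rangeF L) c c') (L i) = pass D c (L (w i))) ↔
      relPerm L c c' = w := by
  constructor
  · intro h
    ext i
    have := (relPerm_spec L c c' i).symm.trans (h i)
    exact L.injective ((pass D c).injective this)
  · rintro rfl i
    exact relPerm_spec L c c' i

theorem relLaw_eq [DecidableEq Λ] (L : Λ ↪ V D) (c : Coins D) (w : Equiv.Perm Λ) :
    relLaw L c w = 𝔼 c' : Coins D, if relPerm L c c' = w then (1 : ℝ) else 0 := by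
  unfold relLaw
  refine Finset.expect_congr rfl fun c' _ => ?_
  simp only [relPerm_eq_iff]

theorem relLaw_nonneg (L : Λ ↪ V D) (c : Coins D) (w : Equiv.Perm Λ) : 0 ≤ relLaw L c w := by
  unfold relLaw
  refine Finset.expect_nonneg fun c' _ => ?_
  split <;> norm_num

theorem sum_relLaw_mul [DecidableEq Λ] (L : Λ ↪ V D) (c : Coins D) (f : Equiv.Perm Λ → ℝ) :
    ∑ w, relLaw L c w * f w = 𝔼 c' : Coins D, f (relPerm L c c') := by
  simp only [relLaw_eq, Finset.expect_mul]
  rw [← Finset.expect_sum_comm]
  refine Finset.expect_congr rfl fun c' _ => ?_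
  simp

theorem sum_relLaw [DecidableEq Λ] (L : Λ ↪ V D) (c : Coins D) : ∑ w, relLaw L c w = 1 := by
  have := sum_relLaw_mul L c (fun _ => (1 : ℝ))
  simpa using this

theorem rangeF_trans (x : Equiv.Perm Λ) (L : Λ ↪ V D) :
    rangeF (x.toEmbedding.trans L) = rangeF L := by
  ext p
  simp only [mem_rangeF, Function.Embedding.trans_apply, Equiv.coe_toEmbedding]
  constructor
  · rintro ⟨i, rfl⟩; exact ⟨_, rfl⟩
  · rintro ⟨i, rfl⟩; exact ⟨x.symm i, by simp⟩

/-- Relabelling of the lines. -/
theorem relPerm_trans (x : Equiv.Perm Λ) (L : Λ ↪ V D) (c c' : Coins D) :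
    relPerm (x.toEmbedding.trans L) c c' = x⁻¹ * relPerm L c c' * x := by
  rw [← relPerm_eq_iff]
  intro i
  rw [rangeF_trans]
  simp only [Function.Embedding.trans_apply, Equiv.coe_toEmbedding, Equiv.Perm.mul_apply]
  have h2 : x (x⁻¹ (relPerm L c c' (x i))) = relPerm L c c' (x i) := x.apply_symm_apply _
  rw [h2]
  exact relPerm_spec L c c' (x i)

theorem relLaw_trans [DecidableEq Λ] (x : Equiv.Perm Λ) (L : Λ ↪ V D) (c : Coins D)
    (w : Equiv.Perm Λ) :
    relLaw (x.toEmbedding.trans L) c w = relLaw L c (x * w * x⁻¹) := by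
  rw [relLaw_eq, relLaw_eq]
  refine Finset.expect_congr rfl fun c' _ => ?_
  rw [relPerm_trans]
  have : x⁻¹ * relPerm L c c' * x = w ↔ relPerm L c c' = x * w * x⁻¹ := by
    constructor
    · rintro rfl; group
    · rintro h; rw [h]; group
  simp only [this]

end RelPerm

end Crest.Agent.Thorp
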