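import Crest.Agent.Lib.Row155.Defs2
import Crest.Agent.Lib.Row155.T2
/-!
Row 155 (Thorp shuffle), chunk C3b: revealing and hybrid argument.
-/
set_option autoImplicit false
open Finset
open scoped BigOperators

namespace Crest.Agent.Thorp.Reveal

/-! ### averages -/

theorem rv_expect_snoc {C : Type*} [Fintype C] (M : ℕ) (f : (Fin (M + 1) → C) → ℝ) :
    𝔼 a, f a = 𝔼 c : C, 𝔼 a : Fin M → C, f (Fin.snoc (α := fun _ => C) a c) := by
  rw [← Finset.expect_product']
  exact (Fintype.expect_equiv (Fin.snocEquiv (fun _ : Fin (M + 1) => C)) _ _ (fun _ => rfl)).symm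

theorem rv_expect_prod {A B : Type*} [Fintype A] [Fintype B] (f : A × B → ℝ) :
    𝔼 a, f a = 𝔼 a : A, 𝔼 b : B, f (a, b) := by
  rw [← Finset.expect_product, Finset.univ_product_univ]

theorem rv_expect_le {A : Type*} [Fintype A] {f g : A → ℝ} (h : ∀ a, f a ≤ g a) :
    𝔼 a, f a ≤ 𝔼 a, g a := Finset.expect_le_expect (fun a _ => h a)

theorem rv_expect_sum {A B : Type*} [Fintype A] (s : Finset B) (f : A → B → ℝ) :
    𝔼 a, ∑ b ∈ s, f a b = ∑ b ∈ s, 𝔼 a, f a b := Finset.expect_sum_comm _ _ _

/-! ### permutations of lines -/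

/-- the permutation of the positions that permutes the lines `x` by `w` -/
def ext {Λ : Type*} [Fintype Λ] {D : ℕ} (x : Λ ↪ V D) (w : Equiv.Perm Λ) : Equiv.Perm (V D) :=
  w.viaFintypeEmbedding x

theorem ext_apply {Λ : Type*} [Fintype Λ] {D : ℕ} (x : Λ ↪ V D) (w : Equiv.Perm Λ) (i : Λ) :
    ext x w (x i) = x (w i) := Equiv.Perm.viaFintypeEmbedding_apply_image _ _ _

theorem ext_apply_not {Λ : Type*} [Fintype Λ] {D : ℕ} (x : Λ ↪ V D) (w : Equiv.Perm Λ) (p : V D)
    (h : ∀ i, x i ≠ p) : ext x w p = p :=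
  Equiv.Perm.viaFintypeEmbedding_apply_notMem_range _ _ (by rintro ⟨i, hi⟩; exact h i hi)

theorem ext_mul {Λ : Type*} [Fintype Λ] {D : ℕ} (x : Λ ↪ V D) (w w' : Equiv.Perm Λ) :
    ext x w * ext x w' = ext x (w * w') := by
  ext1 p
  by_cases h : ∃ i, x i = p
  · obtain ⟨i, rfl⟩ := h
    simp [ext_apply]
  · have h' : ∀ i, x i ≠ p := fun i hi => h ⟨i, hi⟩
    simp [ext_apply_not _ _ _ h']

theorem ext_trans {Λ : Type*} [Fintype Λ] {D : ℕ} (x : Λ ↪ V D) (g : Equiv.Perm (V D))
    (w : Equiv.Perm Λ) : ext (x.trans g.toEmbedding) w * g = g * ext x w := by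
  ext1 p
  by_cases h : ∃ i, x i = p
  · obtain ⟨i, rfl⟩ := h
    have h1 := ext_apply (x.trans g.toEmbedding) w i
    have h2 := ext_apply x w i
    simp only [Function.Embedding.trans_apply, Equiv.coe_toEmbedding] at h1
    simp [h1, h2]
  · have h' : ∀ i, x i ≠ p := fun i hi => h ⟨i, hi⟩
    have h'' : ∀ i, (x.trans g.toEmbedding) i ≠ g p := by
      intro i hi
      simp only [Function.Embedding.trans_apply, Equiv.coe_toEmbedding] at hi
      exact h' i (g.injective hi)
    simp [ext_apply_not _ _ _ h', ext_apply_not _ _ _ h'']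

/-! ### one work pass -/

theorem rel_exists {Λ : Type*} [Fintype Λ] {D : ℕ} (L : Λ ↪ V D) (c c' : Coins D) :
    ∃ w : Equiv.Perm Λ, ∀ i, pass D (combine D (rangeF L) c c') (L i) = pass D c (L (w i)) := by
  have h : ∀ i, ∃ j, L j = (pass D c).symm (pass D (combine D (rangeF L) c c') (L i)) := by
    intro i
    have := pass_combine_mem D (rangeF L) c c' (L i) (mem_rangeF.2 ⟨i, rfl⟩)
    exact mem_rangeF.1 this
  choose f hf using h
  have hinj : Function.Injective f := by
    intro i j hij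
    have h1 := hf i
    rw [hij, hf j] at h1
    exact (L.injective ((pass D _).injective ((pass D c).symm.injective h1))).symm
  refine ⟨Equiv.ofBijective f (Finite.injective_iff_bijective.1 hinj), fun i => ?_⟩
  simp [hf]

theorem rel_unique {Λ : Type*} {D : ℕ} (L : Λ ↪ V D) (c : Coins D) (g : Equiv.Perm (V D))
    (w w' : Equiv.Perm Λ) (h : ∀ i, g (L i) = pass D c (L (w i)))
    (h' : ∀ i, g (L i) = pass D c (L (w' i))) : w = w' := by
  ext1 i
  exact L.injective ((pass D c).injective ((h i).symm.trans (h' i)))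

theorem pass_combine_eq {Λ : Type*} [Fintype Λ] {D : ℕ} (L : Λ ↪ V D) (c c' : Coins D)
    (w : Equiv.Perm Λ)
    (hw : ∀ i, pass D (combine D (rangeF L) c c') (L i) = pass D c (L (w i))) :
    pass D (combine D (rangeF L) c c') = pass D c * ext L w := by
  ext1 p
  by_cases h : ∃ i, L i = p
  · obtain ⟨i, rfl⟩ := h
    simp [ext_apply, hw]
  · have h' : ∀ i, L i ≠ p := fun i hi => h ⟨i, hi⟩
    rw [pass_combine_not_mem D _ c c' p (fun hp => h (mem_rangeF.1 hp))]
    simp [ext_apply_not _ _ _ h']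

/-- sum over `w` of the indicator that `w` is the relative permutation -/
theorem rel_sum {Λ : Type*} [Fintype Λ] [DecidableEq Λ] {D : ℕ} (L : Λ ↪ V D) (c c' : Coins D)
    (G : Equiv.Perm (V D) → ℝ) :
    ∑ w : Equiv.Perm Λ,
      (if (∀ i, pass D (combine D (rangeF L) c c') (L i) = pass D c (L (w i))) then (1 : ℝ) else 0) *
        G (pass D c * ext L w) = G (pass D (combine D (rangeF L) c c')) := by
  obtain ⟨w0, hw0⟩ := rel_exists L c c'
  rw [Finset.sum_eq_single w0]
  · rw [if_pos hw0, one_mul, pass_combine_eq L c c' w0 hw0]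
  · intro w _ hne
    rw [if_neg, zero_mul]
    intro hw
    exact hne (rel_unique L c _ w w0 hw hw0)
  · intro h; exact absurd (Finset.mem_univ _) h

theorem one_pass {Λ : Type*} [Fintype Λ] [DecidableEq Λ] {D : ℕ} (L : Λ ↪ V D)
    (G : Equiv.Perm (V D) → ℝ) :
    𝔼 c : Coins D, G (pass D c) =
      𝔼 c : Coins D, ∑ w : Equiv.Perm Λ, relLaw L c w * G (pass D c * ext L w) := by
  have h1 : ∀ c' : Coins D, 𝔼 c : Coins D, G (pass D c) =
      𝔼 c : Coins D, G (pass D (combine D (rangeF L) c c')) := by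
    intro c'
    exact (Fintype.expect_equiv (Equiv.ofBijective _ (combine_bijective D (rangeF L) c')) _ _
      (fun _ => rfl)).symm
  calc 𝔼 c : Coins D, G (pass D c)
      = 𝔼 _c' : Coins D, 𝔼 c : Coins D, G (pass D c) := (Fintype.expect_const _).symm
    _ = 𝔼 c' : Coins D, 𝔼 c : Coins D, G (pass D (combine D (rangeF L) c c')) :=
        Finset.expect_congr rfl (fun c' _ => h1 c')
    _ = 𝔼 c : Coins D, 𝔼 c' : Coins D, G (pass D (combine D (rangeF L) c c')) :=
        Finset.expect_comm _ _ _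
    _ = _ := by
        refine Finset.expect_congr rfl (fun c _ => ?_)
        simp_rw [relLaw, Finset.expect_mul]
        rw [← Finset.expect_sum_comm]
        exact Finset.expect_congr rfl (fun c' _ => (rel_sum L c c' G).symm)

theorem relLaw_nonneg {Λ : Type*} [Fintype Λ] {D : ℕ} (L : Λ ↪ V D) (c : Coins D)
    (w : Equiv.Perm Λ) : 0 ≤ relLaw L c w :=
  Finset.expect_nonneg (fun _ _ => by split_ifs <;> norm_num)

theorem relLaw_sum {Λ : Type*} [Fintype Λ] [DecidableEq Λ] {D : ℕ} (L : Λ ↪ V D) (c : Coins D) :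
    ∑ w : Equiv.Perm Λ, relLaw L c w = 1 := by
  simp_rw [relLaw]
  rw [← Finset.expect_sum_comm]
  rw [Finset.expect_congr rfl (g := fun _ => (1 : ℝ)) (fun c' _ => by
    have := rel_sum L c c' (fun _ => 1)
    simpa using this)]
  exact Fintype.expect_const _

/-! ### convolution -/

theorem conv_sum {G : Type*} [Group G] [Fintype G] (μ ν F : G → ℝ) :
    ∑ u, conv μ ν u * F u = ∑ h, ∑ g, μ h * ν g * F (h * g) := by
  simp_rw [conv, Finset.sum_mul]
  rw [Finset.sum_comm]
  refine Finset.sum_congr rfl (fun h _ => ?_)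
  rw [← Equiv.sum_comp (Equiv.mulLeft h)]
  simp

theorem conv_nonneg {G : Type*} [Group G] [Fintype G] {μ ν : G → ℝ} (hμ : ∀ g, 0 ≤ μ g)
    (hν : ∀ g, 0 ≤ ν g) (g : G) : 0 ≤ conv μ ν g :=
  Finset.sum_nonneg (fun _ _ => mul_nonneg (hμ _) (hν _))

theorem conv_mass {G : Type*} [Group G] [Fintype G] (μ ν : G → ℝ) :
    ∑ u, conv μ ν u = (∑ g, μ g) * ∑ g, ν g := by
  have := conv_sum μ ν (fun _ => 1)
  simp only [mul_one] at this
  rw [this, Finset.sum_mul]
  exact Finset.sum_congr rfl (fun h _ => (Finset.mul_sum _ _ _).symm)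

theorem relLaws_nonneg {Λ : Type*} [Fintype Λ] [DecidableEq Λ] {D : ℕ} (k : ℕ)
    (E : Fin k → Env Λ D) (w : Equiv.Perm Λ) : 0 ≤ relLaws k E w := by
  induction k generalizing w with
  | zero => simp only [relLaws, dirac1]; split_ifs <;> norm_num
  | succ k ih => exact conv_nonneg (relLaw_nonneg _ _) (fun g => ih _ g) w

theorem relLaws_mass {Λ : Type*} [Fintype Λ] [DecidableEq Λ] {D : ℕ} (k : ℕ)
    (E : Fin k → Env Λ D) : ∑ w, relLaws k E w = 1 := by
  induction k with
  | zero => simp [relLaws, dirac1]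
  | succ k ih =>
    simp only [relLaws]
    rw [conv_mass, relLaw_sum, ih, one_mul]

theorem relLaws_snoc {Λ : Type*} [Fintype Λ] [DecidableEq Λ] {D : ℕ} (k : ℕ)
    (E : Fin k → Env Λ D) (e : Env Λ D) :
    relLaws (k + 1) (Fin.snoc (α := fun _ => Env Λ D) E e) = conv (relLaw e.1 e.2) (relLaws k E) := by
  simp [relLaws]

theorem tv_nonneg' {G : Type*} [Fintype G] (μ : G → ℝ) : 0 ≤ tv μ :=
  mul_nonneg (by norm_num) (Finset.sum_nonneg (fun _ _ => abs_nonneg _))

theorem tv_le_one {G : Type*} [Fintype G] [Nonempty G] (μ : G → ℝ) (h0 : ∀ g, 0 ≤ μ g)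
    (h1 : ∑ g, μ g = 1) : tv μ ≤ 1 := by
  have hc : (0 : ℝ) < Fintype.card G := by exact_mod_cast Fintype.card_pos
  have : ∑ g, |μ g - 1 / (Fintype.card G : ℝ)| ≤ ∑ g, (μ g + 1 / (Fintype.card G : ℝ)) := by
    refine Finset.sum_le_sum (fun g _ => ?_)
    rw [abs_le]
    constructor
    · have := h0 g; linarith
    · have : 0 ≤ 1 / (Fintype.card G : ℝ) := by positivity
      linarith
  rw [Finset.sum_add_distrib, h1, Finset.sum_const, Finset.card_univ, nsmul_eq_mul,
    mul_one_div_cancel hc.ne'] at this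
  unfold tv
  linarith

/-- expectation of a `[0,1]`-valued function changes by at most the total variation distance -/
theorem sum_mul_le_tv {G : Type*} [Fintype G] [Nonempty G] (μ f : G → ℝ) (h1 : ∑ g, μ g = 1)
    (hf0 : ∀ g, 0 ≤ f g) (hf1 : ∀ g, f g ≤ 1) :
    ∑ g, μ g * f g ≤ (𝔼 g, f g) + tv μ := by
  have hc : (0 : ℝ) < Fintype.card G := by exact_mod_cast Fintype.card_pos
  set u : ℝ := 1 / (Fintype.card G : ℝ) with hu
  have hE : (𝔼 g, f g) = ∑ g, u * f g := by
    rw [← Finset.mul_sum, Fintype.expect_eq_sum_div_card, hu]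
    ring
  have hcu : (Fintype.card G : ℝ) * u = 1 := by rw [hu]; field_simp
  have h2 : ∑ g, (μ g - u) = 0 := by
    rw [Finset.sum_sub_distrib, h1, Finset.sum_const, Finset.card_univ, nsmul_eq_mul, hcu, sub_self]
  have h3 : ∑ g, (μ g - u) * f g ≤ ∑ g, (1 / 2) * (|μ g - u| + (μ g - u)) := by
    refine Finset.sum_le_sum (fun g _ => ?_)
    rcases le_total 0 (μ g - u) with h | h
    · rw [abs_of_nonneg h]
      nlinarith [hf1 g, hf0 g]
    · rw [abs_of_nonpos h]
      nlinarith [hf1 g, hf0 g]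
  rw [← Finset.mul_sum, Finset.sum_add_distrib, h2, add_zero] at h3
  rw [hE]
  have h4 : ∑ g, μ g * f g = ∑ g, (μ g - u) * f g + ∑ g, u * f g := by
    rw [← Finset.sum_add_distrib]
    exact Finset.sum_congr rfl (fun g _ => by ring)
  rw [h4]
  unfold tv
  linarith


/-! ### expectation over passes -/

theorem passes_snoc (D M : ℕ) (a : Fin M → Coins D) (c : Coins D) :
    passes D (M + 1) (Fin.snoc (α := fun _ => Coins D) a c) = pass D c * passes D M a := by
  simp [passes]

/-- expectation of `F` of the permutation after `M` passes -/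
noncomputable def Ex (D M : ℕ) (F : Equiv.Perm (V D) → ℝ) : ℝ :=
  𝔼 a : Fin M → Coins D, F (passes D M a)

theorem Ex_zero (D : ℕ) (F : Equiv.Perm (V D) → ℝ) : Ex D 0 F = F 1 := by
  simp only [Ex, passes]
  exact Fintype.expect_const _

theorem Ex_succ (D M : ℕ) (F : Equiv.Perm (V D) → ℝ) :
    Ex D (M + 1) F = 𝔼 c : Coins D, Ex D M (fun π => F (pass D c * π)) := by
  rw [Ex, rv_expect_snoc]
  simp_rw [passes_snoc]
  rfl

theorem Ex_add (D a b : ℕ) (F : Equiv.Perm (V D) → ℝ) :
    Ex D (a + b) F = Ex D b (fun σ => Ex D a (fun π => F (σ * π))) := by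
  induction b generalizing F with
  | zero => simp [Ex_zero]
  | succ b ih =>
    rw [← add_assoc, Ex_succ, Ex_succ]
    refine Finset.expect_congr rfl (fun c _ => ?_)
    rw [ih]
    simp_rw [mul_assoc]

theorem Ex_mono {D M : ℕ} {F G : Equiv.Perm (V D) → ℝ} (h : ∀ g, F g ≤ G g) :
    Ex D M F ≤ Ex D M G := rv_expect_le (fun _ => h _)

/-- coins of one block: `K` mixing passes and one work pass -/
abbrev Blk (D K : ℕ) := (Fin K → Coins D) × Coins D

/-- the visible permutation of one block -/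
def blkP (D K : ℕ) (m : Blk D K) : Equiv.Perm (V D) := pass D m.2 * passes D K m.1

/-- the visible permutation after `k` blocks -/
def visP (D K : ℕ) : ∀ k : ℕ, (Fin k → Blk D K) → Equiv.Perm (V D)
  | 0, _ => 1
  | k + 1, ω => blkP D K (ω (Fin.last k)) * visP D K k (fun i => ω i.castSucc)

/-- the environments of the work passes of the first `k` blocks (lines started at `x`) -/
def visE {Λ : Type*} (D K : ℕ) (x : Λ ↪ V D) :
    ∀ k : ℕ, (Fin k → Blk D K) → Fin k → Env Λ D
  | 0, _ => Fin.elim0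
  | k + 1, ω => Fin.snoc (α := fun _ => Env Λ D) (visE D K x k (fun i => ω i.castSucc))
      ((x.trans (visP D K k (fun i => ω i.castSucc)).toEmbedding).trans
        (passes D K (ω (Fin.last k)).1).toEmbedding, (ω (Fin.last k)).2)

theorem visP_snoc (D K k : ℕ) (ω : Fin k → Blk D K) (m : Blk D K) :
    visP D K (k + 1) (Fin.snoc (α := fun _ => Blk D K) ω m) = blkP D K m * visP D K k ω := by
  simp [visP]

theorem visE_snoc {Λ : Type*} (D K k : ℕ) (x : Λ ↪ V D) (ω : Fin k → Blk D K) (m : Blk D K) :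
    visE D K x (k + 1) (Fin.snoc (α := fun _ => Blk D K) ω m) =
      Fin.snoc (α := fun _ => Env Λ D) (visE D K x k ω)
      ((x.trans (visP D K k ω).toEmbedding).trans (passes D K m.1).toEmbedding, m.2) := by
  simp [visE]

theorem Ex_block (D K k : ℕ) (F : Equiv.Perm (V D) → ℝ) :
    Ex D ((k + 1) * (K + 1)) F =
      𝔼 c : Coins D, 𝔼 m : Fin K → Coins D,
        Ex D (k * (K + 1)) (fun π => F (pass D c * passes D K m * π)) := by
  rw [Nat.succ_mul, Ex_add, Ex_succ]
  rfl

theorem Ex_vis (D K k : ℕ) (F : Equiv.Perm (V D) → ℝ) :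
    Ex D (k * (K + 1)) F = 𝔼 ω : Fin k → Blk D K, F (visP D K k ω) := by
  induction k generalizing F with
  | zero =>
    rw [Nat.zero_mul, Ex_zero]
    simp only [visP]
    exact (Fintype.expect_const _).symm
  | succ k ih =>
    rw [Ex_block, rv_expect_snoc, rv_expect_prod, Finset.expect_comm]
    refine Finset.expect_congr rfl (fun m _ => Finset.expect_congr rfl (fun c _ => ?_))
    rw [ih]
    refine Finset.expect_congr rfl (fun ω _ => ?_)
    rw [visP_snoc]
    rfl

/-- the reveal identity -/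
theorem reveal {Λ : Type*} [Fintype Λ] [DecidableEq Λ] (D K k : ℕ) (x : Λ ↪ V D)
    (F : Equiv.Perm (V D) → ℝ) :
    Ex D (k * (K + 1)) F =
      𝔼 ω : Fin k → Blk D K, ∑ w : Equiv.Perm Λ,
        relLaws k (visE D K x k ω) w * F (visP D K k ω * ext x w) := by
  induction k generalizing F with
  | zero =>
    rw [Nat.zero_mul, Ex_zero]
    have hext : ext x (1 : Equiv.Perm Λ) = 1 := by
      have := ext_mul x (1 : Equiv.Perm Λ) 1
      rw [mul_one] at this
      exact mul_eq_left.1 this
    rw [Finset.expect_congr rfl (g := fun _ => F 1)]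
    · exact (Fintype.expect_const _).symm
    · intro ω _
      simp [relLaws, dirac1, visP, hext]
  | succ k ih =>
    rw [Ex_block, rv_expect_snoc, rv_expect_prod, Finset.expect_comm]
    refine Finset.expect_congr rfl (fun m _ => ?_)
    have h1 : ∀ c : Coins D, Ex D (k * (K + 1)) (fun π => F (pass D c * passes D K m * π)) =
        𝔼 ω : Fin k → Blk D K, ∑ w : Equiv.Perm Λ,
        relLaws k (visE D K x k ω) w * F (pass D c * (passes D K m * visP D K k ω) * ext x w) := by
      intro c
      rw [ih]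
      refine Finset.expect_congr rfl (fun ω _ => Finset.sum_congr rfl (fun w _ => ?_))
      simp only [mul_assoc]
    simp_rw [h1]
    rw [Finset.expect_comm]
    conv_rhs => rw [Finset.expect_comm]
    refine Finset.expect_congr rfl (fun ω _ => ?_)
    -- fixed mixing coins and fixed past: one work pass
    set H : Equiv.Perm (V D) := passes D K m * visP D K k ω with hH
    set L : Λ ↪ V D := (x.trans (visP D K k ω).toEmbedding).trans (passes D K m).toEmbedding with hL
    have hLH : L = x.trans H.toEmbedding := by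
      ext i
      simp [hL, hH]
    have h2 := one_pass L (fun P => ∑ w : Equiv.Perm Λ,
        relLaws k (visE D K x k ω) w * F (P * H * ext x w))
    rw [h2]
    refine Finset.expect_congr rfl (fun c _ => ?_)
    rw [visE_snoc, visP_snoc, relLaws_snoc, conv_sum]
    refine Finset.sum_congr rfl (fun w' _ => ?_)
    rw [Finset.mul_sum]
    refine Finset.sum_congr rfl (fun w _ => ?_)
    have h3 : pass D c * ext L w' * H * ext x w =
        blkP D K (m, c) * visP D K k ω * ext x (w' * w) := by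
      rw [← ext_mul, blkP, mul_assoc (pass D c) (ext L w') H, hLH, ext_trans, hH]
      simp only [mul_assoc]
    rw [h3]
    ring


/-! ### tuples -/

/-- post-composition of injections with a permutation -/
def embEquiv {Λ : Type*} {D : ℕ} (g : Equiv.Perm (V D)) : (Λ ↪ V D) ≃ (Λ ↪ V D) where
  toFun x := x.trans g.toEmbedding
  invFun x := x.trans g.symm.toEmbedding
  left_inv x := by ext i; simp
  right_inv x := by ext i; simp

theorem embEquiv_apply {Λ : Type*} {D : ℕ} (g : Equiv.Perm (V D)) (x : Λ ↪ V D) :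
    embEquiv g x = x.trans g.toEmbedding := rfl

theorem tuple_ind {N D : ℕ} (g : Equiv.Perm (V D)) (x y : Fin N ↪ V D) :
    (∀ i, g (x i) = y i) ↔ embEquiv g x = y := by
  constructor
  · intro h; ext1 i; exact h i
  · rintro rfl i; rfl

theorem tuple_sum {N : ℕ} (D K : ℕ) (x : Fin N ↪ V D) (G : (Fin N ↪ V D) → ℝ) :
    ∑ y, tupleLaw D K x y * G y = 𝔼 a : Fin K → Coins D, G (embEquiv (passes D K a) x) := by
  simp_rw [tupleLaw, Finset.expect_mul]
  rw [← Finset.expect_sum_comm]
  refine Finset.expect_congr rfl (fun a _ => ?_)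
  simp_rw [tuple_ind]
  simp

theorem tupleLaw_nonneg {N : ℕ} (D K : ℕ) (x y : Fin N ↪ V D) : 0 ≤ tupleLaw D K x y :=
  Finset.expect_nonneg (fun _ _ => by split_ifs <;> norm_num)

theorem tupleLaw_mass {N : ℕ} (D K : ℕ) (x : Fin N ↪ V D) : ∑ y, tupleLaw D K x y = 1 := by
  have := tuple_sum D K x (fun _ => 1)
  simp only [mul_one] at this
  rw [this]
  exact Fintype.expect_const _

theorem tupleLaw_succ {N : ℕ} (D K : ℕ) (x y : Fin N ↪ V D) :
    tupleLaw D (K + 1) x y =
      𝔼 c : Coins D, tupleLaw D K x ((embEquiv (pass D c)).symm y) := by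
  rw [tupleLaw, rv_expect_snoc]
  refine Finset.expect_congr rfl (fun c _ => ?_)
  rw [tupleLaw]
  refine Finset.expect_congr rfl (fun a _ => ?_)
  refine if_congr ?_ rfl rfl
  rw [tuple_ind, tuple_ind, passes_snoc, Equiv.eq_symm_apply]
  rfl

theorem tv_tupleLaw_succ {N : ℕ} (D K : ℕ) (x : Fin N ↪ V D) :
    tv (tupleLaw D (K + 1) x) ≤ tv (tupleLaw D K x) := by
  unfold tv
  refine mul_le_mul_of_nonneg_left ?_ (by norm_num)
  set u : ℝ := 1 / (Fintype.card (Fin N ↪ V D) : ℝ)
  calc ∑ y, |tupleLaw D (K + 1) x y - u|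
      = ∑ y, |𝔼 c : Coins D, (tupleLaw D K x ((embEquiv (pass D c)).symm y) - u)| := by
        refine Finset.sum_congr rfl (fun y _ => ?_)
        rw [tupleLaw_succ, Finset.expect_sub_distrib, Fintype.expect_const]
    _ ≤ ∑ y, 𝔼 c : Coins D, |tupleLaw D K x ((embEquiv (pass D c)).symm y) - u| :=
        Finset.sum_le_sum (fun y _ => Finset.abs_expect_le _ _)
    _ = 𝔼 c : Coins D, ∑ y, |tupleLaw D K x ((embEquiv (pass D c)).symm y) - u| :=
        (Finset.expect_sum_comm _ _ _).symm
    _ = 𝔼 _c : Coins D, ∑ y, |tupleLaw D K x y - u| := by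
        refine Finset.expect_congr rfl (fun c _ => ?_)
        exact Equiv.sum_comp (embEquiv (pass D c)).symm (fun y => |tupleLaw D K x y - u|)
    _ = ∑ y, |tupleLaw D K x y - u| := Fintype.expect_const _

theorem tupleErr_anti (D N : ℕ) {K K' : ℕ} (h : K ≤ K') : tupleErr D K' N ≤ tupleErr D K N := by
  induction K', h using Nat.le_induction with
  | base => exact le_rfl
  | succ K' _ ih => exact (rv_expect_le (fun x => tv_tupleLaw_succ D K' x)).trans ih

/-! ### hybrid argument -/

theorem hybrid (D K N : ℕ) [Nonempty (Fin N ↪ V D)] (k : ℕ) (Φ : (Fin k → Env (Fin N) D) → ℝ)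
    (h0 : ∀ E, 0 ≤ Φ E) (h1 : ∀ E, Φ E ≤ 1) :
    (𝔼 x : Fin N ↪ V D, 𝔼 ω : Fin k → Blk D K, Φ (visE D K x k ω)) ≤
      (𝔼 E, Φ E) + k * tupleErr D K N := by
  induction k with
  | zero =>
    have hc : ∀ E : Fin 0 → Env (Fin N) D, Φ E = Φ Fin.elim0 :=
      fun E => congrArg Φ (Subsingleton.elim _ _)
    simp_rw [hc]
    simp
  | succ k ih =>
    set Φ' : (Fin k → Env (Fin N) D) → ℝ := fun E =>
      𝔼 L : Fin N ↪ V D, 𝔼 c : Coins D, Φ (Fin.snoc (α := fun _ => Env (Fin N) D) E (L, c))
      with hΦ'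
    have hΦ'0 : ∀ E, 0 ≤ Φ' E := fun E =>
      Finset.expect_nonneg (fun _ _ => Finset.expect_nonneg (fun _ _ => h0 _))
    have hΦ'1 : ∀ E, Φ' E ≤ 1 := by
      intro E
      calc Φ' E ≤ 𝔼 _L : Fin N ↪ V D, 𝔼 _c : Coins D, (1 : ℝ) :=
            rv_expect_le (fun _ => rv_expect_le (fun _ => h1 _))
        _ = 1 := by
            rw [Finset.expect_congr rfl (fun _ _ => Fintype.expect_const (1 : ℝ))]
            exact Fintype.expect_const _
    have key : ∀ (x : Fin N ↪ V D) (ω : Fin k → Blk D K),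
        (𝔼 m : Blk D K, Φ (visE D K x (k + 1) (Fin.snoc (α := fun _ => Blk D K) ω m))) ≤
          Φ' (visE D K x k ω) + tv (tupleLaw D K (embEquiv (visP D K k ω) x)) := by
      intro x ω
      rw [rv_expect_prod]
      simp_rw [visE_snoc]
      set E := visE D K x k ω
      have h2 := tuple_sum D K (embEquiv (visP D K k ω) x) (fun L => 𝔼 c : Coins D,
        Φ (Fin.snoc (α := fun _ => Env (Fin N) D) E (L, c)))
      have h3 := sum_mul_le_tv (tupleLaw D K (embEquiv (visP D K k ω) x)) (fun L => 𝔼 c : Coins D,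
        Φ (Fin.snoc (α := fun _ => Env (Fin N) D) E (L, c))) (tupleLaw_mass _ _ _)
        (fun L => Finset.expect_nonneg (fun _ _ => h0 _))
        (fun L => by
          calc _ ≤ 𝔼 _c : Coins D, (1 : ℝ) := rv_expect_le (fun _ => h1 _)
            _ = 1 := Fintype.expect_const _)
      rw [h2] at h3
      exact h3
    calc (𝔼 x : Fin N ↪ V D, 𝔼 ω : Fin (k + 1) → Blk D K, Φ (visE D K x (k + 1) ω))
        = 𝔼 x : Fin N ↪ V D, 𝔼 ω : Fin k → Blk D K, 𝔼 m : Blk D K,
            Φ (visE D K x (k + 1) (Fin.snoc (α := fun _ => Blk D K) ω m)) := by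
          refine Finset.expect_congr rfl (fun x _ => ?_)
          rw [rv_expect_snoc, Finset.expect_comm]
      _ ≤ 𝔼 x : Fin N ↪ V D, 𝔼 ω : Fin k → Blk D K,
            (Φ' (visE D K x k ω) + tv (tupleLaw D K (embEquiv (visP D K k ω) x))) :=
          rv_expect_le (fun x => rv_expect_le (fun ω => key x ω))
      _ = (𝔼 x : Fin N ↪ V D, 𝔼 ω : Fin k → Blk D K, Φ' (visE D K x k ω)) +
            𝔼 x : Fin N ↪ V D, 𝔼 ω : Fin k → Blk D K,
              tv (tupleLaw D K (embEquiv (visP D K k ω) x)) := by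
          simp_rw [Finset.expect_add_distrib]
      _ = (𝔼 x : Fin N ↪ V D, 𝔼 ω : Fin k → Blk D K, Φ' (visE D K x k ω)) + tupleErr D K N := by
          congr 1
          rw [Finset.expect_comm]
          rw [Finset.expect_congr rfl (g := fun _ => tupleErr D K N)]
          · exact Fintype.expect_const _
          · intro ω _
            exact Fintype.expect_equiv (embEquiv (visP D K k ω)) _ _ (fun _ => rfl)
      _ ≤ ((𝔼 E, Φ' E) + k * tupleErr D K N) + tupleErr D K N := by
          have := ih Φ' hΦ'0 hΦ'1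
          linarith
      _ = (𝔼 E, Φ E) + ((k + 1 : ℕ) : ℝ) * tupleErr D K N := by
          have h4 : (𝔼 E, Φ E) = 𝔼 E, Φ' E := by
            rw [rv_expect_snoc, Finset.expect_comm]
            refine Finset.expect_congr rfl (fun E _ => ?_)
            rw [rv_expect_prod]
          rw [h4]
          push_cast
          ring

/-! ### the blind part -/

theorem perm_avg {N D : ℕ} (x0 : Fin N ↪ V D) (f : (Fin N ↪ V D) → ℝ) :
    (𝔼 g : Equiv.Perm (V D), f (embEquiv g x0)) = 𝔼 y, f y := by
  have : Nonempty (Fin N ↪ V D) := ⟨x0⟩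
  have h1 : ∀ x : Fin N ↪ V D, (𝔼 g : Equiv.Perm (V D), f (embEquiv g x)) =
      𝔼 g : Equiv.Perm (V D), f (embEquiv g x0) := by
    intro x
    classical
    -- a permutation `h` with `h ∘ x0 = x`
    let e : {p : V D // p ∈ Set.range x0} ≃ {p : V D // p ∈ Set.range x} :=
      (Equiv.ofInjective x0 x0.injective).symm.trans (Equiv.ofInjective x x.injective)
    let h : Equiv.Perm (V D) := e.extendSubtype
    have hh : ∀ i, h (x0 i) = x i := by
      intro i
      have := e.extendSubtype_apply_of_mem (x0 i) ⟨i, rfl⟩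
      simp only [h]
      rw [this]
      simp [e, Equiv.ofInjective_symm_apply]
    have hx : x = embEquiv h x0 := by
      ext1 i
      exact (hh i).symm
    rw [hx]
    refine Fintype.expect_equiv (Equiv.mulRight h) _ _ (fun g => ?_)
    congr 1
  calc (𝔼 g : Equiv.Perm (V D), f (embEquiv g x0))
      = 𝔼 _x : Fin N ↪ V D, 𝔼 g : Equiv.Perm (V D), f (embEquiv g x0) :=
        (Fintype.expect_const _).symm
    _ = 𝔼 x : Fin N ↪ V D, 𝔼 g : Equiv.Perm (V D), f (embEquiv g x) :=
        Finset.expect_congr rfl (fun x _ => (h1 x).symm)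
    _ = 𝔼 g : Equiv.Perm (V D), 𝔼 x : Fin N ↪ V D, f (embEquiv g x) := Finset.expect_comm _ _ _
    _ = 𝔼 _g : Equiv.Perm (V D), 𝔼 y, f y :=
        Finset.expect_congr rfl (fun g _ => Fintype.expect_equiv (embEquiv g) _ _ (fun _ => rfl))
    _ = 𝔼 y, f y := Fintype.expect_const _

theorem ext_injective {Λ : Type*} [Fintype Λ] {D : ℕ} (x : Λ ↪ V D) {w w' : Equiv.Perm Λ}
    (h : ext x w = ext x w') : w = w' := by
  ext1 i
  have := congrArg (fun g : Equiv.Perm (V D) => g (x i)) h
  simp only [ext_apply] at this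
  exact x.injective this

theorem blind_sum {N D : ℕ} (xA xB : Fin N ↪ V D) (hdis : ∀ i j, xA i ≠ xB j)
    (hcov : ∀ p, (∃ i, xA i = p) ∨ ∃ j, xB j = p) (P g : Equiv.Perm (V D)) :
    ∑ w : Equiv.Perm (Fin N), (if P * ext xA w = g then (1 : ℝ) else 0) =
      if (∀ i, P (xB i) = g (xB i)) then 1 else 0 := by
  have hfix : ∀ (w : Equiv.Perm (Fin N)) (j : Fin N), ext xA w (xB j) = xB j :=
    fun w j => ext_apply_not _ _ _ (fun i => hdis i j)
  split_ifs with h
  · -- construct `w`
    have h1 : ∀ i, ∃ j, xA j = P⁻¹ (g (xA i)) := by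
      intro i
      rcases hcov (P⁻¹ (g (xA i))) with ⟨j, hj⟩ | ⟨j, hj⟩
      · exact ⟨j, hj⟩
      · exfalso
        have h2 : P (xB j) = g (xA i) := by rw [hj]; simp
        rw [h j] at h2
        exact hdis i j (g.injective h2).symm
    choose f hf using h1
    have hinj : Function.Injective f := by
      intro i j hij
      have h3 := hf i
      rw [hij, hf j] at h3
      exact (xA.injective (g.injective (P⁻¹.injective h3))).symm
    set w0 : Equiv.Perm (Fin N) := Equiv.ofBijective f (Finite.injective_iff_bijective.1 hinj)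
    have hw0 : P * ext xA w0 = g := by
      ext1 p
      rcases hcov p with ⟨i, rfl⟩ | ⟨j, rfl⟩
      · simp [ext_apply, w0, hf]
      · simp [hfix, h]
    rw [Finset.sum_eq_single w0]
    · rw [if_pos hw0]
    · intro w _ hne
      rw [if_neg]
      intro hw
      exact hne (ext_injective xA (mul_left_cancel (hw.trans hw0.symm)))
    · intro hn; exact absurd (Finset.mem_univ _) hn
  · refine Finset.sum_eq_zero (fun w _ => ?_)
    rw [if_neg]
    rintro rfl
    exact h (fun i => by simp [hfix])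


theorem card_facts {N D : ℕ} (hcard : Fintype.card (V D) = 2 * N) :
    (Fintype.card (Equiv.Perm (V D)) : ℝ) =
      Fintype.card (Fin N ↪ V D) * Fintype.card (Equiv.Perm (Fin N)) := by
  rw [Fintype.card_perm, Fintype.card_perm, Fintype.card_embedding_eq, Fintype.card_fin, hcard]
  have h := Nat.factorial_mul_descFactorial (show N ≤ 2 * N by omega)
  have h2 : 2 * N - N = N := by omega
  rw [h2] at h
  rw [← h]
  push_cast
  ring

theorem tv_pair {N : ℕ} (D K k : ℕ) (hcard : Fintype.card (V D) = 2 * N)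
    (xA xB : Fin N ↪ V D) (hdis : ∀ i j, xA i ≠ xB j)
    (hcov : ∀ p, (∃ i, xA i = p) ∨ ∃ j, xB j = p) :
    tv (passLaw D (k * (K + 1))) ≤
      (𝔼 ω : Fin k → Blk D K, tv (relLaws k (visE D K xA k ω))) +
        tv (tupleLaw D (k * (K + 1)) xB) := by
  set M := k * (K + 1) with hM
  set u : ℝ := 1 / (Fintype.card (Equiv.Perm (V D)) : ℝ) with hu
  set v : ℝ := 1 / (Fintype.card (Equiv.Perm (Fin N)) : ℝ) with hv
  have hcX : (0 : ℝ) < Fintype.card (Fin N ↪ V D) := by
    have : Nonempty (Fin N ↪ V D) := ⟨xA⟩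
    exact_mod_cast Fintype.card_pos
  have hcN : (0 : ℝ) < Fintype.card (Equiv.Perm (Fin N)) := by exact_mod_cast Fintype.card_pos
  have hcP : (0 : ℝ) < Fintype.card (Equiv.Perm (V D)) := by exact_mod_cast Fintype.card_pos
  have hcf := card_facts hcard
  -- the intermediate law
  set Q : Equiv.Perm (V D) → ℝ := fun g => 𝔼 ω : Fin k → Blk D K, ∑ w : Equiv.Perm (Fin N),
    v * (if visP D K k ω * ext xA w = g then 1 else 0) with hQ
  have hP : ∀ g, passLaw D M g = 𝔼 ω : Fin k → Blk D K, ∑ w : Equiv.Perm (Fin N),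
      relLaws k (visE D K xA k ω) w * (if visP D K k ω * ext xA w = g then 1 else 0) :=
    fun g => reveal D K k xA (fun π => if π = g then 1 else 0)
  have hQ2 : ∀ g, Q g = v * tupleLaw D M xB (embEquiv g xB) := by
    intro g
    have h1 := Ex_vis D K k (fun π => if (∀ i, π (xB i) = g (xB i)) then (1 : ℝ) else 0)
    have h2 : tupleLaw D M xB (embEquiv g xB) =
        Ex D (k * (K + 1)) (fun π => if (∀ i, π (xB i) = g (xB i)) then (1 : ℝ) else 0) := rfl
    rw [h2, h1, Finset.mul_expect]
    refine Finset.expect_congr rfl (fun ω _ => ?_)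
    rw [← Finset.mul_sum, blind_sum xA xB hdis hcov]
  have hfirst : ∑ g, |passLaw D M g - Q g| ≤
      2 * 𝔼 ω : Fin k → Blk D K, tv (relLaws k (visE D K xA k ω)) := by
    calc ∑ g, |passLaw D M g - Q g|
        = ∑ g, |𝔼 ω : Fin k → Blk D K, ∑ w : Equiv.Perm (Fin N),
            (relLaws k (visE D K xA k ω) w - v) *
              (if visP D K k ω * ext xA w = g then 1 else 0)| := by
          refine Finset.sum_congr rfl (fun g _ => ?_)
          rw [hP, hQ, ← Finset.expect_sub_distrib]
          congr 1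
          refine Finset.expect_congr rfl (fun ω _ => ?_)
          rw [← Finset.sum_sub_distrib]
          exact Finset.sum_congr rfl (fun w _ => by ring)
      _ ≤ ∑ g, 𝔼 ω : Fin k → Blk D K, ∑ w : Equiv.Perm (Fin N),
            |relLaws k (visE D K xA k ω) w - v| *
              (if visP D K k ω * ext xA w = g then 1 else 0) := by
          refine Finset.sum_le_sum (fun g _ => (Finset.abs_expect_le _ _).trans
            (rv_expect_le (fun ω => (Finset.abs_sum_le_sum_abs _ _).trans
              (Finset.sum_le_sum (fun w _ => ?_)))))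
          rw [abs_mul]
          refine mul_le_mul_of_nonneg_left ?_ (abs_nonneg _)
          split_ifs <;> simp
      _ = 𝔼 ω : Fin k → Blk D K, ∑ w : Equiv.Perm (Fin N),
            |relLaws k (visE D K xA k ω) w - v| := by
          rw [← Finset.expect_sum_comm]
          refine Finset.expect_congr rfl (fun ω _ => ?_)
          rw [Finset.sum_comm]
          refine Finset.sum_congr rfl (fun w _ => ?_)
          rw [← Finset.mul_sum]
          simp
      _ = 2 * 𝔼 ω : Fin k → Blk D K, tv (relLaws k (visE D K xA k ω)) := by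
          rw [Finset.mul_expect]
          refine Finset.expect_congr rfl (fun ω _ => ?_)
          unfold tv
          ring
  have hsecond : ∑ g, |Q g - u| = 2 * tv (tupleLaw D M xB) := by
    have h1 : ∑ g, |Q g - u| = ∑ g, (fun y => |v * tupleLaw D M xB y - u|) (embEquiv g xB) :=
      Finset.sum_congr rfl (fun g _ => by rw [hQ2])
    have h2 := perm_avg xB (fun y => |v * tupleLaw D M xB y - u|)
    rw [Fintype.expect_eq_sum_div_card, Fintype.expect_eq_sum_div_card, div_eq_div_iff hcP.ne'
      hcX.ne'] at h2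
    rw [h1]
    have h3 : (∑ g, (fun y => |v * tupleLaw D M xB y - u|) (embEquiv g xB)) =
        Fintype.card (Equiv.Perm (Fin N)) * ∑ y, |v * tupleLaw D M xB y - u| := by
      have h4 : (∑ g, (fun y => |v * tupleLaw D M xB y - u|) (embEquiv g xB)) *
          (Fintype.card (Fin N ↪ V D) : ℝ) =
          (Fintype.card (Equiv.Perm (Fin N)) * ∑ y, |v * tupleLaw D M xB y - u|) *
          (Fintype.card (Fin N ↪ V D) : ℝ) := by
        rw [h2, hcf]
        ring
      exact mul_right_cancel₀ hcX.ne' h4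
    have h5 : 2 * tv (tupleLaw D M xB) =
        ∑ y, |tupleLaw D M xB y - 1 / (Fintype.card (Fin N ↪ V D) : ℝ)| := by
      unfold tv
      ring
    rw [h3, h5, Finset.mul_sum]
    refine Finset.sum_congr rfl (fun y _ => ?_)
    have h6 : ∀ z : ℝ, (Fintype.card (Equiv.Perm (Fin N)) : ℝ) * |z| =
        |(Fintype.card (Equiv.Perm (Fin N)) : ℝ) * z| := by
      intro z
      rw [abs_mul, abs_of_pos hcN]
    rw [h6]
    congr 1
    rw [hv, hu, hcf]
    field_simp
  have htri : ∑ g, |passLaw D M g - u| ≤ ∑ g, |passLaw D M g - Q g| + ∑ g, |Q g - u| := by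
    rw [← Finset.sum_add_distrib]
    exact Finset.sum_le_sum (fun g _ => abs_sub_le _ _ _)
  have hfin : tv (passLaw D M) = 1 / 2 * ∑ g, |passLaw D M g - u| := rfl
  rw [hfin]
  linarith

end Crest.Agent.Thorp.Reveal

namespace Crest.Agent.Thorp

open Reveal in
/-- C3b: main inequality of the reduction. -/
theorem passLaw_le (d k K : ℕ) (hk : 1 ≤ k) :
    tv (passLaw (d + 1) (k * (K + 1))) ≤
      (k + 1) * tupleErr (d + 1) K (2 ^ d) + freshErr (Fin (2 ^ d)) (d + 1) k := by
  set D := d + 1 with hD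
  set N := 2 ^ d with hN
  set M := k * (K + 1) with hM
  have hcard : Fintype.card (V D) = 2 * N := by
    rw [card_V, hD, hN, pow_succ, mul_comm]
  let e : Fin N ≃ V d := Fintype.equivOfCardEq (by rw [Fintype.card_fin, card_V])
  let a0 : Fin N ↪ V D := ⟨fun i => cons false (e i), fun i j h => by
    have := (cons_inj.1 h).2
    exact e.injective this⟩
  let b0 : Fin N ↪ V D := ⟨fun i => cons true (e i), fun i j h => by
    have := (cons_inj.1 h).2
    exact e.injective this⟩
  have hne : Nonempty (Fin N ↪ V D) := ⟨a0⟩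
  have hdis : ∀ i j, a0 i ≠ b0 j := by
    intro i j h
    have := (cons_inj.1 h).1
    exact Bool.noConfusion this
  have hcov : ∀ p, (∃ i, a0 i = p) ∨ ∃ j, b0 j = p := by
    intro p
    rcases hb : hd p with _ | _
    · left
      refine ⟨e.symm (tl p), V_ext ?_ ?_⟩
      · change false = hd p
        exact hb.symm
      · change e (e.symm (tl p)) = tl p
        exact e.apply_symm_apply _
    · right
      refine ⟨e.symm (tl p), V_ext ?_ ?_⟩
      · change true = hd p
        exact hb.symm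
      · change e (e.symm (tl p)) = tl p
        exact e.apply_symm_apply _
  have hpair : ∀ g : Equiv.Perm (V D), tv (passLaw D M) ≤
      (𝔼 ω : Fin k → Blk D K, tv (relLaws k (visE D K (embEquiv g a0) k ω))) +
        tv (tupleLaw D M (embEquiv g b0)) := by
    intro g
    refine tv_pair D K k hcard (embEquiv g a0) (embEquiv g b0) ?_ ?_
    · intro i j h
      exact hdis i j (g.injective h)
    · intro p
      rcases hcov (g.symm p) with ⟨i, hi⟩ | ⟨j, hj⟩
      · exact Or.inl ⟨i, by simp [embEquiv_apply, hi]⟩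
      · exact Or.inr ⟨j, by simp [embEquiv_apply, hj]⟩
  have havg : tv (passLaw D M) ≤
      (𝔼 x : Fin N ↪ V D, 𝔼 ω : Fin k → Blk D K, tv (relLaws k (visE D K x k ω))) +
        tupleErr D M N := by
    calc tv (passLaw D M) = 𝔼 _g : Equiv.Perm (V D), tv (passLaw D M) :=
          (Fintype.expect_const _).symm
      _ ≤ 𝔼 g : Equiv.Perm (V D),
          ((𝔼 ω : Fin k → Blk D K, tv (relLaws k (visE D K (embEquiv g a0) k ω))) +
            tv (tupleLaw D M (embEquiv g b0))) := rv_expect_le hpair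
      _ = _ := by
          rw [Finset.expect_add_distrib, perm_avg a0 (fun x => 𝔼 ω : Fin k → Blk D K,
            tv (relLaws k (visE D K x k ω))), perm_avg b0 (fun x => tv (tupleLaw D M x))]
          rfl
  have hhyb := hybrid D K N k (fun E => tv (relLaws k E)) (fun E => tv_nonneg' _)
    (fun E => tv_le_one _ (relLaws_nonneg k E) (relLaws_mass k E))
  have hanti : tupleErr D M N ≤ tupleErr D K N := by
    refine tupleErr_anti D N ?_
    calc K ≤ 1 * (K + 1) := by omega
      _ ≤ k * (K + 1) := Nat.mul_le_mul_right _ hk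
  have hfr : freshErr (Fin N) D k = 𝔼 E : Fin k → Env (Fin N) D, tv (relLaws k E) := rfl
  rw [hfr]
  linarith

end Crest.Agent.Thorp
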