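import Crest.Agent.Lib.Row155.Defs2
/-!
Row 155 (Thorp shuffle), chunk T21 (C12): asymptotics.  The statements of the other chunks enter as
explicit hypotheses of `freshErr_tendsto_of`.
-/
set_option autoImplicit false
open Finset Filter
open scoped BigOperators Topology

namespace Crest.Agent.Thorp

namespace T21

/-- parameters -/
def pl (d : ℕ) : ℕ := d / 64
def pg (d : ℕ) : ℕ := (pK d - pl d) / 2
def pm (d : ℕ) : ℕ := d / 512
def pj (d : ℕ) : ℕ := 2 ^ (d - 2 * pm d)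
noncomputable def pW (d : ℕ) : ℝ := 2 ^ pl d * (((2 ^ d : ℕ) : ℝ) / 2 ^ pg d + pb d)

theorem pg_ok (d : ℕ) : 2 * pg d + pl d ≤ pK d := by
  unfold pg pK pl; omega

theorem one_le_pW (d : ℕ) : 1 ≤ pW d := by
  unfold pW
  have h1 : (1 : ℝ) ≤ 2 ^ pl d := one_le_pow₀ (by norm_num)
  have h2 : (1 : ℝ) ≤ (pb d : ℝ) := by
    unfold pb; exact_mod_cast Nat.one_le_two_pow
  have h3 : (0 : ℝ) ≤ ((2 ^ d : ℕ) : ℝ) / 2 ^ pg d := by positivity
  nlinarith [h1, h2, h3]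

theorem pW_le (d : ℕ) : pW d ≤ (2 : ℝ) ^ ((119 : ℝ) * d / 128 + 2) := by
  unfold pW
  have e0 : (2 : ℝ) ^ ((119 : ℝ) * d / 128 + 2) =
      (2 : ℝ) ^ ((119 : ℝ) * d / 128 + 1) + (2 : ℝ) ^ ((119 : ℝ) * d / 128 + 1) := by
    rw [show ((119 : ℝ) * d / 128 + 2) = ((119 : ℝ) * d / 128 + 1) + 1 by ring,
      Real.rpow_add_one (by norm_num)]
    ring
  rw [e0, mul_add]
  refine add_le_add ?_ ?_
  · have hg : (2 : ℝ) ^ pl d * (((2 ^ d : ℕ) : ℝ) / 2 ^ pg d) =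
        (2 : ℝ) ^ ((pl d : ℝ) + d - pg d) := by
      rw [Real.rpow_sub (by norm_num), Real.rpow_add (by norm_num), Real.rpow_natCast,
        Real.rpow_natCast, Real.rpow_natCast]
      push_cast; ring
    rw [hg]
    refine Real.rpow_le_rpow_of_exponent_le (by norm_num) ?_
    have h1 : ((64 * pl d : ℕ) : ℝ) ≤ d := by
      exact_mod_cast (by unfold pl; omega : 64 * pl d ≤ d)
    have h2 : ((128 * pg d + 124 : ℕ) : ℝ) ≥ 11 * d := by
      have : 11 * d ≤ 128 * pg d + 124 := by unfold pg pK pl; omega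
      exact_mod_cast this
    push_cast at h1 h2
    linarith
  · have hb : (2 : ℝ) ^ pl d * (pb d : ℝ) = (2 : ℝ) ^ ((pl d : ℝ) + ((29 * d / 32 : ℕ) : ℝ) + 1) := by
      rw [Real.rpow_add_one (by norm_num), Real.rpow_add (by norm_num), Real.rpow_natCast,
        Real.rpow_natCast]
      unfold pb
      push_cast; ring
    rw [hb]
    refine Real.rpow_le_rpow_of_exponent_le (by norm_num) ?_
    have h1 : ((64 * pl d : ℕ) : ℝ) ≤ d := by
      exact_mod_cast (by unfold pl; omega : 64 * pl d ≤ d)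
    have h2 : ((32 * (29 * d / 32) : ℕ) : ℝ) ≤ 29 * d := by
      have : 32 * (29 * d / 32) ≤ 29 * d := by omega
      exact_mod_cast this
    rw [Nat.cast_mul] at h1 h2
    have hd : (0 : ℝ) ≤ d := Nat.cast_nonneg d
    push_cast at h1
    generalize ((29 * d / 32 : ℕ) : ℝ) = z at *
    norm_num at h2
    linarith

/-! ### products -/

theorem prod_part (N q : ℕ) (x : ℝ) (hx : 1 ≤ x) (hq : 4 * q ≤ N) :
    ∏ i ∈ Finset.range q, (1 + (x - 1) / ((N : ℝ) - i)) ≤ Real.exp (2 * (q * x / N)) := by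
  have h1 : ∀ i ∈ Finset.range q, (1 + (x - 1) / ((N : ℝ) - i)) ≤ Real.exp (2 * (x / N)) := by
    intro i hi
    have hi' : i < q := Finset.mem_range.mp hi
    have hN : (0 : ℝ) < N := by exact_mod_cast (by omega : 0 < N)
    have hNi : (N : ℝ) / 2 ≤ (N : ℝ) - i := by
      have : ((2 * i : ℕ) : ℝ) ≤ N := by exact_mod_cast (by omega : 2 * i ≤ N)
      push_cast at this
      linarith
    have h2 : (x - 1) / ((N : ℝ) - i) ≤ 2 * (x / N) := by
      have h3 : (x - 1) / ((N : ℝ) - i) ≤ x / ((N : ℝ) / 2) :=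
        div_le_div₀ (by linarith) (by linarith) (by positivity) hNi
      calc (x - 1) / ((N : ℝ) - i) ≤ x / ((N : ℝ) / 2) := h3
        _ = 2 * (x / N) := by field_simp
    have := Real.add_one_le_exp (2 * (x / (N : ℝ)))
    linarith
  have h0 : ∀ i ∈ Finset.range q, 0 ≤ (1 + (x - 1) / ((N : ℝ) - i)) := by
    intro i hi
    have hi' : i < q := Finset.mem_range.mp hi
    have hNi : (0 : ℝ) < (N : ℝ) - i := by
      have : (i : ℝ) < N := by exact_mod_cast (by omega : i < N)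
      linarith
    have : 0 ≤ (x - 1) / ((N : ℝ) - i) := div_nonneg (by linarith) hNi.le
    linarith
  calc ∏ i ∈ Finset.range q, (1 + (x - 1) / ((N : ℝ) - i))
      ≤ ∏ _i ∈ Finset.range q, Real.exp (2 * (x / N)) := Finset.prod_le_prod h0 h1
    _ = Real.exp (2 * (q * x / N)) := by
        rw [Finset.prod_const, Finset.card_range, ← Real.exp_nat_mul]
        congr 1; ring

theorem prod_full (N : ℕ) (x : ℝ) (hx : 1 ≤ x) :
    ∏ i ∈ Finset.range N, (1 + (x - 1) / ((N : ℝ) - i)) ≤ Real.exp (x * (1 + Real.log N)) := by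
  have hNi : ∀ i ∈ Finset.range N, (0 : ℝ) < (N : ℝ) - i := by
    intro i hi
    have hi' : i < N := Finset.mem_range.mp hi
    have : (i : ℝ) < N := by exact_mod_cast hi'
    linarith
  have h1 : ∀ i ∈ Finset.range N,
      (1 + (x - 1) / ((N : ℝ) - i)) ≤ Real.exp (x * (1 / ((N : ℝ) - i))) := by
    intro i hi
    have h := hNi i hi
    have h2 : (x - 1) / ((N : ℝ) - i) ≤ x * (1 / ((N : ℝ) - i)) := by
      rw [mul_one_div]
      exact div_le_div_of_nonneg_right (by linarith) h.le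
    have := Real.add_one_le_exp (x * (1 / ((N : ℝ) - i)))
    linarith
  have h0 : ∀ i ∈ Finset.range N, 0 ≤ (1 + (x - 1) / ((N : ℝ) - i)) := by
    intro i hi
    have : 0 ≤ (x - 1) / ((N : ℝ) - i) := div_nonneg (by linarith) (hNi i hi).le
    linarith
  refine (Finset.prod_le_prod h0 h1).trans ?_
  rw [← Real.exp_sum, ← Finset.mul_sum]
  refine Real.exp_le_exp.mpr (mul_le_mul_of_nonneg_left ?_ (by linarith))
  have h3 : ∑ i ∈ Finset.range N, 1 / ((N : ℝ) - i) = ((harmonic N : ℚ) : ℝ) := by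
    rw [← Finset.sum_range_reflect, harmonic]
    push_cast
    refine Finset.sum_congr rfl fun i hi => ?_
    have hi' : i < N := Finset.mem_range.mp hi
    rw [one_div]
    congr 1
    rw [Nat.cast_sub (by omega), Nat.cast_sub (by omega)]
    push_cast; ring
  rw [h3]
  exact harmonic_le_one_add_log N

/-! ### asymptotics -/

theorem ev_exp (c C : ℝ) (hc : 0 < c) : ∀ᶠ d : ℕ in atTop, C * (1 + (d : ℝ)) ≤ (2 : ℝ) ^ (c * d) := by
  set r : ℝ := (2 : ℝ) ^ (-c) with hr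
  have hr0 : 0 < r := Real.rpow_pos_of_pos (by norm_num) _
  have hr1 : r < 1 := Real.rpow_lt_one_of_one_lt_of_neg (by norm_num) (by linarith)
  have h1 : Tendsto (fun d : ℕ => (d : ℝ) * r ^ d) atTop (𝓝 0) :=
    tendsto_self_mul_const_pow_of_lt_one hr0.le hr1
  have h2 : Tendsto (fun d : ℕ => r ^ d) atTop (𝓝 0) :=
    tendsto_pow_atTop_nhds_zero_of_lt_one hr0.le hr1
  have h3 : Tendsto (fun d : ℕ => C * (r ^ d + (d : ℝ) * r ^ d)) atTop (𝓝 0) := by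
    simpa using (h2.add h1).const_mul C
  filter_upwards [h3.eventually (gt_mem_nhds (show (0 : ℝ) < 1 by norm_num))] with d hd
  have e1 : (2 : ℝ) ^ (c * d) * r ^ d = 1 := by
    rw [hr, ← Real.rpow_natCast, ← Real.rpow_mul (by norm_num), ← Real.rpow_add (by norm_num)]
    rw [show c * (d : ℝ) + -c * d = 0 by ring, Real.rpow_zero]
  have hpos : 0 < r ^ d := pow_pos hr0 d
  have : C * (1 + (d : ℝ)) * r ^ d ≤ (2 : ℝ) ^ (c * d) * r ^ d := by
    rw [e1]; nlinarith [hd]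
  exact le_of_mul_le_mul_right this hpos

theorem pow_pm_le (d : ℕ) : (2 : ℝ) ^ pm d ≤ (2 : ℝ) ^ ((d : ℝ) / 512) := by
  rw [← Real.rpow_natCast]
  refine Real.rpow_le_rpow_of_exponent_le (by norm_num) ?_
  have : ((512 * pm d : ℕ) : ℝ) ≤ d := by exact_mod_cast (by unfold pm; omega : 512 * pm d ≤ d)
  push_cast at this
  linarith

theorem le_pow_pl (d : ℕ) : (2 : ℝ) ^ ((d : ℝ) / 64 - 1) ≤ (2 : ℝ) ^ pl d := by
  rw [← Real.rpow_natCast]
  refine Real.rpow_le_rpow_of_exponent_le (by norm_num) ?_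
  have : (d : ℝ) ≤ ((64 * pl d + 63 : ℕ) : ℝ) := by
    exact_mod_cast (by unfold pl; omega : d ≤ 64 * pl d + 63)
  push_cast at this
  linarith

/-- (a1) -/
theorem ev_a1 : ∀ᶠ d : ℕ in atTop, (d : ℝ) * 2 ^ pm d ≤ 2 ^ pl d := by
  filter_upwards [ev_exp (7 / 512) 2 (by norm_num)] with d hd
  have hd0 : (0 : ℝ) ≤ d := Nat.cast_nonneg d
  calc (d : ℝ) * 2 ^ pm d ≤ d * (2 : ℝ) ^ ((d : ℝ) / 512) :=
        mul_le_mul_of_nonneg_left (pow_pm_le d) hd0
    _ ≤ ((2 : ℝ) ^ (7 / 512 * (d : ℝ)) / 2) * (2 : ℝ) ^ ((d : ℝ) / 512) := by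
        refine mul_le_mul_of_nonneg_right ?_ (Real.rpow_nonneg (by norm_num) _)
        linarith
    _ = (2 : ℝ) ^ ((d : ℝ) / 64 - 1) := by
        rw [Real.rpow_sub_one (by norm_num), div_mul_eq_mul_div, ← Real.rpow_add (by norm_num)]
        congr 2; ring
    _ ≤ 2 ^ pl d := le_pow_pl d

theorem pW_rpow_le (d k : ℕ) (hk : 1 ≤ k) : pW d ^ (((k : ℝ) + 1) / k) ≤
    (2 : ℝ) ^ (((119 : ℝ) * d / 128 + 2) * (((k : ℝ) + 1) / k)) := by
  rw [Real.rpow_mul (by norm_num)]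
  exact Real.rpow_le_rpow (by linarith [one_le_pW d]) (pW_le d) (by positivity)

theorem one_le_pW_rpow (d k : ℕ) : 1 ≤ pW d ^ (((k : ℝ) + 1) / k) :=
  Real.one_le_rpow (one_le_pW d) (by positivity)

/-- (a2) -/
theorem ev_a2 : ∀ᶠ d : ℕ in atTop, (2 : ℝ) ^ pm d * pW d ^ ((((15 : ℕ) : ℝ) + 1) / ((15 : ℕ) : ℝ)) ≤ 2 ^ d := by
  filter_upwards [ev_exp (49 / 7680) 8 (by norm_num)] with d hd
  have hd0 : (0 : ℝ) ≤ d := Nat.cast_nonneg d
  have h8 : (2 : ℝ) ^ (3 : ℝ) ≤ (2 : ℝ) ^ (49 / 7680 * (d : ℝ)) := by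
    have : (2 : ℝ) ^ (3 : ℝ) = 8 := by
      rw [show (3 : ℝ) = ((3 : ℕ) : ℝ) by norm_num, Real.rpow_natCast]; norm_num
    rw [this]; linarith
  calc (2 : ℝ) ^ pm d * pW d ^ ((((15 : ℕ) : ℝ) + 1) / ((15 : ℕ) : ℝ))
      ≤ (2 : ℝ) ^ ((d : ℝ) / 512) *
        (2 : ℝ) ^ (((119 : ℝ) * d / 128 + 2) * ((((15 : ℕ) : ℝ) + 1) / ((15 : ℕ) : ℝ))) :=
        mul_le_mul (pow_pm_le d) (pW_rpow_le d 15 (by norm_num))
          (by linarith [one_le_pW_rpow d 15]) (Real.rpow_nonneg (by norm_num) _)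
    _ ≤ (2 : ℝ) ^ ((d : ℝ) / 512 + 119 * d / 120) * (2 : ℝ) ^ (3 : ℝ) := by
        rw [← Real.rpow_add (by norm_num), ← Real.rpow_add (by norm_num)]
        refine Real.rpow_le_rpow_of_exponent_le (by norm_num) ?_
        push_cast
        linarith
    _ ≤ (2 : ℝ) ^ ((d : ℝ) / 512 + 119 * d / 120) * (2 : ℝ) ^ (49 / 7680 * (d : ℝ)) :=
        mul_le_mul_of_nonneg_left h8 (Real.rpow_nonneg (by norm_num) _)
    _ = 2 ^ d := by
        rw [← Real.rpow_add (by norm_num), ← Real.rpow_natCast]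
        congr 1; ring

theorem le_pow_sub (d : ℕ) : (2 : ℝ) ^ ((127 : ℝ) / 128 * d) ≤ (2 : ℝ) ^ (d - 4 * pm d) := by
  rw [← Real.rpow_natCast]
  refine Real.rpow_le_rpow_of_exponent_le (by norm_num) ?_
  have : ((127 * d : ℕ) : ℝ) ≤ ((128 * (d - 4 * pm d) : ℕ) : ℝ) := by
    exact_mod_cast (by unfold pm; omega : 127 * d ≤ 128 * (d - 4 * pm d))
  rw [Nat.cast_mul, Nat.cast_mul] at this
  push_cast at this
  linarith

/-- (a3) -/
theorem ev_a3 : ∀ᶠ d : ℕ in atTop, 32 * ((d : ℝ) * 2 ^ (d - pl d)) +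
    31 * ((1 + (d : ℝ)) * pW d ^ ((((31 : ℕ) : ℝ) + 1) / ((31 : ℕ) : ℝ))) ≤ 2 ^ (d - 4 * pm d) / 16 := by
  filter_upwards [ev_exp (1 / 128) 7936 (by norm_num)] with d hd
  have hd0 : (0 : ℝ) ≤ d := Nat.cast_nonneg d
  have key := le_pow_sub d
  have h1 : (2 : ℝ) ^ (d - pl d) ≤ (2 : ℝ) ^ ((63 : ℝ) / 64 * d + 1) := by
    rw [← Real.rpow_natCast]
    refine Real.rpow_le_rpow_of_exponent_le (by norm_num) ?_
    have : ((64 * (d - pl d) : ℕ) : ℝ) ≤ ((63 * d + 64 : ℕ) : ℝ) := by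
      exact_mod_cast (by unfold pl; omega : 64 * (d - pl d) ≤ 63 * d + 64)
    rw [Nat.cast_mul] at this
    push_cast at this
    linarith
  have e1 : (2 : ℝ) ^ ((127 : ℝ) / 128 * d) =
      (2 : ℝ) ^ ((63 : ℝ) / 64 * d) * (2 : ℝ) ^ ((1 : ℝ) / 128 * d) := by
    rw [← Real.rpow_add (by norm_num)]
    congr 1; ring
  have h2 : 32 * ((d : ℝ) * 2 ^ (d - pl d)) ≤ (2 : ℝ) ^ ((127 : ℝ) / 128 * d) / 32 := by
    rw [Real.rpow_add_one (by norm_num)] at h1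
    rw [e1]
    have hp : 0 ≤ (2 : ℝ) ^ ((63 : ℝ) / 64 * d) := Real.rpow_nonneg (by norm_num) _
    calc 32 * ((d : ℝ) * 2 ^ (d - pl d)) ≤ 32 * ((d : ℝ) * ((2 : ℝ) ^ ((63 : ℝ) / 64 * d) * 2)) := by
          gcongr
      _ = (2 : ℝ) ^ ((63 : ℝ) / 64 * d) * (64 * d) := by ring
      _ ≤ (2 : ℝ) ^ ((63 : ℝ) / 64 * d) * ((2 : ℝ) ^ ((1 : ℝ) / 128 * d) / 32) :=
          mul_le_mul_of_nonneg_left (by linarith) hp
      _ = _ := by ring
  have h3 : 31 * ((1 + (d : ℝ)) * pW d ^ ((((31 : ℕ) : ℝ) + 1) / ((31 : ℕ) : ℝ))) ≤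
      (2 : ℝ) ^ ((127 : ℝ) / 128 * d) / 32 := by
    have h4 : pW d ^ ((((31 : ℕ) : ℝ) + 1) / ((31 : ℕ) : ℝ)) ≤
        (2 : ℝ) ^ ((63 : ℝ) / 64 * d) * 8 := by
      refine (pW_rpow_le d 31 (by norm_num)).trans ?_
      have : (8 : ℝ) = (2 : ℝ) ^ (3 : ℝ) := by
        rw [show (3 : ℝ) = ((3 : ℕ) : ℝ) by norm_num, Real.rpow_natCast]; norm_num
      rw [this, ← Real.rpow_add (by norm_num)]
      refine Real.rpow_le_rpow_of_exponent_le (by norm_num) ?_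
      push_cast
      linarith
    rw [e1]
    have hp : 0 ≤ (2 : ℝ) ^ ((63 : ℝ) / 64 * d) := Real.rpow_nonneg (by norm_num) _
    calc 31 * ((1 + (d : ℝ)) * pW d ^ ((((31 : ℕ) : ℝ) + 1) / ((31 : ℕ) : ℝ)))
        ≤ 31 * ((1 + (d : ℝ)) * ((2 : ℝ) ^ ((63 : ℝ) / 64 * d) * 8)) := by
          gcongr
      _ = (2 : ℝ) ^ ((63 : ℝ) / 64 * d) * (7936 * (1 + d) / 32) := by ring
      _ ≤ (2 : ℝ) ^ ((63 : ℝ) / 64 * d) * ((2 : ℝ) ^ ((1 : ℝ) / 128 * d) / 32) :=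
          mul_le_mul_of_nonneg_left (by linarith) hp
      _ = _ := by ring
  linarith

/-! ### facts on the parameters -/

theorem four_q_le (d j : ℕ) (hd : 1024 ≤ d) (hj : j ≤ pj d) : 4 * (j * 2 ^ pm d) ≤ 2 ^ d := by
  have hm : 2 ≤ pm d := by unfold pm; omega
  have h2 : 2 * pm d ≤ d := by unfold pm; omega
  calc 4 * (j * 2 ^ pm d) ≤ 2 ^ pm d * (2 ^ (d - 2 * pm d) * 2 ^ pm d) := by
        refine Nat.mul_le_mul ?_ (Nat.mul_le_mul_right _ hj)
        calc 4 = 2 ^ 2 := rfl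
          _ ≤ 2 ^ pm d := Nat.pow_le_pow_right (by norm_num) hm
    _ = 2 ^ d := by
        rw [← pow_add, ← pow_add]
        congr 1; omega

theorem q_add_le (d j : ℕ) (hd : 1024 ≤ d) (hj : j ≤ pj d) : j * 2 ^ pm d + j ≤ 2 ^ d := by
  have h := four_q_le d j hd hj
  have : j ≤ j * 2 ^ pm d := Nat.le_mul_of_pos_right _ (Nat.two_pow_pos _)
  omega

theorem two_pj_le (d : ℕ) (hd : 1024 ≤ d) : 2 * pj d ≤ 2 ^ d := by
  have h := four_q_le d (pj d) hd le_rfl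
  have : pj d ≤ pj d * 2 ^ pm d := Nat.le_mul_of_pos_right _ (Nat.two_pow_pos _)
  omega

theorem two_pow_le_exp (n : ℕ) : (2 : ℝ) ^ n ≤ Real.exp n := by
  have h2 : (2 : ℝ) ≤ Real.exp 1 := by
    have := Real.add_one_le_exp (1 : ℝ); linarith
  calc (2 : ℝ) ^ n ≤ (Real.exp 1) ^ n := pow_le_pow_left₀ (by norm_num) h2 n
    _ = Real.exp n := by rw [← Real.exp_nat_mul, mul_one]

/-- the bound for the levels -/
theorem part_numeric (d j : ℕ) (hd : 1024 ≤ d) (hj1 : 1 ≤ j) (hj : j ≤ pj d)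
    (h1 : (d : ℝ) * 2 ^ pm d ≤ 2 ^ pl d)
    (h2 : (2 : ℝ) ^ pm d * pW d ^ ((((15 : ℕ) : ℝ) + 1) / ((15 : ℕ) : ℝ)) ≤ 2 ^ d) :
    (2 * ((2 ^ d : ℕ) : ℝ) ^ ((j * 2 ^ pm d) / 2 ^ pl d) *
        Real.exp (4 * ((j * 2 ^ pm d : ℕ) : ℝ) ^ 2 / (2 ^ d : ℕ))) ^ (15 + 1) *
      (∏ i ∈ Finset.range (j * 2 ^ pm d),
        (1 + (pW d ^ ((((15 : ℕ) : ℝ) + 1) / ((15 : ℕ) : ℝ)) - 1) /
          (((2 ^ d : ℕ) : ℝ) - i))) ^ 15 ≤ Real.exp (126 * j) := by
  set x : ℝ := pW d ^ ((((15 : ℕ) : ℝ) + 1) / ((15 : ℕ) : ℝ)) with hx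
  have hx1 : 1 ≤ x := one_le_pW_rpow d 15
  have hjR : (1 : ℝ) ≤ j := by exact_mod_cast hj1
  have hNpos : (0 : ℝ) < 2 ^ d := by positivity
  -- factor 1
  have f1 : (2 : ℝ) ^ (15 + 1) ≤ Real.exp (16 * j) := by
    refine (two_pow_le_exp _).trans (Real.exp_le_exp.mpr ?_)
    push_cast; linarith
  -- factor 2
  have f2 : (((2 ^ d : ℕ) : ℝ) ^ ((j * 2 ^ pm d) / 2 ^ pl d)) ^ (15 + 1) ≤ Real.exp (16 * j) := by
    have hdj : d * ((j * 2 ^ pm d) / 2 ^ pl d) ≤ j := by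
      have h1' : d * 2 ^ pm d ≤ 2 ^ pl d := by exact_mod_cast h1
      calc d * ((j * 2 ^ pm d) / 2 ^ pl d) ≤ (d * (j * 2 ^ pm d)) / 2 ^ pl d :=
            Nat.mul_div_le_mul_div_assoc _ _ _
        _ ≤ (j * 2 ^ pl d) / 2 ^ pl d := by
            refine Nat.div_le_div_right ?_
            calc d * (j * 2 ^ pm d) = j * (d * 2 ^ pm d) := by ring
              _ ≤ j * 2 ^ pl d := Nat.mul_le_mul_left _ h1'
        _ = j := Nat.mul_div_cancel _ (Nat.two_pow_pos _)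
    have e : (((2 ^ d : ℕ) : ℝ) ^ ((j * 2 ^ pm d) / 2 ^ pl d)) ^ (15 + 1) =
        (2 : ℝ) ^ (16 * (d * ((j * 2 ^ pm d) / 2 ^ pl d))) := by
      push_cast
      rw [← pow_mul, ← pow_mul]
      congr 1; ring
    rw [e]
    refine (two_pow_le_exp _).trans (Real.exp_le_exp.mpr ?_)
    have : ((16 * (d * ((j * 2 ^ pm d) / 2 ^ pl d)) : ℕ) : ℝ) ≤ ((16 * j : ℕ) : ℝ) := by
      exact_mod_cast Nat.mul_le_mul_left 16 hdj
    calc _ ≤ ((16 * j : ℕ) : ℝ) := this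
      _ = 16 * j := by push_cast; ring
  -- factor 3
  have hq2 : ((j * 2 ^ pm d : ℕ) : ℝ) ^ 2 / (2 ^ d : ℕ) ≤ j := by
    rw [div_le_iff₀ (by positivity)]
    have : (j * 2 ^ pm d) ^ 2 ≤ j * 2 ^ d := by
      have h2m : 2 * pm d ≤ d := by unfold pm; omega
      calc (j * 2 ^ pm d) ^ 2 = j * (j * 2 ^ (2 * pm d)) := by ring
        _ ≤ j * (2 ^ (d - 2 * pm d) * 2 ^ (2 * pm d)) := by
            exact Nat.mul_le_mul_left _ (Nat.mul_le_mul_right _ hj)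
        _ = j * 2 ^ d := by
            rw [← pow_add]; congr 2; omega
    exact_mod_cast this
  have f3 : (Real.exp (4 * ((j * 2 ^ pm d : ℕ) : ℝ) ^ 2 / (2 ^ d : ℕ))) ^ (15 + 1) ≤
      Real.exp (64 * j) := by
    rw [← Real.exp_nat_mul]
    refine Real.exp_le_exp.mpr ?_
    rw [mul_div_assoc]
    push_cast at hq2 ⊢
    linarith
  -- factor 4
  have f4 : (∏ i ∈ Finset.range (j * 2 ^ pm d),
        (1 + (x - 1) / (((2 ^ d : ℕ) : ℝ) - i))) ^ 15 ≤ Real.exp (30 * j) := by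
    have hp := prod_part (2 ^ d) (j * 2 ^ pm d) x hx1 (four_q_le d j hd hj)
    have h0 : 0 ≤ ∏ i ∈ Finset.range (j * 2 ^ pm d), (1 + (x - 1) / (((2 ^ d : ℕ) : ℝ) - i)) := by
      refine Finset.prod_nonneg fun i hi => ?_
      have hi' : i < j * 2 ^ pm d := Finset.mem_range.mp hi
      have h4 := four_q_le d j hd hj
      have : (i : ℝ) < ((2 ^ d : ℕ) : ℝ) := by exact_mod_cast (by omega : i < 2 ^ d)
      have : 0 ≤ (x - 1) / (((2 ^ d : ℕ) : ℝ) - i) := div_nonneg (by linarith) (by linarith)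
      linarith
    refine (pow_le_pow_left₀ h0 hp 15).trans ?_
    rw [← Real.exp_nat_mul]
    refine Real.exp_le_exp.mpr ?_
    have : ((j * 2 ^ pm d : ℕ) : ℝ) * x / ((2 ^ d : ℕ) : ℝ) ≤ j := by
      rw [div_le_iff₀ (by positivity)]
      push_cast
      calc (j : ℝ) * 2 ^ pm d * x = j * (2 ^ pm d * x) := by ring
        _ ≤ j * 2 ^ d := mul_le_mul_of_nonneg_left h2 (by linarith)
    push_cast at this ⊢
    linarith
  calc (2 * ((2 ^ d : ℕ) : ℝ) ^ ((j * 2 ^ pm d) / 2 ^ pl d) *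
        Real.exp (4 * ((j * 2 ^ pm d : ℕ) : ℝ) ^ 2 / (2 ^ d : ℕ))) ^ (15 + 1) *
      (∏ i ∈ Finset.range (j * 2 ^ pm d),
        (1 + (x - 1) / (((2 ^ d : ℕ) : ℝ) - i))) ^ 15
      = (2 : ℝ) ^ (15 + 1) * (((2 ^ d : ℕ) : ℝ) ^ ((j * 2 ^ pm d) / 2 ^ pl d)) ^ (15 + 1) *
        (Real.exp (4 * ((j * 2 ^ pm d : ℕ) : ℝ) ^ 2 / (2 ^ d : ℕ))) ^ (15 + 1) *
        (∏ i ∈ Finset.range (j * 2 ^ pm d),
        (1 + (x - 1) / (((2 ^ d : ℕ) : ℝ) - i))) ^ 15 := by rw [mul_pow, mul_pow]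
    _ ≤ Real.exp (16 * j) * Real.exp (16 * j) * Real.exp (64 * j) * Real.exp (30 * j) := by
        refine mul_le_mul (mul_le_mul (mul_le_mul f1 f2 (by positivity) (by positivity)) f3
          (by positivity) (by positivity)) f4 ?_ (by positivity)
        refine pow_nonneg (Finset.prod_nonneg fun i hi => ?_) _
        have hi' : i < j * 2 ^ pm d := Finset.mem_range.mp hi
        have h4 := four_q_le d j hd hj
        have : (i : ℝ) < ((2 ^ d : ℕ) : ℝ) := by exact_mod_cast (by omega : i < 2 ^ d)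
        have : 0 ≤ (x - 1) / (((2 ^ d : ℕ) : ℝ) - i) := div_nonneg (by linarith) (by linarith)
        linarith
    _ = Real.exp (126 * j) := by
        rw [← Real.exp_add, ← Real.exp_add, ← Real.exp_add]
        congr 1; ring

/-- the bound for the full trace -/
theorem full_numeric (d : ℕ)
    (h3 : 32 * ((d : ℝ) * 2 ^ (d - pl d)) +
      31 * ((1 + (d : ℝ)) * pW d ^ ((((31 : ℕ) : ℝ) + 1) / ((31 : ℕ) : ℝ))) ≤
        2 ^ (d - 4 * pm d) / 16) :
    (2 * ((2 ^ d : ℕ) : ℝ) ^ (2 ^ d / 2 ^ pl d)) ^ (31 + 1) *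
      (∏ i ∈ Finset.range (2 ^ d),
        (1 + (pW d ^ ((((31 : ℕ) : ℝ) + 1) / ((31 : ℕ) : ℝ)) - 1) /
          (((2 ^ d : ℕ) : ℝ) - i))) ^ 31 ≤ Real.exp (32 + 2 ^ (d - 4 * pm d) / 16) := by
  set x : ℝ := pW d ^ ((((31 : ℕ) : ℝ) + 1) / ((31 : ℕ) : ℝ)) with hx
  have hx1 : 1 ≤ x := one_le_pW_rpow d 31
  have f1 : (2 * ((2 ^ d : ℕ) : ℝ) ^ (2 ^ d / 2 ^ pl d)) ^ (31 + 1) ≤
      Real.exp (32 + 32 * (d * 2 ^ (d - pl d))) := by
    have hpl : pl d ≤ d := by unfold pl; omega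
    have e : (2 * ((2 ^ d : ℕ) : ℝ) ^ (2 ^ d / 2 ^ pl d)) ^ (31 + 1) =
        (2 : ℝ) ^ (32 + 32 * (d * 2 ^ (d - pl d))) := by
      rw [Nat.pow_div hpl (by norm_num)]
      push_cast
      rw [← pow_mul, mul_pow, ← pow_mul, ← pow_add]
      congr 1; ring
    rw [e]
    refine (two_pow_le_exp _).trans (le_of_eq ?_)
    push_cast; ring_nf
  have f2 : (∏ i ∈ Finset.range (2 ^ d),
        (1 + (x - 1) / (((2 ^ d : ℕ) : ℝ) - i))) ^ 31 ≤ Real.exp (31 * ((1 + (d : ℝ)) * x)) := by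
    have hp := prod_full (2 ^ d) x hx1
    have h0 : 0 ≤ ∏ i ∈ Finset.range (2 ^ d), (1 + (x - 1) / (((2 ^ d : ℕ) : ℝ) - i)) := by
      refine Finset.prod_nonneg fun i hi => ?_
      have hi' : i < 2 ^ d := Finset.mem_range.mp hi
      have : (i : ℝ) < ((2 ^ d : ℕ) : ℝ) := by exact_mod_cast hi'
      have : 0 ≤ (x - 1) / (((2 ^ d : ℕ) : ℝ) - i) := div_nonneg (by linarith) (by linarith)
      linarith
    refine (pow_le_pow_left₀ h0 hp 31).trans ?_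
    rw [← Real.exp_nat_mul]
    refine Real.exp_le_exp.mpr ?_
    have hl : Real.log ((2 ^ d : ℕ) : ℝ) ≤ d := by
      push_cast
      rw [Real.log_pow]
      have : Real.log 2 ≤ 1 := by
        have := Real.log_two_lt_d9; linarith
      have hd0 : (0 : ℝ) ≤ d := Nat.cast_nonneg d
      nlinarith
    have : x * (1 + Real.log ((2 ^ d : ℕ) : ℝ)) ≤ (1 + (d : ℝ)) * x := by
      rw [mul_comm]
      exact mul_le_mul_of_nonneg_right (by linarith) (by linarith)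
    push_cast at this ⊢
    linarith
  calc _ ≤ Real.exp (32 + 32 * (d * 2 ^ (d - pl d))) * Real.exp (31 * ((1 + (d : ℝ)) * x)) := by
        refine mul_le_mul f1 f2 ?_ (by positivity)
        refine pow_nonneg (Finset.prod_nonneg fun i hi => ?_) _
        have hi' : i < 2 ^ d := Finset.mem_range.mp hi
        have : (i : ℝ) < ((2 ^ d : ℕ) : ℝ) := by exact_mod_cast hi'
        have : 0 ≤ (x - 1) / (((2 ^ d : ℕ) : ℝ) - i) := div_nonneg (by linarith) (by linarith)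
        linarith
    _ ≤ Real.exp (32 + 2 ^ (d - 4 * pm d) / 16) := by
        rw [← Real.exp_add]
        exact Real.exp_le_exp.mpr (by linarith)

/-- one level -/
theorem term_numeric (d j : ℕ) (hd : 1024 ≤ d) (hj1 : 1 ≤ j) (hj : j ≤ pj d) :
    ((2 ^ d).choose j : ℝ) / (((2 ^ d - j) / j : ℕ) : ℝ) ^ j *
        (Real.exp (126 * j) / ((j * 2 ^ pm d).choose j : ℝ)) ^ 2 ≤
      (8 * Real.exp 253 * (1 / 4) ^ pm d) ^ j := by
  have h4 := four_q_le d j hd hj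
  have hm : 2 ≤ pm d := by unfold pm; omega
  have hjq : j ≤ j * 2 ^ pm d := Nat.le_mul_of_pos_right _ (Nat.two_pow_pos _)
  have hjR : (0 : ℝ) < j := by exact_mod_cast hj1
  have hfac : (0 : ℝ) < (j.factorial : ℝ) := by exact_mod_cast Nat.factorial_pos j
  -- the denominator
  have hden : (2 : ℝ) ^ d / (2 * j) ≤ (((2 ^ d - j) / j : ℕ) : ℝ) := by
    have hlt : (2 ^ d - j) < j * ((2 ^ d - j) / j) + j := by
      have := Nat.div_add_mod (2 ^ d - j) j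
      have := Nat.mod_lt (2 ^ d - j) (by omega : 0 < j)
      omega
    have h5 : 2 ^ d ≤ 2 * (j * ((2 ^ d - j) / j)) := by
      have h6 : 4 * j ≤ 2 ^ d := by omega
      omega
    have h5' : (2 : ℝ) ^ d ≤ 2 * (j * (((2 ^ d - j) / j : ℕ) : ℝ)) := by exact_mod_cast h5
    rw [div_le_iff₀ (by positivity)]
    linarith
  have hden0 : (0 : ℝ) < (2 : ℝ) ^ d / (2 * j) := by positivity
  have a1 : ((2 ^ d).choose j : ℝ) / (((2 ^ d - j) / j : ℕ) : ℝ) ^ j ≤ (2 * Real.exp 1) ^ j := by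
    have hc : ((2 ^ d).choose j : ℝ) ≤ ((2 : ℝ) ^ d) ^ j / j.factorial := by
      have := Nat.choose_le_pow_div (α := ℝ) j (2 ^ d)
      push_cast at this
      exact this
    calc ((2 ^ d).choose j : ℝ) / (((2 ^ d - j) / j : ℕ) : ℝ) ^ j
        ≤ (((2 : ℝ) ^ d) ^ j / j.factorial) / ((2 : ℝ) ^ d / (2 * j)) ^ j :=
          div_le_div₀ (by positivity) hc (by positivity)
            (pow_le_pow_left₀ hden0.le hden j)
      _ = 2 ^ j * ((j : ℝ) ^ j / j.factorial) := by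
          rw [div_pow, mul_pow]
          field_simp
      _ ≤ 2 ^ j * Real.exp j := by
          refine mul_le_mul_of_nonneg_left ?_ (by positivity)
          exact Real.pow_div_factorial_le_exp _ hjR.le j
      _ = (2 * Real.exp 1) ^ j := by
          rw [mul_pow, ← Real.exp_nat_mul, mul_one]
  have a2 : ((2 : ℝ) ^ pm d / 2) ^ j ≤ ((j * 2 ^ pm d).choose j : ℝ) := by
    have hp := Nat.pow_le_choose (α := ℝ) j (j * 2 ^ pm d)
    have hb : (j : ℝ) * ((2 : ℝ) ^ pm d / 2) ≤ ((j * 2 ^ pm d + 1 - j : ℕ) : ℝ) := by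
      have : j * 2 ^ pm d ≤ 2 * (j * 2 ^ pm d + 1 - j) := by
        have : 2 * j ≤ j * 2 ^ pm d := by
          rw [mul_comm]
          refine Nat.mul_le_mul_left _ ?_
          calc 2 ≤ 2 ^ 2 := by norm_num
            _ ≤ 2 ^ pm d := Nat.pow_le_pow_right (by norm_num) hm
        omega
      have h' : (j : ℝ) * 2 ^ pm d ≤ 2 * ((j * 2 ^ pm d + 1 - j : ℕ) : ℝ) := by exact_mod_cast this
      linarith
    have hjj : (j.factorial : ℝ) ≤ (j : ℝ) ^ j := by exact_mod_cast Nat.factorial_le_pow j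
    calc ((2 : ℝ) ^ pm d / 2) ^ j = ((j : ℝ) ^ j * ((2 : ℝ) ^ pm d / 2) ^ j) / (j : ℝ) ^ j := by
          field_simp
      _ ≤ ((j : ℝ) ^ j * ((2 : ℝ) ^ pm d / 2) ^ j) / j.factorial :=
          div_le_div_of_nonneg_left (by positivity) hfac hjj
      _ = ((j : ℝ) * ((2 : ℝ) ^ pm d / 2)) ^ j / j.factorial := by rw [mul_pow]
      _ ≤ ((j * 2 ^ pm d + 1 - j : ℕ) : ℝ) ^ j / j.factorial := by
          refine div_le_div_of_nonneg_right (pow_le_pow_left₀ (by positivity) hb j) hfac.le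
      _ ≤ _ := hp
  have hpm0 : (0 : ℝ) < (2 : ℝ) ^ pm d / 2 := by positivity
  have a3 : (Real.exp (126 * j) / ((j * 2 ^ pm d).choose j : ℝ)) ^ 2 ≤
      (Real.exp 252 * 4 * (1 / 4) ^ pm d) ^ j := by
    calc (Real.exp (126 * j) / ((j * 2 ^ pm d).choose j : ℝ)) ^ 2
        ≤ (Real.exp (126 * j) / ((2 : ℝ) ^ pm d / 2) ^ j) ^ 2 := by
          refine pow_le_pow_left₀ (by positivity) ?_ 2
          exact div_le_div_of_nonneg_left (by positivity) (by positivity) a2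
      _ = (Real.exp 252 * 4 * (1 / 4) ^ pm d) ^ j := by
          have e1 : Real.exp (126 * j) = (Real.exp 126) ^ j := by
            rw [← Real.exp_nat_mul]; congr 1; ring
          have e2 : Real.exp 252 = Real.exp 126 ^ 2 := by
            rw [← Real.exp_nat_mul]; norm_num
          have e3 : ((1 : ℝ) / 4) ^ pm d = 1 / ((2 : ℝ) ^ pm d) ^ 2 := by
            rw [one_div_pow, ← pow_mul, mul_comm (pm d) 2, pow_mul]; norm_num
          rw [e1, e2, e3, ← div_pow, ← pow_mul, mul_comm j 2, pow_mul]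
          congr 1
          field_simp
          ring
  calc ((2 ^ d).choose j : ℝ) / (((2 ^ d - j) / j : ℕ) : ℝ) ^ j *
        (Real.exp (126 * j) / ((j * 2 ^ pm d).choose j : ℝ)) ^ 2
      ≤ (2 * Real.exp 1) ^ j * (Real.exp 252 * 4 * (1 / 4) ^ pm d) ^ j :=
        mul_le_mul a1 a3 (by positivity) (by positivity)
    _ = (8 * Real.exp 253 * (1 / 4) ^ pm d) ^ j := by
        rw [← mul_pow]
        congr 1
        rw [show (253 : ℝ) = 1 + 252 by norm_num, Real.exp_add]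
        ring

theorem geom_le (ρ : ℝ) (h0 : 0 ≤ ρ) (h1 : ρ ≤ 1 / 2) (n : ℕ) :
    ∑ j ∈ Finset.Icc 1 n, ρ ^ j ≤ 2 * ρ := by
  have : ∀ n : ℕ, ∑ j ∈ Finset.Icc 1 n, ρ ^ j ≤ 2 * ρ - 2 * ρ ^ (n + 1) := by
    intro n
    induction n with
    | zero => simp
    | succ n ih =>
      rw [Finset.sum_Icc_succ_top (by omega)]
      have hp : 0 ≤ ρ ^ (n + 1) := pow_nonneg h0 _
      have : ρ ^ (n + 1 + 1) = ρ * ρ ^ (n + 1) := by ring
      nlinarith
  have hp : 0 ≤ ρ ^ (n + 1) := pow_nonneg h0 _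
  linarith [this n]

theorem eta_numeric (d : ℕ) :
    Real.exp (-(((pj d : ℝ) ^ 2 - 1) / (8 * 2 ^ d))) * Real.exp (32 + 2 ^ (d - 4 * pm d) / 16) ≤
      Real.exp (33 - 2 ^ (d - 4 * pm d) / 16) := by
  rw [← Real.exp_add]
  refine Real.exp_le_exp.mpr ?_
  have e : (pj d : ℝ) ^ 2 = 2 ^ (d - 4 * pm d) * 2 ^ d := by
    unfold pj
    push_cast
    rw [← pow_mul, ← pow_add]
    congr 1
    unfold pm; omega
  have e2 : ((pj d : ℝ) ^ 2 - 1) / (8 * 2 ^ d) = 2 ^ (d - 4 * pm d) / 8 - 1 / (8 * 2 ^ d) := by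
    rw [e]; field_simp
  have h3 : (1 : ℝ) / (8 * 2 ^ d) ≤ 1 := by
    rw [div_le_one (by positivity)]
    have : (1 : ℝ) ≤ 2 ^ d := one_le_pow₀ (by norm_num)
    linarith
  rw [e2]
  linarith

end T21

open T21

theorem freshErr_nonneg (Λ : Type*) [Fintype Λ] [DecidableEq Λ] (D k : ℕ) :
    0 ≤ freshErr Λ D k := by
  unfold freshErr
  refine Finset.expect_nonneg fun E _ => ?_
  unfold tv
  exact mul_nonneg (by norm_num) (Finset.sum_nonneg fun _ _ => abs_nonneg _)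

theorem psi_full_eq {N : ℕ} (r : Equiv.Perm (Fin N) → ℝ) : psi r N 1 = (N.factorial : ℝ) * r 1 := by
  unfold psi
  rw [Nat.descFactorial_self]
  congr 1
  have : ∀ g : Equiv.Perm (Fin N),
      (if (∀ i : Fin N, (i : ℕ) < N → g i = (1 : Equiv.Perm (Fin N)) i) then r g else 0) =
        if g = 1 then r g else 0 := by
    intro g
    have : (∀ i : Fin N, (i : ℕ) < N → g i = (1 : Equiv.Perm (Fin N)) i) ↔ g = 1 :=
      ⟨fun h => Equiv.ext fun i => h i i.2, fun h i _ => by rw [h]⟩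
    by_cases hg : g = 1
    · rw [if_pos (this.mpr hg), if_pos hg]
    · rw [if_neg (fun h => hg (this.mp h)), if_neg hg]
  rw [Finset.sum_congr rfl fun g _ => this g, Finset.sum_ite_eq']
  simp

/-- C12 (T21): the fresh model mixes; the other chunks are hypotheses. -/
theorem freshErr_tendsto_of
    (good_prob : Tendsto (fun d : ℕ => 𝔼 E : Env (Fin (2 ^ d)) (d + 1),
      if Good d (pK d) (pb d) (ps d) (rangeF E.1) E.2 then (1 : ℝ) else 0) atTop (𝓝 1))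
    (psi_convPow_le : ∀ {N : ℕ} (r : Equiv.Perm (Fin N) → ℝ) (_hr : ∀ g, 0 ≤ r g)
      (_hclass : ∀ g h, r (h * g * h⁻¹) = r g) (q : ℕ) (_hq : q ≤ N) (B W : ℝ) (_hB : 0 ≤ B)
      (_hW : 1 ≤ W) (_h : ∀ τ, psi r q τ ≤ B * W ^ cyc q τ) (k : ℕ) (_hk : 1 ≤ k),
      psi (convPow r (k + 1)) q 1 ≤ B ^ (k + 1) *
        (∏ i ∈ Finset.range q, (1 + (W ^ (((k : ℝ) + 1) / k) - 1) / ((N : ℝ) - i))) ^ k)
    (rGood_nonneg : ∀ (d K b s : ℕ) (g : Equiv.Perm (Fin (2 ^ d))), 0 ≤ rGood d K b s g)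
    (rGood_class : ∀ (d K b s : ℕ) (g h : Equiv.Perm (Fin (2 ^ d))),
      rGood d K b s (h * g * h⁻¹) = rGood d K b s g)
    (rGood_inv : ∀ (d K b s : ℕ) (g : Equiv.Perm (Fin (2 ^ d))),
      rGood d K b s g⁻¹ = rGood d K b s g)
    (rGood_pos : ∀ (d K b s : ℕ) (f : Equiv.Perm (Fin (2 ^ d)) → ℝ),
      0 ≤ quad (rGood d K b s) f)
    (rGood_mass : ∀ (d K b s : ℕ), ∑ g, rGood d K b s g =
      𝔼 E : Env (Fin (2 ^ d)) (d + 1), if Good d K b s (rangeF E.1) E.2 then (1 : ℝ) else 0)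
    (freshErr_le : ∀ (d K b s k : ℕ), freshErr (Fin (2 ^ d)) (d + 1) k ≤
      (1 - (∑ g, rGood d K b s g) ^ k) +
        (1 / 2) * Real.sqrt (((2 ^ d).factorial : ℝ) * convPow (rGood d K b s) k 1 -
          (∑ g, rGood d K b s g) ^ k))
    (psi_rGood_full : ∀ (d K b s l g : ℕ) (_hg : 2 * g + l ≤ K)
      (_hW : (1 : ℝ) ≤ 2 ^ l * (((2 ^ d : ℕ) : ℝ) / 2 ^ g + b)) (τ : Equiv.Perm (Fin (2 ^ d))),
      psi (rGood d K b s) (2 ^ d) τ ≤
        2 * (2 ^ l * (((2 ^ d : ℕ) : ℝ) / 2 ^ g + b)) ^ cyc (2 ^ d) τ *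
          ((2 ^ d : ℕ) : ℝ) ^ (2 ^ d / 2 ^ l))
    (psi_rGood_part : ∀ (d K b s l g : ℕ) (_hg : 2 * g + l ≤ K)
      (_hW : (1 : ℝ) ≤ 2 ^ l * (((2 ^ d : ℕ) : ℝ) / 2 ^ g + b)) (τ : Equiv.Perm (Fin (2 ^ d)))
      (q : ℕ) (_hq : 4 * q ≤ 2 ^ d), psi (rGood d K b s) q τ ≤
        2 * (2 ^ l * (((2 ^ d : ℕ) : ℝ) / 2 ^ g + b)) ^ cyc q τ *
          ((2 ^ d : ℕ) : ℝ) ^ (q / 2 ^ l) * Real.exp (4 * q ^ 2 / (2 ^ d : ℕ)))
    (level_bound : ∀ {N : ℕ} (r : Equiv.Perm (Fin N) → ℝ) (_hr : ∀ g, 0 ≤ r g)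
      (_hmass : ∑ g, r g ≤ 1) (_hclass : ∀ g h, r (h * g * h⁻¹) = r g)
      (_hinv : ∀ g, r g⁻¹ = r g)
      (_hpos : ∀ f, 0 ≤ quad r f) (j1 : ℕ) (_hj1 : 2 * j1 ≤ N) (k : ℕ) (η : ℝ) (_hη : 0 ≤ η)
      (_hhigh : ∀ f, HighLevel j1 f → quad r f ≤ η * ∑ g, f g ^ 2)
      (qf : ℕ → ℕ) (_hqf : ∀ j, 1 ≤ j → j ≤ j1 → j ≤ qf j ∧ qf j + j ≤ N)
      (M : ℕ → ℝ) (_hM : ∀ j, 1 ≤ j → j ≤ j1 → psi (convPow r k) (qf j) 1 ≤ M j) (Minf : ℝ)
      (_hMinf : (N.factorial : ℝ) * convPow r (2 * k) 1 ≤ Minf),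
      (N.factorial : ℝ) * convPow r (2 * k + 1) 1 - (∑ g, r g) ^ (2 * k + 1) ≤
        ∑ j ∈ Finset.Icc 1 j1, (N.choose j : ℝ) / (((N - j) / j : ℕ) : ℝ) ^ j *
          (M j / ((qf j).choose j : ℝ)) ^ 2 + η * Minf)
    (quad_rGood_high : ∀ (d K b s j : ℕ) (_hj : j ≤ 2 ^ d) (_hs : j ≤ 2 * s + 1)
      (f : Equiv.Perm (Fin (2 ^ d)) → ℝ) (_hf : HighLevel j f), quad (rGood d K b s) f ≤
        Real.exp (-(((j : ℝ) ^ 2 - 1) / (8 * 2 ^ d))) * ∑ g, f g ^ 2) :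
    Tendsto (fun d : ℕ => freshErr (Fin (2 ^ d)) (d + 1) 33) atTop (𝓝 0) := by
  -- the main inequality
  set ρ : ℕ → ℝ := fun d => 8 * Real.exp 253 * (1 / 4) ^ pm d with hρ
  have hρ0 : ∀ d, 0 ≤ ρ d := fun d => by positivity
  have hpm : Tendsto pm atTop atTop := by
    refine tendsto_atTop_mono (f := fun d => d / 512) (fun d => le_rfl) ?_
    exact Nat.tendsto_div_const_atTop (by norm_num)
  have hρt : Tendsto ρ atTop (𝓝 0) := by
    have : Tendsto (fun m : ℕ => ((1 : ℝ) / 4) ^ m) atTop (𝓝 0) :=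
      tendsto_pow_atTop_nhds_zero_of_lt_one (by norm_num) (by norm_num)
    have h2 := (this.comp hpm).const_mul (8 * Real.exp 253)
    rw [mul_zero] at h2
    exact h2
  have main : ∀ᶠ d : ℕ in atTop,
      ((2 ^ d).factorial : ℝ) * convPow (rGood d (pK d) (pb d) (ps d)) 33 1 -
        (∑ g, rGood d (pK d) (pb d) (ps d) g) ^ 33 ≤
      2 * ρ d + Real.exp (33 - 2 ^ (d - 4 * pm d) / 16) := by
    filter_upwards [ev_a1, ev_a2, ev_a3, eventually_ge_atTop 1024,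
      hρt.eventually (gt_mem_nhds (show (0 : ℝ) < 1 / 2 by norm_num))] with d h1 h2 h3 hd hρd
    have hmass : ∑ g, rGood d (pK d) (pb d) (ps d) g ≤ 1 := by
      rw [rGood_mass]
      have : Nonempty (Env (Fin (2 ^ d)) (d + 1)) := by
        have hcard : Fintype.card (Fin (2 ^ d)) ≤ Fintype.card (V (d + 1)) := by
          rw [Fintype.card_fin, card_V]; exact Nat.pow_le_pow_right (by norm_num) (by omega)
        obtain ⟨e⟩ := Function.Embedding.nonempty_of_card_le hcard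
        exact ⟨(e, Classical.arbitrary _)⟩
      refine Finset.expect_le Finset.univ_nonempty ?_
      intro E _
      split_ifs <;> norm_num
    have hlev := level_bound (rGood d (pK d) (pb d) (ps d)) (rGood_nonneg _ _ _ _) hmass
      (rGood_class _ _ _ _) (rGood_inv _ _ _ _) (rGood_pos _ _ _ _) (pj d) (two_pj_le d hd) 16
      (Real.exp (-(((pj d : ℝ) ^ 2 - 1) / (8 * 2 ^ d)))) (Real.exp_pos _).le
      (fun f hf => quad_rGood_high d (pK d) (pb d) (ps d) (pj d)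
        (by have := two_pj_le d hd; omega) (by show pj d ≤ 2 * ps d + 1; unfold pj ps pm; omega) f hf)
      (fun j => j * 2 ^ pm d)
      (fun j _ hj => ⟨Nat.le_mul_of_pos_right _ (Nat.two_pow_pos _), q_add_le d j hd hj⟩)
      (fun j => Real.exp (126 * j))
      (fun j hj1 hj => ?_) (Real.exp (32 + 2 ^ (d - 4 * pm d) / 16)) ?_
    · -- conclusion
      refine hlev.trans (add_le_add ?_ (eta_numeric d))
      refine (Finset.sum_le_sum fun j hj => ?_).trans (geom_le (ρ d) (hρ0 d) hρd.le (pj d))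
      rw [Finset.mem_Icc] at hj
      exact term_numeric d j hd hj.1 hj.2
    · -- hM
      have hq := four_q_le d j hd hj
      refine (psi_convPow_le (rGood d (pK d) (pb d) (ps d)) (rGood_nonneg _ _ _ _)
        (rGood_class _ _ _ _) (j * 2 ^ pm d) (by omega)
        (2 * ((2 ^ d : ℕ) : ℝ) ^ ((j * 2 ^ pm d) / 2 ^ pl d) *
          Real.exp (4 * ((j * 2 ^ pm d : ℕ) : ℝ) ^ 2 / (2 ^ d : ℕ))) (pW d) (by positivity)
        (one_le_pW d) (fun τ => ?_) 15 (by norm_num)).trans (part_numeric d j hd hj1 hj h1 h2)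
      refine (psi_rGood_part d (pK d) (pb d) (ps d) (pl d) (pg d) (pg_ok d) (one_le_pW d) τ
        (j * 2 ^ pm d) hq).trans (le_of_eq ?_)
      unfold pW
      ring
    · -- hMinf
      rw [← psi_full_eq]
      refine (psi_convPow_le (rGood d (pK d) (pb d) (ps d)) (rGood_nonneg _ _ _ _)
        (rGood_class _ _ _ _) (2 ^ d) le_rfl
        (2 * ((2 ^ d : ℕ) : ℝ) ^ (2 ^ d / 2 ^ pl d)) (pW d) (by positivity)
        (one_le_pW d) (fun τ => ?_) 31 (by norm_num)).trans (full_numeric d h3)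
      refine (psi_rGood_full d (pK d) (pb d) (ps d) (pl d) (pg d) (pg_ok d) (one_le_pW d) τ).trans
        (le_of_eq ?_)
      unfold pW
      ring
  -- limits
  have hmt : Tendsto (fun d : ℕ => ∑ g, rGood d (pK d) (pb d) (ps d) g) atTop (𝓝 1) := by
    simp_rw [rGood_mass]
    exact good_prob
  have hexp : Tendsto (fun d : ℕ => Real.exp (33 - 2 ^ (d - 4 * pm d) / 16)) atTop (𝓝 0) := by
    refine Real.tendsto_exp_atBot.comp ?_
    have h1 : Tendsto (fun d : ℕ => (2 : ℝ) ^ (d - 4 * pm d)) atTop atTop := by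
      have h2 : Tendsto (fun n : ℕ => (2 : ℝ) ^ n) atTop atTop :=
        tendsto_pow_atTop_atTop_of_one_lt (by norm_num)
      refine h2.comp (tendsto_atTop_mono (f := fun d => d / 2) (fun d => ?_)
        (Nat.tendsto_div_const_atTop (by norm_num)))
      unfold pm; omega
    have h3 := (h1.atTop_div_const (show (0 : ℝ) < 16 by norm_num))
    exact tendsto_atBot_add_const_left _ 33 (tendsto_neg_atTop_atBot.comp h3)
  have hup : Tendsto (fun d : ℕ => (1 - (∑ g, rGood d (pK d) (pb d) (ps d) g) ^ 33) +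
      (1 / 2) * Real.sqrt (2 * ρ d + Real.exp (33 - 2 ^ (d - 4 * pm d) / 16))) atTop (𝓝 0) := by
    have h1 : Tendsto (fun d : ℕ => 1 - (∑ g, rGood d (pK d) (pb d) (ps d) g) ^ 33) atTop
        (𝓝 0) := by
      have := (hmt.pow 33).const_sub 1
      simpa using this
    have h2 : Tendsto (fun d : ℕ =>
        Real.sqrt (2 * ρ d + Real.exp (33 - 2 ^ (d - 4 * pm d) / 16))) atTop (𝓝 0) := by
      have h3 := (hρt.const_mul 2).add hexp
      have h4 := (Real.continuous_sqrt.tendsto _).comp h3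
      rw [mul_zero, add_zero, Real.sqrt_zero] at h4
      exact h4
    have h5 := h1.add (h2.const_mul (1 / 2))
    rw [mul_zero, add_zero] at h5
    exact h5
  refine squeeze_zero' (Eventually.of_forall fun d => freshErr_nonneg _ _ _) ?_ hup
  filter_upwards [main] with d hd
  refine (freshErr_le d (pK d) (pb d) (ps d) 33).trans ?_
  have := Real.sqrt_le_sqrt hd
  linarith

end Crest.Agent.Thorp
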