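import Crest.Agent.Lib.Row155.Defs2
/-!
Row 155 (Thorp shuffle), chunk T7 (C4d): half of the deck mixes in 46 passes.
-/
set_option autoImplicit false
open Finset Filter
open scoped BigOperators Topology

namespace Crest.Agent.Thorp
namespace TE

/-! ### Generic averaging lemmas -/

theorem expect_snoc {α : Type*} [Fintype α] (K : ℕ) (f : (Fin (K + 1) → α) → ℝ) :
    𝔼 a, f a = 𝔼 a : Fin K → α, 𝔼 c : α, f (Fin.snoc (α := fun _ => α) a c) := by
  have h1 : 𝔼 a : Fin (K + 1) → α, f a =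
      𝔼 p : α × (Fin K → α), f (Fin.snoc (α := fun _ => α) p.2 p.1) :=
    (Fintype.expect_equiv (Fin.snocEquiv (fun _ => α)) _ _ (fun _ => rfl)).symm
  rw [h1, ← Finset.univ_product_univ, Finset.expect_product, Finset.expect_comm]

/-- tail of a tuple -/
def tail {q D : ℕ} (x : Fin (q + 1) ↪ V D) : Fin q ↪ V D :=
  (Fin.succEmb q).trans x

@[simp] theorem tail_apply {q D : ℕ} (x : Fin (q + 1) ↪ V D) (i : Fin q) :
    tail x i = x i.succ := rfl

theorem sum_emb_succ {q D : ℕ} (F : (Fin q ↪ V D) → V D → ℝ) :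
    ∑ y : Fin (q + 1) ↪ V D, F (tail y) (y 0) =
      ∑ y : Fin q ↪ V D, ∑ u ∈ Finset.univ.filter (fun u => u ∉ rangeF y), F y u := by
  classical
  have h1 : ∑ y : Fin (q + 1) ↪ V D, F (tail y) (y 0) =
      ∑ p : (Σ (e : Fin q ↪ V D), {i // i ∉ Set.range e}), F p.1 p.2.1 := by
    refine Fintype.sum_equiv (Equiv.embeddingFinSucc q (V D)) _ _ (fun y => ?_)
    congr 1
  rw [h1, Fintype.sum_sigma]
  refine Finset.sum_congr rfl (fun e _ => ?_)
  rw [← Finset.sum_subtype (Finset.univ.filter (fun u => u ∉ rangeF e))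
    (p := fun i => i ∉ Set.range e) (fun u => by simp) (fun u => F e u)]

theorem card_compl_rangeF {q D : ℕ} (y : Fin q ↪ V D) :
    ((Finset.univ.filter (fun u => u ∉ rangeF y)).card : ℝ) = 2 ^ D - q := by
  classical
  have h : (Finset.univ.filter (fun u => u ∉ rangeF y)) = (rangeF y)ᶜ := by
    ext u; simp
  have hq : (rangeF y).card = q := by simp [rangeF]
  have hle : q ≤ 2 ^ D := by
    have := Fintype.card_le_of_embedding y
    rwa [Fintype.card_fin, card_V] at this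
  rw [h, Finset.card_compl, hq, card_V, Nat.cast_sub hle]
  push_cast
  ring

theorem expect_tail {q D : ℕ} (g : (Fin q ↪ V D) → ℝ) (hq : q < 2 ^ D) :
    𝔼 x : Fin (q + 1) ↪ V D, g (tail x) = 𝔼 x : Fin q ↪ V D, g x := by
  classical
  have hc : ∀ q : ℕ, Fintype.card (Fin q ↪ V D) = (2 ^ D).descFactorial q := fun q => by
    rw [Fintype.card_embedding_eq, card_V, Fintype.card_fin]
  have hpos : (0 : ℝ) < 2 ^ D - q := by
    have : (q : ℝ) < 2 ^ D := by exact_mod_cast hq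
    linarith
  have h1 : ∑ x : Fin (q + 1) ↪ V D, g (tail x) = (2 ^ D - q) * ∑ x : Fin q ↪ V D, g x := by
    rw [sum_emb_succ (fun y _ => g y), Finset.mul_sum]
    refine Finset.sum_congr rfl (fun y _ => ?_)
    rw [Finset.sum_const, nsmul_eq_mul, card_compl_rangeF]
  have h2 : (Fintype.card (Fin (q + 1) ↪ V D) : ℝ) =
      (2 ^ D - q) * Fintype.card (Fin q ↪ V D) := by
    rw [hc, hc, Nat.descFactorial_succ]
    push_cast [Nat.cast_sub hq.le]
    ring
  rw [Fintype.expect_eq_sum_div_card, Fintype.expect_eq_sum_div_card, h1, h2]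
  rw [mul_div_mul_left _ _ hpos.ne']

theorem expect_trans {q D : ℕ} (g : (Fin q ↪ V D) → ℝ) (σ : Equiv.Perm (V D)) :
    𝔼 x : Fin q ↪ V D, g (x.trans σ.toEmbedding) = 𝔼 x : Fin q ↪ V D, g x := by
  refine Fintype.expect_equiv ((Equiv.refl (Fin q)).embeddingCongr σ) _ _ (fun x => ?_)
  congr 1

/-! ### Iterated conditional evolution -/

/-- positions of the revealed cards after the passes `a` -/
def moved {D m K : ℕ} (x : Fin m ↪ V D) (a : Fin K → Coins D) : Fin m ↪ V D :=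
  x.trans (passes D K a).toEmbedding

theorem moved_apply {D m K : ℕ} (x : Fin m ↪ V D) (a : Fin K → Coins D) (i : Fin m) :
    moved x a i = passes D K a (x i) := rfl

theorem passes_snoc {D K : ℕ} (a : Fin K → Coins D) (c : Coins D) :
    passes D (K + 1) (Fin.snoc (α := fun _ => Coins D) a c) = pass D c * passes D K a := by
  simp [passes]

theorem moved_snoc {D m K : ℕ} (x : Fin m ↪ V D) (a : Fin K → Coins D) (c : Coins D) :
    moved x (Fin.snoc (α := fun _ => Coins D) a c) = (moved x a).trans (pass D c).toEmbedding := by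
  ext i : 1
  simp [moved, passes_snoc]

/-- iterated conditional evolution -/
noncomputable def Phi (D : ℕ) {m : ℕ} (x : Fin m ↪ V D) (φ : V D → ℝ) :
    ∀ K : ℕ, (Fin K → Coins D) → V D → ℝ
  | 0, _ => φ
  | K + 1, a => evolve D (rangeF (moved x (fun i : Fin K => a i.castSucc))) (a (Fin.last K))
      (Phi D x φ K (fun i => a i.castSucc))

theorem Phi_snoc {D m K : ℕ} (x : Fin m ↪ V D) (φ : V D → ℝ) (a : Fin K → Coins D) (c : Coins D) :
    Phi D x φ (K + 1) (Fin.snoc (α := fun _ => Coins D) a c) =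
      evolve D (rangeF (moved x a)) c (Phi D x φ K a) := by
  simp [Phi]

/-! ### Hypotheses (statements of the chunks C4a, C4b, C4c) -/

def HCond : Prop := ∀ (D : ℕ) {m : ℕ} (x : Fin m ↪ V D) (φ : V D → ℝ), (∀ i, φ (x i) = 0) →
    ∀ (z : Fin m → V D) (y : V D),
    (𝔼 c : Coins D, if (∀ i, pass D c (x i) = z i) then φ ((pass D c).symm y) else 0) =
      𝔼 c : Coins D, if (∀ i, pass D c (x i) = z i) then evolve D (rangeF x) c φ y else 0

def HSupp : Prop := ∀ (D : ℕ) (R : Finset (V D)) (c : Coins D) (φ : V D → ℝ),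
    (∀ p ∈ R, φ p = 0) → ∀ (y : V D), (pass D c).symm y ∈ R → evolve D R c φ y = 0

def HSum : Prop := ∀ (D : ℕ) (R : Finset (V D)) (c : Coins D) (φ : V D → ℝ),
    (∀ p ∈ R, φ p = 0) → ∑ y, evolve D R c φ y = ∑ y, φ y

def HSq : Prop := ∀ (D : ℕ) (R : Finset (V D)) (c : Coins D) (φ : V D → ℝ),
    (∀ p ∈ R, φ p = 0) → ∑ y, evolve D R c φ y ^ 2 ≤ ∑ y, φ y ^ 2

def HBS : Prop := ∀ (D k : ℕ), k ≤ D → ∀ (R : Finset (V D)) (φ : V D → ℝ),
    (∀ p ∈ R, φ p = 0) →
    𝔼 c : Coins D, BS D k (evolve D R c φ) ≤ ∑ y, φ y ^ 2 + (∑ y, φ y) ^ 2 / 2 ^ (D - k)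

def HEn : Prop := ∀ (s0 D : ℕ), s0 ≤ D → ∀ (ρ : ℝ), 0 ≤ ρ → ρ ≤ 1 →
    ∀ (R : Finset (V D)), Reg s0 ρ D R → ∀ (φ : V D → ℝ), (∀ p ∈ R, φ p = 0) →
    𝔼 c : Coins D, ∑ y, evolve D R c φ y ^ 2 ≤
      (∑ y, φ y) ^ 2 / 2 ^ D + ((1 + ρ) / 2) ^ (D - s0) * ∑ y, φ y ^ 2 +
        ∑ k ∈ Finset.Ico s0 D, ((1 + ρ) / 2) ^ (D - 1 - k) / 2 ^ (k + 1) * BS D k φ

def HReg : Prop := ∀ (s0 D m : ℕ), 2 * m ≤ 2 ^ D →
    (𝔼 x : Fin m ↪ V D, open Classical in if Reg s0 (3 / 4) D (rangeF x) then (0 : ℝ) else 1) ≤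
      2 ^ (D + 1) * (9 / 10 : ℝ) ^ (2 ^ s0)

theorem Phi_supp (hsupp : HSupp) {D m : ℕ} (x : Fin m ↪ V D) (φ : V D → ℝ)
    (hφ : ∀ i, φ (x i) = 0) : ∀ (K : ℕ) (a : Fin K → Coins D) (i : Fin m),
      Phi D x φ K a (moved x a i) = 0 := by
  intro K
  induction K with
  | zero => intro a i; simpa [Phi, moved, passes] using hφ i
  | succ K ih =>
    intro a i
    obtain ⟨a', c, rfl⟩ : ∃ (a' : Fin K → Coins D) (c : Coins D),
        a = Fin.snoc (α := fun _ => Coins D) a' c :=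
      ⟨fun i => a i.castSucc, a (Fin.last K), (Fin.snoc_init_self (α := fun _ => Coins D) a).symm⟩
    rw [Phi_snoc, moved_snoc]
    refine hsupp D _ c _ ?_ _ ?_
    · intro p hp
      obtain ⟨j, rfl⟩ := mem_rangeF.1 hp
      exact ih a' j
    · simp

theorem Phi_supp' (hsupp : HSupp) {D m : ℕ} (x : Fin m ↪ V D) (φ : V D → ℝ)
    (hφ : ∀ i, φ (x i) = 0) (K : ℕ) (a : Fin K → Coins D) (p : V D)
    (hp : p ∈ rangeF (moved x a)) : Phi D x φ K a p = 0 := by
  obtain ⟨j, rfl⟩ := mem_rangeF.1 hp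
  exact Phi_supp hsupp x φ hφ K a j

theorem Phi_cond (hsupp : HSupp) (hcond : HCond) {D m : ℕ} (x : Fin m ↪ V D) (φ : V D → ℝ)
    (hφ : ∀ i, φ (x i) = 0) : ∀ (K : ℕ) (z : Fin m → V D) (y : V D),
    (𝔼 a : Fin K → Coins D, if (∀ i, passes D K a (x i) = z i) then
      φ ((passes D K a).symm y) else 0) =
    𝔼 a : Fin K → Coins D, if (∀ i, passes D K a (x i) = z i) then Phi D x φ K a y else 0 := by
  intro K
  induction K with
  | zero =>
    intro z y
    simp only [Phi, passes]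
    rfl
  | succ K ih =>
    intro z y
    rw [expect_snoc, expect_snoc, Finset.expect_comm]
    have h1 : ∀ c : Coins D,
        (𝔼 a : Fin K → Coins D, if (∀ i, passes D (K + 1) (Fin.snoc (α := fun _ => Coins D) a c)
          (x i) = z i) then
          φ ((passes D (K + 1) (Fin.snoc (α := fun _ => Coins D) a c)).symm y) else 0) =
        𝔼 a : Fin K → Coins D, if (∀ i, pass D c (moved x a i) = z i) then
          Phi D x φ K a ((pass D c).symm y) else 0 := by
      intro c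
      have := ih (fun i => (pass D c).symm (z i)) ((pass D c).symm y)
      simp only [Equiv.eq_symm_apply] at this
      refine Eq.trans ?_ (this.trans ?_)
      · refine Finset.expect_congr rfl (fun a _ => ?_)
        rw [passes_snoc]
        rfl
      · rfl
    simp only [h1]
    rw [Finset.expect_comm]
    refine Finset.expect_congr rfl (fun a _ => ?_)
    rw [hcond D (moved x a) (Phi D x φ K a) (Phi_supp hsupp x φ hφ K a) z y]
    refine Finset.expect_congr rfl (fun c _ => ?_)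
    rw [passes_snoc, Phi_snoc]
    rfl

theorem Phi_sum (hsupp : HSupp) (hs : HSum) {D m : ℕ} (x : Fin m ↪ V D) (φ : V D → ℝ)
    (hφ : ∀ i, φ (x i) = 0) : ∀ (K : ℕ) (a : Fin K → Coins D),
      ∑ y, Phi D x φ K a y = ∑ y, φ y := by
  intro K
  induction K with
  | zero => intro a; rfl
  | succ K ih =>
    intro a
    obtain ⟨a', c, rfl⟩ : ∃ (a' : Fin K → Coins D) (c : Coins D),
        a = Fin.snoc (α := fun _ => Coins D) a' c :=
      ⟨fun i => a i.castSucc, a (Fin.last K), (Fin.snoc_init_self (α := fun _ => Coins D) a).symm⟩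
    rw [Phi_snoc, hs D _ c _ (Phi_supp' hsupp x φ hφ K a'), ih]

theorem Phi_sq (hsupp : HSupp) (hs : HSq) {D m : ℕ} (x : Fin m ↪ V D) (φ : V D → ℝ)
    (hφ : ∀ i, φ (x i) = 0) : ∀ (K : ℕ) (a : Fin K → Coins D),
      ∑ y, Phi D x φ K a y ^ 2 ≤ ∑ y, φ y ^ 2 := by
  intro K
  induction K with
  | zero => intro a; exact le_rfl
  | succ K ih =>
    intro a
    obtain ⟨a', c, rfl⟩ : ∃ (a' : Fin K → Coins D) (c : Coins D),
        a = Fin.snoc (α := fun _ => Coins D) a' c :=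
      ⟨fun i => a i.castSucc, a (Fin.last K), (Fin.snoc_init_self (α := fun _ => Coins D) a).symm⟩
    rw [Phi_snoc]
    exact (hs D _ c _ (Phi_supp' hsupp x φ hφ K a')).trans (ih a')

/-! ### Two passes -/

/-- contraction factor of two passes -/
noncomputable def beta (s0 D : ℕ) : ℝ :=
  (7 / 8) ^ (D - s0) + ∑ k ∈ Finset.Ico s0 D, (7 / 8 : ℝ) ^ (D - 1 - k) / 2 ^ (k + 1)

theorem BS_nonneg : ∀ (D k : ℕ) (φ : V D → ℝ), 0 ≤ BS D k φ := by
  intro D
  induction D with
  | zero => intro k φ; exact sq_nonneg _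
  | succ D ih =>
    intro k φ
    simp only [BS]
    split_ifs
    · exact sq_nonneg _
    · exact Finset.sum_nonneg (fun h _ => ih _ _)

open Classical in
/-- indicator of non-regularity -/
noncomputable def nreg (s0 D : ℕ) (R : Finset (V D)) : ℝ := if Reg s0 (3 / 4) D R then 0 else 1

theorem nreg_nonneg (s0 D : ℕ) (R : Finset (V D)) : 0 ≤ nreg s0 D R := by
  unfold nreg; split_ifs <;> norm_num

theorem two_pass (hsupp : HSupp) (hsum : HSum) (hsq : HSq) (hbs : HBS) (hen : HEn)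
    (s0 D : ℕ) (hD : s0 ≤ D) (R : Finset (V D)) (φ : V D → ℝ) (hφ : ∀ p ∈ R, φ p = 0)
    (h0 : ∑ y, φ y = 0) (h1 : ∑ y, φ y ^ 2 ≤ 1) :
    𝔼 c₁ : Coins D, 𝔼 c₂ : Coins D,
      ∑ y, evolve D (R.map (pass D c₁).toEmbedding) c₂ (evolve D R c₁ φ) y ^ 2 ≤
      beta s0 D * ∑ y, φ y ^ 2 +
        𝔼 c₁ : Coins D, nreg s0 D (R.map (pass D c₁).toEmbedding) := by
  set Q := ∑ y, φ y ^ 2 with hQ
  have hvan : ∀ c₁ : Coins D, ∀ p ∈ R.map (pass D c₁).toEmbedding, evolve D R c₁ φ p = 0 := by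
    intro c₁ p hp
    rw [Finset.mem_map] at hp
    obtain ⟨r, hr, rfl⟩ := hp
    exact hsupp D R c₁ φ hφ _ (by simpa using hr)
  have hstep : ∀ c₁ : Coins D, 𝔼 c₂ : Coins D,
      ∑ y, evolve D (R.map (pass D c₁).toEmbedding) c₂ (evolve D R c₁ φ) y ^ 2 ≤
      (7 / 8) ^ (D - s0) * Q + (∑ k ∈ Finset.Ico s0 D, (7 / 8 : ℝ) ^ (D - 1 - k) / 2 ^ (k + 1) *
        BS D k (evolve D R c₁ φ)) + nreg s0 D (R.map (pass D c₁).toEmbedding) := by
    intro c₁
    have hq1 : ∑ y, evolve D R c₁ φ y ^ 2 ≤ Q := hsq D R c₁ φ hφ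
    have hB : 0 ≤ ∑ k ∈ Finset.Ico s0 D, (7 / 8 : ℝ) ^ (D - 1 - k) / 2 ^ (k + 1) *
        BS D k (evolve D R c₁ φ) :=
      Finset.sum_nonneg (fun k _ => mul_nonneg (by positivity) (BS_nonneg _ _ _))
    by_cases hr : Reg s0 (3 / 4) D (R.map (pass D c₁).toEmbedding)
    · have := hen s0 D hD (3 / 4) (by norm_num) (by norm_num) _ hr (evolve D R c₁ φ) (hvan c₁)
      rw [hsum D R c₁ φ hφ, h0] at this
      have e : ((1 : ℝ) + 3 / 4) / 2 = 7 / 8 := by norm_num
      rw [e] at this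
      have hn := nreg_nonneg s0 D (R.map (pass D c₁).toEmbedding)
      have hm : (7 / 8 : ℝ) ^ (D - s0) * ∑ y, evolve D R c₁ φ y ^ 2 ≤ (7 / 8) ^ (D - s0) * Q :=
        mul_le_mul_of_nonneg_left hq1 (by positivity)
      have hz : (0 : ℝ) ^ 2 / 2 ^ D = 0 := by norm_num
      rw [hz] at this
      linarith
    · have hn : nreg s0 D (R.map (pass D c₁).toEmbedding) = 1 := by
        unfold nreg; rw [if_neg hr]
      rw [hn]
      have hle : 𝔼 c₂ : Coins D,
          ∑ y, evolve D (R.map (pass D c₁).toEmbedding) c₂ (evolve D R c₁ φ) y ^ 2 ≤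
          𝔼 _c₂ : Coins D, (1 : ℝ) := by
        refine Finset.expect_le_expect (fun c₂ _ => ?_)
        exact ((hsq D _ c₂ _ (hvan c₁)).trans hq1).trans h1
      rw [Finset.expect_const Finset.univ_nonempty] at hle
      have hQ0 : 0 ≤ (7 / 8 : ℝ) ^ (D - s0) * Q :=
        mul_nonneg (by positivity) (Finset.sum_nonneg (fun y _ => sq_nonneg _))
      linarith
  have hBS : ∀ k ∈ Finset.Ico s0 D, 𝔼 c₁ : Coins D, BS D k (evolve D R c₁ φ) ≤ Q := by
    intro k hk
    have := hbs D k (Finset.mem_Ico.1 hk).2.le R φ hφ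
    rw [h0] at this
    simpa using this
  calc 𝔼 c₁ : Coins D, 𝔼 c₂ : Coins D,
      ∑ y, evolve D (R.map (pass D c₁).toEmbedding) c₂ (evolve D R c₁ φ) y ^ 2
      ≤ 𝔼 c₁ : Coins D, ((7 / 8) ^ (D - s0) * Q +
        (∑ k ∈ Finset.Ico s0 D, (7 / 8 : ℝ) ^ (D - 1 - k) / 2 ^ (k + 1) *
        BS D k (evolve D R c₁ φ)) + nreg s0 D (R.map (pass D c₁).toEmbedding)) :=
        Finset.expect_le_expect (fun c₁ _ => hstep c₁)
    _ = (7 / 8) ^ (D - s0) * Q +
        (∑ k ∈ Finset.Ico s0 D, (7 / 8 : ℝ) ^ (D - 1 - k) / 2 ^ (k + 1) *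
          𝔼 c₁ : Coins D, BS D k (evolve D R c₁ φ)) +
        𝔼 c₁ : Coins D, nreg s0 D (R.map (pass D c₁).toEmbedding) := by
        rw [Finset.expect_add_distrib, Finset.expect_add_distrib,
          Finset.expect_const Finset.univ_nonempty, Finset.expect_sum_comm]
        congr 2
        refine Finset.sum_congr rfl (fun k _ => ?_)
        rw [Finset.mul_expect]
    _ ≤ (7 / 8) ^ (D - s0) * Q +
        (∑ k ∈ Finset.Ico s0 D, (7 / 8 : ℝ) ^ (D - 1 - k) / 2 ^ (k + 1) * Q) +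
        𝔼 c₁ : Coins D, nreg s0 D (R.map (pass D c₁).toEmbedding) := by
        gcongr with k hk
        exact hBS k hk
    _ = _ := by
        rw [beta, add_mul, Finset.sum_mul]

theorem rangeF_trans {D m : ℕ} (x : Fin m ↪ V D) (σ : Equiv.Perm (V D)) :
    rangeF (x.trans σ.toEmbedding) = (rangeF x).map σ.toEmbedding := by
  simp [rangeF, Finset.map_map]

theorem beta_nonneg (s0 D : ℕ) : 0 ≤ beta s0 D := by
  unfold beta
  positivity

theorem energy_bound (hsupp : HSupp) (hsum : HSum) (hsq : HSq) (hbs : HBS) (hen : HEn)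
    (s0 D : ℕ) (hD : s0 ≤ D) {X : Type*} [Fintype X] [Nonempty X] {m : ℕ}
    (e : X → (Fin m ↪ V D)) (φ : X → V D → ℝ) (hφ : ∀ x i, φ x (e x i) = 0)
    (h0 : ∀ x, ∑ y, φ x y = 0) (h1 : ∀ x, ∑ y, φ x y ^ 2 ≤ 1) (δ : ℝ)
    (hδ : ∀ σ : Equiv.Perm (V D), 𝔼 x : X, nreg s0 D (rangeF ((e x).trans σ.toEmbedding)) ≤ δ) :
    ∀ t : ℕ, 𝔼 x : X, 𝔼 a : Fin (2 * t) → Coins D, ∑ y, Phi D (e x) (φ x) (2 * t) a y ^ 2 ≤
      beta s0 D ^ t + δ * ∑ i ∈ Finset.range t, beta s0 D ^ i := by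
  intro t
  induction t with
  | zero =>
    simp only [Finset.range_zero, Finset.sum_empty, mul_zero, add_zero, pow_zero]
    calc 𝔼 x : X, 𝔼 a : Fin 0 → Coins D, ∑ y, Phi D (e x) (φ x) 0 a y ^ 2
        ≤ 𝔼 _x : X, 𝔼 _a : Fin 0 → Coins D, (1 : ℝ) :=
          Finset.expect_le_expect (fun x _ => Finset.expect_le_expect (fun a _ => h1 x))
      _ = 1 := by
        rw [Finset.expect_const Finset.univ_nonempty, Finset.expect_const Finset.univ_nonempty]
  | succ t ih =>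
    have hstep : ∀ x : X, 𝔼 a : Fin (2 * (t + 1)) → Coins D,
        ∑ y, Phi D (e x) (φ x) (2 * (t + 1)) a y ^ 2 ≤
        beta s0 D * (𝔼 a : Fin (2 * t) → Coins D, ∑ y, Phi D (e x) (φ x) (2 * t) a y ^ 2) +
        𝔼 a : Fin (2 * t) → Coins D, 𝔼 c₁ : Coins D, nreg s0 D (rangeF ((e x).trans
          (pass D c₁ * passes D (2 * t) a).toEmbedding)) := by
      intro x
      change 𝔼 a : Fin (2 * t + 1 + 1) → Coins D,
        ∑ y, Phi D (e x) (φ x) (2 * t + 1 + 1) a y ^ 2 ≤ _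
      rw [expect_snoc, expect_snoc, Finset.mul_expect, ← Finset.expect_add_distrib]
      refine Finset.expect_le_expect (fun a _ => ?_)
      have h2 := two_pass hsupp hsum hsq hbs hen s0 D hD (rangeF (moved (e x) a))
        (Phi D (e x) (φ x) (2 * t) a) (Phi_supp' hsupp (e x) (φ x) (hφ x) _ a)
        (by rw [Phi_sum hsupp hsum (e x) (φ x) (hφ x), h0 x])
        ((Phi_sq hsupp hsq (e x) (φ x) (hφ x) _ a).trans (h1 x))
      refine Eq.trans_le ?_ (h2.trans (le_of_eq ?_))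
      · refine Finset.expect_congr rfl (fun c₁ _ => Finset.expect_congr rfl (fun c₂ _ => ?_))
        rw [Phi_snoc, Phi_snoc, moved_snoc, rangeF_trans]
      · congr 1
        refine Finset.expect_congr rfl (fun c₁ _ => ?_)
        rw [← rangeF_trans]
        rfl
    calc 𝔼 x : X, 𝔼 a : Fin (2 * (t + 1)) → Coins D,
          ∑ y, Phi D (e x) (φ x) (2 * (t + 1)) a y ^ 2
        ≤ 𝔼 x : X, (beta s0 D *
          (𝔼 a : Fin (2 * t) → Coins D, ∑ y, Phi D (e x) (φ x) (2 * t) a y ^ 2) +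
          𝔼 a : Fin (2 * t) → Coins D, 𝔼 c₁ : Coins D, nreg s0 D (rangeF ((e x).trans
          (pass D c₁ * passes D (2 * t) a).toEmbedding))) :=
          Finset.expect_le_expect (fun x _ => hstep x)
      _ = beta s0 D *
          (𝔼 x : X, 𝔼 a : Fin (2 * t) → Coins D, ∑ y, Phi D (e x) (φ x) (2 * t) a y ^ 2) +
          𝔼 a : Fin (2 * t) → Coins D, 𝔼 c₁ : Coins D, 𝔼 x : X, nreg s0 D (rangeF ((e x).trans
          (pass D c₁ * passes D (2 * t) a).toEmbedding)) := by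
          rw [Finset.expect_add_distrib, ← Finset.mul_expect]
          congr 1
          rw [Finset.expect_comm]
          refine Finset.expect_congr rfl (fun a _ => ?_)
          rw [Finset.expect_comm]
      _ ≤ beta s0 D * (beta s0 D ^ t + δ * ∑ i ∈ Finset.range t, beta s0 D ^ i) +
          𝔼 _a : Fin (2 * t) → Coins D, 𝔼 _c₁ : Coins D, δ := by
          refine add_le_add (mul_le_mul_of_nonneg_left ih (beta_nonneg _ _)) ?_
          exact Finset.expect_le_expect (fun a _ => Finset.expect_le_expect (fun c₁ _ => hδ _))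
      _ = beta s0 D ^ (t + 1) + δ * ∑ i ∈ Finset.range (t + 1), beta s0 D ^ i := by
          rw [Finset.expect_const Finset.univ_nonempty, Finset.expect_const Finset.univ_nonempty,
            geom_sum_succ]
          ring

/-! ### Revealing one more card -/

/-- conditional density of the new card minus the uniform density -/
noncomputable def dens {D q : ℕ} (x : Fin (q + 1) ↪ V D) (p : V D) : ℝ :=
  if p ∈ rangeF (tail x) then 0 else (if p = x 0 then 1 else 0) - 1 / (2 ^ D - q)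

theorem dens_zero {D q : ℕ} (x : Fin (q + 1) ↪ V D) (i : Fin q) : dens x (tail x i) = 0 := by
  unfold dens
  rw [if_pos (mem_rangeF.2 ⟨i, rfl⟩)]

theorem head_not_mem {D q : ℕ} (x : Fin (q + 1) ↪ V D) : x 0 ∉ rangeF (tail x) := by
  rw [mem_rangeF]
  rintro ⟨i, hi⟩
  exact Fin.succ_ne_zero i (x.injective hi)

theorem q_lt {D q : ℕ} (x : Fin (q + 1) ↪ V D) : q < 2 ^ D := by
  have := Fintype.card_le_of_embedding x
  rw [Fintype.card_fin, card_V] at this
  omega

theorem dens_sum {D q : ℕ} (x : Fin (q + 1) ↪ V D) : ∑ p, dens x p = 0 := by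
  classical
  have hq : (0 : ℝ) < 2 ^ D - q := by
    have : (q : ℝ) < 2 ^ D := by exact_mod_cast q_lt x
    linarith
  have h1 : ∑ p, dens x p = ∑ p ∈ Finset.univ.filter (fun p => p ∉ rangeF (tail x)),
      ((if p = x 0 then (1 : ℝ) else 0) - 1 / (2 ^ D - q)) := by
    rw [Finset.sum_filter]
    refine Finset.sum_congr rfl (fun p _ => ?_)
    unfold dens
    by_cases h : p ∈ rangeF (tail x) <;> simp [h]
  rw [h1, Finset.sum_sub_distrib, Finset.sum_const, nsmul_eq_mul, card_compl_rangeF,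
    Finset.sum_ite_eq', if_pos (by simp)]
  field_simp
  ring

theorem dens_sq {D q : ℕ} (x : Fin (q + 1) ↪ V D) : ∑ p, dens x p ^ 2 ≤ 1 := by
  classical
  have hq : (0 : ℝ) < 2 ^ D - q := by
    have : (q : ℝ) < 2 ^ D := by exact_mod_cast q_lt x
    linarith
  have h1 : ∑ p, dens x p ^ 2 = ∑ p ∈ Finset.univ.filter (fun p => p ∉ rangeF (tail x)),
      ((if p = x 0 then (1 - 2 * (1 / (2 ^ D - q)) : ℝ) else 0) + (1 / (2 ^ D - q)) ^ 2) := by
    rw [Finset.sum_filter]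
    refine Finset.sum_congr rfl (fun p _ => ?_)
    unfold dens
    by_cases h : p ∈ rangeF (tail x)
    · simp [h]
    · by_cases h2 : p = x 0
      · simp only [h2, if_true, if_false, not_false_eq_true, head_not_mem]
        ring
      · simp [h, h2]
  rw [h1, Finset.sum_add_distrib, Finset.sum_const, nsmul_eq_mul, card_compl_rangeF,
    Finset.sum_ite_eq', if_pos (by simp)]
  have : (1 - 2 * (1 / (2 ^ D - q)) : ℝ) + (2 ^ D - q) * (1 / (2 ^ D - q)) ^ 2 =
      1 - 1 / (2 ^ D - q) := by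
    field_simp
    ring
  rw [this]
  have : 0 < 1 / ((2 : ℝ) ^ D - q) := by positivity
  linarith

theorem card_emb_succ {D q : ℕ} (hq : q < 2 ^ D) :
    (Fintype.card (Fin (q + 1) ↪ V D) : ℝ) = (2 ^ D - q) * Fintype.card (Fin q ↪ V D) := by
  have hc : ∀ q : ℕ, Fintype.card (Fin q ↪ V D) = (2 ^ D).descFactorial q := fun q => by
    rw [Fintype.card_embedding_eq, card_V, Fintype.card_fin]
  rw [hc, hc, Nat.descFactorial_succ]
  push_cast [Nat.cast_sub hq.le]
  ring

theorem reveal (hsupp : HSupp) (hcond : HCond) {D q : ℕ} (K : ℕ) (x : Fin (q + 1) ↪ V D) :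
    ∑ y : Fin (q + 1) ↪ V D, |tupleLaw D K x y - 1 / (Fintype.card (Fin (q + 1) ↪ V D) : ℝ)| ≤
      ∑ y : Fin q ↪ V D, |tupleLaw D K (tail x) y - 1 / (Fintype.card (Fin q ↪ V D) : ℝ)| +
        𝔼 a : Fin K → Coins D, ∑ p, |Phi D (tail x) (dens x) K a p| := by
  classical
  have hq : (0 : ℝ) < 2 ^ D - q := by
    have : (q : ℝ) < 2 ^ D := by exact_mod_cast q_lt x
    linarith
  have hcard : (0 : ℝ) < Fintype.card (Fin q ↪ V D) := by
    have : 0 < Fintype.card (Fin q ↪ V D) := Fintype.card_pos_iff.2 ⟨tail x⟩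
    exact_mod_cast this
  -- joint law of the tail and of the head
  set G : (Fin q ↪ V D) → V D → ℝ := fun y' u =>
    𝔼 a : Fin K → Coins D, if (∀ i, passes D K a (tail x i) = y' i) then
      (if passes D K a (x 0) = u then 1 else 0) else 0 with hG
  have hG1 : ∀ y : Fin (q + 1) ↪ V D, tupleLaw D K x y = G (tail y) (y 0) := by
    intro y
    unfold tupleLaw
    rw [hG]
    refine Finset.expect_congr rfl (fun a _ => ?_)
    by_cases h1 : ∀ i, passes D K a (tail x i) = tail y i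
    · by_cases h2 : passes D K a (x 0) = y 0
      · rw [if_pos h1, if_pos h2, if_pos]
        intro i
        refine Fin.cases h2 (fun j => h1 j) i
      · rw [if_pos h1, if_neg h2, if_neg]
        intro h
        exact h2 (h 0)
    · rw [if_neg h1, if_neg]
      intro h
      exact h1 (fun i => h i.succ)
  have hG2 : ∀ (y' : Fin q ↪ V D) (u : V D), u ∉ rangeF y' →
      G y' u - tupleLaw D K (tail x) y' / (2 ^ D - q) =
      𝔼 a : Fin K → Coins D, if (∀ i, passes D K a (tail x i) = y' i) then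
        Phi D (tail x) (dens x) K a u else 0 := by
    intro y' u hu
    rw [← Phi_cond hsupp hcond (tail x) (dens x) (dens_zero x) K y' u, hG, tupleLaw,
      Finset.expect_div, ← Finset.expect_sub_distrib]
    refine Finset.expect_congr rfl (fun a _ => ?_)
    by_cases h1 : ∀ i, passes D K a (tail x i) = y' i
    · rw [if_pos h1, if_pos h1, if_pos h1]
      unfold dens
      have hu' : (passes D K a).symm u ∉ rangeF (tail x) := by
        intro h
        obtain ⟨i, hi⟩ := mem_rangeF.1 h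
        apply hu
        rw [mem_rangeF]
        refine ⟨i, ?_⟩
        rw [← h1 i, hi, Equiv.apply_symm_apply]
      rw [if_neg hu']
      congr 1
      by_cases h2 : passes D K a (x 0) = u
      · rw [if_pos h2, if_pos]
        rw [← h2, Equiv.symm_apply_apply]
      · rw [if_neg h2, if_neg]
        intro h
        apply h2
        rw [← h, Equiv.apply_symm_apply]
    · rw [if_neg h1, if_neg h1, if_neg h1]
      simp
  have hsplit : ∀ y : Fin (q + 1) ↪ V D,
      |tupleLaw D K x y - 1 / (Fintype.card (Fin (q + 1) ↪ V D) : ℝ)| ≤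
      |tupleLaw D K (tail x) (tail y) - 1 / (Fintype.card (Fin q ↪ V D) : ℝ)| / (2 ^ D - q) +
      𝔼 a : Fin K → Coins D, if (∀ i, passes D K a (tail x i) = tail y i) then
        |Phi D (tail x) (dens x) K a (y 0)| else 0 := by
    intro y
    have e1 : tupleLaw D K x y - 1 / (Fintype.card (Fin (q + 1) ↪ V D) : ℝ) =
        (tupleLaw D K (tail x) (tail y) - 1 / (Fintype.card (Fin q ↪ V D) : ℝ)) / (2 ^ D - q) +
        (G (tail y) (y 0) - tupleLaw D K (tail x) (tail y) / (2 ^ D - q)) := by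
      rw [hG1 y, card_emb_succ (q_lt x)]
      field_simp
      ring
    rw [e1]
    refine (abs_add_le _ _).trans (add_le_add ?_ ?_)
    · rw [abs_div, abs_of_pos hq]
    · rw [hG2 _ _ (head_not_mem y)]
      refine (Finset.abs_expect_le _ _).trans (le_of_eq ?_)
      refine Finset.expect_congr rfl (fun a _ => ?_)
      split_ifs <;> simp
  refine (Finset.sum_le_sum (fun y _ => hsplit y)).trans ?_
  rw [Finset.sum_add_distrib]
  refine add_le_add ?_ ?_
  · rw [sum_emb_succ (fun y _ => |tupleLaw D K (tail x) y -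
      1 / (Fintype.card (Fin q ↪ V D) : ℝ)| / (2 ^ D - q))]
    refine le_of_eq (Finset.sum_congr rfl (fun y _ => ?_))
    rw [Finset.sum_const, nsmul_eq_mul, card_compl_rangeF]
    field_simp
  · rw [← Finset.expect_sum_comm]
    refine Finset.expect_le_expect (fun a _ => ?_)
    rw [sum_emb_succ (fun y u => if (∀ i, passes D K a (tail x i) = y i) then
        |Phi D (tail x) (dens x) K a u| else 0)]
    calc ∑ y : Fin q ↪ V D, ∑ u ∈ Finset.univ.filter (fun u => u ∉ rangeF y),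
          (if (∀ i, passes D K a (tail x i) = y i) then
            |Phi D (tail x) (dens x) K a u| else 0)
        ≤ ∑ y : Fin q ↪ V D, ∑ u, (if (∀ i, passes D K a (tail x i) = y i) then
            |Phi D (tail x) (dens x) K a u| else 0) := by
          refine Finset.sum_le_sum (fun y _ => ?_)
          refine Finset.sum_le_sum_of_subset_of_nonneg (Finset.filter_subset _ _) ?_
          intro u _ _
          split_ifs
          · exact abs_nonneg _
          · exact le_rfl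
      _ = ∑ y : Fin q ↪ V D, (if y = moved (tail x) a then
            ∑ u, |Phi D (tail x) (dens x) K a u| else 0) := by
          refine Finset.sum_congr rfl (fun y _ => ?_)
          by_cases h : ∀ i, passes D K a (tail x i) = y i
          · have : y = moved (tail x) a := by
              ext i : 1
              exact (h i).symm
            rw [if_pos this]
            simp only [if_pos h]
          · have : y ≠ moved (tail x) a := by
              intro h'
              apply h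
              intro i
              rw [h']
              rfl
            rw [if_neg this]
            simp only [if_neg h, Finset.sum_const_zero]
      _ = ∑ u, |Phi D (tail x) (dens x) K a u| := by
          rw [Finset.sum_ite_eq' , if_pos (Finset.mem_univ _)]

theorem tupleErr_zero (D K : ℕ) : tupleErr D K 0 = 0 := by
  unfold tupleErr tv tupleLaw
  refine Finset.expect_eq_zero (fun x _ => ?_)
  have hc : Fintype.card (Fin 0 ↪ V D) = 1 := by
    rw [Fintype.card_embedding_eq]; simp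
  have h1 : ∀ y : Fin 0 ↪ V D, (𝔼 a : Fin K → Coins D,
      if (∀ i, passes D K a (x i) = y i) then (1 : ℝ) else 0) = 1 := by
    intro y
    have : ∀ a : Fin K → Coins D, (if (∀ i, passes D K a (x i) = y i) then (1 : ℝ) else 0) = 1 := by
      intro a
      rw [if_pos (fun i => i.elim0)]
    simp only [this]
    exact Finset.expect_const Finset.univ_nonempty _
  simp only [h1, hc]
  simp

theorem tupleErr_succ (hsupp : HSupp) (hcond : HCond) {D q : ℕ} (K : ℕ) (hq : q < 2 ^ D) :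
    tupleErr D K (q + 1) ≤ tupleErr D K q +
      (1 / 2) * 𝔼 x : Fin (q + 1) ↪ V D, 𝔼 a : Fin K → Coins D,
        ∑ p, |Phi D (tail x) (dens x) K a p| := by
  have h1 : tupleErr D K q = 𝔼 x : Fin (q + 1) ↪ V D, tv (tupleLaw D K (tail x)) :=
    (expect_tail (fun x => tv (tupleLaw D K x)) hq).symm
  rw [h1, Finset.mul_expect, ← Finset.expect_add_distrib]
  unfold tupleErr
  refine Finset.expect_le_expect (fun x _ => ?_)
  unfold tv
  rw [← mul_add]
  exact mul_le_mul_of_nonneg_left (reveal hsupp hcond K x) (by norm_num)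

theorem abs_le_amgm (l : ℝ) (hl : 0 < l) (f : ℝ) : |f| ≤ (l * f ^ 2 + 1 / l) / 2 := by
  have h : 0 ≤ (l * |f| - 1) ^ 2 / l := by positivity
  have h2 : (l * |f| - 1) ^ 2 / l = l * f ^ 2 - 2 * |f| + 1 / l := by
    rw [← sq_abs f]
    field_simp
    ring
  linarith

theorem tupleErr_succ' (hsupp : HSupp) (hcond : HCond) (hsum : HSum) (hsq : HSq) (hbs : HBS)
    (hen : HEn) (hreg : HReg) (s0 D : ℕ) (hD : s0 ≤ D) {q : ℕ} (hq : 2 * q ≤ 2 ^ D)
    (t : ℕ) (l : ℝ) (hl : 0 < l) :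
    tupleErr D (2 * t) (q + 1) ≤ tupleErr D (2 * t) q +
      (1 / 4) * (l * (beta s0 D ^ t +
        (2 ^ (D + 1) * (9 / 10 : ℝ) ^ (2 ^ s0)) * ∑ i ∈ Finset.range t, beta s0 D ^ i) +
        2 ^ D / l) := by
  have hD0 : 0 < 2 ^ D := by positivity
  have hq' : q < 2 ^ D := by omega
  have : Nonempty (Fin (q + 1) ↪ V D) := by
    refine Function.Embedding.nonempty_of_card_le ?_
    rw [Fintype.card_fin, card_V]
    omega
  have hE := energy_bound hsupp hsum hsq hbs hen s0 D hD (fun x : Fin (q + 1) ↪ V D => tail x)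
    (fun x => dens x) dens_zero dens_sum dens_sq (2 ^ (D + 1) * (9 / 10 : ℝ) ^ (2 ^ s0))
    (by
      intro σ
      rw [expect_tail (fun x => nreg s0 D (rangeF (x.trans σ.toEmbedding))) hq',
        expect_trans (fun x => nreg s0 D (rangeF x)) σ]
      exact hreg s0 D q hq) t
  refine (tupleErr_succ hsupp hcond (2 * t) hq').trans (add_le_add le_rfl ?_)
  have h1 : 𝔼 x : Fin (q + 1) ↪ V D, 𝔼 a : Fin (2 * t) → Coins D,
        ∑ p, |Phi D (tail x) (dens x) (2 * t) a p| ≤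
      𝔼 x : Fin (q + 1) ↪ V D, 𝔼 a : Fin (2 * t) → Coins D,
        ((l / 2) * (∑ p, Phi D (tail x) (dens x) (2 * t) a p ^ 2) + 2 ^ D / l / 2) := by
    refine Finset.expect_le_expect (fun x _ => Finset.expect_le_expect (fun a _ => ?_))
    calc ∑ p, |Phi D (tail x) (dens x) (2 * t) a p|
        ≤ ∑ p, (l * Phi D (tail x) (dens x) (2 * t) a p ^ 2 + 1 / l) / 2 :=
          Finset.sum_le_sum (fun p _ => abs_le_amgm l hl _)
      _ = (l / 2) * (∑ p, Phi D (tail x) (dens x) (2 * t) a p ^ 2) + 2 ^ D / l / 2 := by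
          rw [← Finset.sum_div, Finset.sum_add_distrib, ← Finset.mul_sum, Finset.sum_const,
            Finset.card_univ, card_V, nsmul_eq_mul]
          push_cast
          ring
  have h2 : 𝔼 x : Fin (q + 1) ↪ V D, 𝔼 a : Fin (2 * t) → Coins D,
        ((l / 2) * (∑ p, Phi D (tail x) (dens x) (2 * t) a p ^ 2) + 2 ^ D / l / 2) =
      (l / 2) * (𝔼 x : Fin (q + 1) ↪ V D, 𝔼 a : Fin (2 * t) → Coins D,
        ∑ p, Phi D (tail x) (dens x) (2 * t) a p ^ 2) + 2 ^ D / l / 2 := by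
    simp only [Finset.expect_add_distrib, ← Finset.mul_expect,
      Finset.expect_const Finset.univ_nonempty]
  rw [h2] at h1
  have h3 := mul_le_mul_of_nonneg_left hE (by positivity : (0 : ℝ) ≤ l / 2)
  linarith

theorem tupleErr_le (hsupp : HSupp) (hcond : HCond) (hsum : HSum) (hsq : HSq) (hbs : HBS)
    (hen : HEn) (hreg : HReg) (s0 D : ℕ) (hD : s0 ≤ D)
    (t : ℕ) (l : ℝ) (hl : 0 < l) : ∀ q : ℕ, 2 * q ≤ 2 ^ D →
    tupleErr D (2 * t) q ≤ q *
      ((1 / 4) * (l * (beta s0 D ^ t +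
        (2 ^ (D + 1) * (9 / 10 : ℝ) ^ (2 ^ s0)) * ∑ i ∈ Finset.range t, beta s0 D ^ i) +
        2 ^ D / l)) := by
  intro q
  induction q with
  | zero => intro _; rw [tupleErr_zero]; simp
  | succ q ih =>
    intro hq
    have h1 := tupleErr_succ' hsupp hcond hsum hsq hbs hen hreg s0 D hD (q := q) (by omega) t l hl
    have h2 := ih (by omega)
    push_cast
    linarith

/-! ### Asymptotics -/

theorem beta_le (s0 m : ℕ) : beta s0 (s0 + m) ≤ (7 / 3) * (7 / 8) ^ m := by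
  have h : ∀ m : ℕ, ∑ k ∈ Finset.Ico s0 (s0 + m), (7 / 8 : ℝ) ^ (s0 + m - 1 - k) / 2 ^ (k + 1) =
      (4 / 3) * (1 / 2) ^ s0 * ((7 / 8) ^ m - (1 / 2) ^ m) := by
    intro m
    induction m with
    | zero => simp
    | succ m ih =>
      rw [← add_assoc, Finset.sum_Ico_succ_top (by omega)]
      have h1 : ∑ k ∈ Finset.Ico s0 (s0 + m), (7 / 8 : ℝ) ^ (s0 + m + 1 - 1 - k) / 2 ^ (k + 1) =
          (7 / 8) * ∑ k ∈ Finset.Ico s0 (s0 + m),
            (7 / 8 : ℝ) ^ (s0 + m - 1 - k) / 2 ^ (k + 1) := by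
        rw [Finset.mul_sum]
        refine Finset.sum_congr rfl (fun k hk => ?_)
        have := Finset.mem_Ico.1 hk
        have e : s0 + m + 1 - 1 - k = (s0 + m - 1 - k) + 1 := by omega
        rw [e, pow_succ]
        ring
      rw [h1, ih]
      have e2 : s0 + m + 1 - 1 - (s0 + m) = 0 := by omega
      rw [e2]
      have e3 : (1 : ℝ) / 2 ^ (s0 + m + 1) = (1 / 2) ^ s0 * (1 / 2) ^ m * (1 / 2) := by
        rw [← pow_add, ← pow_succ, one_div_pow]
      rw [pow_zero, e3]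
      ring
  unfold beta
  rw [h m]
  have e : s0 + m - s0 = m := by omega
  rw [e]
  have h1 : (1 / 2 : ℝ) ^ s0 ≤ 1 := pow_le_one₀ (by norm_num) (by norm_num)
  have h2 : (0 : ℝ) ≤ (7 / 8) ^ m - (1 / 2) ^ m :=
    sub_nonneg.2 (pow_le_pow_left₀ (by norm_num) (by norm_num) m)
  have h3 : (0 : ℝ) ≤ (1 / 2) ^ m := by positivity
  have h4 : (1 / 2 : ℝ) ^ s0 * ((7 / 8) ^ m - (1 / 2) ^ m) ≤ 1 * ((7 / 8) ^ m - (1 / 2) ^ m) :=
    mul_le_mul_of_nonneg_right h1 h2
  nlinarith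

/-- constant -/
noncomputable def C2 : ℝ := ∑ i ∈ Finset.range 23, (3 : ℝ) ^ i

theorem C2_nonneg : 0 ≤ C2 := by unfold C2; positivity

/-- bound -/
noncomputable def Bd (u : ℕ) : ℝ :=
  (8.8 ^ 3 * (7 / 3) ^ 23) * (8.8 ^ 4 * (7 / 8) ^ 69) ^ u +
    (C2 * 2 * 17.6 ^ 3) * ((2 ^ u) ^ 17 * (9 / 10) ^ (2 ^ u))

theorem Bd_tendsto : Tendsto Bd atTop (𝓝 0) := by
  have h1 : Tendsto (fun u : ℕ => ((8.8 : ℝ) ^ 4 * (7 / 8) ^ 69) ^ u) atTop (𝓝 0) :=
    tendsto_pow_atTop_nhds_zero_of_lt_one (by norm_num) (by norm_num)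
  have h2 : Tendsto (fun n : ℕ => (n : ℝ) ^ 17 * (9 / 10 : ℝ) ^ n) atTop (𝓝 0) :=
    tendsto_pow_const_mul_const_pow_of_abs_lt_one 17 (by rw [abs_of_pos] <;> norm_num)
  have h3 : Tendsto (fun u : ℕ => 2 ^ u) atTop atTop :=
    tendsto_pow_atTop_atTop_of_one_lt (by norm_num)
  have h4 := h2.comp h3
  have h5 := (h1.const_mul (8.8 ^ 3 * (7 / 3) ^ 23 : ℝ)).add
    (h4.const_mul (C2 * 2 * 17.6 ^ 3))
  rw [mul_zero, mul_zero, add_zero] at h5
  refine h5.congr (fun u => ?_)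
  simp only [Function.comp_apply, Bd]
  push_cast
  rfl

theorem final_bound (hsupp : HSupp) (hcond : HCond) (hsum : HSum) (hsq : HSq) (hbs : HBS)
    (hen : HEn) (hreg : HReg) (d : ℕ) :
    tupleErr (d + 1) 46 (2 ^ d) ≤ Bd ((d + 1) / 4) + (10 / 11) ^ (d + 1) := by
  set D := d + 1 with hD
  set u := D / 4 with hu
  obtain ⟨r, hr, hDr⟩ : ∃ r, r ≤ 3 ∧ D = 4 * u + r := ⟨D % 4, by omega, by omega⟩
  have hl : (0 : ℝ) < 4.4 ^ D := by positivity
  have h1 := tupleErr_le hsupp hcond hsum hsq hbs hen hreg u D (by omega) 23 (4.4 ^ D) hl (2 ^ d)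
    (by rw [hD, pow_succ]; omega)
  refine h1.trans ?_
  have hb : beta u D ≤ (7 / 3) * (7 / 8) ^ (3 * u) := by
    have e : D = u + (3 * u + r) := by omega
    have := beta_le u (3 * u + r)
    rw [← e] at this
    refine this.trans (mul_le_mul_of_nonneg_left ?_ (by norm_num))
    exact pow_le_pow_of_le_one (by norm_num) (by norm_num) (by omega)
  have hb0 := beta_nonneg u D
  have hb3 : beta u D ≤ 3 := by
    refine hb.trans ?_
    have : (7 / 8 : ℝ) ^ (3 * u) ≤ 1 := pow_le_one₀ (by norm_num) (by norm_num)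
    linarith
  have hS : ∑ i ∈ Finset.range 23, beta u D ^ i ≤ C2 :=
    Finset.sum_le_sum (fun i _ => pow_le_pow_left₀ hb0 hb3 i)
  have hb23 : beta u D ^ 23 ≤ (7 / 3) ^ 23 * ((7 / 8) ^ 69) ^ u := by
    refine (pow_le_pow_left₀ hb0 hb 23).trans (le_of_eq ?_)
    rw [mul_pow, ← pow_mul, ← pow_mul]
    congr 2
    ring
  have hd : (2 : ℝ) ^ d = 2 ^ D / 2 := by rw [hD, pow_succ]; ring
  have e1 : ((2 ^ d : ℕ) : ℝ) * ((1 / 4) * (4.4 ^ D * (beta u D ^ 23 +
        (2 ^ (D + 1) * (9 / 10 : ℝ) ^ (2 ^ u)) * ∑ i ∈ Finset.range 23, beta u D ^ i) +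
        2 ^ D / 4.4 ^ D)) =
      (1 / 8) * (8.8 ^ D * beta u D ^ 23) +
      (1 / 8) * (2 * 17.6 ^ D * (9 / 10 : ℝ) ^ (2 ^ u) * ∑ i ∈ Finset.range 23, beta u D ^ i) +
      (1 / 8) * (10 / 11) ^ D := by
    have a1 : (8.8 : ℝ) ^ D = 2 ^ D * 4.4 ^ D := by rw [← mul_pow]; norm_num
    have a2 : (17.6 : ℝ) ^ D = 2 ^ D * (2 ^ D * 4.4 ^ D) := by rw [← mul_pow, ← mul_pow]; norm_num
    have a3 : (10 / 11 : ℝ) ^ D = 2 ^ D * (2 ^ D / 4.4 ^ D) := by
      rw [← div_pow, ← mul_pow]; norm_num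
    rw [a1, a2, a3]
    push_cast
    rw [hd, pow_succ]
    ring
  rw [e1]
  have t1 : (8.8 : ℝ) ^ D * beta u D ^ 23 ≤
      (8.8 ^ 3 * (7 / 3) ^ 23) * (8.8 ^ 4 * (7 / 8) ^ 69) ^ u := by
    have b1 : (8.8 : ℝ) ^ D ≤ (8.8 ^ 4) ^ u * 8.8 ^ 3 := by
      rw [hDr, pow_add, pow_mul]
      exact mul_le_mul_of_nonneg_left (pow_le_pow_right₀ (by norm_num) hr) (by positivity)
    calc (8.8 : ℝ) ^ D * beta u D ^ 23
        ≤ ((8.8 ^ 4) ^ u * 8.8 ^ 3) * ((7 / 3) ^ 23 * ((7 / 8) ^ 69) ^ u) :=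
          mul_le_mul b1 hb23 (by positivity) (by positivity)
      _ = _ := by rw [mul_pow]; ring
  have t2 : 2 * (17.6 : ℝ) ^ D * (9 / 10 : ℝ) ^ (2 ^ u) * ∑ i ∈ Finset.range 23, beta u D ^ i ≤
      (C2 * 2 * 17.6 ^ 3) * ((2 ^ u) ^ 17 * (9 / 10) ^ (2 ^ u)) := by
    have b1 : (17.6 : ℝ) ^ D ≤ (2 ^ u) ^ 17 * 17.6 ^ 3 := by
      rw [hDr, pow_add, pow_mul]
      refine mul_le_mul ?_ (pow_le_pow_right₀ (by norm_num) hr) (by positivity) (by positivity)
      have e17 : ((2 : ℝ) ^ u) ^ 17 = (2 ^ 17) ^ u := by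
        rw [← pow_mul, ← pow_mul, mul_comm u 17]
      rw [e17]
      exact pow_le_pow_left₀ (by positivity) (by norm_num) u
    calc 2 * (17.6 : ℝ) ^ D * (9 / 10 : ℝ) ^ (2 ^ u) * ∑ i ∈ Finset.range 23, beta u D ^ i
        ≤ 2 * ((2 ^ u) ^ 17 * 17.6 ^ 3) * (9 / 10 : ℝ) ^ (2 ^ u) * C2 := by
          refine mul_le_mul ?_ hS (Finset.sum_nonneg (fun i _ => by positivity)) (by positivity)
          refine mul_le_mul_of_nonneg_right ?_ (by positivity)
          exact mul_le_mul_of_nonneg_left b1 (by norm_num)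
      _ = _ := by ring
  have p1 : (0 : ℝ) ≤ (8.8 ^ 3 * (7 / 3) ^ 23) * (8.8 ^ 4 * (7 / 8) ^ 69) ^ u := by positivity
  have p2 : (0 : ℝ) ≤ (C2 * 2 * 17.6 ^ 3) * ((2 ^ u) ^ 17 * (9 / 10) ^ (2 ^ u)) := by
    have := C2_nonneg
    positivity
  have p3 : (0 : ℝ) ≤ (10 / 11) ^ D := by positivity
  unfold Bd
  linarith

theorem tupleErr_nonneg (D K q : ℕ) : 0 ≤ tupleErr D K q := by
  unfold tupleErr tv
  exact Finset.expect_nonneg (fun x _ => mul_nonneg (by norm_num)
    (Finset.sum_nonneg (fun y _ => abs_nonneg _)))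

theorem tupleErr_tendsto_of (hsupp : HSupp) (hcond : HCond) (hsum : HSum) (hsq : HSq)
    (hbs : HBS) (hen : HEn) (hreg : HReg) :
    Tendsto (fun d : ℕ => tupleErr (d + 1) 46 (2 ^ d)) atTop (𝓝 0) := by
  have h1 : Tendsto (fun d : ℕ => Bd ((d + 1) / 4) + (10 / 11 : ℝ) ^ (d + 1)) atTop (𝓝 0) := by
    have a1 : Tendsto (fun d : ℕ => (d + 1) / 4) atTop atTop :=
      (Nat.tendsto_div_const_atTop (by norm_num)).comp (tendsto_add_atTop_nat 1)
    have a2 : Tendsto (fun d : ℕ => (10 / 11 : ℝ) ^ (d + 1)) atTop (𝓝 0) :=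
      (tendsto_pow_atTop_nhds_zero_of_lt_one (by norm_num) (by norm_num)).comp
        (tendsto_add_atTop_nat 1)
    simpa using (Bd_tendsto.comp a1).add a2
  exact squeeze_zero (fun d => tupleErr_nonneg _ _ _)
    (final_bound hsupp hcond hsum hsq hbs hen hreg) h1

end TE
end Crest.Agent.Thorp
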