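import Crest.Agent.Lib.Row155.TupleErr
import Crest.Agent.Lib.Row155.Evolve
import Crest.Agent.Lib.Row155.RegProb
/-!
Row 155, chunk T7 (C4d): `tupleErr_tendsto` from the two statements of chunk T5.
-/
set_option autoImplicit false
open Finset Filter
open scoped BigOperators Topology

namespace Crest.Agent.Thorp

theorem tupleErr_tendsto_of_T5 (hbs : TE.HBS) (hen : TE.HEn) :
    Tendsto (fun d : ℕ => tupleErr (d + 1) 46 (2 ^ d)) atTop (𝓝 0) :=
  TE.tupleErr_tendsto_of
    (fun D R c φ hφ y hy => evolve_supp D R c φ hφ y hy)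
    (fun D _ x φ hφ z y => evolve_cond D x φ hφ z y)
    (fun D R c φ hφ => evolve_sum D R c φ hφ)
    (fun D R c φ hφ => evolve_sq_le D R c φ hφ)
    hbs hen (fun s0 D m hm => reg_prob s0 D m hm)

end Crest.Agent.Thorp
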